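import Vale.Agent.P192.SysDefs

/-! Part Alg, first file: interval products and nilpotence of linear matrices. -/

namespace Vale.Agent.P192

/-- product over the interval `[lo, lo + c)` -/
def ip {M : Type*} [Monoid M] (F : ℤ → M) (lo : ℤ) : ℕ → M
  | 0 => 1
  | c + 1 => ip F lo c * F (lo + c)

section ip

variable {M : Type*} [Monoid M]

theorem ip_add (F : ℤ → M) (lo : ℤ) (a b : ℕ) :
    ip F lo (a + b) = ip F lo a * ip F (lo + a) b := by
  induction b with
  | zero => simp [ip]
  | succ b ih =>
    rw [← add_assoc, ip, ih, ip, mul_assoc]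
    congr 3
    push_cast; ring

theorem ip_congr {F G : ℤ → M} {lo lo' : ℤ} {c : ℕ}
    (h : ∀ k : ℕ, k < c → F (lo + k) = G (lo' + k)) : ip F lo c = ip G lo' c := by
  induction c with
  | zero => rfl
  | succ c ih => rw [ip, ip, ih fun k hk => h k (by omega), h c (by omega)]

theorem ip_one (F : ℤ → M) (lo : ℤ) : ip F lo 1 = F lo := by simp [ip]

theorem ip_two (F : ℤ → M) (lo : ℤ) : ip F lo 2 = F lo * F (lo + 1) := by simp [ip]

theorem ip_split (F : ℤ → M) {n c : ℕ} {i : ℤ} (h0 : 0 ≤ i) (h1 : i + c ≤ n) :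
    ip F 0 n = ip F 0 i.toNat * ip F i c * ip F (i + c) (n - i.toNat - c) := by
  obtain ⟨a, rfl⟩ := Int.eq_ofNat_of_zero_le h0
  have : n = a + c + (n - a - c) := by omega
  conv_lhs => rw [this]
  rw [ip_add, ip_add]
  simp

theorem ip_local {F G : ℤ → M} {n c : ℕ} {i : ℤ} (h0 : 0 ≤ i) (h1 : i + c ≤ n)
    (ho : ∀ k, k < i ∨ i + c ≤ k → F k = G k) (hi : ip F i c = ip G i c) :
    ip F 0 n = ip G 0 n := by
  rw [ip_split F h0 h1, ip_split G h0 h1, hi]
  congr 1
  · congr 1
    exact ip_congr fun k hk => ho _ (Or.inl (by omega))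
  · exact ip_congr fun k _ => ho _ (Or.inr (by omega))

theorem map_ip {N : Type*} [Monoid N] (f : M →* N) (F : ℤ → M) (lo : ℤ) (c : ℕ) :
    f (ip F lo c) = ip (fun i => f (F i)) lo c := by
  induction c with
  | zero => simp [ip]
  | succ c ih => rw [ip, ip, map_mul, ih]

theorem ip_mul {F G : ℤ → M} (h : ∀ i j, Commute (F i) (G j)) (lo : ℤ) (c : ℕ) :
    ip (fun i => F i * G i) lo c = ip F lo c * ip G lo c := by
  induction c with
  | zero => simp [ip]
  | succ c ih =>
    have hc : ∀ j (d : ℕ), Commute (F j) (ip G lo d) := by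
      intro j d
      induction d with
      | zero => simp [ip]
      | succ d ihd => exact ihd.mul_right (h _ _)
    rw [ip, ip, ip, ih]
    simp only [mul_assoc]
    rw [← mul_assoc (ip G lo c), ← (hc _ _).eq, mul_assoc]

theorem ip_swp {α : Type*} (F : α → M) (w : ℤ → α) {n l : ℕ} {p q : ℤ} (h0 : 0 ≤ p)
    (h1 : p + l ≤ q) (h2 : q + l ≤ n) : ∃ X Z W : M,
    ip (fun i => F (w i)) 0 n =
      X * ip (fun i => F (w i)) p l * Z * ip (fun i => F (w i)) q l * W ∧
    ip (fun i => F (swp l p q w i)) 0 n =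
      X * ip (fun i => F (w i)) q l * Z * ip (fun i => F (w i)) p l * W := by
  obtain ⟨a, rfl⟩ := Int.eq_ofNat_of_zero_le h0
  obtain ⟨r, hr⟩ := Int.eq_ofNat_of_zero_le (show 0 ≤ q - a - l by omega)
  obtain ⟨s, hs⟩ := Int.eq_ofNat_of_zero_le (show 0 ≤ n - q - l by omega)
  have hn : n = a + l + r + l + s := by omega
  have hq : q = ((a + l + r : ℕ) : ℤ) := by push_cast; omega
  refine ⟨ip (fun i => F (w i)) 0 a, ip (fun i => F (w i)) ((a + l : ℕ) : ℤ) r,
    ip (fun i => F (w i)) ((a + l + r + l : ℕ) : ℤ) s, ?_, ?_⟩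
  · rw [hn, ip_add, ip_add, ip_add, ip_add, hq]; simp
  · rw [hn, ip_add, ip_add, ip_add, ip_add]
    simp only [zero_add]
    congr 1
    · congr 1
      · congr 1
        · congr 1
          · refine ip_congr fun k hk => ?_
            simp only [swp]
            rw [if_neg (by omega), if_neg (by omega)]
          · refine ip_congr fun k hk => ?_
            simp only [swp]
            rw [if_pos (by omega)]
            congr 2; ring
        · refine ip_congr fun k hk => ?_
          simp only [swp]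
          rw [if_neg (by push_cast; omega), if_neg (by push_cast; omega)]
      · refine ip_congr fun k hk => ?_
        simp only [swp]
        rw [if_neg (by push_cast; omega), if_pos (by push_cast; omega)]
        congr 2; push_cast; omega
    · refine ip_congr fun k hk => ?_
      simp only [swp]
      rw [if_neg (by push_cast; omega), if_neg (by push_cast; omega)]

end ip

theorem swp_swp {α : Type*} (w : ℤ → α) {l p q : ℤ} (h1 : p + l ≤ q) :
    swp l p q (swp l p q w) = w := by
  funext i
  simp only [swp]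
  split_ifs <;> first | rfl | (exfalso; omega) | (congr 1; omega)

/-- extension by a default value -/
def ext0 {α : Type*} (d : α) {n : ℕ} (e : Fin n → α) : ℤ → α := fun i =>
  if h : 0 ≤ i ∧ i < n then e ⟨i.toNat, by omega⟩ else d

theorem ext0_res {α : Type*} (d : α) {n : ℕ} (w : ℤ → α) (h : ∀ i, i < 0 ∨ (n : ℤ) ≤ i → w i = d) :
    ext0 d (fun k : Fin n => w k) = w := by
  funext i
  simp only [ext0]
  split_ifs with hi
  · congr 1
    show ((i.toNat : ℕ) : ℤ) = i
    omega
  · exact (h i (by omega)).symm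

theorem ext0_coe {α : Type*} (d : α) {n : ℕ} (e : Fin n → α) (k : Fin n) : ext0 d e k = e k := by
  have := k.2
  simp only [ext0]
  rw [dif_pos (by omega)]
  congr 1

theorem sum_pow_ip {α R : Type*} [Fintype α] [Semiring R] (d : α) (F : α → R) (n : ℕ) :
    (∑ x, F x) ^ n = ∑ e : Fin n → α, ip (fun i => F (ext0 d e i)) 0 n := by
  classical
  induction n with
  | zero => simp [ip]
  | succ n ih =>
    rw [pow_succ, ih, Finset.sum_mul_sum,
      ← (Fin.snocEquiv fun _ : Fin (n + 1) => α).sum_comp, Fintype.sum_prod_type,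
      Finset.sum_comm]
    refine Finset.sum_congr rfl fun x _ => Finset.sum_congr rfl fun e _ => ?_
    rw [ip]
    congr 1
    · refine ip_congr fun k hk => ?_
      have h1 := ext0_coe d e ⟨k, hk⟩
      have h2 := ext0_coe d ((Fin.snocEquiv fun _ : Fin (n + 1) => α) (x, e))
        (Fin.castSucc ⟨k, hk⟩)
      simp only [Fin.val_castSucc] at h1 h2
      simp only [zero_add]
      rw [h1, h2]
      congr 1
      exact (Fin.snoc_castSucc (α := fun _ => α) x e ⟨k, hk⟩).symm
    · have h2 := ext0_coe d ((Fin.snocEquiv fun _ : Fin (n + 1) => α) (x, e)) (Fin.last n)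
      simp only [Fin.val_last] at h2
      simp only [zero_add]
      rw [h2]
      simp [Fin.snocEquiv]

/-- a family of ring elements satisfying the relations of the system -/
structure Sys.Rel (S : Sys) {B : Type*} [Ring B] (g : S.L → B) : Prop where
  r1 : ∀ x y, S.R1 x y → g x = g y
  r2 : ∀ x y x' y', S.R2 x y x' y' → g x * g y = g x' * g y'
  z1 : ∀ x, S.Z1 x → g x = 0
  z2 : ∀ x y, S.Z2 x y → g x * g y = 0

namespace Sys.Rel

variable {S : Sys} {B : Type*} [Ring B] {g : S.L → B}

theorem val_eqv (hg : S.Rel g) {n : ℕ} {w w' : ℤ → S.L} (h : S.Eqv 0 n w w') :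
    ip (fun i => g (w i)) 0 n = ip (fun i => g (w' i)) 0 n := by
  induction h with
  | rel a b h =>
    rcases h with ⟨i, x, h1, h2, h3, rfl⟩ | ⟨i, x, y, h1, h2, h3, rfl⟩
    · refine ip_local (c := 1) h1 (by push_cast; omega) (fun k hk => ?_) ?_
      · rw [Function.update_of_ne (by push_cast at hk; omega)]
      · rw [ip_one, ip_one, Function.update_self]; exact hg.r1 _ _ h3
    · refine ip_local (c := 2) h1 (by push_cast; omega) (fun k hk => ?_) ?_
      · rw [Function.update_of_ne (by push_cast at hk; omega),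
          Function.update_of_ne (by push_cast at hk; omega)]
      · rw [ip_two, ip_two, Function.update_self, Function.update_of_ne (by omega),
          Function.update_self]
        exact hg.r2 _ _ _ _ h3
  | refl => rfl
  | symm a b _ ih => exact ih.symm
  | trans a b c _ _ ih1 ih2 => exact ih1.trans ih2

theorem val_zero (hg : S.Rel g) {n : ℕ} {w : ℤ → S.L} (h : ¬ S.NZ 0 n w) :
    ip (fun i => g (w i)) 0 n = 0 := by
  simp only [Sys.NZ, not_forall, not_not] at h
  obtain ⟨w', he, hz⟩ := h
  rw [hg.val_eqv he]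
  rcases hz with ⟨i, h1, h2, h3⟩ | ⟨i, h1, h2, h3⟩
  · rw [ip_split (c := 1) _ h1 (by push_cast; omega), ip_one, hg.z1 _ h3]; simp
  · rw [ip_split (c := 2) _ h1 (by push_cast; omega), ip_two, hg.z2 _ _ h3]; simp

end Sys.Rel

theorem ip_single {α m K : Type*} [Fintype m] [DecidableEq m] [CommRing K] (a b : α → m)
    (τ : α → K) (w : ℤ → α) (p : ℤ) (l : ℕ) : ∃ c : K,
    ip (fun i => Matrix.single (a (w i)) (b (w i)) (τ (w i))) p (l + 1) =
      c • Matrix.single (a (w p)) (b (w (p + l))) 1 := by
  induction l with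
  | zero => exact ⟨τ (w p), by simp [ip]⟩
  | succ l ih =>
    obtain ⟨c, hc⟩ := ih
    rw [ip, hc]
    by_cases h : b (w (p + l)) = a (w (p + ((l + 1 : ℕ) : ℤ)))
    · refine ⟨c * τ (w (p + ((l + 1 : ℕ) : ℤ))), ?_⟩
      rw [h, smul_mul_assoc, Matrix.single_mul_single_same]
      simp
    · refine ⟨0, ?_⟩
      rw [smul_mul_assoc, Matrix.single_mul_single_of_ne _ _ _ _ h]
      simp

theorem lin_nil {S : Sys} [Fintype S.L] (hnil : S.Nil) {B : Type*} [Ring B] (h2 : (1 + 1 : B) = 0)
    {g : S.L → B} (hg : S.Rel g) {m : Type*} [Fintype m] [DecidableEq m]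
    (T : S.L → Matrix m m (Subring.center B)) :
    IsNilpotent (Matrix.of fun i j => ∑ x, (T x i j : B) * g x) := by
  classical
  rcases isEmpty_or_nonempty m with hm | ⟨⟨i0⟩⟩
  · exact ⟨0, Subsingleton.elim _ _⟩
  obtain ⟨x0⟩ := S.inh
  obtain ⟨n, l, Bf, hB⟩ := hnil (Fintype.card (m × m))
  let φ : Matrix m m (Subring.center B) →+* Matrix m m B := (Subring.center B).subtype.mapMatrix
  let V : S.L × m × m → Matrix m m (Subring.center B) := fun E =>
    Matrix.single E.2.1 E.2.2 (T E.1 E.2.1 E.2.2)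
  let F : S.L × m × m → Matrix m m B := fun E => φ (V E) * Matrix.scalar m (g E.1)
  have hF : (Matrix.of fun i j => ∑ x, (T x i j : B) * g x) = ∑ E, F E := by
    ext i j
    simp only [F, V, φ, Matrix.of_apply, Matrix.sum_apply, Fintype.sum_prod_type,
      Matrix.scalar_apply, Matrix.mul_diagonal, RingHom.mapMatrix_apply, Matrix.map_apply]
    refine Finset.sum_congr rfl fun x _ => ?_
    rw [Finset.sum_eq_single i, Finset.sum_eq_single j]
    · simp
    · intro b _ hb; simp [hb]
    · simp
    · intro b _ hb; simp [hb]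
    · simp
  have hcomm : ∀ (X : Matrix m m (Subring.center B)) (b : B),
      Commute (φ X) (Matrix.scalar m b) := by
    intro X b
    ext i j
    simp only [φ, Matrix.scalar_apply, Matrix.mul_diagonal, Matrix.diagonal_mul,
      RingHom.mapMatrix_apply, Matrix.map_apply]
    exact (Subring.mem_center_iff.1 (X i j).2 b).symm
  have hip : ∀ w : ℤ → S.L × m × m, ip (fun i => F (w i)) 0 n =
      φ (ip (fun i => V (w i)) 0 n) * Matrix.scalar m (ip (fun i => g (w i).1) 0 n) := by
    intro w
    rw [ip_mul (F := fun i => φ (V (w i))) (G := fun i => Matrix.scalar m (g (w i).1))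
      fun i j => hcomm _ _]
    congr 1
    · exact (map_ip φ.toMonoidHom _ _ _).symm
    · exact (map_ip (Matrix.scalar m : B →+* Matrix m m B).toMonoidHom _ _ _).symm
  let d : S.L × m × m := (x0, i0, i0)
  let lab : (ℤ → S.L × m × m) → ℤ → m × m := fun w p => ((w p).2.1, (w (p + l - 1)).2.2)
  let Pr : (ℤ → S.L × m × m) → ℤ × ℤ → Prop := fun w pq =>
    pq.1 ∈ Bf (fun i => (w i).1) ∧ pq.2 ∈ Bf (fun i => (w i).1) ∧ pq.1 < pq.2 ∧
      lab w pq.1 = lab w pq.2
  let ch : (ℤ → S.L × m × m) → ℤ × ℤ := fun w => Classical.epsilon (Pr w)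
  let σ : (ℤ → S.L × m × m) → (ℤ → S.L × m × m) := fun w => swp l (ch w).1 (ch w).2 w
  have hch : ∀ w : ℤ → S.L × m × m, S.NZ 0 n (fun i => (w i).1) → Pr w (ch w) := by
    intro w hw
    refine Classical.epsilon_spec (p := Pr w) ?_
    obtain ⟨p, hp, q, hq, hne, he⟩ := Finset.exists_ne_map_eq_of_card_lt_of_maps_to
      (s := Bf fun i => (w i).1) (t := Finset.univ) (hB _ hw).1 (f := lab w)
      fun _ _ => Finset.mem_coe.2 (Finset.mem_univ _)
    rcases lt_or_gt_of_ne hne with h | h
    · exact ⟨(p, q), hp, hq, h, he⟩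
    · exact ⟨(q, p), hq, hp, h, he.symm⟩
  have hfst : ∀ (w : ℤ → S.L × m × m) (p q : ℤ),
      (fun i => (swp l p q w i).1) = swp l p q fun i => (w i).1 := by
    intro w p q
    funext i
    simp only [swp]
    split_ifs <;> rfl
  have key : ∀ w : ℤ → S.L × m × m, S.NZ 0 n (fun i => (w i).1) →
      S.NZ 0 n (fun i => (σ w i).1) ∧ σ w ≠ w ∧ σ (σ w) = w ∧
      (∀ i, i < 0 ∨ (n : ℤ) ≤ i → σ w i = w i) ∧
      ip (fun i => F (σ w i)) 0 n = ip (fun i => F (w i)) 0 n := by
    intro w hw
    obtain ⟨hp, hq, hpq, hlab⟩ := hch w hw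
    obtain ⟨-, hrange, hsw⟩ := hB _ hw
    obtain ⟨h1, h3, h4, h5⟩ := hsw _ hp _ hq hpq
    have hp0 := (hrange _ hp).1
    have hqn := (hrange _ hq).2
    have hl : l ≠ 0 := by
      rintro rfl
      apply h5
      funext i
      simp only [swp]
      rw [if_neg (by push_cast; omega), if_neg (by push_cast; omega)]
    have hσ : σ w = swp l (ch w).1 (ch w).2 w := rfl
    have hσσ : Pr (σ w) = Pr w → σ (σ w) = swp l (ch w).1 (ch w).2 (σ w) := by
      intro h
      have : ch (σ w) = ch w := by simp only [ch, h]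
      rw [← this]
    generalize ch w = pq at *
    obtain ⟨p, q⟩ := pq
    simp only at *
    have hlab' : ∀ r ∈ Bf fun i => (w i).1, lab (swp l p q w) r = lab w r := by
      intro r hr
      by_cases hrp : r = p
      · subst hrp
        rw [hlab]
        simp only [lab, swp]
        rw [if_pos (by omega), if_pos (by omega)]
        congr 4 <;> ring
      by_cases hrq : r = q
      · subst hrq
        rw [← hlab]
        simp only [lab, swp]
        rw [if_neg (by omega), if_pos (by omega), if_neg (by omega), if_pos (by omega)]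
        congr 4 <;> ring
      have a1 : r + l ≤ p ∨ p + l ≤ r := by
        rcases lt_or_gt_of_ne hrp with h | h
        · exact Or.inl (hsw _ hr _ hp h).1
        · exact Or.inr (hsw _ hp _ hr h).1
      have a2 : r + l ≤ q ∨ q + l ≤ r := by
        rcases lt_or_gt_of_ne hrq with h | h
        · exact Or.inl (hsw _ hr _ hq h).1
        · exact Or.inr (hsw _ hq _ hr h).1
      simp only [lab, swp]
      rw [if_neg (by omega), if_neg (by omega), if_neg (by omega), if_neg (by omega)]
    have hPr : Pr (swp l p q w) = Pr w := by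
      funext rs
      simp only [Pr, hfst, h4]
      refine propext ⟨?_, ?_⟩
      · rintro ⟨a, b, c, e⟩
        exact ⟨a, b, c, by rw [← hlab' _ a, ← hlab' _ b, e]⟩
      · rintro ⟨a, b, c, e⟩
        exact ⟨a, b, c, by rw [hlab' _ a, hlab' _ b, e]⟩
    refine ⟨by rw [hσ, hfst]; exact hw.of_eqv h3, ?_, ?_, ?_, ?_⟩
    · intro h
      apply h5
      rw [← hfst, ← hσ, h]
    · rw [hσσ (by rw [hσ, hPr]), hσ, swp_swp _ h1]
    · intro i hi
      rw [hσ]
      simp only [swp]
      rw [if_neg (by omega), if_neg (by omega)]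
    · rw [hip, hip, hσ]
      congr 2
      · obtain ⟨X, Z, W, e1, e2⟩ := ip_swp V w hp0 h1 hqn
        obtain ⟨l', rfl⟩ := Nat.exists_eq_succ_of_ne_zero hl
        obtain ⟨c1, hc1⟩ := ip_single (fun E : S.L × m × m => E.2.1) (fun E => E.2.2)
          (fun E => T E.1 E.2.1 E.2.2) w p l'
        obtain ⟨c2, hc2⟩ := ip_single (fun E : S.L × m × m => E.2.1) (fun E => E.2.2)
          (fun E => T E.1 E.2.1 E.2.2) w q l'
        have hl1 : (w p).2.1 = (w q).2.1 := (Prod.ext_iff.1 hlab).1
        have hl2 : (w (p + l')).2.2 = (w (q + l')).2.2 := by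
          have := congrArg Prod.snd hlab
          simp only [lab] at this
          convert this using 4 <;> push_cast <;> ring
        rw [e1, e2]
        simp only [V, Nat.succ_eq_add_one]
        rw [hc1, hc2, hl1, hl2]
        simp only [mul_smul_comm, smul_mul_assoc, smul_smul, mul_comm c1 c2]
      · have := hg.val_eqv h3
        rw [← hfst] at this
        exact this.symm
  refine ⟨n, ?_⟩
  rw [hF, sum_pow_ip d]
  have hadd : ∀ X : Matrix m m B, X + X = 0 := by
    intro X
    ext i j
    rw [Matrix.add_apply, ← one_mul (X i j), ← add_mul, h2, zero_mul]; rfl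
  have hext : ∀ e : Fin n → S.L × m × m, S.NZ 0 n (fun i => (ext0 d e i).1) →
      ext0 d (fun k : Fin n => σ (ext0 d e) k) = σ (ext0 d e) := by
    intro e he
    refine ext0_res d _ fun i hi => ?_
    rw [(key _ he).2.2.2.1 i hi]
    simp only [ext0]
    rw [dif_neg (by omega)]
  refine Finset.sum_involution (fun e _ => if S.NZ 0 n (fun i => (ext0 d e i).1) then
    fun k : Fin n => σ (ext0 d e) k else e) ?_ ?_ (fun _ _ => Finset.mem_univ _) ?_
  · intro e _
    by_cases he : S.NZ 0 n (fun i => (ext0 d e i).1)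
    · rw [if_pos he, hext e he, (key _ he).2.2.2.2, hadd]
    · rw [if_neg he, hadd]
  · intro e _ hne
    have he : S.NZ 0 n (fun i => (ext0 d e i).1) := by
      by_contra h
      apply hne
      rw [hip, hg.val_zero h]; simp
    rw [if_pos he]
    intro h
    apply (key _ he).2.1
    rw [← hext e he, h]
  · intro e _
    by_cases he : S.NZ 0 n (fun i => (ext0 d e i).1)
    · simp only [if_pos he]
      rw [hext e he, if_pos (key _ he).1, (key _ he).2.2.1]
      funext k
      exact ext0_coe d e k
    · simp only [if_neg he]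

end Vale.Agent.P192
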