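import Mathlib

/-! Finite length-preserving rewriting systems with zero. -/

namespace Vale.Agent.P192

/-- a rewriting system: one- and two-letter rules, forbidden letters and forbidden pairs -/
structure Sys where
  L : Type
  fin : Finite L
  inh : Nonempty L
  R1 : L → L → Prop
  R2 : L → L → L → L → Prop
  Z1 : L → Prop
  Z2 : L → L → Prop

/-- exchange the intervals `[p, p + l)` and `[q, q + l)` -/
def swp {α : Type*} (l p q : ℤ) (w : ℤ → α) : ℤ → α := fun i =>
  if p ≤ i ∧ i < p + l then w (i - p + q) else if q ≤ i ∧ i < q + l then w (i - q + p) else w i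

namespace Sys

variable (S : Sys)

/-- one rule applied inside the window `[lo, hi)` -/
def Step (lo hi : ℤ) (w w' : ℤ → S.L) : Prop :=
  (∃ i x, lo ≤ i ∧ i < hi ∧ S.R1 (w i) x ∧ w' = Function.update w i x) ∨
  (∃ i x y, lo ≤ i ∧ i + 1 < hi ∧ S.R2 (w i) (w (i + 1)) x y ∧
    w' = Function.update (Function.update w i x) (i + 1) y)

/-- equivalence inside the window -/
def Eqv (lo hi : ℤ) : (ℤ → S.L) → (ℤ → S.L) → Prop := Relation.EqvGen (S.Step lo hi)

/-- a forbidden letter or pair inside the window -/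
def Zero (lo hi : ℤ) (w : ℤ → S.L) : Prop :=
  (∃ i, lo ≤ i ∧ i < hi ∧ S.Z1 (w i)) ∨ ∃ i, lo ≤ i ∧ i + 1 < hi ∧ S.Z2 (w i) (w (i + 1))

/-- the window carries a nonzero word -/
def NZ (lo hi : ℤ) (w : ℤ → S.L) : Prop := ∀ w', S.Eqv lo hi w w' → ¬ S.Zero lo hi w'

/-- there are nonzero words of every length -/
def Inf : Prop := ∀ N : ℕ, ∃ w, S.NZ 0 N w

/-- long nonzero words have many disjoint intervals which can be exchanged -/
def Nil : Prop := ∀ D : ℕ, ∃ (n l : ℕ) (B : (ℤ → S.L) → Finset ℤ), ∀ w, S.NZ 0 n w →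
  D < (B w).card ∧ (∀ p ∈ B w, 0 ≤ p ∧ p + l ≤ n) ∧
  ∀ p ∈ B w, ∀ q ∈ B w, p < q →
    p + l ≤ q ∧ S.Eqv 0 n w (swp l p q w) ∧ B (swp l p q w) = B w ∧ swp l p q w ≠ w

variable {S}

theorem Step.mono {lo hi lo' hi' : ℤ} (h1 : lo' ≤ lo) (h2 : hi ≤ hi') {w w' : ℤ → S.L}
    (h : S.Step lo hi w w') : S.Step lo' hi' w w' := by
  rcases h with ⟨i, x, a, b, c⟩ | ⟨i, x, y, a, b, c⟩
  · exact Or.inl ⟨i, x, by omega, by omega, c⟩
  · exact Or.inr ⟨i, x, y, by omega, by omega, c⟩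

theorem Eqv.refl (lo hi : ℤ) (w : ℤ → S.L) : S.Eqv lo hi w w := Relation.EqvGen.refl w

theorem Eqv.symm {lo hi : ℤ} {w w' : ℤ → S.L} (h : S.Eqv lo hi w w') : S.Eqv lo hi w' w :=
  Relation.EqvGen.symm _ _ h

theorem Eqv.trans {lo hi : ℤ} {w w' w'' : ℤ → S.L} (h : S.Eqv lo hi w w')
    (h' : S.Eqv lo hi w' w'') : S.Eqv lo hi w w'' := Relation.EqvGen.trans _ _ _ h h'

theorem Step.eqv {lo hi : ℤ} {w w' : ℤ → S.L} (h : S.Step lo hi w w') : S.Eqv lo hi w w' :=
  Relation.EqvGen.rel _ _ h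

theorem Eqv.mono {lo hi lo' hi' : ℤ} (h1 : lo' ≤ lo) (h2 : hi ≤ hi') {w w' : ℤ → S.L}
    (h : S.Eqv lo hi w w') : S.Eqv lo' hi' w w' := by
  induction h with
  | rel a b h => exact (h.mono h1 h2).eqv
  | refl => exact Eqv.refl _ _ _
  | symm a b _ ih => exact ih.symm
  | trans a b c _ _ ih1 ih2 => exact ih1.trans ih2

theorem Zero.mono {lo hi lo' hi' : ℤ} (h1 : lo' ≤ lo) (h2 : hi ≤ hi') {w : ℤ → S.L}
    (h : S.Zero lo hi w) : S.Zero lo' hi' w := by
  rcases h with ⟨i, a, b, c⟩ | ⟨i, a, b, c⟩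
  · exact Or.inl ⟨i, by omega, by omega, c⟩
  · exact Or.inr ⟨i, by omega, by omega, c⟩

theorem NZ.mono {lo hi lo' hi' : ℤ} (h1 : lo' ≤ lo) (h2 : hi ≤ hi') {w : ℤ → S.L}
    (h : S.NZ lo' hi' w) : S.NZ lo hi w :=
  fun w' he hz => h w' (he.mono h1 h2) (hz.mono h1 h2)

theorem NZ.of_eqv {lo hi : ℤ} {w w' : ℤ → S.L} (h : S.NZ lo hi w) (he : S.Eqv lo hi w w') :
    S.NZ lo hi w' := fun w'' he' => h w'' (he.trans he')

/-- equivalent words agree outside the window -/
theorem Eqv.out {lo hi : ℤ} {w w' : ℤ → S.L} (h : S.Eqv lo hi w w') {i : ℤ}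
    (hi' : i < lo ∨ hi ≤ i) : w' i = w i := by
  induction h with
  | rel a b h =>
    rcases h with ⟨j, x, h1, h2, -, rfl⟩ | ⟨j, x, y, h1, h2, -, rfl⟩
    · rw [Function.update_of_ne (by omega)]
    · rw [Function.update_of_ne (by omega), Function.update_of_ne (by omega)]
  | refl => rfl
  | symm a b _ ih => exact ih.symm
  | trans a b c _ _ ih1 ih2 => exact ih2.trans ih1

/-- replace the letters outside the window -/
theorem Eqv.ctx {lo hi : ℤ} {w w' : ℤ → S.L} (h : S.Eqv lo hi w w') (v : ℤ → S.L) :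
    S.Eqv lo hi (fun i => if lo ≤ i ∧ i < hi then w i else v i)
      (fun i => if lo ≤ i ∧ i < hi then w' i else v i) := by
  induction h with
  | rel a b h =>
    apply Step.eqv
    rcases h with ⟨j, x, h1, h2, h3, rfl⟩ | ⟨j, x, y, h1, h2, h3, rfl⟩
    · refine Or.inl ⟨j, x, h1, h2, by simpa [h1, h2] using h3, funext fun i => ?_⟩
      by_cases hij : i = j
      · subst hij; simp [h1, h2]
      · simp [hij]
    · refine Or.inr ⟨j, x, y, h1, h2, ?_, funext fun i => ?_⟩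
      · have a1 : j < hi := by omega
        have a2 : lo ≤ j + 1 := by omega
        simpa [h1, h2, a1, a2] using h3
      · by_cases hi1 : i = j + 1
        · subst hi1
          have a2 : lo ≤ j + 1 := by omega
          simp [h2, a2]
        · by_cases hij : i = j
          · subst hij
            have a1 : i < hi := by omega
            simp [h1, a1]
          · simp [hij, hi1]
  | refl => exact Eqv.refl _ _ _
  | symm a b _ ih => exact ih.symm
  | trans a b c _ _ ih1 ih2 => exact ih1.trans ih2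

end Sys

end Vale.Agent.P192
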