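import Vale.Agent.P192.KDefs
import Vale.Agent.P192.SysDefs
import Vale.Agent.P192.AlgA

/-! Part Alg: the contracted semigroup algebra of a rewriting system. -/

namespace Vale.Agent.P192

open Vale.Agent.P193 (wd evP)
open Polynomial

theorem wd_cons {α A : Type*} [Monoid A] (f : α → A) (x : α) (r : List α) :
    wd f (x :: r) = f x * wd f r := by simp [wd]

theorem zmod_central {A : Type*} [Ring A] (ι : ZMod 2 →+* A) (c : ZMod 2) (a : A) :
    a * ι c = ι c * a := by
  have : ∀ c : ZMod 2, c = 0 ∨ c = 1 := by decide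
  rcases this c with rfl | rfl <;> simp

theorem nil_of_poly {A m : Type*} [Ring A] [Fintype m] [DecidableEq m] (M : Matrix m m A)
    (Q : Matrix m m A[X]) (h : Q * (1 - Matrix.of fun i j => C (M i j) * X) = 1) :
    IsNilpotent M := by
  rw [mul_sub, mul_one] at h
  have hk : ∀ k i j, (Q i j).coeff k = (M ^ k) i j := by
    intro k
    induction k with
    | zero =>
      intro i j
      have := congrArg (fun N : Matrix m m A[X] => (N i j).coeff 0) h
      simp only [Matrix.sub_apply, Matrix.mul_apply, Matrix.of_apply,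
        coeff_sub, finsetSum_coeff, ← mul_assoc, coeff_mul_X_zero, Finset.sum_const_zero,
        sub_zero] at this
      rw [this, pow_zero]
      by_cases hij : i = j
      · subst hij; simp
      · simp [Matrix.one_apply_ne hij]
    | succ k ih =>
      intro i j
      have := congrArg (fun N : Matrix m m A[X] => (N i j).coeff (k + 1)) h
      simp only [Matrix.sub_apply, Matrix.mul_apply, Matrix.of_apply,
        coeff_sub, finsetSum_coeff, ← mul_assoc, coeff_mul_X, coeff_mul_C, ih] at this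
      have h0 : ((1 : Matrix m m A[X]) i j).coeff (k + 1) = 0 := by
        by_cases hij : i = j
        · subst hij; simp [coeff_one]
        · simp [Matrix.one_apply_ne hij]
      rw [h0, sub_eq_zero] at this
      rw [this, pow_succ, Matrix.mul_apply]
  refine ⟨(Finset.univ.sup fun ij : m × m => (Q ij.1 ij.2).natDegree) + 1, ?_⟩
  ext i j
  rw [← hk, Matrix.zero_apply]
  refine coeff_eq_zero_of_natDegree_lt (Nat.lt_succ_of_le ?_)
  exact Finset.le_sup (f := fun ij : m × m => (Q ij.1 ij.2).natDegree) (Finset.mem_univ (i, j))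

theorem exists_coef {L A : Type*} [Ring A] (g : L → A) (ι : ZMod 2 →+* A) (ε : A →+* ZMod 2)
    (hε : ∀ x, ε (g x) = 0) {a : A} (ha : a ∈ AddSubgroup.closure (Set.range (wd g))) :
    ∃ c : L × List L →₀ ZMod 2,
      a = ι (ε a) + c.sum fun xr z => ι z * (g xr.1 * wd g xr.2) := by
  classical
  induction ha using AddSubgroup.closure_induction with
  | mem a ha =>
    obtain ⟨w, rfl⟩ := ha
    cases w with
    | nil => exact ⟨0, by simp [wd]⟩
    | cons x r =>
      refine ⟨Finsupp.single (x, r) 1, ?_⟩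
      rw [Finsupp.sum_single_index (by simp), wd_cons]
      simp [hε]
  | zero => exact ⟨0, by simp⟩
  | add a b _ _ iha ihb =>
    obtain ⟨c, hc⟩ := iha
    obtain ⟨c', hc'⟩ := ihb
    refine ⟨c + c', ?_⟩
    rw [Finsupp.sum_add_index' (by simp) (by simp [add_mul]), map_add, map_add]
    conv_lhs => rw [hc, hc']
    abel
  | neg a _ iha =>
    obtain ⟨c, hc⟩ := iha
    refine ⟨-c, ?_⟩
    rw [Finsupp.sum_neg_index (by simp), map_neg, map_neg]
    conv_lhs => rw [hc]
    simp only [Finsupp.sum, map_neg, neg_mul, Finset.sum_neg_distrib, neg_add]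

theorem aug_nil {S : Sys} (hnil : S.Nil) {A : Type*} [Ring A] {g : S.L → A} (hg : S.Rel g)
    (ι : ZMod 2 →+* A) (ε : A →+* ZMod 2) (hε : ∀ x, ε (g x) = 0)
    (hspan : ∀ a : A, a ∈ AddSubgroup.closure (Set.range (wd g)))
    {m : Type} [Fintype m] [DecidableEq m] (M : Matrix m m A) (hM : ∀ i j, ε (M i j) = 0) :
    IsNilpotent M := by
  classical
  have := S.fin
  let _ : Fintype S.L := Fintype.ofFinite _
  choose c hc using fun i j => exists_coef g ι ε hε (hspan (M i j))
  obtain ⟨d, hd⟩ : ∃ d : ℕ, ∀ i j, ∀ xr ∈ (c i j).support, xr.2.length ≤ d := by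
    refine ⟨Finset.univ.sup fun ij : m × m => (c ij.1 ij.2).support.sup fun xr => xr.2.length,
      fun i j xr h => ?_⟩
    exact (Finset.le_sup (f := fun xr : S.L × List S.L => xr.2.length) h).trans
      (Finset.le_sup (f := fun ij : m × m => (c ij.1 ij.2).support.sup fun xr => xr.2.length)
        (Finset.mem_univ (i, j)))
  let σ := {r : List S.L // r.length ≤ d}
  have : Finite σ := (List.finite_length_le S.L d).to_subtype
  let _ : Fintype σ := Fintype.ofFinite _
  have hMs : ∀ i j, M i j = ∑ s : σ, ∑ x, ι (c i j (x, s.1)) * (g x * wd g s.1) := by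
    intro i j
    rw [hc i j, hM, map_zero, zero_add, ← Fintype.sum_prod_type',
      Finsupp.sum_of_support_subset _ (s := Finset.univ.image fun p : σ × S.L => (p.2, p.1.1))
        _ _ (by simp), Finset.sum_image]
    · rintro ⟨s, x⟩ _ ⟨s', x'⟩ _ h
      simp only [Prod.mk.injEq] at h
      exact Prod.ext (Subtype.ext h.2) h.1
    · intro xr h
      exact Finset.mem_image.2 ⟨(⟨xr.2, hd i j xr h⟩, xr.1), Finset.mem_univ _, rfl⟩
  have h2 : (1 + 1 : A[X]) = 0 := by
    have : ((1 : ZMod 2) + 1) = 0 := by decide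
    rw [← map_one (C : A →+* A[X]), ← map_add, ← map_one ι, ← map_add, this]; simp
  have hg' : S.Rel fun x => (C (g x) : A[X]) :=
    ⟨fun x y h => by rw [hg.r1 _ _ h], fun x y x' y' h => by
      rw [← map_mul, ← map_mul, hg.r2 _ _ _ _ h], fun x h => by rw [hg.z1 _ h, map_zero],
      fun x y h => by rw [← map_mul, hg.z2 _ _ h, map_zero]⟩
  have hcen : ∀ z : ZMod 2, (C (ι z) * X : A[X]) ∈ Subring.center A[X] := by
    intro z
    refine Subring.mem_center_iff.2 fun b => ?_
    have := zmod_central ((C : A →+* A[X]).comp ι) z b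
    simp only [RingHom.comp_apply] at this
    rw [← mul_assoc, this, mul_assoc, mul_assoc, X_mul]
  let T : S.L → Matrix (m × σ) (m × σ) (Subring.center A[X]) := fun x => Matrix.of fun u v =>
    (if u.1 = v.1 ∧ u.2.1 = x :: v.2.1 then 1 else 0) +
      if u.2.1 = [] then ⟨_, hcen (c u.1 v.1 (x, v.2.1))⟩ else 0
  obtain ⟨n, hn⟩ := lin_nil hnil h2 hg' T
  set Lm : Matrix (m × σ) (m × σ) A[X] := Matrix.of fun i j => ∑ x, (T x i j : A[X]) * C (g x)
    with hLm
  let P : Matrix (m × σ) m A[X] := Matrix.of fun u j => if u.1 = j then C (wd g u.2.1) else 0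
  let J : Matrix (m × σ) m A[X] := Matrix.of fun u j => if u.1 = j ∧ u.2.1 = [] then 1 else 0
  have hJP : J.transpose * P = 1 := by
    refine Matrix.ext fun i j => ?_
    rw [Matrix.mul_apply, Finset.sum_eq_single (i, (⟨[], by simp⟩ : σ))]
    · simp [J, P, wd, Matrix.one_apply]
    · rintro ⟨a, s⟩ _ h
      simp only [J, Matrix.transpose_apply, Matrix.of_apply]
      rw [if_neg, zero_mul]
      rintro ⟨rfl, h'⟩
      exact h (Prod.ext rfl (Subtype.ext h'))
    · simp
  have hLP : (1 - Lm) * P = J * (1 - Matrix.of fun i j => C (M i j) * X) := by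
    refine Matrix.ext fun u k => ?_
    obtain ⟨i, s, hs⟩ := u
    have e1 : (Lm * P) (i, ⟨s, hs⟩) k =
        ∑ s' : σ, ∑ x, (T x (i, ⟨s, hs⟩) (k, s') : A[X]) * C (g x * wd g s'.1) := by
      rw [Matrix.mul_apply, Fintype.sum_prod_type, Finset.sum_eq_single k]
      · simp [hLm, P, Finset.sum_mul, mul_assoc]
      · intro b _ hb; simp [P, hb]
      · simp
    have e2 : ∀ N : Matrix m m A[X], (J * N) (i, ⟨s, hs⟩) k = if s = [] then N i k else 0 := by
      intro N
      rw [Matrix.mul_apply, Finset.sum_eq_single i]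
      · simp [J]
      · intro b _ hb; simp [J, hb.symm]
      · simp
    rw [Matrix.sub_mul, Matrix.one_mul, Matrix.sub_apply, e1, e2]
    cases s with
    | nil =>
      simp only [T, P, Matrix.of_apply, if_true, Matrix.sub_apply, reduceCtorEq, and_false,
        if_false, zero_add, wd, List.map_nil, List.prod_nil, map_one, Matrix.one_apply]
      congr 1
      rw [hMs, map_sum, Finset.sum_mul]
      refine Finset.sum_congr rfl fun s' _ => ?_
      rw [map_sum, Finset.sum_mul]
      refine Finset.sum_congr rfl fun x _ => ?_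
      rw [mul_assoc, X_mul, ← mul_assoc, ← map_mul]; rfl
    | cons y r =>
      simp only [T, P, Matrix.of_apply, List.cons_ne_nil, if_false, add_zero]
      rw [sub_eq_zero, Finset.sum_eq_single (⟨r, by simp at hs; omega⟩ : σ), Finset.sum_eq_single y]
      · by_cases hik : i = k <;> simp [hik, wd_cons]
      · intro b _ hb; simp [hb.symm]
      · simp
      · intro b _ hb
        refine Finset.sum_eq_zero fun x _ => ?_
        rw [if_neg]
        · simp
        · rintro ⟨-, h⟩
          exact hb (Subtype.ext (List.cons.inj h).2.symm)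
      · simp
  refine nil_of_poly M (J.transpose * (∑ k ∈ Finset.range n, Lm ^ k) * J) ?_
  rw [Matrix.mul_assoc, ← hLP, Matrix.mul_assoc, ← Matrix.mul_assoc _ (1 - Lm), geom_sum_mul_neg,
    hn, sub_zero, Matrix.one_mul, hJP]

/-- the defining relations -/
inductive ARel (S : Sys) : FreeAlgebra (ZMod 2) S.L → FreeAlgebra (ZMod 2) S.L → Prop
  | r1 x y : S.R1 x y → ARel S (FreeAlgebra.ι _ x) (FreeAlgebra.ι _ y)
  | r2 x y x' y' : S.R2 x y x' y' →
      ARel S (FreeAlgebra.ι _ x * FreeAlgebra.ι _ y) (FreeAlgebra.ι _ x' * FreeAlgebra.ι _ y')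
  | z1 x : S.Z1 x → ARel S (FreeAlgebra.ι _ x) 0
  | z2 x y : S.Z2 x y → ARel S (FreeAlgebra.ι _ x * FreeAlgebra.ι _ y) 0

/-- the generators of the algebra -/
noncomputable def agen (S : Sys) (x : S.L) : RingQuot (ARel S) :=
  RingQuot.mkAlgHom (ZMod 2) (ARel S) (FreeAlgebra.ι _ x)

theorem agen_rel (S : Sys) : S.Rel (agen S) :=
  ⟨fun x y h => RingQuot.mkAlgHom_rel _ (ARel.r1 x y h),
    fun x y x' y' h => by
      simpa [agen] using RingQuot.mkAlgHom_rel (ZMod 2) (ARel.r2 x y x' y' h),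
    fun x h => by simpa [agen] using RingQuot.mkAlgHom_rel (ZMod 2) (ARel.z1 x h),
    fun x y h => by simpa [agen] using RingQuot.mkAlgHom_rel (ZMod 2) (ARel.z2 x y h)⟩

theorem agen_lift (S : Sys) {B : Type} [Ring B] (h2 : (1 + 1 : B) = 0) {f : S.L → B}
    (hf : S.Rel f) : ∃ h : RingQuot (ARel S) →+* B, ∀ z, h (agen S z) = f z := by
  have := ringChar.charP B
  have hd : ringChar B ∣ 2 := ringChar.dvd (by rw [← h2]; norm_num)
  let _ : Algebra (ZMod 2) B := ZMod.algebra' B (ringChar B) hd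
  have hw : ∀ ⦃x y⦄, ARel S x y →
      FreeAlgebra.lift (ZMod 2) f x = FreeAlgebra.lift (ZMod 2) f y := by
    intro x y h
    cases h with
    | r1 x y h => simpa using hf.r1 _ _ h
    | r2 x y x' y' h => simpa using hf.r2 _ _ _ _ h
    | z1 x h => simpa using hf.z1 _ h
    | z2 x y h => simpa using hf.z2 _ _ h
  refine ⟨(RingQuot.liftAlgHom (ZMod 2) ⟨FreeAlgebra.lift (ZMod 2) f, hw⟩ :
    RingQuot (ARel S) →ₐ[ZMod 2] B).toRingHom, fun z => ?_⟩
  simp [agen, RingQuot.liftAlgHom_mkAlgHom_apply]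

theorem agen_closure (S : Sys) : Subring.closure (Set.range (agen S)) = ⊤ := by
  rw [eq_top_iff]
  rintro a -
  obtain ⟨b, rfl⟩ := RingQuot.mkAlgHom_surjective (ZMod 2) (ARel S) a
  induction b using FreeAlgebra.induction with
  | grade0 r =>
    have : ∀ c : ZMod 2, c = 0 ∨ c = 1 := by decide
    rcases this r with rfl | rfl
    · simp
    · simp
  | grade1 x => exact Subring.subset_closure ⟨x, rfl⟩
  | mul a b ha hb => rw [map_mul]; exact mul_mem ha hb
  | add a b ha hb => rw [map_add]; exact add_mem ha hb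

theorem agen_span (S : Sys) (a : RingQuot (ARel S)) :
    a ∈ AddSubgroup.closure (Set.range (wd (agen S))) := by
  have ha : a ∈ Subring.closure (Set.range (agen S)) := by rw [agen_closure]; trivial
  rw [Subring.mem_closure_iff] at ha
  refine AddSubgroup.closure_mono (fun b hb => ?_) ha
  induction hb using Submonoid.closure_induction with
  | mem b hb =>
    obtain ⟨x, rfl⟩ := hb
    exact ⟨[x], by simp [wd]⟩
  | one => exact ⟨[], by simp [wd]⟩
  | mul a b _ _ ha hb =>
    obtain ⟨u, rfl⟩ := ha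
    obtain ⟨v, rfl⟩ := hb
    exact ⟨u ++ v, by simp [wd]⟩

theorem alg_two (S : Sys) : (1 + 1 : RingQuot (ARel S)) = 0 := by
  have : ((1 : ZMod 2) + 1) = 0 := by decide
  rw [← map_one (algebraMap (ZMod 2) (RingQuot (ARel S))), ← map_add, this, map_zero]

theorem eq_of_add_two {B : Type*} [Ring B] (h2 : (1 + 1 : B) = 0) {a b : B} :
    a + b = 0 ↔ a = b := by
  have hb : b + b = 0 := by rw [← one_mul b, ← add_mul, h2, zero_mul]
  constructor
  · intro h; rw [← hb] at h; exact add_right_cancel h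
  · rintro rfl; exact hb

theorem alg_fp (S : Sys) : Vale.Agent.P193.RingFP (RingQuot (ARel S)) := by
  have := S.fin
  let rels : Set (Vale.Agent.P193.Poly S.L) :=
    {P | (∃ x y, S.R1 x y ∧ P = [[x], [y]]) ∨ (∃ x y x' y', S.R2 x y x' y' ∧ P = [[x, y], [x', y']])
      ∨ (∃ x, S.Z1 x ∧ P = [[x]]) ∨ ∃ x y, S.Z2 x y ∧ P = [[x, y]]}
  have key : ∀ {B : Type} [Ring B], (1 + 1 : B) = 0 → ∀ f : S.L → B,
      (∀ P ∈ rels, evP f P = 0) ↔ S.Rel f := by
    intro B _ h2 f
    constructor
    · intro h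
      refine ⟨fun x y hr => ?_, fun x y x' y' hr => ?_, fun x hr => ?_, fun x y hr => ?_⟩
      · simpa [evP, wd, eq_of_add_two h2] using h _ (Or.inl ⟨x, y, hr, rfl⟩)
      · simpa [evP, wd, eq_of_add_two h2] using h _ (Or.inr (Or.inl ⟨x, y, x', y', hr, rfl⟩))
      · simpa [evP, wd] using h _ (Or.inr (Or.inr (Or.inl ⟨x, hr, rfl⟩)))
      · simpa [evP, wd] using h _ (Or.inr (Or.inr (Or.inr ⟨x, y, hr, rfl⟩)))
    · rintro h P (⟨x, y, hr, rfl⟩ | ⟨x, y, x', y', hr, rfl⟩ | ⟨x, hr, rfl⟩ | ⟨x, y, hr, rfl⟩)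
      · simpa [evP, wd, eq_of_add_two h2] using h.r1 _ _ hr
      · simpa [evP, wd, eq_of_add_two h2] using h.r2 _ _ _ _ hr
      · simpa [evP, wd] using h.z1 _ hr
      · simpa [evP, wd] using h.z2 _ _ hr
  refine ⟨S.L, S.fin, agen S, rels, ?_, agen_closure S, (key (alg_two S) _).2 (agen_rel S),
    fun B _ h2 f hf => agen_lift S h2 ((key h2 f).1 hf)⟩
  refine (((Set.finite_range fun p : S.L × S.L => [[p.1], [p.2]]).union
    (Set.finite_range fun p : S.L × S.L × S.L × S.L =>
      [[p.1, p.2.1], [p.2.2.1, p.2.2.2]])).union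
    ((Set.finite_range fun x : S.L => [[x]]).union
      (Set.finite_range fun p : S.L × S.L => [[p.1, p.2]]))).subset ?_
  rintro P (⟨x, y, -, rfl⟩ | ⟨x, y, x', y', -, rfl⟩ | ⟨x, -, rfl⟩ | ⟨x, y, -, rfl⟩)
  · exact Or.inl (Or.inl ⟨(x, y), rfl⟩)
  · exact Or.inl (Or.inr ⟨(x, y, x', y'), rfl⟩)
  · exact Or.inr (Or.inl ⟨x, rfl⟩)
  · exact Or.inr (Or.inr ⟨(x, y), rfl⟩)

/-- invariant functions on words -/
def Fn (S : Sys) : AddSubgroup (ℕ → (ℤ → S.L) → ZMod 2) where
  carrier := {φ | ∀ (n : ℕ) w, (∀ w', S.Step 0 n w w' → φ n w = φ n w') ∧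
    (S.Zero 0 n w → φ n w = 0)}
  zero_mem' := fun _ _ => ⟨fun _ _ => rfl, fun _ => rfl⟩
  add_mem' := fun {a b} ha hb n w =>
    ⟨fun w' h => by simp [(ha n w).1 w' h, (hb n w).1 w' h],
      fun h => by simp [(ha n w).2 h, (hb n w).2 h]⟩
  neg_mem' := fun {a} ha n w =>
    ⟨fun w' h => by simp [(ha n w).1 w' h], fun h => by simp [(ha n w).2 h]⟩

/-- appending a letter -/
def app (S : Sys) (x : S.L) : AddMonoid.End (Fn S) where
  toFun φ := ⟨fun n w => φ.1 (n + 1) (Function.update w n x), fun n w => by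
    refine ⟨fun w' h => (φ.2 (n + 1) _).1 _ ?_, fun h => (φ.2 (n + 1) _).2 ?_⟩
    · rcases h with ⟨i, y, h1, h2, h3, rfl⟩ | ⟨i, y, z, h1, h2, h3, rfl⟩
      · refine Or.inl ⟨i, y, h1, by push_cast; omega, ?_, ?_⟩
        · rwa [Function.update_of_ne (by omega)]
        · rw [Function.update_comm (by omega)]
      · refine Or.inr ⟨i, y, z, h1, by push_cast; omega, ?_, ?_⟩
        · rwa [Function.update_of_ne (by omega), Function.update_of_ne (by omega)]
        · rw [Function.update_comm (a := i + 1) (by omega),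
            Function.update_comm (a := i) (b := (n : ℤ)) (by omega)]
    · rcases h with ⟨i, h1, h2, h3⟩ | ⟨i, h1, h2, h3⟩
      · refine Or.inl ⟨i, h1, by push_cast; omega, ?_⟩
        rwa [Function.update_of_ne (by omega)]
      · refine Or.inr ⟨i, h1, by push_cast; omega, ?_⟩
        rwa [Function.update_of_ne (by omega), Function.update_of_ne (by omega)]⟩
  map_zero' := rfl
  map_add' _ _ := rfl

theorem app_apply (S : Sys) (x : S.L) (φ : Fn S) (n : ℕ) (w : ℤ → S.L) :
    (app S x φ).1 n w = φ.1 (n + 1) (Function.update w n x) := rfl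

theorem app_rel (S : Sys) : S.Rel (app S) := by
  refine ⟨fun x y h => ?_, fun x y x' y' h => ?_, fun x h => ?_, fun x y h => ?_⟩
  · ext φ n w
    refine (φ.2 (n + 1) _).1 _ (Or.inl ⟨n, y, by omega, by push_cast; omega, ?_, ?_⟩)
    · simpa using h
    · simp
  · ext φ n w
    refine (φ.2 (n + 1 + 1) _).1 _ (Or.inr ⟨n, x', y', by omega, by push_cast; omega, ?_, ?_⟩)
    · push_cast
      rwa [Function.update_self, Function.update_of_ne (by omega), Function.update_self]
    · push_cast
      rw [Function.update_comm (a := (n : ℤ) + 1) (by omega)]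
      simp
  · ext φ n w
    refine (φ.2 (n + 1) _).2 (Or.inl ⟨n, by omega, by push_cast; omega, ?_⟩)
    simpa using h
  · ext φ n w
    refine (φ.2 (n + 1 + 1) _).2 (Or.inr ⟨n, by omega, by push_cast; omega, ?_⟩)
    push_cast
    rwa [Function.update_self, Function.update_of_ne (by omega), Function.update_self]

theorem alg_infinite (S : Sys) (hinf : S.Inf) : Infinite (RingQuot (ARel S)) := by
  classical
  choose w hw using hinf
  have h2 : (1 + 1 : AddMonoid.End (Fn S)) = 0 := by
    ext φ n v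
    exact CharTwo.add_self_eq_zero (φ.1 n v)
  obtain ⟨h, hh⟩ := agen_lift S h2 (app_rel S)
  have hv : ∀ (u : ℤ → S.L) (c : ℕ),
      h (ip (fun i => agen S (u i)) 0 c) = ip (fun i => app S (u i)) 0 c := by
    intro u c
    have := map_ip h.toMonoidHom (fun i => agen S (u i)) 0 c
    simpa [hh] using this
  have e1 : ∀ (u : ℤ → S.L) (c : ℕ) (φ : Fn S),
      (ip (fun i => app S (u i)) 0 c φ).1 0 u = φ.1 c u := by
    intro u c
    induction c with
    | zero => intro φ; rfl
    | succ c ih =>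
      intro φ
      rw [ip, AddMonoid.End.coe_mul, Function.comp_apply, ih, app_apply]
      simp
  have e2 : ∀ (u u0 : ℤ → S.L) (c : ℕ), ∃ v, ∀ φ : Fn S,
      (ip (fun i => app S (u i)) 0 c φ).1 0 u0 = φ.1 c v := by
    intro u u0 c
    induction c with
    | zero => exact ⟨u0, fun φ => rfl⟩
    | succ c ih =>
      obtain ⟨v, hv⟩ := ih
      exact ⟨_, fun φ => by rw [ip, AddMonoid.End.coe_mul, Function.comp_apply, hv, app_apply]⟩
  refine Infinite.of_injective (fun N : ℕ => ip (fun i => agen S (w N i)) 0 N) fun N N' hN => ?_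
  by_contra hne
  let φ : Fn S := ⟨fun n v => if n = N ∧ S.NZ 0 n v then 1 else 0, fun n v =>
    ⟨fun v' hs => by
      have : S.NZ 0 n v ↔ S.NZ 0 n v' := ⟨fun h => h.of_eqv hs.eqv, fun h => h.of_eqv hs.eqv.symm⟩
      simp only [this],
    fun hz => if_neg fun h => h.2 v (Sys.Eqv.refl _ _ _) hz⟩⟩
  have h3 := congrArg h hN
  simp only [hv] at h3
  obtain ⟨v, hv'⟩ := e2 (w N') (w N) N'
  have h4 := e1 (w N) N φ
  rw [h3, hv'] at h4
  simp only [φ] at h4
  rw [if_neg fun h => hne h.1.symm, if_pos ⟨trivial, hw N⟩] at h4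
  exact zero_ne_one h4

theorem exists_GA (S : Sys) (hinf : S.Inf) (hnil : S.Nil) :
    ∃ (A : Type) (_ : Ring A), Vale.Agent.P193.RingFP A ∧ Infinite A ∧ Nonempty (GA A) := by
  obtain ⟨ε, hε⟩ := agen_lift S (B := ZMod 2) (by decide) (f := fun _ => 0)
    ⟨fun _ _ _ => rfl, fun _ _ _ _ _ => rfl, fun _ _ => rfl, fun _ _ _ => by simp⟩
  let ι := algebraMap (ZMod 2) (RingQuot (ARel S))
  refine ⟨RingQuot (ARel S), inferInstance, alg_fp S, alg_infinite S hinf,
    ⟨⟨S.L, agen S, agen_span S, ι, ε, hε, fun R α => ?_,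
      fun m _ _ M hM => aug_nil hnil (agen_rel S) ι ε hε (agen_span S) M hM⟩⟩⟩
  have hmul : ∀ a b : RingQuot (ARel S), (α.map fun c => ι c * a) * (α.map fun c => ι c * b) =
      (α * α).map fun c => ι c * (a * b) := by
    intro a b
    ext i j
    simp only [Matrix.mul_apply, Matrix.map_apply, map_sum, map_mul, Finset.sum_mul]
    refine Finset.sum_congr rfl fun k _ => ?_
    rw [mul_assoc, ← mul_assoc a, zmod_central ι _ a]
    simp only [mul_assoc]
  have hg := agen_rel S
  refine agen_lift S ?_ ⟨fun x y h => by rw [hg.r1 _ _ h], fun x y x' y' h => by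
    rw [hmul, hmul, hg.r2 _ _ _ _ h], fun x h => ?_, fun x y h => ?_⟩
  · ext i j
    rw [Matrix.add_apply, (eq_of_add_two (alg_two S)).2 rfl]; rfl
  · rw [hg.z1 _ h]; ext i j; simp
  · rw [hmul, hg.z2 _ _ h]; ext i j; simp

end Vale.Agent.P192
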