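import Vale.Agent.P192.ColD

/-! Part Col: the colour system. -/

namespace Vale.Agent.P192

open Function

variable {h : ℕ} {S : Path → St}

/-- the default cell -/
def dfl : Cell := ⟨Mk.U, Ar.up, false⟩

/-- the global invariant -/
def GI (h : ℕ) (X : JD) : Prop :=
  (∀ t : Path, t.length ≤ h → ∃ B, AInv (actT h t) (kT h t) B ∧ Rep h X t B) ∧
    ∀ (π : Path) r, π.length ≤ h → (∀ t : Path, t.length ≤ h → ¬ Own h t π r) → (X π).1 r = dfl

theorem GI.upd (hS : VS h S) {X Y : JD} (hX : GI h X) {t : Path} (ht : t.length ≤ h) {B' : AS}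
    (hi : AInv (actT h t) (kT h t) B') (hr : Rep h Y t B')
    (ho : ∀ π r, ¬ Own h t π r → (Y π).1 r = (X π).1 r) : GI h Y := by
  refine ⟨fun t' ht' => ?_, fun π r h1 h2 => (ho π r (h2 t ht)).trans (hX.2 π r h1 h2)⟩
  by_cases e : t' = t
  · exact e ▸ ⟨B', hi, hr⟩
  · obtain ⟨B, b1, b2⟩ := hX.1 t' ht'
    refine ⟨B, b1, fun s a v => ?_⟩
    rw [ho _ _ fun o => e (own_uniq hS ht' ht ⟨s, a, v, rfl, rfl⟩ o), b2 s a v]

theorem GI.two (hS : VS h S) {X Y : JD} (hX : GI h X) {t : Path} (ht : t.length ≤ h) {B B' : AS}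
    (hi : AInv (actT h t) (kT h t) B') (hr : Rep h X t B) {s s' : Bool} {a a' : Path}
    (v : VT h t s a) (v' : VT h t s' a') (hf : Frame (actT h t) (kT h t) B B' (s, a) (s', a'))
    (h1 : (Y (t ++ a)).1 (role (kT h t) s a) = rend B' s a)
    (h2 : (Y (t ++ a')).1 (role (kT h t) s' a') = rend B' s' a')
    (h3 : ∀ π r, ¬ (π = t ++ a ∧ r = role (kT h t) s a) → ¬ (π = t ++ a' ∧ r = role (kT h t) s' a') →
      (Y π).1 r = (X π).1 r) : GI h Y :=
  hX.upd hS ht hi (hr.frame v v' hf h1 h2 h3) fun π r o =>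
    h3 π r (fun e => o ⟨s, a, v, e⟩) fun e => o ⟨s', a', v', e⟩

theorem GI.owned {X : JD} (hX : GI h X) {π : Path} {r : Role} (hπ : π.length ≤ h)
    (hne : ((X π).1 r).ar ≠ Ar.up ∨ ((X π).1 r).mr ≠ Mk.U) : ∃ t s a B, t.length ≤ h ∧ VT h t s a ∧
      π = t ++ a ∧ r = role (kT h t) s a ∧ AInv (actT h t) (kT h t) B ∧ Rep h X t B := by
  by_contra h1
  have := hX.2 π r hπ fun t ht ⟨s, a, v, e1, e2⟩ => by
    obtain ⟨B, b1, b2⟩ := hX.1 t ht
    exact h1 ⟨t, s, a, B, ht, v, e1, e2, b1, b2⟩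
  simp [this, dfl] at hne

theorem tm_cases (hS : VS h S) {X Y : JD} (hm : LJ.TM (tree h) S X Y) :
    (∃ π d rc rp x y, π.length < h ∧ prv (S π) d rc = some rp ∧ okd (S π) d rp ∧
      CellMove d (preR (S π) rp) (preR (S (π ++ [d])) rc) (lastR (S (π ++ [d])) rc)
        ((X π).1 rp) ((X (π ++ [d])).1 rc) x y ∧ Y = cu (cu X (π ++ [d]) rc y) π rp x) ∨
    (∃ π r q b, π.length ≤ h ∧ preR (S π) r = false ∧ (X π).1 r = ⟨Mk.P, Ar.here q, false⟩ ∧
      q.side = false ∧ q.md ≠ Md.free ∧ q.ph = Ph.two b ∧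
      Y = cu X π r ⟨Mk.P, Ar.here ⟨q.side, q.md, Ph.plain, q.e, q.f⟩, b⟩) ∨
    (∃ π q, π.length ≤ h ∧ ((X π).1 (Role.H false)).ar = Ar.here q ∧ q.side = false ∧
      ((X π).1 (Role.H true)).ar = Ar.up ∧ Y = cu (cu X π (Role.H false)
        ⟨((X π).1 (Role.H false)).mr, Ar.up, ((X π).1 (Role.H false)).ct⟩) π (Role.H true)
        ⟨((X π).1 (Role.H true)).mr, Ar.here ⟨true, q.md, q.ph, q.e, q.f⟩,
          ((X π).1 (Role.H true)).ct⟩) ∨
    (∃ π q m, π.length ≤ h ∧ ((X π).1 (Role.H false)).ar = Ar.here q ∧ q.md = Md.free ∧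
      q.ph = Ph.plain ∧
      ((q.e false = true ∧ q.e true = true) ∨ (q.f false = true ∧ q.f true = true ∧ m = Md.sw)) ∧
      Y = cu X π (Role.H false) ⟨((X π).1 (Role.H false)).mr,
        Ar.here ⟨q.side, m, q.ph, q.e, q.f⟩, ((X π).1 (Role.H false)).ct⟩) := by
  rcases hm with ⟨π, e, h1, h2, rfl⟩ | ⟨π, d, e, e', h1, ⟨rc, rp, x, y, h2, h3, h4, rfl, rfl⟩, rfl⟩ |
    ⟨π, s, l, g, e, h1, h2, -⟩
  · rcases h2 with ⟨r, q, b, a1, a2, a3, a4, a5, rfl⟩ | ⟨q, a1, a2, a3, rfl⟩ |
      ⟨q, m, a1, a2, a3, a4, rfl⟩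
    · exact Or.inr (Or.inl ⟨π, r, q, b, h1, a1, a2, a3, a4, a5, rfl⟩)
    · exact Or.inr (Or.inr (Or.inl ⟨π, q, h1, a1, a2, a3, by simp [cu]; rfl⟩))
    · exact Or.inr (Or.inr (Or.inr ⟨π, q, m, h1, a1, a2, a3, a4, rfl⟩))
  · rw [hS.par π d h1, Bool.not_not] at h2 h3 h4
    exact Or.inl ⟨π, d, rc, rp, x, y, h1, h2, h3, h4, by simp [cu]; rfl⟩
  · exact h2.elim

theorem CellMove.ar {d pu pl ll : Bool} {x y x' y' : Cell} (h : CellMove d pu pl ll x y x' y') :
    x.ar ≠ Ar.up ∧ x'.ar ≠ Ar.up := by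
  obtain ⟨q, h1, -, ⟨-, rfl, -⟩ | ⟨-, -, -, -, rfl, -⟩⟩ := h <;> simp [h1]

theorem GI.fwd (hS : VS h S) {X Y : JD} (hm : LJ.TM (tree h) S X Y) (hX : GI h X) : GI h Y := by
  rcases tm_cases hS hm with ⟨π, d, rc, rp, x, y, h1, h2, h3, h4, rfl⟩ |
    ⟨π, r, q, b, h1, h2, h3, h4, h5, h6, rfl⟩ | ⟨π, q, h1, h2, h3, h4, rfl⟩ |
    ⟨π, q, m, h1, h2, h3, h4, h5, rfl⟩
  · obtain ⟨t, s, a, B, ht, v, rfl, rfl, hi, hr⟩ := hX.owned h1.le (Or.inl h4.ar.1)
    have o := (v.okd_iff hS ht).1 h3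
    obtain rfl := (v.prv_iff hS ht o).1 h2
    have v' : VT h t s (a ++ [d]) := val_snoc.2 ⟨v, o⟩
    rw [List.append_assoc] at h4 ⊢
    rw [v.pre_eq hS, v'.pre_eq hS, v'.last_eq hS, hr _ _ v, hr _ _ v'] at h4
    obtain ⟨B', st, rfl, rfl, fr⟩ := link_f v o h4
    exact hX.two hS ht ((st.inv_iff hi.wf).1 hi) hr v v' fr (by simp [cu_apply])
      (by simp [cu_apply]) fun π r e1 e2 => by rw [cu_apply, if_neg e1, cu_apply, if_neg e2]
  · obtain ⟨t, s, a, B, ht, v, rfl, rfl, hi, hr⟩ := hX.owned (r := r) h1 (Or.inl (by simp [h3]))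
    rw [hr _ _ v] at h3
    rw [v.pre_eq hS] at h2
    obtain ⟨rfl, rfl, rfl⟩ := rend_here.1 (congrArg Cell.ar h3)
    have hg := mkF_P.1 (congrArg Cell.mr h3)
    have st := AStep.put (act := actT h t) (k := kT h t) B b hg h2 (congrArg Cell.ct h3) h4 h5 h6
    have e : (cu X (t ++ B.γ) (role (kT h t) B.σ B.γ) ⟨Mk.P, Ar.here ⟨B.q.side, B.q.md, Ph.plain,
        B.q.e, B.q.f⟩, b⟩ (t ++ B.γ)).1 (role (kT h t) B.σ B.γ) = rend ⟨B.β, B.σ, B.γ,
        ⟨B.q.side, B.q.md, Ph.plain, B.q.e, B.q.f⟩, update B.κ B.γ b⟩ B.σ B.γ := by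
      simp [cu_apply, rend, ← hg, mkF_self, arF]
    exact hX.two hS ht ((st.inv_iff hi.wf).1 hi) hr v v
      (frame_loc B _ b v fun e => by simp [e, preA] at h2) e e
      fun π r e1 _ => by rw [cu_apply, if_neg e1]
  · obtain ⟨B, hi, hr⟩ := hX.1 π h1
    have h0 := hr false [] (Val.nil _)
    have h0' := hr true [] (Val.nil _)
    rw [List.append_nil, role_nil] at h0 h0'
    rw [h0] at h2
    obtain ⟨e1, e2, rfl⟩ := rend_here.1 h2
    have st := AStep.switch (act := actT h π) (k := kT h π) B e1.symm e2.symm h3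
    refine hX.two hS h1 ((st.inv_iff hi.wf).1 hi) hr (Val.nil _) (Val.nil _)
      (frame_switch B _ e2.symm) ?_ ?_ fun π r e1 e2 => ?_
    · simp [cu_apply, role_nil, h0, rend]
    · simp [cu_apply, role_nil, h0', rend, mkF_self, arF]
    · rw [List.append_nil, role_nil] at e1 e2
      rw [cu_apply, if_neg e2, cu_apply, if_neg e1]
  · obtain ⟨B, hi, hr⟩ := hX.1 π h1
    have h0 := hr false [] (Val.nil _)
    rw [List.append_nil, role_nil] at h0
    rw [h0] at h2
    obtain ⟨e1, e2, rfl⟩ := rend_here.1 h2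
    have st := AStep.mode (act := actT h π) (k := kT h π) B m e1.symm e2.symm h3 h4 h5
    have f := frame_loc (act := actT h π) (k := kT h π) B ⟨B.q.side, m, B.q.ph, B.q.e, B.q.f⟩
      (B.κ B.γ) (e2 ▸ Val.nil _) fun _ => rfl
    rw [update_eq_self, ← e1, ← e2] at f
    rw [← e1, ← e2] at st
    refine hX.two hS h1 ((st.inv_iff hi.wf).1 hi) hr (Val.nil _) (Val.nil _) f ?_ ?_
      fun π r e1 _ => ?_
    · simp [cu_apply, role_nil, h0, rend, mkF_self, arF]
    · simp [cu_apply, role_nil, h0, rend, mkF_self, arF]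
    · rw [List.append_nil, role_nil] at e1
      rw [cu_apply, if_neg e1]

theorem GI.bwd (hS : VS h S) {X Y : JD} (hm : LJ.TM (tree h) S X Y) (hY : GI h Y) : GI h X := by
  rcases tm_cases hS hm with ⟨π, d, rc, rp, x, y, h1, h2, h3, h4, rfl⟩ |
    ⟨π, r, q, b, h1, h2, h3, h4, h5, h6, rfl⟩ | ⟨π, q, h1, h2, h3, h4, rfl⟩ |
    ⟨π, q, m, h1, h2, h3, h4, h5, rfl⟩
  · obtain ⟨t, s, a, B, ht, v, rfl, rfl, hi, hr⟩ := hY.owned (r := rp) h1.le
      (Or.inl (by simpa [cu_apply] using h4.ar.2))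
    have o := (v.okd_iff hS ht).1 h3
    obtain rfl := (v.prv_iff hS ht o).1 h2
    have v' : VT h t s (a ++ [d]) := val_snoc.2 ⟨v, o⟩
    rw [List.append_assoc] at h4 hr hY
    have e1 : x = rend B s a := by simpa [cu_apply] using hr _ _ v
    have e2 : y = rend B s (a ++ [d]) := by simpa [cu_apply] using hr _ _ v'
    rw [v.pre_eq hS, v'.pre_eq hS, v'.last_eq hS, e1, e2] at h4
    obtain ⟨B', w', st, a1, a2, fr⟩ := link_b hi.wf v o h4
    exact hY.two hS ht ((st.inv_iff w').2 hi) hr v v' fr.symm a1 a2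
      fun π r e1 e2 => by rw [cu_apply, if_neg e1, cu_apply, if_neg e2]
  · obtain ⟨t, s, a, ⟨β, σ, γ, q0, κ⟩, ht, v, rfl, rfl, hi, hr⟩ := hY.owned (r := r) h1
      (Or.inl (by simp [cu_apply]))
    have e := hr _ _ v
    rw [cu_apply, if_pos ⟨rfl, rfl⟩] at e
    rw [v.pre_eq hS] at h2
    obtain ⟨rfl, rfl, rfl⟩ := rend_here.1 (congrArg Cell.ar e).symm
    have hg := mkF_P.1 (congrArg Cell.mr e).symm
    have e3 : b = κ a := congrArg Cell.ct e
    have st := AStep.put (act := actT h t) (k := kT h t) ⟨β, s, a, q, update κ a false⟩ b hg h2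
      (by simp) h4 h5 h6
    have f := frame_loc (act := actT h t) (k := kT h t) ⟨β, s, a, q, update κ a false⟩
      ⟨q.side, q.md, Ph.plain, q.e, q.f⟩ b v fun e => by simp only at e; simp [e, preA] at h2
    simp only [update_idem, e3, update_eq_self] at st f
    simp only at hg
    have e4 : (X (t ++ a)).1 (role (kT h t) s a) = rend ⟨β, s, a, q, update κ a false⟩ s a := by
      simp [h3, rend, ← hg, mkF_self, arF]
    exact hY.two hS ht ((st.inv_iff hi.wf).2 hi) hr v v f.symm e4 e4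
      fun π r e1 _ => by rw [cu_apply, if_neg e1]
  · obtain ⟨⟨β, σ, γ, q0, κ⟩, hi, hr⟩ := hY.1 π h1
    have h0 := hr false [] (Val.nil _)
    have h0' := hr true [] (Val.nil _)
    rw [List.append_nil, role_nil, cu_apply] at h0 h0'
    rw [if_neg (by simp), cu_apply, if_pos ⟨rfl, rfl⟩] at h0
    rw [if_pos ⟨rfl, rfl⟩] at h0'
    obtain ⟨rfl, rfl, rfl⟩ := rend_here.1 (congrArg Cell.ar h0').symm
    have st := AStep.switch (act := actT h π) (k := kT h π) ⟨β, false, [], q, κ⟩ rfl rfl h3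
    have m0 := congrArg Cell.mr h0
    have c0 := congrArg Cell.ct h0
    have m1 := congrArg Cell.mr h0'
    have c1 := congrArg Cell.ct h0'
    simp only [rend] at m0 c0 m1 c1
    refine hY.two hS h1 ((st.inv_iff ⟨hi.wf.1, by simp⟩).2 hi) hr (Val.nil _) (Val.nil _)
      (frame_switch ⟨β, false, [], q, κ⟩ _ rfl).symm ?_ ?_ fun π r e1 e2 => ?_
    · simp [role_nil, rend, mkF_self, arF, ← m0, ← c0, ← h2]
    · simp [role_nil, rend, ← m1, ← c1, ← h4]
    · rw [List.append_nil, role_nil] at e1 e2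
      rw [cu_apply, if_neg e2, cu_apply, if_neg e1]
  · obtain ⟨⟨β, σ, γ, q0, κ⟩, hi, hr⟩ := hY.1 π h1
    have h0 := hr false [] (Val.nil _)
    rw [List.append_nil, role_nil, cu_apply, if_pos ⟨rfl, rfl⟩] at h0
    obtain ⟨rfl, rfl, rfl⟩ := rend_here.1 (congrArg Cell.ar h0).symm
    have st := AStep.mode (act := actT h π) (k := kT h π) ⟨β, false, [], q, κ⟩ m rfl rfl h3 h4 h5
    have f := frame_loc (act := actT h π) (k := kT h π) ⟨β, false, [], q, κ⟩
      ⟨q.side, m, q.ph, q.e, q.f⟩ (κ []) (Val.nil _) fun _ => rfl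
    simp only [update_eq_self] at f
    have m0 := congrArg Cell.mr h0
    have c0 := congrArg Cell.ct h0
    simp only [rend] at m0 c0
    have e4 : (X (π ++ [])).1 (role (kT h π) false []) = rend ⟨β, false, [], q, κ⟩ false [] := by
      simp [role_nil, rend, mkF_self, arF, ← m0, ← c0, ← h2]
    refine hY.two hS h1 ((st.inv_iff hi.wf).2 hi) hr (Val.nil _) (Val.nil _) f.symm e4 e4
      fun π r e1 _ => ?_
    rw [List.append_nil, role_nil] at e1
    rw [cu_apply, if_neg e1]

theorem GI.not_TB (hS : VS h S) {X : JD} (hX : GI h X) : ¬ LJ.TB (tree h) S X := by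
  rintro (⟨π, h1, ⟨r, h2⟩ | h2⟩ | ⟨π, d, h1, rc, hrc, h2⟩ | ⟨π, s, l, -, h2⟩ | ⟨π, -, h2⟩)
  · by_cases o : ∃ t : Path, t.length ≤ h ∧ Own h t π r
    · obtain ⟨t, ht, s, a, v, rfl, rfl⟩ := o
      obtain ⟨B, hi, hr⟩ := hX.1 t ht
      rw [hr s a v] at h2
      exact hi.not_bad ((cellBad_iff hS ht hi.wf).1 ⟨s, a, v, h2⟩)
    · rw [hX.2 π r h1 fun t ht e => o ⟨t, ht, e⟩] at h2
      simp only [CellBad, dfl, reduceCtorEq, false_and, exists_false, false_or, and_true] at h2
      obtain ⟨u, rfl⟩ := h2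
      exact o ⟨π, h1, own_home π u⟩
  · obtain ⟨B, hi, hr⟩ := hX.1 π h1
    have h0 := hr false [] (Val.nil _)
    have h0' := hr true [] (Val.nil _)
    rw [List.append_nil, role_nil] at h0 h0'
    rw [h0, h0', rend_up, rend_up] at h2
    cases hσ : B.σ <;> simp [hσ] at h2
  · apply h2
    rw [hS.par π d h1, Bool.not_not]
    by_cases o : ∃ t : Path, t.length ≤ h ∧ Own h t (π ++ [d]) rc
    · obtain ⟨t, ht, s, a, v, e, rfl⟩ := o
      rcases List.eq_nil_or_concat a with rfl | ⟨b, d', rfl⟩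
      · exact absurd (role_nil _ _) (hrc s)
      rw [List.concat_eq_append] at v e ⊢
      rw [← List.append_assoc] at e
      obtain ⟨rfl, e4⟩ := List.append_inj' e rfl
      obtain rfl : d = d' := by simpa using e4
      obtain ⟨v1, o1⟩ := val_snoc.1 v
      obtain ⟨B, hi, hr⟩ := hX.1 t ht
      rw [(VT.prv_iff hS ht v1 o1).2 rfl, List.append_assoc, hr _ _ v]
      simp only [Option.some.injEq, exists_eq_left', hr _ _ v1]
      refine ⟨by simp [rend, mkF_U, mkF_M], ?_⟩
      rw [Ne, rend_up, rend_dn, not_not]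
      simp only [rend, mkF_M]
      constructor
      · rintro ⟨rfl, h3⟩
        exact ⟨h3.trans hi.wf.2, rfl, d, h3⟩
      · rintro ⟨h3, rfl, e, h4⟩
        have := (mkF_M.2 h3).symm.trans (mkF_M.2 (h4.trans hi.wf.2))
        obtain rfl := Mk.M.inj this
        exact ⟨rfl, h4⟩
    · have : ¬ ∃ rp, prv (S π) d rc = some rp ∧ ((X π).1 rp).mr = Mk.M d := by
        rintro ⟨rp, p1, p2⟩
        obtain ⟨t, s, a, B, ht, v, rfl, rfl, hi, hr⟩ := hX.owned (r := rp) (le_of_lt h1)
          (Or.inr (by simp [p2]))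
        rw [hr s a v] at p2
        exact o ⟨t, ht, Own.succ hS ht ⟨s, a, v, rfl, rfl⟩ p1
          ((v.okd_iff hS ht).2 (hi.wf.1 s _ _ (mkF_M.1 p2)))⟩
      rw [hX.2 (π ++ [d]) rc (by have : π.length < h := h1; simp; omega) fun t ht e => o ⟨t, ht, e⟩]
      exact ⟨iff_of_false (by simp [dfl]) this,
        iff_of_false (by simp [dfl]) fun ⟨rp, p1, p2, _⟩ => this ⟨rp, p1, p2⟩⟩
  · exact h2
  · exact h2

theorem glue (hS : VS h S) (P : JD → JD → Prop) (hr : ∀ X, P X X)
    (ht : ∀ X Y Z, P X Y → P Y Z → P X Z) (X : JD) (G : Path → AS) (T : Finset Path)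
    (hT : ∀ t ∈ T, t.length ≤ h)
    (step : ∀ t ∈ T, ∀ Y : JD, (∀ π r, Own h t π r → (Y π).1 r = (X π).1 r) →
      P Y (ow h t (G t) Y)) :
    ∃ Y, P X Y ∧ (∀ t ∈ T, Rep h Y t (G t)) ∧
      ∀ π r, (∀ t ∈ T, ¬ Own h t π r) → (Y π).1 r = (X π).1 r := by
  induction T using Finset.induction_on with
  | empty => exact ⟨X, hr X, by simp, fun _ _ _ => rfl⟩
  | insert t T hn ih =>
    obtain ⟨Y, a1, a2, a3⟩ := ih (fun u hu => hT u (Finset.mem_insert_of_mem hu))
      fun u hu => step u (Finset.mem_insert_of_mem hu)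
    have l := hT t (Finset.mem_insert_self _ _)
    have ne : ∀ u ∈ T, ∀ π r, Own h t π r → ¬ Own h u π r := fun u hu π r o1 o2 =>
      hn (own_uniq hS l (hT u (Finset.mem_insert_of_mem hu)) o1 o2 ▸ hu)
    refine ⟨ow h t (G t) Y, ht _ _ _ a1 (step t (Finset.mem_insert_self _ _) Y fun π r o =>
      a3 π r fun u hu => ne u hu π r o), fun u hu => ?_, fun π r o => ?_⟩
    · rcases Finset.mem_insert.1 hu with rfl | hu
      · exact ow_rep _ _
      · intro s a v
        rw [ow_other _ _ fun o => ne u hu _ _ o ⟨s, a, v, rfl, rfl⟩, a2 u hu s a v]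
    · rw [ow_other _ _ (o t (Finset.mem_insert_self _ _)),
        a3 π r fun u hu => o u (Finset.mem_insert_of_mem hu)]

theorem exists_nodes (h : ℕ) : ∃ T : Finset Path, ∀ t, t ∈ T ↔ t.length ≤ h :=
  ⟨(List.finite_length_le Bool h).toFinset, fun t => by simp⟩

theorem LJ_inf (hS : VS h S) : ∃ X, LJ.NB (tree h) S X := by
  obtain ⟨T, hT⟩ := exists_nodes h
  obtain ⟨Y, -, a2, a3⟩ := glue hS (fun _ _ => True) (fun _ => trivial) (fun _ _ _ _ _ => trivial)
    (fun _ => (fun _ => dfl, ())) (fun t => K0 (kT h t) (kcan (kT h t))) T (fun t ht => (hT t).1 ht)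
    fun _ _ _ _ => trivial
  exact ⟨Y, Lay.NB.of_inv (I := GI h) (fun X Y hm => ⟨GI.fwd hS hm, GI.bwd hS hm⟩)
    (fun X hX => hX.not_TB hS) ⟨fun t ht => ⟨_, ainv_can, a2 t ((hT t).2 ht)⟩,
      fun π r _ o => a3 π r fun t ht => o t ((hT t).1 ht)⟩⟩

theorem canon_con (hS : VS h S) {X : JD}
    (hX : ∀ t : Path, t.length ≤ h → ∃ B, AInv (actT h t) (kT h t) B ∧ Rep h X t B) :
    ∃ Y : JD, LJ.Con (tree h) S X Y ∧
      (∀ t : Path, t.length ≤ h → Rep h Y t (K0 (kT h t) (kcan (kT h t)))) ∧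
      ∀ π r, (∀ t : Path, t.length ≤ h → ¬ Own h t π r) → (Y π).1 r = (X π).1 r := by
  obtain ⟨T, hT⟩ := exists_nodes h
  obtain ⟨Y, a1, a2, a3⟩ := glue hS (LJ.Con (tree h) S) (fun _ => Lay.Con.refl _)
    (fun _ _ _ => Lay.Con.trans) X (fun t => K0 (kT h t) (kcan (kT h t))) T
    (fun t ht => (hT t).1 ht) fun t ht Y hY => by
      have l := (hT t).1 ht
      obtain ⟨B, hi, hr⟩ := hX t l
      obtain ⟨κ, c, e⟩ := hi.anb.canon hi.wf
      have r1 : Rep h Y t B := fun s a v => by rw [hY _ _ ⟨s, a, v, rfl, rfl⟩, hr s a v]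
      have h2 := con_ow hS l c Y
      rw [← r1.eq_ow fun _ _ _ => rfl] at h2
      rwa [← Rep.eq_ow (X := Y) (Y := ow h t (K0 (kT h t) κ) Y) (fun s a v => ?_)
        fun π r o => ow_other _ _ o]
      rw [ow_rep _ _ s a v]
      simp only [rend, K0, KS, e s a v]
      rfl
  exact ⟨Y, a1, fun t ht => a2 t ((hT t).2 ht), fun π r o => a3 π r fun t ht => o t ((hT t).1 ht)⟩

theorem nb_rep (hS : VS h S) {X : JD} (hn : LJ.NB (tree h) S X) (t : Path) (ht : t.length ≤ h) :
    ∃ B, AInv (actT h t) (kT h t) B ∧ Rep h X t B := by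
  obtain ⟨B, w, r⟩ := exists_rep hS ht hn.not_TB
  exact ⟨B, (r.anb hS ht hn w).ainv w, r⟩

theorem kT_nil (k : ℕ) : kT (2 * k + 1) [] = k := by simp [kT]; omega

theorem actT_nil {k : ℕ} (hk : Special k) : actT (2 * k + 1) [] := ⟨hk.two_mul, by simp⟩

theorem rep_nil {k : ℕ} {X : JD} {B : AS} : Rep (2 * k + 1) X [] B ↔
    ∀ s a, Val (actT (2 * k + 1) []) k s a → (X a).1 (role k s a) = rend B s a := by
  simp only [Rep, VT, kT_nil, List.nil_append]

theorem val_slot {act : Prop} {k : ℕ} (ha : act) {z : Path} (hz : z.length = k + 1) {i : ℕ}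
    (hi : i ≤ k) : Val act k (slot k z 0) (z ++ (true :: List.replicate k false).take i) := by
  have := val_adr ha (slot k z) hi
  rwa [adr, show List.ofFn (slot k z) = z by simpa using slot_append hz []] at this

theorem Val.under {act : Prop} {k : ℕ} {s : Bool} {z ρ : Path} (hz : z.length = k + 1)
    (v : Val act k s (z ++ ρ)) : ∃ i ≤ k, ρ = (true :: List.replicate k false).take i := by
  have l := v.len
  have e := v.eq_adr (by simp; omega)
  rw [adr, slot_append hz] at e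
  exact ⟨_, by simp at l ⊢; omega, List.append_cancel_left e⟩

theorem slot_off {act : Prop} {k : ℕ} (ha : act) {B : AS} (hw : WF act k B) {z : Path}
    (hz : z.length = k + 1) (hU : (rend B (slot k z 0) z).mr = Mk.U) (s : Bool) :
    ¬ z <+: B.β s := fun h1 => by
  have v : Val act k (slot k z 0) z := by simpa using val_slot ha hz (Nat.zero_le k)
  obtain rfl := ((hw.1 s).pre h1).side_eq v (by rintro rfl; simp at hz)
  exact mkF_U.1 hU h1

theorem role_slot {k : ℕ} {z : Path} (hz : z.length = k + 1) (s : Bool) : role k s z = Role.D := by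
  have : z ≠ [] := by rintro rfl; simp at hz
  simp [role, this, hz]

theorem LJ_good {k : ℕ} (hk : Special k) (hS : VS (2 * k + 1) S) {X : LJ.Dat}
    (hn : LJ.NB (tree (2 * k + 1)) S X) :
    ∃ a b : Path, ∀ z : Path, z.length = k + 1 → z ≠ a → z ≠ b → ((X z).1 Role.D).mr = Mk.U := by
  obtain ⟨B, -, hr⟩ := nb_rep hS hn [] (by simp)
  refine ⟨(B.β false).take (k + 1), (B.β true).take (k + 1), fun z hz h1 h2 => ?_⟩
  have v : Val (actT (2 * k + 1) []) k (slot k z 0) z := by
    simpa using val_slot (actT_nil hk) hz (Nat.zero_le k)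
  have := rep_nil.1 hr _ z v
  rw [role_slot hz] at this
  rw [this]
  refine mkF_U.2 fun h3 => ?_
  rw [List.prefix_iff_eq_take, hz] at h3
  cases h4 : slot k z 0 <;> rw [h4] at h3
  · exact h1 h3
  · exact h2 h3

theorem own_D (hS : VS h S) (h0 : (S []).sp = true) (π : Path) (h1 : π ≠ []) (h2 : π.length ≤ h) :
    ∃ t : Path, t.length ≤ h ∧ Own h t π Role.D := by
  induction π using List.reverseRecOn with
  | nil => exact absurd rfl h1
  | append_singleton π d ih =>
    have l : π.length < h := by simp at h2; omega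
    have nl : (S π).leaf = false := by rw [← Bool.not_eq_true, hS.leaf π l.le]; omega
    cases hs : (S π).sp
    · obtain ⟨t, ht, o⟩ := ih (by rintro rfl; simp [h0] at hs) l.le
      exact ⟨t, ht, o.succ hS ht (by simp [prv, hs]) ⟨nl, by simp [hs]⟩⟩
    · exact ⟨π, l.le, (own_home π d).succ hS l.le (by simp [prv, hs]) ⟨nl, hs, rfl⟩⟩

theorem own_S (hS : VS h S) (h0 : (S []).sp = true) {z : Path} (h1 : z ≠ [])
    (hc : (S z).col = false) (ρ : Path) (h2 : (z ++ ρ).length ≤ h)
    (h3 : (S (z ++ ρ)).col = true) : ∃ t : Path, t.length ≤ h ∧ Own h t (z ++ ρ) Role.S := by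
  induction ρ using List.reverseRecOn with
  | nil => simp [hc] at h3
  | append_singleton ρ d ih =>
    rw [← List.append_assoc] at h2 h3 ⊢
    have l : (z ++ ρ).length < h := by simp at h2 ⊢; omega
    have nl : (S (z ++ ρ)).leaf = false := by rw [← Bool.not_eq_true, hS.leaf _ l.le]; omega
    rw [hS.col _ _ l] at h3
    cases d
    · obtain ⟨t, ht, o⟩ := ih l.le (by simpa using h3)
      exact ⟨t, ht, o.succ hS ht (by simp [prv]) ⟨nl, rfl⟩⟩
    · obtain ⟨t, ht, o⟩ := own_D hS h0 (z ++ ρ) (by simp [h1]) l.le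
      exact ⟨t, ht, o.succ hS ht (by simpa [prv] using h3) ⟨nl, fun _ => rfl⟩⟩

theorem dfl_S (hS : VS h S) {X : JD} (hb : ¬ LJ.TB (tree h) S X) (π : Path) (h2 : π.length ≤ h)
    (hc : (S π).col = false) (hne : π ≠ List.replicate π.length false) : (X π).1 Role.S = dfl := by
  have ct : ((X π).1 Role.S).ct = false := by
    by_contra h1
    exact hb (Or.inl ⟨π, h2, Or.inl ⟨Role.S, Or.inr (Or.inr (Or.inl ⟨by simpa using h1,
      Or.inr ⟨rfl, hc⟩⟩))⟩⟩)
  induction π using List.reverseRecOn with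
  | nil => simp at hne
  | append_singleton π d ih =>
    have l : π.length < h := by simp at h2; omega
    have be := not_BE hS hb l d (rc := Role.S) (by simp)
    rw [hS.col _ _ l] at hc
    have : ¬ ∃ rp, prv (S π) d Role.S = some rp ∧ ((X π).1 rp).mr = Mk.M d := by
      rintro ⟨rp, p1, p2⟩
      cases d
      · obtain rfl : Role.S = rp := by simpa [prv] using p1
        have hc' : (S π).col = false := by simpa using hc
        have := ih l.le hc' (fun e => hne (by
          rw [List.length_append, List.length_singleton, List.replicate_succ', ← e])) (by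
          by_contra h1
          exact hb (Or.inl ⟨π, l.le, Or.inl ⟨Role.S, Or.inr (Or.inr (Or.inl ⟨by simpa using h1,
            Or.inr ⟨rfl, hc'⟩⟩))⟩⟩))
        simp [this, dfl] at p2
      · have hc' : (S π).sp = false := by simpa using hc
        simp [prv, hc'] at p1
    have m : ((X (π ++ [d])).1 Role.S).mr = Mk.U := by
      by_contra h1; exact this (be.1.1 h1)
    have a : ((X (π ++ [d])).1 Role.S).ar = Ar.up := by
      by_contra h1
      obtain ⟨rp, p1, p2, -⟩ := be.2.1 h1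
      exact this ⟨rp, p1, p2⟩
    rw [dfl, ← m, ← a, ← ct]

theorem LJ_swap {k : ℕ} (hk : Special k) (hS : VS (2 * k + 1) S) {X : JD}
    (hn : LJ.NB (tree (2 * k + 1)) S X) {z z' : Path} (hz : z.length = k + 1)
    (hz' : z'.length = k + 1) (hzz : z ≠ z') (hne : z ≠ List.replicate (k + 1) false)
    (hne' : z' ≠ List.replicate (k + 1) false) (hst : S z = S z') (hcol : (S z).col = false)
    (hr : (X z).1 = (X z').1) (hU : ((X z).1 Role.D).mr = Mk.U) :
    (∃ Y : JD, LJ.Con (tree (2 * k + 1)) S X Y ∧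
      ∀ π : Path, π.length ≤ 2 * k + 1 → Y π = X (swapP z z' π)) ∧
    ∃ ρ : Path, ρ ≠ [] ∧ ρ.length ≤ k ∧ X (z ++ ρ) ≠ X (z' ++ ρ) := by
  have ha := actT_nil hk
  have hl := hz.trans hz'.symm
  obtain ⟨B0, i0, r0⟩ := nb_rep hS hn [] (by simp)
  rw [kT_nil] at i0
  replace r0 := rep_nil.1 r0
  have off : ∀ u : Path, u.length = k + 1 → ((X u).1 Role.D).mr = Mk.U → ∀ s, ¬ u <+: B0.β s := by
    intro u hu h1
    have := r0 _ u (by simpa using val_slot ha hu (Nat.zero_le k))
    rw [role_slot hu] at this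
    exact slot_off ha i0.wf hu (this ▸ h1)
  have o1 := off z hz hU
  have o2 := off z' hz' (hr ▸ hU)
  have under : ∀ u : Path, u.length = k + 1 → (∀ s, ¬ u <+: B0.β s) → ∀ i ≤ k, ∀ s,
      (X (u ++ (true :: List.replicate k false).take i)).1
        (role k s (u ++ (true :: List.replicate k false).take i)) =
        ⟨Mk.U, Ar.up, B0.κ (u ++ (true :: List.replicate k false).take i)⟩ := by
    intro u hu o i hi s
    have ne : u ++ (true :: List.replicate k false).take i ≠ [] := by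
      intro e; rw [List.append_eq_nil_iff] at e; simp [e.1] at hu
    have e : role k s (u ++ (true :: List.replicate k false).take i) =
        role k (slot k u 0) (u ++ (true :: List.replicate k false).take i) := by
      simp only [role, if_neg ne]
    rw [e, r0 _ _ (val_slot ha hu hi), rend, mkF_U.2 fun h => o _ ((List.prefix_append _ _).trans h),
      mkF_U.2 fun h => o _ ((List.prefix_append _ _).trans (h.trans i0.wf.2))]
    simp [arF]
  have rl : ∀ (s : Bool) (ρ : Path), role k s (z ++ ρ) = role k s (z' ++ ρ) := fun s ρ => by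
    have n1 : z ≠ [] := by rintro rfl; simp at hz
    have n2 : z' ≠ [] := by rintro rfl; simp at hz'
    simp [role, n1, n2, hl]
  constructor
  · let X' : JD := fun π => if π.length ≤ 2 * k + 1 then X (swapP z z' π) else X π
    have hX' : ∀ t : Path, t.length ≤ 2 * k + 1 →
        ∃ B, AInv (actT (2 * k + 1) t) (kT (2 * k + 1) t) B ∧ Rep (2 * k + 1) X' t B := by
      intro t ht
      by_cases h0 : t = []
      · subst h0
        rw [kT_nil]
        refine ⟨_, i0.swap hz hz' o1 o2, rep_nil.2 fun s a v => ?_⟩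
        simp only [X', if_pos v.len]
        rcases swapP_cases hl a with ⟨ρ, rfl, e⟩ | ⟨ρ, rfl, e⟩ | ⟨-, -, e⟩
        · obtain ⟨i, hi, rfl⟩ := v.under hz
          rw [e, rl, under z' hz' o2 i hi, ← e]
          have := (r0 _ _ v).symm.trans (under z hz o1 i hi s)
          simp only [rend, Cell.mk'.injEq] at this ⊢
          exact ⟨this.1.symm, this.2.1.symm, trivial⟩
        · obtain ⟨i, hi, rfl⟩ := v.under hz'
          rw [e, ← rl, under z hz o1 i hi, ← e]
          have := (r0 _ _ v).symm.trans (under z' hz' o2 i hi s)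
          simp only [rend, Cell.mk'.injEq] at this ⊢
          exact ⟨this.1.symm, this.2.1.symm, trivial⟩
        · rw [e, r0 s a v]
          simp only [rend, e]
      have l := swapP_length hl t
      obtain ⟨B, hi, hr⟩ := nb_rep hS hn (swapP z z' t) (by omega)
      have e1 : actT (2 * k + 1) (swapP z z' t) = actT (2 * k + 1) t := by simp only [actT, l]
      have e2 : kT (2 * k + 1) (swapP z z' t) = kT (2 * k + 1) t := by simp only [kT, l]
      simp only [Rep, VT, e1, e2] at hi hr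
      refine ⟨B, hi, fun s a v => ?_⟩
      simp only [X', if_pos (v.len ht)]
      rw [← hr s a v]
      congr 3
      by_cases h1 : t.length ≤ k
      · by_cases h2 : a = []
        · simp [h2]
        · have h3 : 0 < t.length := List.length_pos_iff.2 h0
          exact absurd (Val.head v h2).1.1 (hk.gap (by omega) (by omega))
      rcases swapP_cases hl t with ⟨ρ, rfl, e⟩ | ⟨ρ, rfl, e⟩ | ⟨n1, n2, e⟩
      · rw [e, List.append_assoc, swapP_left, List.append_assoc]
      · rw [e, List.append_assoc, swapP_right hl, List.append_assoc]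
      · have pre : ∀ u : Path, u.length = k + 1 → u <+: t ++ a → u <+: t := fun u hu h =>
          List.prefix_of_prefix_length_le h (List.prefix_append _ _) (by omega)
        rw [e, swapP, if_neg fun h => n1 (pre z hz h), if_neg fun h => n2 (pre z' hz' h)]
    obtain ⟨Y1, c1, a1, b1⟩ := canon_con hS (nb_rep hS hn)
    obtain ⟨Y2, c2, a2, b2⟩ := canon_con hS hX'
    have h0 : (S []).sp = true := (hS.sp [] (by simp)).2 hk.two_mul
    have un : ∀ u u' ρ : Path, u.length = k + 1 → u'.length = k + 1 → S u = S u' →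
        (S u).col = false → u ≠ List.replicate (k + 1) false → u' ≠ List.replicate (k + 1) false →
        (u ++ ρ).length ≤ 2 * k + 1 → ∀ r,
        (¬ ∃ t : Path, t.length ≤ 2 * k + 1 ∧ Own (2 * k + 1) t (u ++ ρ) r) →
        (X (u ++ ρ)).1 r = (X (u' ++ ρ)).1 r := by
      intro u u' ρ hu hu' e c n1 n2 l r o
      have n0 : u ≠ [] := by rintro rfl; simp at hu
      have nr : ∀ y : Path, y.length = k + 1 → y ≠ List.replicate (k + 1) false →
          y ++ ρ ≠ List.replicate (y ++ ρ).length false := fun y hy n e => by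
        rw [List.length_append, List.replicate_add] at e
        exact n (hy ▸ (List.append_inj e (by simp)).1)
      cases r with
      | H s => exact absurd ⟨_, l, own_home _ s⟩ o
      | D => exact absurd (own_D hS h0 _ (by simp [n0]) l) o
      | S =>
        have c1 : (S (u ++ ρ)).col = false := by
          by_contra h1
          exact o (own_S hS h0 n0 c ρ l (by simpa using h1))
        have l' : (u' ++ ρ).length ≤ 2 * k + 1 := by simp at l ⊢; omega
        rw [dfl_S hS hn.not_TB _ l c1 (nr u hu n1), dfl_S hS hn.not_TB _ l'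
          (by rw [← hS.sub_eq (hu.trans hu'.symm) e ρ (by simpa using l), c1]) (nr u' hu' n2)]
    have : Y1 = Y2 := LJ_ext fun π r => by
      by_cases o : ∃ t : Path, t.length ≤ 2 * k + 1 ∧ Own (2 * k + 1) t π r
      · obtain ⟨t, ht, s, a, v, rfl, rfl⟩ := o
        rw [a1 t ht s a v, a2 t ht s a v]
      rw [b1 π r fun t ht e => o ⟨t, ht, e⟩, b2 π r fun t ht e => o ⟨t, ht, e⟩]
      simp only [X']
      split_ifs with l
      · rcases swapP_cases hl π with ⟨ρ, rfl, e⟩ | ⟨ρ, rfl, e⟩ | ⟨-, -, e⟩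
        · rw [e]; exact un z z' ρ hz hz' hst hcol hne hne' l r o
        · rw [e]; exact un z' z ρ hz' hz hst.symm (hst ▸ hcol) hne' hne l r o
        · rw [e]
      · rfl
    subst this
    exact ⟨X', c1.trans c2.symm, fun π hπ => if_pos hπ⟩
  · obtain ⟨i, hi, hd⟩ := i0.distinct ha hz hz' hzz o1 o2
    have key : X (z ++ (true :: List.replicate k false).take i) ≠
        X (z' ++ (true :: List.replicate k false).take i) ∧
        (X (z ++ (true :: List.replicate k false).take i)).1 ≠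
        (X (z' ++ (true :: List.replicate k false).take i)).1 := by
      have : (X (z ++ (true :: List.replicate k false).take i)).1 ≠
          (X (z' ++ (true :: List.replicate k false).take i)).1 := fun e => by
        have h1 := under z hz o1 i hi false
        rw [e, rl, under z' hz' o2 i hi false] at h1
        exact hd (congrArg Cell.ct h1).symm
      exact ⟨fun e => this (congrArg Prod.fst e), this⟩
    refine ⟨_, fun e => key.2 ?_, by simp; omega, key.1⟩
    rw [e, List.append_nil, List.append_nil, hr]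

end Vale.Agent.P192
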