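import Vale.Agent.P192.FerA

/-! Part FerB: soundness of the simulation. -/

namespace Vale.Agent.P192

variable {Λ : Lay} {w w' : ℤ → Lt Λ} {h : ℕ} {p : ℤ} {S : Path → St} {E : Λ.Dat} {st : Sts Λ}

namespace FerB

/-- replace the data of the subtree on side `s` -/
def graft (E : Λ.Dat) (s : Bool) (X : Λ.Dat) : Λ.Dat
  | [] => E []
  | t :: ρ => if t = s then X ρ else E (t :: ρ)

@[simp] theorem graft_nil (s : Bool) (X : Λ.Dat) : graft E s X [] = E [] := rfl

@[simp] theorem graft_self (s : Bool) (X : Λ.Dat) (ρ : Path) : graft E s X (s :: ρ) = X ρ := by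
  simp [graft]

theorem graft_ne {s t : Bool} (hts : t ≠ s) (X : Λ.Dat) (ρ : Path) :
    graft E s X (t :: ρ) = E (t :: ρ) := by
  simp [graft, hts]

theorem graft_id (s : Bool) : graft E s (fun ρ => E (s :: ρ)) = E := by
  funext π
  rcases π with _ | ⟨t, ρ⟩
  · rfl
  · by_cases hts : t = s
    · subst hts; simp
    · exact graft_ne hts _ _

theorem graft_update (s : Bool) (X : Λ.Dat) (π : Path) (v : Λ.Cd × Λ.Hm) :
    graft E s (Function.update X π v) = Function.update (graft E s X) (s :: π) v := by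
  funext σ
  rcases σ with _ | ⟨t, ρ⟩
  · simp
  · by_cases hts : t = s
    · subst hts
      by_cases hρ : ρ = π
      · subst hρ; simp
      · simp [hρ]
    · rw [graft_ne hts, Function.update_of_ne (by simp [hts]), graft_ne hts]

theorem tm_graft {s : Bool} {X Y : Λ.Dat} (hm : Λ.TM (tree h) (fun ρ => S (s :: ρ)) X Y) :
    Λ.TM (tree (h + 1)) S (graft E s X) (graft E s Y) := by
  rcases hm with ⟨π, e, h1, h2, rfl⟩ | ⟨π, t, e, e', h1, h2, rfl⟩ | ⟨π, t, l, g, e, h1, h2, rfl⟩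
  · refine Or.inl ⟨s :: π, e, ?_, by simpa using h2, by simp [graft_update]⟩
    simpa [tree] using h1
  · refine Or.inr (Or.inl ⟨s :: π, t, e, e', ?_, by simpa using h2, by simp [graft_update]⟩)
    simpa [tree] using h1
  · refine Or.inr (Or.inr ⟨s :: π, t, s :: l, g, e, ?_, by simpa using h2,
      by simp [graft_update]⟩)
    simpa [tree] using h1

theorem con_graft {s : Bool} {X Y : Λ.Dat} (hm : Λ.Con (tree h) (fun ρ => S (s :: ρ)) X Y) :
    Λ.Con (tree (h + 1)) S (graft E s X) (graft E s Y) := by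
  induction hm with
  | rel a b h => exact (tm_graft h).con
  | refl => exact Lay.Con.refl _
  | symm a b _ ih => exact ih.symm
  | trans a b c _ _ ih1 ih2 => exact ih1.trans ih2

theorem tb_lift {s : Bool} (hb : Λ.TB (tree h) (fun ρ => S (s :: ρ)) (fun ρ => E (s :: ρ))) :
    Λ.TB (tree (h + 1)) S E := by
  rcases hb with ⟨π, h1, h2⟩ | ⟨π, t, h1, h2⟩ | ⟨π, t, l, h1, h2⟩ | ⟨π, h1, h2⟩
  · exact Or.inl ⟨s :: π, by simpa [tree] using h1, h2⟩
  · exact Or.inr (Or.inl ⟨s :: π, t, by simpa [tree] using h1, h2⟩)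
  · exact Or.inr (Or.inr (Or.inl ⟨s :: π, t, s :: l, by simpa [tree] using h1, h2⟩))
  · exact Or.inr (Or.inr (Or.inr ⟨s :: π, by simpa [tree] using h1, h2⟩))

/-! ### the root letter -/

variable {b b' b0 : Lt Λ} {e e0 e' : Λ.Cd} {loc loc' : Option (Cargo Λ)} {s : Bool} {c : Cargo Λ}

theorem top_cd (ht : Top b e loc st) (hc : b.cd = some e0) : e0 = e := by
  unfold Top at ht
  aesop

theorem top_congr (ht : Top b e loc st) (h1 : b'.st = b.st) (h2 : b'.hd = b.hd)
    (h3 : b'.cd = b.cd) : Top b' e loc st := by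
  unfold Top at ht ⊢
  rw [h1, h2, h3]
  exact ht

theorem top_set (ht : Top b e loc st) (hc : b.cd = some e0) (h1 : b'.st = b.st)
    (h2 : b'.hd = b.hd) (h3 : b'.cd = some e') : Top b' e' loc st := by
  unfold Top at ht ⊢
  rw [h1, h2, h3]
  rw [hc] at ht
  rcases ht with ⟨a, -, c⟩ | ⟨c, a, -, d⟩ | ⟨c, a1, a2, a3, a4, ⟨a5, -⟩ | ⟨-, a5⟩⟩ |
    ⟨c, a1, a2, -, a4⟩ | ⟨chi, a1, a2, ⟨-, a3⟩ | ⟨a3, -⟩⟩ | ⟨a1, -, a2⟩
  · exact Or.inl ⟨a, rfl, c⟩
  · exact Or.inr (Or.inl ⟨c, a, rfl, d⟩)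
  · exact Or.inr (Or.inr (Or.inl ⟨c, a1, a2, a3, a4, Or.inl ⟨a5, rfl⟩⟩))
  · cases a5
  · exact Or.inr (Or.inr (Or.inr (Or.inl ⟨c, a1, a2, rfl, a4⟩)))
  · exact Or.inr (Or.inr (Or.inr (Or.inr (Or.inl ⟨chi, a1, a2, Or.inl ⟨rfl, a3⟩⟩))))
  · cases a3
  · exact Or.inr (Or.inr (Or.inr (Or.inr (Or.inr ⟨a1, rfl, a2⟩))))

theorem top_dock {chi : Bool} (ht : Top b e loc (Sts.dock chi true)) : b.cd = none := by
  unfold Top at ht
  aesop

theorem fv_dock {chi : Bool} (hf : FV w h p S E (Sts.dock chi true)) : (w p).cd = none := by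
  cases h with
  | zero => exact top_dock hf.2.2.2.2
  | succ h =>
    obtain ⟨-, -, -, loc, sc, ht, -⟩ := hf
    exact top_dock ht

theorem top_undep (ht : Top b e (some c) st) (hd : Dep b0 s c b) : Top b0 e loc' st := by
  obtain ⟨e1, h0, ⟨h1, h2, h3, h4, rfl⟩ | ⟨h1, h2, h3, h4, rfl⟩ | ⟨h1, rfl⟩⟩ := hd
  · refine Or.inl ⟨h1, ?_⟩
    unfold Top at ht
    aesop
  · refine Or.inl ⟨h1, ?_⟩
    unfold Top at ht
    aesop
  · refine Or.inr (Or.inl ⟨c, h1, ?_⟩)
    unfold Top at ht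
    aesop

theorem top_dep (ht : Top b0 e loc st) (hd : Dep b0 s c b) : Top b e (some c) st := by
  obtain ⟨e1, h0, ⟨h1, h2, h3, h4, rfl⟩ | ⟨h1, h2, h3, h4, rfl⟩ | ⟨h1, rfl⟩⟩ := hd
  · have : b0.cd = some e ∧ st = Sts.free := by
      unfold Top at ht
      aesop
    exact Or.inr (Or.inr (Or.inl ⟨c, rfl, by rw [h2], h3.trans h2, this.2,
      Or.inl ⟨h4, this.1⟩⟩))
  · have : b0.cd = some e ∧ st = Sts.free := by
      unfold Top at ht
      aesop
    obtain rfl : e1 = e := Option.some.inj (h0.symm.trans this.1)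
    exact Or.inr (Or.inr (Or.inl ⟨c, rfl, by rw [h2], h3.trans h2, this.2, Or.inr ⟨h4, rfl⟩⟩))
  · have : b0.cd = some e ∧ st = Sts.carry c := by
      unfold Top at ht
      aesop
    by_cases hs : s = b0.st.par
    · exact Or.inr (Or.inr (Or.inr (Or.inl ⟨c, rfl, by simp [hs], this.1, this.2⟩)))
    · refine Or.inr (Or.inr (Or.inr (Or.inr (Or.inr ⟨?_, this.1, Or.inl ⟨c, rfl, this.2⟩⟩))))
      have : s = !b0.st.par := Bool.eq_not.2 hs
      simp [this]

theorem top_exists_dep (ht : Top b e (some c) st) (ha : b.away s) : ∃ b0, Dep b0 s c b := by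
  obtain ⟨x, hx⟩ := ha
  obtain ⟨bs, bc, bh, bd, bp⟩ := b
  dsimp only at hx
  subst hx
  unfold Top at ht
  dsimp only at ht
  rcases ht with ⟨a, -⟩ | ⟨c, a, -⟩ | ⟨c', a1, a2, a3, a4, ⟨a5, a6⟩ | ⟨a5, a6⟩⟩ |
    ⟨c', a1, a2, a3, a4⟩ | ⟨chi, a1, -⟩ | ⟨a1, a2, -⟩
  · cases a
  · cases a
  · cases a1
    obtain ⟨rfl, rfl⟩ := Hd.A.inj a2
    exact ⟨⟨bs, bc, bh, Hd.I, bp⟩, e, a6, Or.inl ⟨rfl, rfl, a3, a5, rfl⟩⟩
  · cases a1
    obtain ⟨rfl, rfl⟩ := Hd.A.inj a2
    cases a6
    exact ⟨⟨bs, some e, bh, Hd.I, bp⟩, e, rfl, Or.inr (Or.inl ⟨rfl, rfl, a3, a5, rfl⟩)⟩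
  · cases a1
    obtain ⟨rfl, rfl⟩ := Hd.A.inj a2
    exact ⟨⟨bs, bc, bh, Hd.H c, bp⟩, e, a3, Or.inr (Or.inr ⟨rfl, by simp⟩)⟩
  · cases a1
  · obtain ⟨rfl, rfl⟩ := Hd.A.inj a1
    exact ⟨⟨bs, bc, bh, Hd.H c, bp⟩, e, a2, Or.inr (Or.inr ⟨rfl, by simp⟩)⟩

theorem dep_st (hd : Dep b0 s c b) : b.st = b0.st ∧ b.hm = b0.hm ∧ b.pt = b0.pt ∧
    (∀ t, b.away t ↔ t = s) ∧ ∀ t, ¬ b0.away t := by
  obtain ⟨e1, h0, ⟨h1, h2, h3, h4, rfl⟩ | ⟨h1, h2, h3, h4, rfl⟩ | ⟨h1, rfl⟩⟩ := hd <;>
    simp [Lt.away, h1, eq_comm]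

theorem side_congr {sc : St} {ec : Λ.Cd} (hs : Side b s sc ec st loc) (h1 : b'.hd = b.hd)
    (h2 : b'.pt s = b.pt s) : Side b' s sc ec st loc := by
  unfold Side Lt.away at hs ⊢
  rw [h1, h2]
  exact hs

theorem side_home {sc : St} {ec : Λ.Cd} (hs : Side b s sc ec st loc) (h0 : ¬ b.away s)
    (h1 : ¬ b'.away s) (h2 : b'.pt s = b.pt s) : Side b' s sc ec st loc' := by
  rcases hs with ⟨a, -⟩ | ⟨-, a⟩
  · exact absurd a h0
  · exact Or.inr ⟨h1, h2 ▸ a⟩

theorem side_data {sc : St} {ec ec' : Λ.Cd} (hs : Side b s sc ec st loc)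
    (h0 : ∀ chi, st = Sts.dock chi true → ec' = ec) : Side b s sc ec' st loc := by
  rcases hs with a | ⟨a, a' | a' | ⟨chi, a1, a2⟩⟩
  · exact Or.inl a
  · exact Or.inr ⟨a, Or.inl a'⟩
  · exact Or.inr ⟨a, Or.inr (Or.inl a')⟩
  · exact Or.inr ⟨a, Or.inr (Or.inr ⟨chi, h0 chi a2 ▸ a1, a2⟩)⟩

theorem side_mail {sc sc0 : St} {ec ec0 : Λ.Cd} {chi : Bool} (hs : Side b s sc ec st loc)
    (h0 : b.pt s = some (some (sc0, ec0), chi)) :
    ¬ b.away s ∧ sc0 = sc ∧ ec0 = ec ∧ st = Sts.dock chi true := by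
  unfold Side at hs
  aesop

/-- what a receiving root tells about the status of the child -/
theorem side_emit {sc : St} {ec : Λ.Cd} (hs : Side b s sc ec st loc) (hp : sc.par = !s)
    (hi : In b' s c b) : ∃ st0, EmitR sc ec st0 (!s) c st ∧
      ((Dock b' s c b ∧ st0 = Sts.free) ∨ (NodeOut b s c b' ∧ st0 = Sts.carry c)) := by
  rcases hi with hd | hn
  · refine ⟨Sts.free, Or.inl ⟨hp.symm, rfl, hd.2.2.2.1, ?_⟩, Or.inl ⟨hd, rfl⟩⟩
    obtain ⟨-, -, -, -, rfl⟩ := hd
    unfold Side at hs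
    aesop
  · refine ⟨Sts.carry c, Or.inr (Or.inl ⟨hp.symm, rfl, ?_⟩), Or.inr ⟨hn, rfl⟩⟩
    have := hn.2.1
    unfold Side at hs
    aesop

/-! ### positions -/

theorem two_pow_pos (h : ℕ) : (0 : ℤ) < 2 ^ h := by positivity

theorem bl_child (h : ℕ) (p : ℤ) (s : Bool) : bl h (p + sg s * 2 ^ h) (!s) = p + sg s := by
  cases s <;> (simp [bl, sg]; try ring)

theorem upd_out (hf : FV w h p S E st) {i : ℤ} (hi : i ≤ p - 2 ^ h ∨ p + 2 ^ h ≤ i) (x : Lt Λ) :
    FV (Function.update w i x) h p S E st :=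
  hf.transl fun j h1 h2 => Function.update_of_ne (by omega) _ _

theorem upd_root {s : Bool} (hf : FV w h (p + sg s * 2 ^ h) S E st) (x : Lt Λ) :
    FV (Function.update w p x) h (p + sg s * 2 ^ h) S E st :=
  upd_out hf (by cases s <;> simp [sg]) x

theorem sg_ne (p : ℤ) (s : Bool) : p ≠ p + sg s := by cases s <;> simp [sg]

theorem upd_other {s t : Bool} (hts : t ≠ s) (hf : FV w h (p + sg t * 2 ^ h) S E st) {i : ℤ}
    (hi : p + sg s * 2 ^ h - 2 ^ h < i ∧ i < p + sg s * 2 ^ h + 2 ^ h) (x : Lt Λ) :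
    FV (Function.update w i x) h (p + sg t * 2 ^ h) S E st := by
  refine upd_out hf ?_ x
  cases s <;> cases t <;> simp [sg] at hts hi ⊢ <;> omega

theorem upd_leaf {s t : Bool} (hts : t ≠ s) (hf : FV w h (p + sg t * 2 ^ h) S E st) (x : Lt Λ) :
    FV (Function.update w (p + sg s) x) h (p + sg t * 2 ^ h) S E st := by
  refine upd_other hts hf ?_ x
  have := two_pow_pos h
  cases s <;> simp [sg] <;> omega

/-- change of the data of a node which is at home -/
theorem set_cd (hf : FV w h p S E st) (π : Path) (hπ : π.length ≤ h) {x : Lt Λ}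
    (hc : (w (pos h p π)).cd = some e0) (h1 : x.st = (w (pos h p π)).st)
    (h2 : x.hm = (w (pos h p π)).hm) (h3 : x.hd = (w (pos h p π)).hd)
    (h4 : x.pt = (w (pos h p π)).pt) (h5 : x.cd = some e') :
    FV (Function.update w (pos h p π) x) h p S (Function.update E π (e', (E π).2)) st := by
  induction h generalizing p S E st π with
  | zero =>
    obtain rfl : π = [] := List.length_eq_zero_iff.1 (by omega)
    obtain ⟨a1, a2, a3, a4, a5⟩ := hf
    simp only [pos] at *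
    refine ⟨by simp [h1, a1], by simp [h2, a2], a3, by simp [h4, a4], ?_⟩
    simpa using top_set a5 hc h1 h3 h5
  | succ h ih =>
    obtain ⟨a1, a2, a3, loc, sc, ht, hs⟩ := hf
    rcases π with _ | ⟨s, ρ⟩
    · simp only [pos] at *
      refine ⟨by simp [h1, a1], by simp [h2, a2], a3, loc, sc, ?_, fun s => ⟨(hs s).1, ?_, ?_⟩⟩
      · simpa using top_set ht hc h1 h3 h5
      · simpa using side_congr (hs s).2.1 h3 (by rw [h4])
      · simpa using upd_root (hs s).2.2 x
    · simp only [pos] at *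
      have hρ : ρ.length ≤ h := by simpa using hπ
      have hb := pos_bound h (p + sg s * 2 ^ h) ρ hρ
      have hpos := two_pow_pos (h - ρ.length)
      have hne : p ≠ pos h (p + sg s * 2 ^ h) ρ := by
        cases s <;> simp [sg] at hb ⊢ <;> omega
      refine ⟨by simp [hne, a1], by simp [hne, a2], a3, loc, sc, by simpa [hne] using ht,
        fun t => ⟨(hs t).1, ?_, ?_⟩⟩
      · rw [Function.update_of_ne hne]
        refine side_data (hs t).2.1 fun chi hchi => ?_
        by_cases hh : [t] = s :: ρ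
        · obtain ⟨rfl, rfl⟩ : t = s ∧ [] = ρ := by simpa using hh
          have := fv_dock (hchi ▸ (hs t).2.2)
          cases h <;> simp_all [pos]
        · rw [Function.update_of_ne hh]
      · by_cases hts : t = s
        · subst hts
          have := ih (hs t).2.2 ρ hρ hc h1 h2 h3 h4
          refine this.congr (fun _ _ => rfl) fun σ _ => ?_
          by_cases hσ : σ = ρ
          · subst hσ; simp
          · simp [hσ]
        · refine (upd_other hts (hs t).2.2 ⟨by omega, by omega⟩ x).congr (fun _ _ => rfl)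
            fun σ _ => ?_
          simp [hts]

/-- a step in either direction -/
def SStep (lo hi : ℤ) (w w' : ℤ → Lt Λ) : Prop :=
  (∃ (i : ℤ) (y : Lt Λ), lo ≤ i ∧ i < hi ∧ ((ferry Λ).R1 (w i) y ∨ (ferry Λ).R1 y (w i)) ∧
    w' = Function.update w i y) ∨
  ∃ (i : ℤ) (x y : Lt Λ), lo ≤ i ∧ i + 1 < hi ∧
    ((ferry Λ).R2 (w i) (w (i + 1)) x y ∨ (ferry Λ).R2 x y (w i) (w (i + 1))) ∧
    w' = Function.update (Function.update w i x) (i + 1) y

theorem upd_back {α : Type} (u : ℤ → α) (i : ℤ) (x y : α) :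
    u = Function.update (Function.update (Function.update (Function.update u i x) (i + 1) y) i
      (u i)) (i + 1) (u (i + 1)) := by
  funext j
  by_cases h1 : j = i + 1
  · subst h1; simp
  · by_cases h2 : j = i
    · subst h2; simp
    · simp [h1, h2]

theorem sstep_of {lo hi : ℤ} (hs : (ferry Λ).Step lo hi w w' ∨ (ferry Λ).Step lo hi w' w) :
    SStep lo hi w w' := by
  rcases hs with (⟨i, x, a, b, c, d⟩ | ⟨i, x, y, a, b, c, d⟩) |
    (⟨i, x, a, b, c, d⟩ | ⟨i, x, y, a, b, c, d⟩)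
  · exact Or.inl ⟨i, x, a, b, Or.inl c, d⟩
  · exact Or.inr ⟨i, x, y, a, b, Or.inl c, d⟩
  · change Lt Λ at x
    change w = Function.update w' i x at d
    subst d
    refine Or.inl ⟨i, w' i, a, b, Or.inr ?_, by simp⟩
    rw [Function.update_self]
    exact c
  · change Lt Λ at x y
    change w = Function.update (Function.update w' i x) (i + 1) y at d
    subst d
    refine Or.inr ⟨i, w' i, w' (i + 1), a, b, Or.inr ?_, upd_back w' i x y⟩
    rw [Function.update_self, Function.update_of_ne (by omega), Function.update_self]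
    exact c

/-- the conclusion of the strengthened step lemma -/
def Good (w w' : ℤ → Lt Λ) (h : ℕ) (p : ℤ) (S : Path → St) (E : Λ.Dat) (st : Sts Λ) : Prop :=
  ∃ E', FV w' h p S E' st ∧ Λ.Con (tree h) S E E' ∧ ((w p).cd = none → (E' []).1 = (E []).1)

theorem pos_nil (h : ℕ) (p : ℤ) : pos h p [] = p := by cases h <;> rfl

/-- a move at one node -/
theorem good_lm (hf : FV w h p S E st) {y : Lt Λ} (hc : (w p).cd = some e0) (h1 : y.st = (w p).st)
    (h2 : y.hm = (w p).hm) (h3 : y.hd = (w p).hd) (h4 : y.pt = (w p).pt) (h5 : y.cd = some e')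
    (hm : Λ.LM (w p).st e0 e' ∨ Λ.LM (w p).st e' e0) :
    Good w (Function.update w p y) h p S E st := by
  have hl := hf.letter [] (Nat.zero_le _)
  have := set_cd (e0 := e0) (e' := e') (x := y) hf [] (Nat.zero_le _)
  rw [pos_nil] at hl this
  refine ⟨_, this hc h1 h2 h3 h4 h5, ?_, fun h => by simp [hc] at h⟩
  obtain rfl := hl.2.2 _ hc
  rw [hl.1] at hm
  rcases hm with hm | hm
  · exact Lay.TM.con (Or.inl ⟨[], e', Nat.zero_le _, hm, rfl⟩)
  · exact (Lay.TM.con (Or.inl ⟨[], (E []).1, Nat.zero_le _, by simpa using hm, by simp⟩)).symm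

/-- a move on an edge -/
theorem good_em (hf : FV w (h + 1) p S E st) {y : Lt Λ} {sc0 : St} {ec ec' : Λ.Cd} {chi : Bool}
    (hc : (w p).cd = some e0) (h1 : y.st = (w p).st)
    (h2 : y.hm = (w p).hm) (h3 : y.hd = (w p).hd) (h4 : ∀ t, t ≠ s → y.pt t = (w p).pt t)
    (h5 : y.cd = some e') (h6 : (w p).pt s = some (some (sc0, ec), chi))
    (h7 : y.pt s = some (some (sc0, ec'), chi))
    (hm : Λ.EM sc0 ec (w p).st e0 ec' e' ∨ Λ.EM sc0 ec' (w p).st e' ec e0) :
    Good w (Function.update w p y) (h + 1) p S E st := by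
  obtain ⟨a1, a2, a3, loc, sc, ht, hs⟩ := hf
  obtain ⟨b1, rfl, rfl, b4⟩ := side_mail (hs s).2.1 h6
  obtain rfl := top_cd ht hc
  refine ⟨Function.update (Function.update E [s] (ec', (E [s]).2)) [] (e', (E []).2),
    ⟨by simp [h1, a1], by simp [h2, a2], a3, loc, sc, ?_, fun t => ⟨(hs t).1, ?_, ?_⟩⟩, ?_,
    fun h => by simp [hc] at h⟩
  · simpa using top_set ht hc h1 h3 h5
  · by_cases hts : t = s
    · subst hts
      refine Or.inr ⟨by simpa [Lt.away, h3] using b1, Or.inr (Or.inr ⟨chi, ?_, b4⟩)⟩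
      simpa using h7
    · simpa [hts] using side_congr (hs t).2.1 h3 (h4 t hts)
  · refine upd_root ?_ y
    by_cases hts : t = s
    · subst hts
      have h0 := (hs t).2.2
      rw [b4] at h0 ⊢
      refine (h0.root_free ec').congr (fun _ _ => rfl) fun σ _ => ?_
      by_cases hσ : σ = []
      · subst hσ; simp
      · simp [hσ]
    · exact (hs t).2.2.congr (fun _ _ => rfl) fun σ _ => by simp [hts]
  · rw [a1] at hm
    rcases hm with hm | hm
    · exact Lay.TM.con (Or.inr (Or.inl ⟨[], s, ec', e', Nat.succ_pos _, hm, rfl⟩))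
    · refine (Lay.TM.con (Or.inr (Or.inl ⟨[], s, (E [s]).1, (E []).1, Nat.succ_pos _,
        by simpa using hm, funext fun σ => ?_⟩))).symm
      by_cases h1 : σ = []
      · subst h1; simp
      · by_cases h2 : σ = [s]
        · subst h2; simp
        · simp [h1, h2]

theorem good_r1 (hf : FV w h p S E st) {y : Lt Λ}
    (hr : (ferry Λ).R1 (w p) y ∨ (ferry Λ).R1 y (w p)) :
    Good w (Function.update w p y) h p S E st := by
  rcases hr with ⟨e, he, ⟨e', hm, rfl⟩ | ⟨s, sc, ec, chi, ec', e', hp, hm, rfl⟩⟩ |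
    ⟨e, he, ⟨e', hm, hw⟩ | ⟨s, sc, ec, chi, ec', e', hp, hm, hw⟩⟩
  · exact good_lm hf he rfl rfl rfl rfl rfl (Or.inl hm)
  · cases h with
    | zero => simp [hf.2.2.2.1] at hp
    | succ h =>
      exact good_em hf he rfl rfl rfl (fun t ht => by simp [ht]) rfl hp (by simp) (Or.inl hm)
  · exact good_lm (e0 := e') hf (by rw [hw]) (by rw [hw]) (by rw [hw]) (by rw [hw]) (by rw [hw])
      he (Or.inr (by rw [hw]; exact hm))
  · have hq : (w p).pt s = some (some (sc, ec'), chi) := by rw [hw]; simp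
    cases h with
    | zero => simp [hf.2.2.2.1] at hq
    | succ h =>
      exact good_em (e0 := e') hf (by rw [hw]) (by rw [hw]) (by rw [hw]) (by rw [hw])
        (fun t ht => by rw [hw]; simp [ht]) he hq hp (Or.inr (by rw [hw]; exact hm))

theorem pos_leaf (h : ℕ) (p : ℤ) (s : Bool) :
    pos (h + 1) p (s :: List.replicate h (!s)) = p + sg s := by
  rw [pos, pos_replicate, bl_child]

/-- a move between a node and the leaf next to it -/
theorem good_hm (hf : FV w (h + 1) p S E st) {l' : Lt Λ} {g : Λ.Hm}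
    (hc : (w (p + sg s)).cd = some e0) (h1 : l'.st = (w (p + sg s)).st)
    (h2 : l'.hm = (w (p + sg s)).hm) (h3 : l'.hd = (w (p + sg s)).hd)
    (h4 : l'.pt = (w (p + sg s)).pt) (h5 : l'.cd = some e')
    (k1 : b'.st = (w p).st) (k2 : b'.hm = g) (k3 : b'.hd = (w p).hd) (k4 : b'.pt = (w p).pt)
    (k5 : b'.cd = (w p).cd)
    (hm : Λ.HM s (w p).st (w p).hm (w (p + sg s)).st e0 g e' ∨
      Λ.HM s (w p).st g (w (p + sg s)).st e' (w p).hm e0) :
    Good w (Function.update (Function.update w (p + sg s) l') p b') (h + 1) p S E st := by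
  have hl := hf.letter (s :: List.replicate h (!s)) (by simp)
  have h0 := set_cd (e0 := e0) (e' := e') (x := l') hf (s :: List.replicate h (!s)) (by simp)
  rw [pos_leaf] at hl h0
  obtain ⟨a1, a2, a3, loc, sc, ht, hs⟩ := h0 hc h1 h2 h3 h4 h5
  rw [Function.update_of_ne (sg_ne p s)] at a1 a2 ht hs
  obtain rfl := hl.2.2 _ hc
  set l := s :: List.replicate h (!s) with hldef
  have hne : [] ≠ l := by simp [hldef]
  rw [Function.update_of_ne hne] at a2 ht
  refine ⟨Function.update (Function.update E l (e', (E l).2)) [] ((E []).1, g),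
    ⟨by simp [k1, a1], by simp [k2], a3, loc, sc, ?_, fun t => ⟨(hs t).1, ?_, ?_⟩⟩, ?_,
    fun _ => by simp⟩
  · simpa using top_congr ht k1 k3 k5
  · simpa using side_congr (hs t).2.1 k3 (by rw [k4])
  · simpa using upd_root (hs t).2.2 b'
  · rw [a1, a2, hl.1] at hm
    have had : (tree (h + 1)).ad [] s l := ⟨Nat.succ_pos _, by simp [hldef]⟩
    rcases hm with hm | hm
    · exact Lay.TM.con (Or.inr (Or.inr ⟨[], s, l, g, e', had, hm, rfl⟩))
    · refine (Lay.TM.con (Or.inr (Or.inr ⟨[], s, l, (E []).2, (E l).1, had,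
        by simpa [hne.symm] using hm, funext fun σ => ?_⟩))).symm
      by_cases h1 : σ = []
      · subst h1; simp
      · by_cases h2 : σ = l
        · subst h2; simp [h1]
        · simp [h1, h2]

/-- rebuilding after a token move between the root and the child on side `s` -/
theorem rebuild {sc : Bool → Sts Λ} {l' : Lt Λ} {st' : Sts Λ} (a1 : b'.st = S [])
    (a2 : b'.hm = (E []).2) (a3 : (S []).leaf = false) (ht : Top b' (E []).1 loc' st)
    (hs : ∀ s, (S [s]).par = !s ∧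
      FV w h (p + sg s * 2 ^ h) (fun ρ => S (s :: ρ)) (fun ρ => E (s :: ρ)) (sc s))
    (h1 : ∀ t, t ≠ s → Side b' t (S [t]) (E [t]).1 (sc t) loc')
    (h2 : Side b' s (S [s]) (E [s]).1 st' loc')
    (h3 : FV (Function.update w (p + sg s) l') h (p + sg s * 2 ^ h) (fun ρ => S (s :: ρ))
      (fun ρ => E (s :: ρ)) st') :
    Good w (Function.update (Function.update w (p + sg s) l') p b') (h + 1) p S E st := by
  refine ⟨E, ⟨by simp [a1], by simp [a2], a3, loc', Function.update sc s st', by simpa using ht,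
    fun t => ⟨(hs t).1, ?_, upd_root ?_ b'⟩⟩, Lay.Con.refl _, fun _ => rfl⟩
  · by_cases hts : t = s
    · subst hts; simpa using h2
    · simpa [hts] using h1 t hts
  · by_cases hts : t = s
    · subst hts; simpa using h3
    · simpa [hts] using upd_leaf hts (hs t).2 l'

theorem good_out (hf : FV w (h + 1) p S E st) {l' : Lt Λ}
    (hl : LeafOut (w (p + sg s)) (!s) c l') (hi : In (w p) s c b') :
    Good w (Function.update (Function.update w (p + sg s) l') p b') (h + 1) p S E st := by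
  obtain ⟨a1, a2, a3, loc, sc, ht, hs⟩ := hf
  have h0 := (hs s).2.2.emit (σ := !s) (c := c) (l' := l')
  rw [bl_child] at h0
  obtain ⟨st', he, hf'⟩ := h0 hl
  have hp := (hs s).1
  have hsd := (hs s).2.1
  rcases hi with ⟨d1, d2, d3, d4, rfl⟩ | ⟨d1, d2, d3⟩
  · refine rebuild a1 a2 a3 (top_congr ht rfl rfl rfl) (fun t => ⟨(hs t).1, (hs t).2.2⟩)
      (fun t hts => side_congr (hs t).2.1 rfl (by simp [hts])) (Or.inr ⟨d2, Or.inr ?_⟩) hf'
    unfold Side at hsd
    unfold EmitR at he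
    aesop
  · obtain ⟨q1, q2, q3, q4, q5⟩ := dep_st d3
    have h1 : loc = some c ∧ st' = Sts.dock (!c.chi) false := by
      have := (q4 s).2 rfl
      unfold Side at hsd
      unfold EmitR at he
      aesop
    obtain ⟨rfl, rfl⟩ := h1
    refine rebuild (loc' := none) (q1.symm.trans a1) (q2.symm.trans a2) a3
      (top_congr (top_undep ht d3) rfl rfl rfl) (fun t => ⟨(hs t).1, (hs t).2.2⟩)
      (fun t hts => side_home (hs t).2.1 (fun h => hts ((q4 t).1 h)) (q5 t) (by simp [q3, hts]))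
      (Or.inr ⟨q5 s, Or.inr (Or.inl ⟨_, d2, rfl⟩)⟩) hf'

theorem exists_enter {st0 st1 : Sts Λ} (hf : FV w h (p + sg s * 2 ^ h) S E st1)
    (he : EmitR (S []) (E []).1 st0 (!s) c st1) : ∃ l0, LeafOut l0 (!s) c (w (p + sg s)) ∧
      FV (Function.update w (p + sg s) l0) h (p + sg s * 2 ^ h) S E st0 := by
  have := hf.enter he fun _ => rfl
  rw [bl_child] at this
  simpa using this

theorem good_in (hf : FV w (h + 1) p S E st) {l' : Lt Λ}
    (hl : LeafOut l' (!s) c (w (p + sg s))) (hi : In b' s c (w p)) :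
    Good w (Function.update (Function.update w (p + sg s) l') p b') (h + 1) p S E st := by
  obtain ⟨a1, a2, a3, loc, sc, ht, hs⟩ := hf
  obtain ⟨st0, he, hc⟩ := side_emit (hs s).2.1 (hs s).1 hi
  obtain ⟨l0, hl0, hf'⟩ := exists_enter (hs s).2.2 he
  obtain rfl := hl.2.left_unique hl0.2
  rcases hc with ⟨⟨d1, d2, d3, d4, d5⟩, rfl⟩ | ⟨⟨d1, d2, d3⟩, rfl⟩
  · rw [d5] at a1 a2 ht
    refine rebuild a1 a2 a3 (top_congr ht rfl rfl rfl) (fun t => ⟨(hs t).1, (hs t).2.2⟩)
      (fun t hts => side_congr (hs t).2.1 (by rw [d5]) (by rw [d5]; simp [hts]))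
      (Or.inr ⟨d2, Or.inl ⟨d3, rfl⟩⟩) hf'
  · obtain ⟨q1, q2, q3, q4, q5⟩ := dep_st d3
    refine rebuild (loc' := some c) (q1.trans a1) (q2.trans a2) a3
      (top_dep (by exact top_congr ht rfl rfl rfl) d3) (fun t => ⟨(hs t).1, (hs t).2.2⟩)
      (fun t hts => side_home (hs t).2.1 (q5 t) (fun h => hts ((q4 t).1 h)) (by simp [q3, hts]))
      (Or.inl ⟨(q4 s).2 rfl, by simp [q3], Or.inl ⟨c, rfl, rfl⟩⟩) hf'

theorem good_rs (hf : FV w (h + 1) p S E st) {l' : Lt Λ}
    (hr : Rs (w p) s (w (p + sg s)) b' l' ∨ Rs b' s l' (w p) (w (p + sg s))) :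
    Good w (Function.update (Function.update w (p + sg s) l') p b') (h + 1) p S E st := by
  rcases hr with (⟨c, h1, h2⟩ | ⟨-, -, e, g, e', h1, h2, rfl, rfl⟩) |
    (⟨c, h1, h2⟩ | ⟨-, -, e, g, e', h1, h2, h3, h4⟩)
  · exact good_out hf h1 h2
  · exact good_hm hf h1 rfl rfl rfl rfl rfl rfl rfl rfl rfl rfl (Or.inl h2)
  · exact good_in hf h1 h2
  · exact good_hm (e0 := e') hf (by rw [h4]) (by rw [h4]) (by rw [h4]) (by rw [h4]) (by rw [h4])
      h1 (by rw [h3]) rfl (by rw [h3]) (by rw [h3]) (by rw [h3]) (Or.inr (by rw [h3, h4]; exact h2))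

theorem rs_leaf {l l' : Lt Λ} (hr : Rs b s l b' l') : l.st.leaf = true ∧ l'.st.leaf = true := by
  rcases hr with ⟨c, h1, -⟩ | ⟨-, h0, e, g, e', h1, h2, rfl, rfl⟩
  · exact ⟨h1.1, (dep_st h1.2).1 ▸ h1.1⟩
  · exact ⟨h0, h0⟩

theorem good_child (hf : FV w (h + 1) p S E st) (s : Bool) (hp : w' p = w p)
    (ho : ∀ i : ℤ, -2 ^ h < i → i < 2 ^ h → w' (p + sg (!s) * 2 ^ h + i) =
      w (p + sg (!s) * 2 ^ h + i))
    (ih : ∀ st0, FV w h (p + sg s * 2 ^ h) (fun ρ => S (s :: ρ)) (fun ρ => E (s :: ρ)) st0 →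
      Good w w' h (p + sg s * 2 ^ h) (fun ρ => S (s :: ρ)) (fun ρ => E (s :: ρ)) st0) :
    Good w w' (h + 1) p S E st := by
  obtain ⟨a1, a2, a3, loc, sc, ht, hs⟩ := hf
  obtain ⟨X, h1, h2, h3⟩ := ih _ (hs s).2.2
  refine ⟨graft E s X, ⟨hp ▸ a1, hp ▸ a2, a3, loc, sc, hp ▸ ht, fun t => ⟨(hs t).1, ?_, ?_⟩⟩, ?_,
    fun _ => rfl⟩
  · rw [hp]
    refine side_data (hs t).2.1 fun chi hchi => ?_
    by_cases hts : t = s
    · subst hts
      rw [graft_self]
      exact h3 (fv_dock (hchi ▸ (hs t).2.2))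
    · rw [graft_ne hts]
  · by_cases hts : t = s
    · subst hts
      simpa using h1
    · obtain rfl : t = !s := Bool.eq_not.2 hts
      exact ((hs _).2.2.transl ho).congr (fun _ _ => rfl) fun σ _ => graft_ne hts _ _
  · have := con_graft (E := E) h2
    rwa [graft_id] at this

theorem good_step (hf : FV w h p S E st) (hs : SStep (p - 2 ^ h + 1) (p + 2 ^ h) w w') :
    Good w w' h p S E st := by
  induction h generalizing p S E st with
  | zero =>
    rcases hs with ⟨i, y, h1, h2, hr, rfl⟩ | ⟨i, x, y, h1, h2, -⟩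
    · obtain rfl : i = p := by omega
      exact good_r1 hf hr
    · omega
  | succ h ih =>
    have hpos := two_pow_pos h
    have hleaf : (w p).st.leaf = false := hf.1 ▸ hf.2.2.1
    rw [pow_succ] at hs
    rcases hs with ⟨i, y, h1, h2, hr, rfl⟩ | ⟨i, x, y, h1, h2, hr, rfl⟩
    · rcases lt_trichotomy i p with hi | rfl | hi
      · refine good_child hf false (Function.update_of_ne (by omega) _ _)
          (fun j _ _ => Function.update_of_ne (by simp [sg]; omega) _ _) fun st0 h0 =>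
            ih h0 (Or.inl ⟨i, y, by simp [sg]; omega, by simp [sg]; omega, hr, rfl⟩)
      · exact good_r1 hf hr
      · refine good_child hf true (Function.update_of_ne (by omega) _ _)
          (fun j _ _ => Function.update_of_ne (by simp [sg]; omega) _ _) fun st0 h0 =>
            ih h0 (Or.inl ⟨i, y, by simp [sg]; omega, by simp [sg]; omega, hr, rfl⟩)
    · rcases lt_trichotomy (i + 1) p with hi | rfl | hi
      · refine good_child hf false ?_ (fun j _ _ => ?_) fun st0 h0 =>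
            ih h0 (Or.inr ⟨i, x, y, by simp [sg]; omega, by simp [sg]; omega, hr, rfl⟩)
        · rw [Function.update_of_ne (by omega), Function.update_of_ne (by omega)]
        · rw [Function.update_of_ne (by simp [sg]; omega),
            Function.update_of_ne (by simp [sg]; omega)]
      · have e : i + 1 + sg false = i := by simp [sg]
        have := good_rs (s := false) (b' := y) (l' := x) hf
        rw [e] at this
        refine this ?_
        rcases hr with (hr | hr) | (hr | hr)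
        · simp [(rs_leaf hr).1] at hleaf
        · exact Or.inl hr
        · simp [(rs_leaf hr).2] at hleaf
        · exact Or.inr hr
      · rcases eq_or_lt_of_le (show p ≤ i by omega) with rfl | hi
        · rw [Function.update_comm (by omega)]
          refine good_rs (s := true) (b' := x) (l' := y) hf ?_
          rcases hr with (hr | hr) | (hr | hr)
          · exact Or.inl hr
          · simp [(rs_leaf hr).1] at hleaf
          · exact Or.inr hr
          · simp [(rs_leaf hr).2] at hleaf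
        · refine good_child hf true ?_ (fun j _ _ => ?_) fun st0 h0 =>
            ih h0 (Or.inr ⟨i, x, y, by simp [sg]; omega, by simp [sg]; omega, hr, rfl⟩)
          · rw [Function.update_of_ne (by omega), Function.update_of_ne (by omega)]
          · rw [Function.update_of_ne (by simp [sg]; omega),
              Function.update_of_ne (by simp [sg]; omega)]

theorem top_z (ht : Top b e loc st) : ¬ (b.cd = none ∧ ∀ s, ¬ b.away s) ∧
    ¬ ∃ s chi, b.hd = Hd.A s chi ∧ s ≠ b.st.par ∧ (chi = true ∨ b.cd = none) := by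
  unfold Top at ht
  unfold Lt.away
  aesop

theorem zero_z1 (hf : FV w h p S E st) (hz : (ferry Λ).Z1 (w p)) : Λ.TB (tree h) S E := by
  have hl := hf.letter [] (Nat.zero_le _)
  rw [pos_nil] at hl
  have ht : ∃ loc, Top (w p) (E []).1 loc st := by
    cases h with
    | zero => exact ⟨_, hf.2.2.2.2⟩
    | succ h =>
      obtain ⟨-, -, -, loc, sc, ht, -⟩ := hf
      exact ⟨_, ht⟩
  obtain ⟨loc0, ht⟩ := ht
  rcases hz with ⟨e, he, hb | ⟨s, sc0, ec, chi, h1, h2⟩⟩ | hb | hb | ⟨s, h1, h2⟩ | ⟨h1, s, h2⟩ | hb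
  · obtain rfl := hl.2.2 _ he
    exact Or.inl ⟨[], Nat.zero_le _, hl.1 ▸ hb⟩
  · obtain rfl := hl.2.2 _ he
    cases h with
    | zero => simp [hf.2.2.2.1] at h1
    | succ h =>
      obtain ⟨a1, -, -, loc, sc, -, hs⟩ := hf
      obtain ⟨-, rfl, rfl, -⟩ := side_mail (hs s).2.1 h1
      exact Or.inr (Or.inl ⟨[], s, Nat.succ_pos _, a1 ▸ h2⟩)
  · exact Or.inr (Or.inr (Or.inr ⟨[], Nat.zero_le _, hl.1 ▸ hl.2.1 ▸ hb⟩))
  · exact absurd hb (top_z ht).1
  · cases h with
    | zero => exact absurd (hf.2.2.2.1 s) h2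
    | succ h =>
      obtain ⟨-, -, -, loc, sc, -, hs⟩ := hf
      rcases (hs s).2.1 with a | a
      · exact absurd a.2.1 h2
      · exact absurd h1 a.1
  · cases h with
    | zero => exact absurd (hf.2.2.2.1 s) h2
    | succ h => simp [hf.1, hf.2.2.1] at h1
  · exact absurd hb (top_z ht).2

theorem leaf_child (hf : FV w (h + 1) p S E st) (s : Bool) : (w (p + sg s)).st.leaf = true := by
  have hl := hf.letter (s :: List.replicate h (!s)) (by simp)
  rw [pos_leaf] at hl
  rw [hl.1]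
  exact (hf.shape.leaf _ (by simp)).2 (by simp)

theorem zero_zs (hf : FV w (h + 1) p S E st) (hz : Zs (w p) s (w (p + sg s))) :
    Λ.TB (tree (h + 1)) S E := by
  have hl := hf.letter (s :: List.replicate h (!s)) (by simp)
  rw [pos_leaf] at hl
  have hlf := leaf_child hf s
  obtain ⟨a1, a2, a3, loc, sc, ht, hs⟩ := hf
  have hp := (hs s).1
  have hsd := (hs s).2.1
  rcases hz with hz | ⟨-, -, hz | ⟨c, l', h1, h2⟩ | ⟨c, b', h1, h2⟩ | ⟨e, h1, h2⟩⟩
  · simp [a1, a3, hlf] at hz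
  · refine absurd ?_ hz
    have h0 := (hs s).2.2.away_iff (!s)
    rw [bl_child] at h0
    rw [h0]
    unfold Side at hsd
    aesop
  · refine absurd ?_ h2
    have h0 := (hs s).2.2.emit (σ := !s) (c := c) (l' := l')
    rw [bl_child] at h0
    obtain ⟨st', he, -⟩ := h0 h1
    rcases he with ⟨-, e1, e2, -⟩ | ⟨-, e1, -⟩ | ⟨e1, -⟩
    · have : ¬ (w p).away s ∧ (w p).pt s = none := by
        unfold Side at hsd
        aesop
      exact ⟨_, Or.inl ⟨a1 ▸ a3, this.1, this.2, e2, rfl⟩⟩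
    · have : (w p).away s ∧ (w p).pt s = none ∧ loc = some c := by
        unfold Side at hsd
        aesop
      obtain ⟨b0, hb0⟩ := top_exists_dep (this.2.2 ▸ ht) this.1
      obtain ⟨q1, -, q3, -⟩ := dep_st hb0
      refine ⟨⟨b0.st, b0.cd, b0.hm, b0.hd, Function.update b0.pt s (some (none, !c.chi))⟩,
        Or.inr ⟨q1 ▸ a1 ▸ a3, by simp, ?_⟩⟩
      have e : Function.update b0.pt s none = b0.pt := by
        rw [← q3, ← this.2.1, Function.update_eq_self]
      simpa [e] using hb0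
    · simp [hp] at e1
  · refine absurd ?_ h2
    obtain ⟨st0, he, -⟩ := side_emit hsd hp h1
    obtain ⟨l0, hl0, -⟩ := exists_enter (hs s).2.2 he
    exact ⟨l0, hl0⟩
  · obtain rfl := hl.2.2 _ h1
    exact Or.inr (Or.inr (Or.inl ⟨[], s, s :: List.replicate h (!s), ⟨Nat.succ_pos _, by simp⟩,
      a1 ▸ a2 ▸ hl.1 ▸ h2⟩))

theorem zs_leaf {l : Lt Λ} (hz : Zs l s b) (hl : l.st.leaf = true) (hb : b.st.leaf = false) :
    False := by
  rcases hz with hz | ⟨hz, -⟩ <;> simp_all

end FerB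

open FerB

theorem FV.step (hf : FV w h p S E st)
    (hs : (ferry Λ).Step (p - 2 ^ h + 1) (p + 2 ^ h) w w' ∨
      (ferry Λ).Step (p - 2 ^ h + 1) (p + 2 ^ h) w' w) :
    ∃ E', FV w' h p S E' st ∧ Λ.Con (tree h) S E E' :=
  have ⟨E', h1, h2, _⟩ := good_step hf (sstep_of hs)
  ⟨E', h1, h2⟩

theorem FV.zero (hf : FV w h p S E st) (hz : (ferry Λ).Zero (p - 2 ^ h + 1) (p + 2 ^ h) w) :
    Λ.TB (tree h) S E := by
  induction h generalizing p S E st with
  | zero =>
    rcases hz with ⟨i, h1, h2, hr⟩ | ⟨i, h1, h2, -⟩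
    · obtain rfl : i = p := by omega
      exact zero_z1 hf hr
    · omega
  | succ h ih =>
    have hpos := two_pow_pos h
    have hleaf : (w p).st.leaf = false := hf.1 ▸ hf.2.2.1
    have key : ∀ s, (ferry Λ).Zero (p + sg s * 2 ^ h - 2 ^ h + 1) (p + sg s * 2 ^ h + 2 ^ h) w →
        Λ.TB (tree (h + 1)) S E := fun s hz => by
      obtain ⟨-, -, -, loc, sc, -, hs⟩ := hf
      exact tb_lift (ih (hs s).2.2 hz)
    rw [pow_succ] at hz
    rcases hz with ⟨i, h1, h2, hr⟩ | ⟨i, h1, h2, hr⟩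
    · rcases lt_trichotomy i p with hi | rfl | hi
      · exact key false (Or.inl ⟨i, by simp [sg]; omega, by simp [sg]; omega, hr⟩)
      · exact zero_z1 hf hr
      · exact key true (Or.inl ⟨i, by simp [sg]; omega, by simp [sg]; omega, hr⟩)
    · rcases lt_trichotomy (i + 1) p with hi | rfl | hi
      · exact key false (Or.inr ⟨i, by simp [sg]; omega, by simp [sg]; omega, hr⟩)
      · have e : i + 1 + sg false = i := by simp [sg]
        have h0 := leaf_child hf false
        have := zero_zs (s := false) hf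
        rw [e] at this h0
        rcases hr with hr | hr
        · exact (zs_leaf hr h0 hleaf).elim
        · exact this hr
      · rcases eq_or_lt_of_le (show p ≤ i by omega) with rfl | hi
        · rcases hr with hr | hr
          · exact zero_zs (s := true) hf hr
          · exact (zs_leaf hr (leaf_child hf true) hleaf).elim
        · exact key true (Or.inr ⟨i, by simp [sg]; omega, by simp [sg]; omega, hr⟩)

theorem FV.nz (hf : FV w h p S E st) (hn : Λ.NB (tree h) S E) :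
    (ferry Λ).NZ (p - 2 ^ h + 1) (p + 2 ^ h) w := by
  intro w' he hz
  have key : ∀ u v : ℤ → Lt Λ, (ferry Λ).Eqv (p - 2 ^ h + 1) (p + 2 ^ h) u v →
      (∀ X, FV u h p S X st → ∃ Y, FV v h p S Y st ∧ Λ.Con (tree h) S X Y) ∧
      (∀ X, FV v h p S X st → ∃ Y, FV u h p S Y st ∧ Λ.Con (tree h) S X Y) := by
    intro u v huv
    induction huv with
    | rel a b h => exact ⟨fun X hX => hX.step (Or.inl h), fun X hX => hX.step (Or.inr h)⟩
    | refl => exact ⟨fun X hX => ⟨X, hX, Lay.Con.refl _⟩, fun X hX => ⟨X, hX, Lay.Con.refl _⟩⟩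
    | symm a b _ ih => exact ih.symm
    | trans a b c _ _ ih1 ih2 =>
      refine ⟨fun X hX => ?_, fun X hX => ?_⟩
      · obtain ⟨Y, h1, h2⟩ := ih1.1 X hX
        obtain ⟨Z, h3, h4⟩ := ih2.1 Y h1
        exact ⟨Z, h3, h2.trans h4⟩
      · obtain ⟨Y, h1, h2⟩ := ih2.2 X hX
        obtain ⟨Z, h3, h4⟩ := ih1.2 Y h1
        exact ⟨Z, h3, h2.trans h4⟩
  obtain ⟨Y, h1, h2⟩ := (key w w' he).1 E hf
  exact hn Y h2 (h1.zero hz)

end Vale.Agent.P192
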