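import Vale.Agent.P192.FerC

/-! Part FerD: completeness of the simulation, and parsing of long nonzero words. -/

namespace Vale.Agent.P192

variable {Λ : Lay} {w : ℤ → Lt Λ} {h : ℕ} {p : ℤ} {S : Path → St} {E E' : Λ.Dat} {hd : Hd Λ}

/-- one step of the simulating system -/
def FStepD (lo hi : ℤ) (w w' : ℤ → Lt Λ) : Prop := (ferry Λ).Step lo hi w w'

/-- equivalence in the simulating system -/
def FEqvD (lo hi : ℤ) (w w' : ℤ → Lt Λ) : Prop := (ferry Λ).Eqv lo hi w w'

theorem FStepD.eqv {lo hi : ℤ} {w w' : ℤ → Lt Λ} (a : FStepD lo hi w w') : FEqvD lo hi w w' :=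
  Sys.Step.eqv a

theorem FEqvD.refl (lo hi : ℤ) (w : ℤ → Lt Λ) : FEqvD lo hi w w := Sys.Eqv.refl _ _ _

theorem FEqvD.symm {lo hi : ℤ} {w w' : ℤ → Lt Λ} (a : FEqvD lo hi w w') : FEqvD lo hi w' w :=
  Sys.Eqv.symm a

theorem FEqvD.trans {lo hi : ℤ} {w w' w'' : ℤ → Lt Λ} (a : FEqvD lo hi w w')
    (b : FEqvD lo hi w' w'') : FEqvD lo hi w w'' := Sys.Eqv.trans a b

theorem FEqvD.mono {lo hi lo' hi' : ℤ} {w w' : ℤ → Lt Λ} (a : FEqvD lo hi w w') (h1 : lo' ≤ lo)
    (h2 : hi ≤ hi') : FEqvD lo' hi' w w' := Sys.Eqv.mono h1 h2 a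

theorem FEqvD.out {lo hi : ℤ} {w w' : ℤ → Lt Λ} (a : FEqvD lo hi w w') {i : ℤ}
    (hi' : i < lo ∨ hi ≤ i) : w' i = w i := Sys.Eqv.out a hi'

theorem FEqvD.nz {lo hi : ℤ} {w w' : ℤ → Lt Λ} (a : FEqvD lo hi w w') (hn : (ferry Λ).NZ lo hi w) :
    (ferry Λ).NZ lo hi w' := hn.of_eqv a

theorem pos_windowD (h : ℕ) (p : ℤ) (π : Path) (hπ : π.length ≤ h) :
    p - 2 ^ h < pos h p π ∧ pos h p π < p + 2 ^ h := by
  have a := pos_bound h p π hπ
  have b := two_pow_pos' (h - π.length)
  constructor <;> linarith [a.1, a.2]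

theorem pos_injD (h : ℕ) (p : ℤ) {π ρ : Path} (hπ : π.length ≤ h) (hρ : ρ.length ≤ h)
    (he : pos h p π = pos h p ρ) : π = ρ := by
  induction h generalizing p π ρ with
  | zero => rw [List.length_eq_zero_iff.1 (by omega : π.length = 0),
      List.length_eq_zero_iff.1 (by omega : ρ.length = 0)]
  | succ k ih =>
    cases π with
    | nil =>
      cases ρ with
      | nil => rfl
      | cons t ρ =>
        have b := pos_windowD k (p + sg t * 2 ^ k) ρ (by simpa using hρ)
        simp only [pos_nil, pos_cons] at he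
        rw [← he] at b
        cases t <;> simp only [sg_true, sg_false] at b <;> linarith [b.1, b.2]
    | cons s π =>
      have a := pos_windowD k (p + sg s * 2 ^ k) π (by simpa using hπ)
      cases ρ with
      | nil =>
        simp only [pos_nil, pos_cons] at he
        rw [he] at a
        cases s <;> simp only [sg_true, sg_false] at a <;> linarith [a.1, a.2]
      | cons t ρ =>
        have b := pos_windowD k (p + sg t * 2 ^ k) ρ (by simpa using hρ)
        simp only [pos_cons] at he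
        by_cases hst : s = t
        · subst hst
          rw [ih _ (by simpa using hπ) (by simpa using hρ) he]
        · rw [he] at a
          generalize pos k (p + sg t * 2 ^ k) ρ = y at a b
          cases s <;> cases t <;> simp only [sg_true, sg_false] at a b
          · exact absurd rfl hst
          · linarith [a.2, b.1]
          · linarith [a.1, b.2]
          · exact absurd rfl hst

theorem Rest.shapeD (hr : Rest w h p S E hd) : Shape h S := by
  induction h generalizing p S E hd with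
  | zero =>
    unfold Rest at hr
    refine ⟨fun π hπ => ?_, fun π s hπ => absurd hπ (by omega)⟩
    obtain rfl := List.length_eq_zero_iff.1 (by omega : π.length = 0)
    simp [hr.2]
  | succ k ih =>
    unfold Rest at hr
    obtain ⟨-, b, c⟩ := hr
    refine ⟨fun π hπ => ?_, fun π s hπ => ?_⟩
    · cases π with
      | nil => simp [b]
      | cons t π => simpa using (ih (c t).2).leaf π (by simpa using hπ)
    · cases π with
      | nil => exact (c s).1
      | cons t π => exact (ih (c t).2).par π s (by simpa using hπ)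

theorem Rest.of_letterD (hS : Shape h S) (hl : ∀ π : Path, π.length ≤ h → w (pos h p π) =
    ⟨S π, some (E π).1, (E π).2, if π = [] then hd else Hd.I, fun _ => none⟩) :
    Rest w h p S E hd := by
  induction h generalizing p S E hd with
  | zero =>
    unfold Rest
    exact ⟨by simpa using hl [] le_rfl, (hS.leaf [] le_rfl).2 rfl⟩
  | succ k ih =>
    unfold Rest
    refine ⟨by simpa using hl [] (by simp), by simpa using hS.leaf [] (by simp), fun s =>
      ⟨hS.par [] s (by simp), ih (hS.child s) fun π hπ => ?_⟩⟩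
    simpa using hl (s :: π) (by simpa using hπ)

theorem Rest.updateD (hr : Rest w h p S E hd) {π : Path} (hπ : π.length ≤ h) (e : Λ.Cd) (g : Λ.Hm) :
    Rest (Function.update w (pos h p π)
      ⟨S π, some e, g, if π = [] then hd else Hd.I, fun _ => none⟩) h p S
      (Function.update E π (e, g)) hd := by
  refine Rest.of_letterD hr.shapeD fun ρ hρ => ?_
  by_cases a : ρ = π
  · subst a; simp
  · rw [Function.update_of_ne a, Function.update_of_ne fun b => a (pos_injD h p hρ hπ b)]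
    exact hr.letter ρ hρ

theorem Rest.subD (hr : Rest w h p S E hd) (π : Path) (hπ : π.length ≤ h) :
    Rest w (h - π.length) (pos h p π) (fun ρ => S (π ++ ρ)) (fun ρ => E (π ++ ρ))
      (if π = [] then hd else Hd.I) := by
  induction π generalizing h p S E hd with
  | nil => simpa using hr
  | cons s π ih =>
    obtain ⟨k, rfl⟩ : ∃ k, h = k + 1 := ⟨h - 1, by simp at hπ; omega⟩
    simp only [List.length_cons, Nat.add_le_add_iff_right] at hπ
    unfold Rest at hr
    simpa using ih (hr.2.2 s).2 hπ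

theorem home_iteD (hh : hd.home) (π : Path) : (if π = [] then hd else Hd.I : Hd Λ).home := by
  split_ifs
  · exact hh
  · intro s chi e; cases e

theorem step_RsD {lo hi q : ℤ} {s : Bool} {b' l' : Lt Λ} (h1 : lo ≤ q) (h2 : q < hi)
    (h3 : lo ≤ q + sg s) (h4 : q + sg s < hi) (hR : Rs (w q) s (w (q + sg s)) b' l') :
    FStepD lo hi w (Function.update (Function.update w (q + sg s) l') q b') := by
  cases s
  · simp only [sg_false] at h3 h4 hR ⊢
    refine Or.inr ⟨q + -1, l', b', h3, by omega, ?_, ?_⟩ <;> rw [show q + -1 + 1 = q by ring]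
    · exact Or.inr hR
    · rfl
  · simp only [sg_true] at h3 h4 hR ⊢
    exact Or.inr ⟨q, b', l', h1, h4, Or.inl hR, Function.update_comm (by omega) _ _ _⟩

theorem zero_ZsD {lo hi q : ℤ} {s : Bool} (h1 : lo ≤ q) (h2 : q < hi)
    (h3 : lo ≤ q + sg s) (h4 : q + sg s < hi) (hZ : Zs (w q) s (w (q + sg s))) :
    (ferry Λ).Zero lo hi w := by
  cases s
  · simp only [sg_false] at h3 h4 hZ
    refine Or.inr ⟨q + -1, h3, by omega, ?_⟩
    rw [show q + -1 + 1 = q by ring]
    exact Or.inr hZ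
  · simp only [sg_true] at h3 h4 hZ
    exact Or.inr ⟨q, h1, h4, Or.inl hZ⟩

theorem bl_innerD (k : ℕ) (q : ℤ) (s : Bool) : bl k (q + sg s * 2 ^ k) (!s) = q + sg s := by
  cases s <;> simp only [bl, sg_true, sg_false, Bool.not_true, Bool.not_false] <;> ring

theorem root_neD (k : ℕ) (q : ℤ) (s : Bool) {i : ℤ} (i1 : -2 ^ k < i) (i2 : i < 2 ^ k) :
    q + sg s * 2 ^ k + i ≠ q := by
  cases s <;> simp only [sg_true, sg_false] <;> intro e <;> linarith

theorem sg_neD (q : ℤ) (s : Bool) : q + sg s ≠ q := by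
  cases s <;> simp

/-- the child sends its data to the port of the parent -/
theorem dock_mailD {k : ℕ} {q lo hi : ℤ} {s : Bool} {s0 : St} {e0 : Λ.Cd} {g : Λ.Hm}
    (hr : Rest w k (q + sg s * 2 ^ k) S E Hd.I) (hp : (S []).par = !s)
    (hq : w q = ⟨s0, some e0, g, hd, fun _ => none⟩) (hl : s0.leaf = false) (hh : hd.home)
    (h1 : lo ≤ q) (h2 : q < hi) (h3 : lo ≤ q + sg s * 2 ^ k - 2 ^ k + 1)
    (h4 : q + sg s * 2 ^ k + 2 ^ k ≤ hi) :
    ∃ w2, FEqvD lo hi w w2 ∧ w2 q = ⟨s0, some e0, g, hd,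
      Function.update (fun _ => none) s (some (some (S [], (E []).1), false))⟩ ∧
      FV w2 k (q + sg s * 2 ^ k) S E (Sts.dock false true) := by
  have hk := two_pow_pos' k
  obtain ⟨w1, l', a1, -, a3, a4⟩ : ∃ w1 l', FEqvD _ _ w w1 ∧ _ ∧ LeafOut (w1 _) _ _ l' ∧
      FV (Function.update w1 _ l') _ _ _ _ _ := hr.fv_free.prepare (σ := !s)
    (c := ⟨some (S [], (E []).1), false, !s⟩) (st' := Sts.dock false true)
    (Or.inl ⟨hp.symm, rfl, rfl, Or.inr ⟨rfl, rfl⟩⟩)
  rw [bl_innerD] at a3 a4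
  have hq1 : w1 q = ⟨s0, some e0, g, hd, fun _ => none⟩ := by
    rw [← hq]
    apply a1.out
    cases s <;> simp only [sg_true, sg_false]
    · right; linarith
    · left; linarith
  refine ⟨_, (a1.mono h3 h4).trans (step_RsD h1 h2 ?_ ?_ (Or.inl ⟨_, a3, Or.inl
    ⟨by rw [hq1]; exact hl, ?_, by rw [hq1], rfl, rfl⟩⟩)).eqv, by simp [hq1],
    a4.transl fun i i1 i2 => Function.update_of_ne (root_neD k q s i1 i2) _ _⟩
  · cases s <;> simp only [sg_true, sg_false] at h3 h4 ⊢ <;> linarith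
  · cases s <;> simp only [sg_true, sg_false] at h3 h4 ⊢ <;> linarith
  · rw [hq1]
    rintro ⟨x, hx⟩
    exact hh _ _ hx

/-- the child takes its data back -/
theorem undock_mailD {k : ℕ} {q lo hi : ℤ} {s : Bool} {s0 : St} {e0 e : Λ.Cd} {g : Λ.Hm}
    (hf : FV w k (q + sg s * 2 ^ k) S E (Sts.dock false true)) (hp : (S []).par = !s)
    (hq : w q = ⟨s0, some e0, g, hd,
      Function.update (fun _ => none) s (some (some (S [], e), false))⟩)
    (hl : s0.leaf = false) (hh : hd.home)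
    (h1 : lo ≤ q) (h2 : q < hi) (h3 : lo ≤ q + sg s * 2 ^ k - 2 ^ k + 1)
    (h4 : q + sg s * 2 ^ k + 2 ^ k ≤ hi) :
    ∃ w2, FEqvD lo hi w w2 ∧ w2 q = ⟨s0, some e0, g, hd, fun _ => none⟩ ∧
      Rest w2 k (q + sg s * 2 ^ k) S (Function.update E [] (e, (E []).2)) Hd.I := by
  have hk := two_pow_pos' k
  obtain ⟨l0, a1, a2⟩ := hf.enter (σ := !s) (c := ⟨some (S [], e), false, !s⟩) (e := e)
    (st := Sts.free) (Or.inl ⟨hp.symm, rfl, rfl, Or.inr ⟨rfl, rfl⟩⟩) (fun a => absurd rfl (a false))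
  rw [bl_innerD] at a1 a2
  set w1 := Function.update (Function.update w (q + sg s) l0) q
    ⟨s0, some e0, g, hd, fun _ => none⟩ with hw1
  have b1 : FV w1 k (q + sg s * 2 ^ k) S (Function.update E [] (e, (E []).2)) Sts.free :=
    a2.transl fun i i1 i2 => Function.update_of_ne (root_neD k q s i1 i2) _ _
  have c1 : w1 q = ⟨s0, some e0, g, hd, fun _ => none⟩ := by simp [hw1]
  have c2 : w1 (q + sg s) = l0 := by
    rw [hw1, Function.update_of_ne (sg_neD q s), Function.update_self]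
  have b2 : FStepD lo hi w1 w := by
    have := step_RsD (w := w1) (lo := lo) (hi := hi) (q := q) (s := s) (b' := w q)
      (l' := w (q + sg s)) h1 h2
      (by cases s <;> simp only [sg_true, sg_false] at h3 h4 ⊢ <;> linarith)
      (by cases s <;> simp only [sg_true, sg_false] at h3 h4 ⊢ <;> linarith)
      (Or.inl ⟨_, by rw [c2]; exact a1, Or.inl ⟨by rw [c1]; exact hl, by
        rw [c1]
        rintro ⟨x, hx⟩
        exact hh _ _ hx, by rw [c1], rfl, by rw [c1, hq]⟩⟩)
    convert this using 1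
    funext i
    by_cases i1 : i = q
    · subst i1; simp
    · by_cases i2 : i = q + sg s
      · subst i2; simp [i1]
      · simp [hw1, i1, i2]
  obtain ⟨w2, d1, d2⟩ : ∃ w2, FEqvD _ _ w1 w2 ∧ Rest w2 _ _ _ _ _ := b1.rest_free
  refine ⟨w2, b2.eqv.symm.trans (d1.mono h3 h4), ?_, d2⟩
  rw [← c1]
  apply d1.out
  cases s <;> simp only [sg_true, sg_false]
  · right; linarith
  · left; linarith

/-- a move on an edge -/
theorem em_rootD {k : ℕ} {q : ℤ} {s : Bool} {s0 : St} {e0 e e' : Λ.Cd} {g : Λ.Hm}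
    (hr : Rest w k (q + sg s * 2 ^ k) S E Hd.I) (hp : (S []).par = !s)
    (hq : w q = ⟨s0, some e0, g, hd, fun _ => none⟩) (hl : s0.leaf = false) (hh : hd.home)
    (hm : Λ.EM (S []) (E []).1 s0 e0 e e') :
    FEqvD (q - 2 ^ (k + 1) + 1) (q + 2 ^ (k + 1)) w
      (Function.update (Function.update w (q + sg s * 2 ^ k)
        ⟨S [], some e, (E []).2, Hd.I, fun _ => none⟩) q
        ⟨s0, some e', g, hd, fun _ => none⟩) := by
  have hk := two_pow_pos' k
  set lo := min q (q + sg s * 2 ^ k - 2 ^ k + 1) with hlo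
  set hi := max (q + 1) (q + sg s * 2 ^ k + 2 ^ k) with hhi
  have h1 : lo ≤ q := min_le_left _ _
  have h2 : q < hi := lt_of_lt_of_le (lt_add_one q) (le_max_left _ _)
  have h3 : lo ≤ q + sg s * 2 ^ k - 2 ^ k + 1 := min_le_right _ _
  have h4 : q + sg s * 2 ^ k + 2 ^ k ≤ hi := le_max_right _ _
  obtain ⟨w2, a1, a2, a3⟩ := dock_mailD hr hp hq hl hh h1 h2 h3 h4
  set w3 := Function.update w2 q ⟨s0, some e', g, hd,
    Function.update (fun _ => none) s (some (some (S [], e), false))⟩ with hw3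
  have b1 : FStepD lo hi w2 w3 := by
    refine Or.inl ⟨q, _, h1, h2, ⟨e0, by rw [a2], Or.inr ⟨s, S [], (E []).1, false, e, e',
      by simp [a2], by rw [a2]; exact hm, ?_⟩⟩, rfl⟩
    simp [a2]
  have b2 : FV w3 k (q + sg s * 2 ^ k) S E (Sts.dock false true) :=
    a3.transl fun i i1 i2 => Function.update_of_ne (root_neD k q s i1 i2) _ _
  obtain ⟨w4, c1, c2, c3⟩ := undock_mailD (hd := hd) (e0 := e') (e := e) (g := g) b2 hp
    (by simp [hw3]) hl hh h1 h2 h3 h4
  have d1 := (a1.trans b1.eqv).trans c1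
  have d2 := hr.updateD (π := []) (by simp) e (E []).2
  simp only [pos_nil, if_true] at d2
  have d3 : w4 = Function.update (Function.update w (q + sg s * 2 ^ k)
      ⟨S [], some e, (E []).2, Hd.I, fun _ => none⟩) q ⟨s0, some e', g, hd, fun _ => none⟩ := by
    funext i
    by_cases i1 : i = q
    · subst i1; simp [c2]
    rw [Function.update_of_ne i1]
    by_cases i2 : q + sg s * 2 ^ k - 2 ^ k < i ∧ i < q + sg s * 2 ^ k + 2 ^ k
    · exact c3.ext d2 i i2.1 i2.2
    · rw [Function.update_of_ne (by rintro rfl; exact i2 ⟨by linarith, by linarith⟩)]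
      apply d1.out
      rw [hlo, hhi, lt_min_iff, max_le_iff]
      rw [not_and_or, not_lt, not_lt] at i2
      cases s <;> simp only [sg_true, sg_false] at i2 ⊢ <;> omega
  rw [← d3]
  refine d1.mono ?_ ?_
  · rw [hlo, le_min_iff, pow_succ]
    cases s <;> simp only [sg_true, sg_false] <;> constructor <;> linarith
  · rw [hhi, max_le_iff, pow_succ]
    cases s <;> simp only [sg_true, sg_false] <;> constructor <;> linarith

theorem pos_adjD {π : Path} (hπ : π.length < h) (p : ℤ) (s : Bool) :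
    pos h p (π ++ s :: List.replicate (h - π.length - 1) (!s)) = pos h p π + sg s := by
  obtain ⟨k, hk⟩ : ∃ k, h - π.length = k + 1 := ⟨h - π.length - 1, by omega⟩
  rw [pos_append h p π _ hπ.le, hk, Nat.add_sub_cancel, pos_cons, pos_replicate, bl_innerD]

theorem Rest.sim1D (hr : Rest w h p S E hd) (hh : hd.home) (hm : Λ.TM (tree h) S E E') :
    ∃ w', FEqvD (p - 2 ^ h + 1) (p + 2 ^ h) w w' ∧ Rest w' h p S E' hd := by
  rcases hm with ⟨π, e, h1, h2, rfl⟩ | ⟨π, s, e, e', h1, h2, rfl⟩ | ⟨π, s, l, g, e, h1, h2, rfl⟩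
  · have hπ : π.length ≤ h := h1
    have b := pos_windowD h p π hπ
    refine ⟨_, FStepD.eqv (Or.inl ⟨pos h p π, _, by linarith [b.1], b.2, ⟨(E π).1, ?_,
      Or.inl ⟨e, ?_, ?_⟩⟩, rfl⟩), hr.updateD hπ e (E π).2⟩ <;> rw [hr.letter π hπ]
    exact h2
  · have hπ : π.length < h := h1
    obtain ⟨k, hk⟩ : ∃ k, h - π.length = k + 1 := ⟨h - π.length - 1, by omega⟩
    have hs := hr.subD π hπ.le
    have hb := pos_bound h p π hπ.le
    rw [hk] at hs hb
    unfold Rest at hs
    obtain ⟨a1, a2, a3⟩ := hs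
    have b := em_rootD (a3 s).2 (a3 s).1 a1 a2 (home_iteD hh π) (by simpa using h2)
    have hc : (π ++ [s]).length ≤ h := by simp; omega
    have c := (hr.updateD hc e (E (π ++ [s])).2).updateD hπ.le e' (E π).2
    have d : pos h p (π ++ [s]) = pos h p π + sg s * 2 ^ k := by
      rw [pos_append h p π _ hπ.le, hk, pos_cons, pos_nil]
    rw [d] at c
    refine ⟨_, b.mono (by linarith [hb.1]) (by linarith [hb.2]), ?_⟩
    simpa using c
  · obtain ⟨hπ, hl⟩ : π.length < h ∧ l = π ++ s :: List.replicate (h - π.length - 1) (!s) := h1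
    have d : pos h p l = pos h p π + sg s := hl ▸ pos_adjD hπ p s
    have hl' : l.length = h := by simp [hl]; omega
    have b := pos_windowD h p π hπ.le
    have b' := pos_windowD h p l hl'.le
    have c := (hr.updateD hl'.le e (E l).2).updateD hπ.le (E π).1 g
    have x1 := hr.letter π hπ.le
    have x2 := hr.letter l hl'.le
    rw [d] at c b' x2
    refine ⟨_, (step_RsD (by linarith [b.1]) b.2 (by linarith [b'.1]) b'.2
      (Or.inr ⟨?_, ?_, (E l).1, g, e, ?_, ?_, ?_, ?_⟩)).eqv, c⟩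
    · rw [x1]
      have := hr.shapeD.leaf π hπ.le
      simpa [hπ.ne] using this
    · rw [x2]
      exact (hr.shapeD.leaf l hl'.le).2 hl'
    · rw [x2]
    · rw [x1, x2]; exact h2
    · rw [x1]
    · rw [x2]

theorem Rest.simD (hr : Rest w h p S E hd) (hh : hd.home) (hc : Λ.Con (tree h) S E E') :
    ∃ w', FEqvD (p - 2 ^ h + 1) (p + 2 ^ h) w w' ∧ Rest w' h p S E' hd := by
  induction hc generalizing w with
  | rel a b hab => exact hr.sim1D hh hab
  | refl => exact ⟨w, FEqvD.refl _ _ _, hr⟩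
  | symm a b _ ih =>
    obtain ⟨v0, h0⟩ := exists_rest hr.shapeD a p hd
    have h1 : Rest (fun i => if p - 2 ^ h < i ∧ i < p + 2 ^ h then v0 i else w i) h p S a hd :=
      h0.transl fun i i1 i2 => if_pos ⟨by linarith, by linarith⟩
    obtain ⟨v', a1, a2⟩ := ih h1
    refine ⟨_, ?_, h1⟩
    have : v' = w := by
      funext i
      by_cases i1 : p - 2 ^ h < i ∧ i < p + 2 ^ h
      · exact a2.ext hr i i1.1 i1.2
      · rw [a1.out (by omega), if_neg i1]
    exact this ▸ a1.symm
  | trans a b c _ _ ih1 ih2 =>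
    obtain ⟨w1, a1, a2⟩ := ih1 hr
    obtain ⟨w2, b1, b2⟩ := ih2 a2
    exact ⟨w2, a1.trans b1, b2⟩

theorem Rest.sim (hr : Rest w h p S E hd) (hh : hd.home) (hc : Λ.Con (tree h) S E E') :
    ∃ w', (ferry Λ).Eqv (p - 2 ^ h + 1) (p + 2 ^ h) w w' ∧ Rest w' h p S E' hd := by
  exact hr.simD hh hc

theorem Rest.not_TBD (hr : Rest w h p S E hd) (hh : hd.home)
    (hn : (ferry Λ).NZ (p - 2 ^ h + 1) (p + 2 ^ h) w) : ¬ Λ.TB (tree h) S E := by
  rintro (⟨π, h1, h2⟩ | ⟨π, s, h1, h2⟩ | ⟨π, s, l, h1, h2⟩ | ⟨π, h1, h2⟩)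
  · have hπ : π.length ≤ h := h1
    have b := pos_windowD h p π hπ
    refine hn w (Sys.Eqv.refl _ _ _) (Or.inl ⟨pos h p π, by linarith [b.1], b.2, ?_⟩)
    rw [hr.letter π hπ]
    exact Or.inl ⟨_, rfl, Or.inl h2⟩
  · have hπ : π.length < h := h1
    obtain ⟨k, hk⟩ : ∃ k, h - π.length = k + 1 := ⟨h - π.length - 1, by omega⟩
    have hs := hr.subD π hπ.le
    have hb := pos_bound h p π hπ.le
    have b := pos_windowD h p π hπ.le
    rw [hk] at hs hb
    rw [pow_succ] at hb
    have hk2 := two_pow_pos' k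
    unfold Rest at hs
    obtain ⟨a1, a2, a3⟩ := hs
    obtain ⟨w2, c1, c2, -⟩ := dock_mailD (lo := p - 2 ^ h + 1) (hi := p + 2 ^ h) (a3 s).2 (a3 s).1
      a1 a2 (home_iteD hh π) (by linarith [b.1]) b.2
      (by cases s <;> simp only [sg_true, sg_false] <;> linarith [hb.1])
      (by cases s <;> simp only [sg_true, sg_false] <;> linarith [hb.2])
    refine hn w2 c1 (Or.inl ⟨pos h p π, by linarith [b.1], b.2, ?_⟩)
    rw [c2]
    exact Or.inl ⟨_, rfl, Or.inr ⟨s, S (π ++ [s]), (E (π ++ [s])).1, false, by simp,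
      by simpa using h2⟩⟩
  · obtain ⟨hπ, hl⟩ : π.length < h ∧ l = π ++ s :: List.replicate (h - π.length - 1) (!s) := h1
    have d : pos h p l = pos h p π + sg s := hl ▸ pos_adjD hπ p s
    have hl' : l.length = h := by simp [hl]; omega
    have b := pos_windowD h p π hπ.le
    have b' := pos_windowD h p l hl'.le
    have x1 := hr.letter π hπ.le
    have x2 := hr.letter l hl'.le
    rw [d] at b' x2
    refine hn w (Sys.Eqv.refl _ _ _) (zero_ZsD (by linarith [b.1]) b.2 (by linarith [b'.1]) b'.2 ?_)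
    rw [x1, x2]
    refine Or.inr ⟨?_, (hr.shapeD.leaf l hl'.le).2 hl', Or.inr (Or.inr (Or.inr ⟨_, rfl, h2⟩))⟩
    have := hr.shapeD.leaf π hπ.le
    simpa [hπ.ne] using this
  · have hπ : π.length ≤ h := h1
    have b := pos_windowD h p π hπ
    refine hn w (Sys.Eqv.refl _ _ _) (Or.inl ⟨pos h p π, by linarith [b.1], b.2, ?_⟩)
    rw [hr.letter π hπ]
    exact Or.inr (Or.inl h2)

theorem Rest.nb (hr : Rest w h p S E hd) (hh : hd.home)
    (hn : (ferry Λ).NZ (p - 2 ^ h + 1) (p + 2 ^ h) w) : Λ.NB (tree h) S E := by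
  intro Y hY
  obtain ⟨w', a1, a2⟩ := hr.sim hh hY
  exact a2.not_TBD hh (hn.of_eqv a1)

/-- the invariant for two trees next to a letter -/
def PsID (w : ℤ → Lt Λ) (h : ℕ) (x : ℤ) (S : Path → St) (hd : Bool → Hd Λ) (X : Λ.Dat) : Prop :=
  ∃ w', FEqvD (x - 2 ^ (h + 1) + 1) (x + 2 ^ (h + 1)) w w' ∧
    (∀ s, Rest w' h (x + sg s * 2 ^ h) (fun ρ => S (s :: ρ)) (fun ρ => X (s :: ρ)) (hd s)) ∧
    (w' x).st = S [] ∧ (w' x).hm = (X []).2

theorem PsID.child {x : ℤ} {hd : Bool → Hd Λ} (hh : ∀ s, (hd s).home) {X Y : Λ.Dat} (s : Bool)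
    (hc : Λ.Con (tree h) (fun ρ => S (s :: ρ)) (fun ρ => X (s :: ρ)) (fun ρ => Y (s :: ρ)))
    (h0 : Y [] = X []) (h1 : ∀ ρ, Y ((!s) :: ρ) = X ((!s) :: ρ)) (hX : PsID w h x S hd X) :
    PsID w h x S hd Y := by
  obtain ⟨w1, a1, a2, a3, a4⟩ := hX
  have hk := two_pow_pos' h
  obtain ⟨w2, b1, b2⟩ := (a2 s).simD (hh s) hc
  have c : w2 x = w1 x := by
    apply b1.out
    cases s <;> simp only [sg_true, sg_false]
    · right; linarith
    · left; linarith
  refine ⟨w2, a1.trans (b1.mono ?_ ?_), fun t => ?_, by rw [c, a3], by rw [c, a4, h0]⟩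
  · rw [pow_succ]; cases s <;> simp only [sg_true, sg_false] <;> linarith
  · rw [pow_succ]; cases s <;> simp only [sg_true, sg_false] <;> linarith
  · by_cases ht : t = s
    · subst ht; exact b2
    · obtain rfl : t = !s := Bool.eq_not_iff.2 ht
      refine ((a2 (!s)).transl fun i i1 i2 => b1.out ?_).congr (fun _ _ => rfl) fun π _ => h1 π
      cases s <;> simp only [sg_true, sg_false, Bool.not_true, Bool.not_false]
      · right; linarith
      · left; linarith

theorem update_consD {α : Type*} (X : Path → α) (s : Bool) (π : Path) (a : α) :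
    (fun ρ => Function.update X (s :: π) a (s :: ρ)) =
      Function.update (fun ρ => X (s :: ρ)) π a := by
  funext ρ
  by_cases e : ρ = π
  · subst e; simp
  · simp [e]

theorem PsID.hop {x : ℤ} {hd : Bool → Hd Λ} {X : Λ.Dat} (h3 : (S []).leaf = false) {s : Bool}
    {g : Λ.Hm} {e : Λ.Cd} (hX : PsID w h x S hd X)
    (hm : Λ.HM s (S []) (X []).2 (S (s :: List.replicate h (!s)))
        (X (s :: List.replicate h (!s))).1 g e ∨
      Λ.HM s (S []) g (S (s :: List.replicate h (!s))) e (X []).2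
        (X (s :: List.replicate h (!s))).1) :
    PsID w h x S hd (Function.update (Function.update X (s :: List.replicate h (!s))
      (e, (X (s :: List.replicate h (!s))).2)) [] ((X []).1, g)) := by
  obtain ⟨w1, a1, a2, a3, a4⟩ := hX
  have hk := two_pow_pos' h
  have hl : (List.replicate h (!s)).length ≤ h := by simp
  have x2 := (a2 s).letter _ hl
  have c := (a2 s).updateD hl e (X (s :: List.replicate h (!s))).2
  have lf : (S (s :: List.replicate h (!s))).leaf = true :=
    ((a2 s).shapeD.leaf _ hl).2 (by simp)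
  rw [pos_replicate, bl_innerD] at x2 c
  set l' : Lt Λ := ⟨S (s :: List.replicate h (!s)), some e, (X (s :: List.replicate h (!s))).2,
    if List.replicate h (!s) = [] then hd s else Hd.I, fun _ => none⟩ with hl'
  set w2 := Function.update (Function.update w1 (x + sg s) l') x
    ⟨(w1 x).st, (w1 x).cd, g, (w1 x).hd, (w1 x).pt⟩ with hw2
  have i1 : x - 2 ^ (h + 1) + 1 ≤ x := by rw [pow_succ]; linarith
  have i2 : x < x + 2 ^ (h + 1) := by rw [pow_succ]; linarith
  have i3 : x - 2 ^ (h + 1) + 1 ≤ x + sg s := by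
    rw [pow_succ]; cases s <;> simp only [sg_true, sg_false] <;> linarith
  have i4 : x + sg s < x + 2 ^ (h + 1) := by
    rw [pow_succ]; cases s <;> simp only [sg_true, sg_false] <;> linarith
  have c1 : w2 x = ⟨(w1 x).st, (w1 x).cd, g, (w1 x).hd, (w1 x).pt⟩ := by simp [hw2]
  have c2 : w2 (x + sg s) = l' := by
    rw [hw2, Function.update_of_ne (sg_neD x s), Function.update_self]
  have key : FEqvD (x - 2 ^ (h + 1) + 1) (x + 2 ^ (h + 1)) w1 w2 := by
    rcases hm with hm | hm
    · refine (step_RsD i1 i2 i3 i4 (Or.inr ⟨by rw [a3, h3], by rw [x2]; exact lf, _, g, e,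
        by rw [x2], ?_, rfl, by rw [x2]⟩)).eqv
      rw [a3, a4, x2]; exact hm
    · have := step_RsD (w := w2) (b' := w1 x) (l' := w1 (x + sg s)) i1 i2 i3 i4
        (Or.inr ⟨by rw [c1]; exact a3 ▸ h3, by rw [c2]; exact lf, e, (X []).2,
          (X (s :: List.replicate h (!s))).1, by rw [c2], by rw [c1, c2, a3]; exact hm,
          by rw [c1, ← a4], by rw [c2, x2]⟩)
      refine FEqvD.symm (FStepD.eqv ?_)
      convert this using 1
      funext i
      by_cases j1 : i = x
      · subst j1; simp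
      · by_cases j2 : i = x + sg s
        · subst j2; simp [j1]
        · simp [hw2, j1, j2]
  refine ⟨w2, a1.trans key, fun t => ?_, by rw [c1, a3], by simp [c1]⟩
  by_cases ht : t = s
  · subst ht
    refine (c.transl fun i j1 j2 => Function.update_of_ne (root_neD h x t j1 j2) _ _).congr
      (fun _ _ => rfl) fun π _ => ?_
    rw [Function.update_of_ne (by simp)]
    exact congrFun (update_consD X t _ _) π
  · refine ((a2 t).transl fun i j1 j2 => ?_).congr (fun _ _ => rfl) fun π _ => by simp [ht]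
    rw [hw2, Function.update_of_ne (root_neD h x t j1 j2), Function.update_of_ne]
    cases s <;> cases t <;> simp only [sg_true, sg_false] <;> intro e0
    · exact ht rfl
    · linarith
    · linarith
    · exact ht rfl

/-- two trees at rest next to the letter at `x` -/
theorem nb_pseudo {x : ℤ} {hd : Bool → Hd Λ} (hh : ∀ s, (hd s).home)
    (hr : ∀ s, Rest w h (x + sg s * 2 ^ h) (fun ρ => S (s :: ρ)) (fun ρ => E (s :: ρ)) (hd s))
    (h1 : (w x).st = S []) (h2 : (w x).hm = (E []).2) (h3 : (S []).leaf = false)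
    (hn : (ferry Λ).NZ (x - 2 ^ (h + 1) + 1) (x + 2 ^ (h + 1)) w) : Λ.NB (pseudo h) S E := by
  have hk := two_pow_pos' h
  refine Lay.NB.of_inv (I := PsID w h x S hd) (fun X Y hm => ?_) (fun X hX => ?_)
    ⟨w, FEqvD.refl _ _ _, hr, h1, h2⟩
  · have gen : ∀ s, Λ.TM (tree h) (fun ρ => S (s :: ρ)) (fun ρ => X (s :: ρ))
        (fun ρ => Y (s :: ρ)) → Y [] = X [] → (∀ ρ, Y ((!s) :: ρ) = X ((!s) :: ρ)) →
        (PsID w h x S hd X ↔ PsID w h x S hd Y) := fun s a b c =>
      ⟨PsID.child hh s a.con b c, PsID.child hh s a.con.symm b.symm fun ρ => (c ρ).symm⟩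
    rcases hm with ⟨π, e, a1, a2, rfl⟩ | ⟨π, t, e, e', a1, a2, rfl⟩ | ⟨π, s, l, g, e, a1, a2, rfl⟩
    · obtain ⟨s, i, b1, rfl⟩ := a1
      refine gen s (Or.inl ⟨List.replicate i (!s), e, by simpa [tree] using b1, a2,
        update_consD _ _ _ _⟩) (by simp) (fun ρ => by simp)
    · obtain ⟨i, b1, rfl⟩ := a1
      refine gen (!t) (Or.inr (Or.inl ⟨List.replicate i t, t, e, e', by simpa [tree] using b1, a2,
        ?_⟩)) (by simp) (fun ρ => by simp)
      rw [update_consD, List.cons_append, update_consD]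
    · obtain ⟨rfl, rfl⟩ := a1
      refine ⟨fun hX => hX.hop h3 (Or.inl a2), fun hY => ?_⟩
      have := hY.hop h3 (s := s) (g := (X []).2) (e := (X (s :: List.replicate h (!s))).1)
        (Or.inr (by simpa using a2))
      convert this using 1
      funext π
      by_cases j1 : π = []
      · subst j1; simp
      · by_cases j2 : π = s :: List.replicate h (!s)
        · subst j2; simp
        · simp [j1, j2]
  · obtain ⟨w1, a1, a2, a3, a4⟩ := hX
    have hn1 := a1.nz hn
    have gen : ∀ s, ¬ Λ.TB (tree h) (fun ρ => S (s :: ρ)) (fun ρ => X (s :: ρ)) := fun s =>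
      (a2 s).not_TBD (hh s) (hn1.mono
        (by rw [pow_succ]; cases s <;> simp only [sg_true, sg_false] <;> linarith)
        (by rw [pow_succ]; cases s <;> simp only [sg_true, sg_false] <;> linarith))
    have i1 : x - 2 ^ (h + 1) + 1 ≤ x := by rw [pow_succ]; linarith
    have i2 : x < x + 2 ^ (h + 1) := by rw [pow_succ]; linarith
    rintro (⟨π, b1, b2⟩ | ⟨π, t, b1, b2⟩ | ⟨π, s, l, b1, b2⟩ | ⟨π, b1, b2⟩)
    · obtain ⟨s, i, c1, rfl⟩ := b1
      exact gen s (Or.inl ⟨List.replicate i (!s), by simpa [tree] using c1, b2⟩)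
    · obtain ⟨i, c1, rfl⟩ := b1
      exact gen (!t) (Or.inr (Or.inl ⟨List.replicate i t, t, by simpa [tree] using c1, b2⟩))
    · obtain ⟨rfl, rfl⟩ := b1
      have hl : (List.replicate h (!s)).length ≤ h := by simp
      have x2 := (a2 s).letter _ hl
      have lf : (S (s :: List.replicate h (!s))).leaf = true :=
        ((a2 s).shapeD.leaf _ hl).2 (by simp)
      rw [pos_replicate, bl_innerD] at x2
      refine hn1 w1 (Sys.Eqv.refl _ _ _) (zero_ZsD (s := s) i1 i2
        (by rw [pow_succ]; cases s <;> simp only [sg_true, sg_false] <;> linarith)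
        (by rw [pow_succ]; cases s <;> simp only [sg_true, sg_false] <;> linarith) ?_)
      rw [x2]
      exact Or.inr ⟨a3 ▸ h3, lf, Or.inr (Or.inr (Or.inr ⟨_, rfl, by rw [a3, a4]; exact b2⟩))⟩
    · obtain rfl : π = [] := b1
      exact hn1 w1 (Sys.Eqv.refl _ _ _) (Or.inl ⟨x, i1, i2, Or.inr (Or.inl (by
        rw [a3, a4]; exact b2))⟩)

theorem leaf_altD {lo hi i : ℤ} (hn : (ferry Λ).NZ lo hi w) (h1 : lo ≤ i) (h2 : i + 1 < hi) :
    (w (i + 1)).st.leaf = !(w i).st.leaf :=
  Bool.eq_not_iff.2 fun e => hn w (Sys.Eqv.refl _ _ _)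
    (Or.inr ⟨i, h1, h2, Or.inl (Or.inl e.symm)⟩)

theorem SP.leaf_blD (hs : SP w h p) (σ : Bool) : (w (bl h p σ)).st.leaf = true := by
  induction h generalizing p with
  | zero => rw [bl_zero]; exact hs
  | succ k ih => rw [bl_succ]; exact ih (hs.2 σ).2

theorem SP.midD {x lo hi : ℤ} (hs : SP w h (x + sg false * 2 ^ h)) (hn : (ferry Λ).NZ lo hi w)
    (h1 : lo ≤ x - 1) (h2 : x < hi) : (w x).st.leaf = false := by
  have a := hs.leaf_blD true
  have b := bl_innerD h x false
  simp only [Bool.not_false] at b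
  rw [b, sg_false] at a
  have c := leaf_altD hn (i := x + -1) (by omega) (by omega)
  rw [show x + -1 + 1 = x by ring, a] at c
  exact c

theorem par_neD (hΛ : ∀ (h : ℕ) (S : Path → St) (E : Λ.Dat),
      (∀ s, Shape h fun ρ => S (s :: ρ)) → (S [false]).par = (S [true]).par →
      ¬ Λ.NB (pseudo h) S E) {x : ℤ} (hs : ∀ s, SP w h (x + sg s * 2 ^ h))
    (hn : (ferry Λ).NZ (x - 2 ^ (h + 1)) (x + 2 ^ (h + 1) + 1) w) :
    (w (x + sg false * 2 ^ h)).st.par ≠ (w (x + sg true * 2 ^ h)).st.par := by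
  intro hp
  have hk := two_pow_pos' h
  have m1 : x - 2 ^ (h + 1) ≤ x + sg false * 2 ^ h - 2 ^ h := by
    rw [pow_succ, sg_false]; linarith
  have m2 : x + sg false * 2 ^ h + 2 ^ h + 1 ≤ x + 2 ^ (h + 1) + 1 := by
    rw [pow_succ, sg_false]; linarith
  have m3 : x - 2 ^ (h + 1) ≤ x + sg true * 2 ^ h - 2 ^ h := by
    rw [pow_succ, sg_true]; linarith
  have m4 : x + sg true * 2 ^ h + 2 ^ h + 1 ≤ x + 2 ^ (h + 1) + 1 := by
    rw [pow_succ, sg_true]; linarith
  obtain ⟨SL, EL, sL, fL⟩ := exists_FV (hs false) (hn.mono m1 m2)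
  obtain ⟨SR, ER, sR, fR⟩ := exists_FV (hs true) (hn.mono m3 m4)
  obtain ⟨eL, hL, bL, a1, a2, a3⟩ := fL.release (hn.mono m1 m2)
  obtain ⟨w1, a4, a5, a6⟩ : ∃ w1, FEqvD _ _ w w1 ∧ Rest w1 _ _ _ _ _ ∧
      ∀ σ, w1 (x + sg false * 2 ^ h + sg σ * 2 ^ h) = bL σ := a3 w SL EL fL rfl rfl fun _ => rfl
  have hn1 := (a4.mono m1 m2).nz hn
  have fR1 : FV w1 h (x + sg true * 2 ^ h) SR ER sR := fR.transl fun i i1 i2 => a4.out (by
    right; simp only [sg_true, sg_false]; linarith)
  obtain ⟨eR, hR, bR, b1, b2, b3⟩ := fR1.release (hn1.mono m3 m4)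
  obtain ⟨w2, b4, b5, b6⟩ : ∃ w2, FEqvD _ _ w1 w2 ∧ Rest w2 _ _ _ _ _ ∧
      ∀ σ, w2 (x + sg true * 2 ^ h + sg σ * 2 ^ h) = bR σ := b3 w1 SR ER fR1 rfl rfl fun _ => rfl
  have hn2 := (b4.mono m3 m4).nz hn1
  have a7 := a5.transl (w' := w2) (p' := x + sg false * 2 ^ h) fun i i1 i2 => b4.out (by
    left; simp only [sg_true, sg_false]; linarith)
  have e1 : x + sg false * 2 ^ h + sg true * 2 ^ h = x := by simp
  have e2 : x + sg true * 2 ^ h + sg false * 2 ^ h = x := by simp
  have s1 : (w2 x).st = (w x).st := by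
    have c1 := a6 true
    have c2 := (a2 true).1
    have c3 := b6 false
    have c4 := (b2 false).1
    rw [e1] at c1 c2
    rw [e2] at c3 c4
    rw [c3, c4, c1, c2]
  have s2 : (w x).st.leaf = false := (hs false).midD hn (by rw [pow_succ]; linarith)
    (by rw [pow_succ]; linarith)
  let S : Path → St := fun π => match π with
    | [] => (w2 x).st
    | false :: ρ => SL ρ
    | true :: ρ => SR ρ
  let X : Λ.Dat := fun π => match π with
    | [] => (eL, (w2 x).hm)
    | false :: ρ => Function.update EL [] (eL, (EL []).2) ρ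
    | true :: ρ => Function.update ER [] (eR, (ER []).2) ρ
  refine hΛ h S X (fun s => ?_) ?_ (nb_pseudo (w := w2) (x := x)
    (hd := fun s => if s then hR else hL) (fun s => ?_) (fun s => ?_) rfl rfl ((congrArg St.leaf s1).trans s2)
    (hn2.mono (by linarith) (by linarith)))
  · cases s
    · exact fL.shape
    · exact fR.shape
  · show (SL []).par = (SR []).par
    rw [← fL.root.1, ← fR.root.1, hp]
  · cases s
    · exact a1
    · exact b1
  · cases s
    · exact a7
    · exact b5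

theorem parse_auxD (hΛ : ∀ (h : ℕ) (S : Path → St) (E : Λ.Dat),
      (∀ s, Shape h fun ρ => S (s :: ρ)) → (S [false]).par = (S [true]).par →
      ¬ Λ.NB (pseudo h) S E) (H m : ℕ) :
    ∃ n : ℕ, ∀ w : ℤ → Lt Λ, (ferry Λ).NZ 0 n w →
      ∃ a : ℤ, 0 ≤ a - 2 ^ H ∧ a - 2 ^ H + m * 2 ^ (H + 1) < n ∧
        ∀ j : ℕ, j < m → SP w H (a + j * 2 ^ (H + 1)) := by
  induction H generalizing m with
  | zero =>
    refine ⟨2 * m + 3, fun w hn => ?_⟩
    have key : ∀ a : ℤ, 0 ≤ a → a ≤ 2 → (w a).st.leaf = true → ∀ j : ℕ, j < m →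
        (w (a + j * 2 ^ (0 + 1))).st.leaf = true := by
      intro a a1 a2 a3 j
      induction j with
      | zero => intro _; simpa using a3
      | succ j ih =>
        intro hj
        have c1 := leaf_altD hn (i := a + j * 2 ^ (0 + 1)) (by simp; omega) (by simp; omega)
        have c2 := leaf_altD hn (i := a + j * 2 ^ (0 + 1) + 1) (by simp; omega) (by simp; omega)
        rw [c1, ih (by omega)] at c2
        rw [show a + ((j + 1 : ℕ) : ℤ) * 2 ^ (0 + 1) = a + j * 2 ^ (0 + 1) + 1 + 1 by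
          push_cast; ring]
        exact c2
    cases h1 : (w 1).st.leaf
    · have c := leaf_altD hn (i := 1) (by omega) (by push_cast; omega)
      rw [h1] at c
      exact ⟨2, by simp, by simp; omega, key 2 (by omega) le_rfl c⟩
    · exact ⟨1, by simp, by simp; omega, key 1 (by omega) (by omega) h1⟩
  | succ k ih =>
    obtain ⟨n, hn0⟩ := ih (2 * m + 1)
    refine ⟨n, fun w hn => ?_⟩
    obtain ⟨a, a1, a2, a3⟩ := hn0 w hn
    have hk := two_pow_pos' k
    have e1 : ∀ j : ℕ, a + 2 ^ k + j * 2 ^ (k + 1) + sg false * 2 ^ k = a + j * 2 ^ (k + 1) :=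
      fun j => by rw [sg_false]; ring
    have e2 : ∀ j : ℕ, a + 2 ^ k + j * 2 ^ (k + 1) + sg true * 2 ^ k =
        a + ((j + 1 : ℕ) : ℤ) * 2 ^ (k + 1) := fun j => by rw [sg_true]; push_cast; ring
    have hw : ∀ j : ℕ, j < 2 * m → 0 ≤ a + 2 ^ k + j * 2 ^ (k + 1) - 2 ^ (k + 1) ∧
        a + 2 ^ k + j * 2 ^ (k + 1) + 2 ^ (k + 1) + 1 ≤ n := by
      intro j hj
      have b1 : (0 : ℤ) ≤ j * 2 ^ (k + 1) := by positivity
      have b2 : ((j : ℤ) + 1) * 2 ^ (k + 1) ≤ 2 * m * 2 ^ (k + 1) :=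
        mul_le_mul_of_nonneg_right (by omega) (by positivity)
      push_cast at a2
      rw [pow_succ] at *
      constructor <;> linarith
    have hs : ∀ j : ℕ, j < 2 * m → ∀ s, SP w k (a + 2 ^ k + j * 2 ^ (k + 1) + sg s * 2 ^ k) := by
      intro j hj s
      cases s
      · rw [e1]; exact a3 j (by omega)
      · rw [e2]; exact a3 (j + 1) (by omega)
    have alt : ∀ j : ℕ, j < 2 * m → (w (a + ((j + 1 : ℕ) : ℤ) * 2 ^ (k + 1))).st.par =
        !(w (a + j * 2 ^ (k + 1))).st.par := by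
      intro j hj
      have := par_neD hΛ (hs j hj) (hn.mono (hw j hj).1 (hw j hj).2)
      rw [e1, e2] at this
      exact Bool.eq_not_iff.2 this.symm
    have join : ∀ j : ℕ, j < 2 * m → (w (a + j * 2 ^ (k + 1))).st.par = true →
        SP w (k + 1) (a + 2 ^ k + j * 2 ^ (k + 1)) := by
      intro j hj hp
      have b := hw j hj
      have b' := two_pow_pos' (k + 1)
      refine ⟨(hs j hj false).midD hn (by linarith [b.1]) (by linarith [b.2]), fun s =>
        ⟨?_, hs j hj s⟩⟩
      cases s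
      · rw [e1]; exact hp
      · rw [e2, alt j hj, hp]
    have par2 : ∀ r : ℕ, r ≤ 1 → (m = 0 ∨ (w (a + r * 2 ^ (k + 1))).st.par = true) →
        ∀ j : ℕ, j < m → (w (a + ((2 * j + r : ℕ) : ℤ) * 2 ^ (k + 1))).st.par = true := by
      intro r hr h0 j
      induction j with
      | zero => intro hj; simpa using h0.resolve_left (by omega)
      | succ j ih =>
        intro hj
        have c1 := alt (2 * j + r) (by omega)
        have c2 := alt (2 * j + r + 1) (by omega)
        rw [c1, ih (by omega)] at c2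
        rw [show 2 * (j + 1) + r = 2 * j + r + 1 + 1 by ring]
        exact c2
    obtain ⟨r, hr, h0⟩ : ∃ r : ℕ, r ≤ 1 ∧ (m = 0 ∨ (w (a + r * 2 ^ (k + 1))).st.par = true) := by
      by_cases hm : m = 0
      · exact ⟨0, by omega, Or.inl hm⟩
      · cases h1 : (w (a + ((0 : ℕ) : ℤ) * 2 ^ (k + 1))).st.par
        · have c := alt 0 (by omega)
          rw [h1] at c
          exact ⟨1, le_rfl, Or.inr c⟩
        · exact ⟨0, by omega, Or.inr h1⟩
    refine ⟨a + 2 ^ k + r * 2 ^ (k + 1), ?_, ?_, fun j hj => ?_⟩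
    · have b1 : (0 : ℤ) ≤ r * 2 ^ (k + 1) := by positivity
      rw [pow_succ] at *
      linarith
    · have b2 : (r : ℤ) * 2 ^ (k + 1) ≤ 1 * 2 ^ (k + 1) :=
        mul_le_mul_of_nonneg_right (by omega) (by positivity)
      push_cast at a2
      rw [pow_succ 2 (k + 1)]
      rw [pow_succ] at *
      linarith
    · have := join (2 * j + r) (by omega) (par2 r hr h0 j hj)
      rwa [show a + 2 ^ k + ((2 * j + r : ℕ) : ℤ) * 2 ^ (k + 1) =
        a + 2 ^ k + r * 2 ^ (k + 1) + j * 2 ^ (k + 1 + 1) by push_cast; ring] at this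

/-- if neighbouring trees of equal height never have their parents on the same side, then long
nonzero words contain high static trees -/
theorem parse (hΛ : ∀ (h : ℕ) (S : Path → St) (E : Λ.Dat),
      (∀ s, Shape h fun ρ => S (s :: ρ)) → (S [false]).par = (S [true]).par →
      ¬ Λ.NB (pseudo h) S E) (H : ℕ) :
    ∃ n : ℕ, ∀ w : ℤ → Lt Λ, (ferry Λ).NZ 0 n w →
      ∃ p : ℤ, 0 ≤ p - 2 ^ H ∧ p + 2 ^ H < n ∧ SP w H p := by
  obtain ⟨n, hn⟩ := parse_auxD hΛ H 1
  refine ⟨n, fun w hw => ?_⟩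
  obtain ⟨a, a1, a2, a3⟩ := hn w hw
  refine ⟨a, a1, ?_, by simpa using a3 0 (by omega)⟩
  rw [pow_succ] at a2
  push_cast at a2
  linarith

end Vale.Agent.P192
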