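import Vale.Agent.P192.PSC

/-! Part PS: particle systems. -/

namespace Vale.Agent.P192

namespace PSAux

open Function Relation

variable {cap : St → Bool → ℕ} {eqf : St → Bool} {h : ℕ} {S : Path → St} {c c' : Cs} {g g' : Hs}
  {π π' : Path}

/-- the outer spines -/
def ov (c : Cs) (t : Bool) (i : ℕ) : PC := c (List.replicate i t, t)

def cpo (cap : St → Bool → ℕ) (S : Path → St) (t : Bool) (i : ℕ) : ℕ :=
  cap (S (List.replicate i t)) t

theorem gv_own (s : Bool) (i : ℕ) (x : PC) : gv π (update c (ch π s i, !s) x) g =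
    (update (gv π c g).1 s (update ((gv π c g).1 s).1 i x, ((gv π c g).1 s).2), (gv π c g).2) := by
  refine Prod.ext (funext fun t => ?_) rfl
  by_cases e : t = s
  · subst e
    simp only [update_self, gv]
    congr 1
    funext j
    by_cases e : j = i
    · subst e; simp
    · rw [update_of_ne e, update_of_ne fun c => e (ch_inj (Prod.ext_iff.1 c).1).2]
  · simp [gv, e]

theorem gv_other (hne : π' ≠ π) (s : Bool) (i : ℕ) (x : PC) :
    gv π' (update c (ch π s i, !s) x) g = gv π' c g := by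
  refine Prod.ext (funext fun t => Prod.ext (funext fun j => update_of_ne (fun e => ?_) _ _) rfl) rfl
  obtain ⟨e1, e2⟩ := Prod.ext_iff.1 e
  obtain rfl : t = s := by simpa using e2
  exact hne (ch_inj e1).1

theorem gv_outer (t : Bool) (i : ℕ) (x : PC) :
    gv π (update c (List.replicate i t, t) x) g = gv π c g := by
  refine Prod.ext (funext fun s => Prod.ext (funext fun j => update_of_ne (fun e => ?_) _ _) rfl) rfl
  obtain ⟨e1, rfl⟩ := Prod.ext_iff.1 e
  exact ch_ne _ _ _ _ e1

theorem ov_own (t : Bool) (i : ℕ) (x : PC) :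
    ov (update c (List.replicate i t, t) x) t = update (ov c t) i x := by
  funext j
  by_cases e : j = i
  · subst e; simp [ov]
  · simp [ov, e]

theorem ov_other (ρ : Path) (t : Bool) (x : PC) : ov (update c (ρ, t) x) (!t) = ov c (!t) := by
  funext j
  simp [ov]

theorem ov_ch (s t : Bool) (i : ℕ) (x : PC) : ov (update c (ch π s i, !s) x) t = ov c t := by
  refine funext fun j => update_of_ne (fun e => ?_) _ _
  obtain ⟨e1, rfl⟩ := Prod.ext_iff.1 e
  exact ch_ne _ _ _ _ e1.symm

theorem classify (hS : Shape h S) (e : TM' cap (tree h) S c g c' g') :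
    (∃ t, CM0 (h + 1) (cpo cap S t) True (ov c t) (ov c' t) ∧ ov c' (!t) = ov c (!t) ∧
      ∀ π, gv π c' g' = gv π c g) ∨
    ∃ π : Path, π.length < h ∧
      PM (h - π.length) (cpv cap S π) (fun _ => True) (gv π c g) (gv π c' g') ∧
      (∀ π' ≠ π, gv π' c' g' = gv π' c g) ∧ ∀ t, ov c' t = ov c t := by
  rcases e with ⟨ρ, b, h1, h2, rfl, rfl⟩ | ⟨ρ, t, t', x, y, h1, rfl, h2, rfl, rfl⟩ |
    ⟨π, s, l, x, k, ⟨h0, rfl⟩, h2, rfl, rfl⟩
  · rcases List.eq_nil_or_concat' ρ with rfl | ⟨π, s, rfl⟩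
    · exact Or.inl ⟨(S []).par, Or.inl ⟨trivial, b, h2, ov_own _ 0 _⟩, ov_other _ _ _,
        fun π => gv_outer _ 0 _⟩
    · have hπ : π.length < h := by simpa [tree] using h1
      rw [hS.par π s hπ] at h2 ⊢
      exact Or.inr ⟨π, hπ, Or.inl ⟨s, (_, _), Or.inl ⟨Or.inl ⟨trivial, b, h2, rfl⟩, rfl⟩,
        gv_own s 0 _⟩, fun π' hne => gv_other hne s 0 _, fun t => ov_ch s t 0 _⟩
  · have h1' : ρ.length < h := h1
    rw [hS.par ρ t h1', Bool.not_not] at h2 ⊢
    rcases exists_ch ρ t with e | ⟨π, i, rfl⟩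
    · generalize ρ.length = i at e h1'
      subst e
      rw [← List.replicate_succ'] at h2 ⊢
      refine Or.inl ⟨t, Or.inr ⟨i, x, y, by omega, h2, by rw [ov_own, ov_own]⟩,
        by rw [ov_other, ov_other], fun π => by rw [gv_outer, gv_outer]⟩
    · obtain ⟨s, rfl⟩ : ∃ s, t = !s := ⟨!t, by simp⟩
      rw [Bool.not_not] at *
      rw [← ch_succ] at h2 ⊢
      rw [length_ch] at h1'
      exact Or.inr ⟨π, by omega, Or.inl ⟨s, (update (update _ (i + 1) x) i y, _),
        Or.inl ⟨Or.inr ⟨i, x, y, by omega, h2, rfl⟩, rfl⟩, by rw [gv_own, gv_own]; simp⟩, fun π' hne => by rw [gv_other hne, gv_other hne],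
        fun t => by rw [ov_ch, ov_ch]⟩
  · refine Or.inr ⟨π, h0, ?_, fun π' hne => ?_, fun t => ov_ch s t _ _⟩
    · have e := gv_own (π := π) (c := c) (g := update g π k) s (h - π.length - 1) x
      rw [ch] at e
      rw [e]
      rcases h2 with ⟨a1, a2, a3, a4, a5, rfl⟩ | ⟨b, a1, a2, a3, rfl, rfl⟩
      · exact Or.inr ⟨s, x, a1, a2, a3, a4, a5, by simp [gv]⟩
      · refine Or.inl ⟨s, _, Or.inr ⟨b, a1, a2, a3, rfl⟩, Prod.ext (funext fun t => ?_) (by simp [gv])⟩
        by_cases e : t = s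
        · subst e; simp [gv, ch]
        · simp [gv, e]
    · refine (gv_other hne s _ x).trans ?_
      simp [gv, hne]

/-- the invariant -/
def PInv (cap : St → Bool → ℕ) (h : ℕ) (S : Path → St) (X : Dt) : Prop :=
  (∀ t, G0 (h + 1) (cpo cap S t) (ov (cs X) t)) ∧
  (∀ π : Path, π.length < h → PI (h - π.length) (cpv cap S π) (get π X)) ∧
  ∀ π : Path, π.length = h → hs X π = (false, fun _ => none)

theorem hs_of_get {X Y : Dt} (e : get π X = get π Y) : hs X π = hs Y π :=
  Prod.ext (congrArg Prod.snd e) (funext fun s => congrArg (fun A : Pr => (A.1 s).2) e)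

theorem PInv.closed (hS : Shape h S) (X Y : Dt) (e : (PS cap eqf).TM (tree h) S X Y) :
    PInv cap h S X ↔ PInv cap h S Y := by
  rcases classify hS ((tm_iff tree_ne).1 e) with ⟨t, h1, h2, h3⟩ | ⟨π, h0, h1, h2, h3⟩
  · refine and_congr (forall_congr' fun u => ?_) (and_congr
      (forall₂_congr fun π _ => by rw [get, get, h3]) (forall₂_congr fun π _ => by
        rw [hs_of_get (h3 π)]))
    by_cases e : u = t
    · subst e; exact h1.g0 (by omega)
    · rw [Bool.eq_not_iff.2 e, h2]
  · refine and_congr (forall_congr' fun u => by rw [h3]) (and_congr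
      (forall₂_congr fun π' _ => ?_) (forall₂_congr fun π' e => by
        rw [hs_of_get (h2 π' fun c => by subst c; omega)]))
    by_cases e : π' = π
    · subst e; exact h1.pi (by omega)
    · rw [get, get, h2 _ e]

theorem PInv.bd {X : Dt} (hX : PInv cap h S X) {ρ : Path} (hρ : ρ.length ≤ h) (t : Bool) :
    Bd (cap (S ρ) t) (cs X (ρ, t)) := by
  rcases exists_ch ρ t with e | ⟨π, i, rfl⟩
  · have := (hX.1 t).bd ρ.length (by omega)
    rwa [cpo, ov, ← e] at this
  · rw [length_ch] at hρ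
    simpa [cpv, get, gv] using ((hX.2.1 π (by omega)).1 (!t)).1.bd i (by omega)

theorem PInv.ok {X : Dt} (hX : PInv cap h S X) {ρ : Path} (hρ : ρ.length < h) (t : Bool) :
    Fz.ok (cs X (ρ, t)).2 (cs X (ρ ++ [t], t)).2 := by
  rcases exists_ch ρ t with e | ⟨π, i, rfl⟩
  · have := (hX.1 t).ok ρ.length (by omega)
    rwa [ov, ov, List.replicate_succ', ← e] at this
  · rw [length_ch] at hρ
    simpa [cpv, get, gv, ch_succ] using ((hX.2.1 π (by omega)).1 (!t)).1.ok i (by omega)

theorem PInv.not_TB (hS : Shape h S) (hk : CapOK cap eqf h S) (X : Dt) (hX : PInv cap h S X) :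
    ¬ (PS cap eqf).TB (tree h) S X := by
  have key : ∀ π : Path, π.length < h →
      ¬ PB (h - π.length) (cpv cap S π) (eqf (S π)) (get π X) := fun π hπ =>
    (hX.2.1 π hπ).not_PB (by omega) (hk π hπ).1 (hk π hπ).2
  rintro (⟨ρ, h1, t, c | ⟨b, e, c⟩⟩ | ⟨ρ, s, h1, c⟩ | ⟨π, s, l, ⟨h1, rfl⟩, c | c | c⟩ | ⟨π, h1, c⟩)
  · exact c.not_ge (hX.bd h1 t).1
  · exact c ((hX.bd h1 t).2 b e)
  · apply c
    rw [hS.par ρ s h1, Bool.not_not]
    exact hX.ok h1 s
  · exact c ((hX.2.1 π h1).1 s).2
  · exact key π h1 (Or.inr (Or.inl ⟨s, c⟩))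
  · exact key π h1 (Or.inr (Or.inr (Or.inl ⟨s, c⟩)))
  · rcases (show π.length ≤ h from h1).lt_or_eq with h2 | h2
    · rcases c with c | c | c
      · exact key π h2 (Or.inr (Or.inr (Or.inr (Or.inl c))))
      · exact key π h2 (Or.inr (Or.inr (Or.inr (Or.inr c))))
      · exact h2.ne ((hS.leaf π h1).1 c.1)
    · have e : (X π).2 = _ := hX.2.2 π h2
      rw [e] at c
      rcases c with c | c | c
      · exact absurd c.1 (by simp)
      · exact absurd c.1 (by simp)
      · exact c.2 rfl

theorem PInv.nb (hS : Shape h S) (hk : CapOK cap eqf h S) {X : Dt} (hX : PInv cap h S X) :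
    (PS cap eqf).NB (tree h) S X :=
  Lay.NB.of_inv (Λ := PS cap eqf) (PInv.closed hS) (PInv.not_TB hS hk) hX

theorem PInv.mk' {X : Dt} (h1 : ∀ ρ : Path, ρ.length ≤ h → ∀ t, Bd (cap (S ρ) t) (cs X (ρ, t)))
    (h2 : ∀ ρ : Path, ρ.length < h → ∀ t, Fz.ok (cs X (ρ, t)).2 (cs X (ρ ++ [t], t)).2)
    (h3 : ∀ π : Path, π.length < h → (∀ s, (hs X π).2 s =
      (cs X (ch π s (h - π.length - 1), !s)).2.res) ∧ sm (h - π.length) ((get π X).1 false).1 =
        sm (h - π.length) ((get π X).1 true).1 + (hs X π).1.toNat)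
    (h4 : ∀ π : Path, π.length = h → hs X π = (false, fun _ => none)) : PInv cap h S X :=
  ⟨fun t => ⟨fun i hi => h1 _ (by simp; omega) t, fun i hi => by
      rw [ov, ov, List.replicate_succ']
      exact h2 _ (by simp; omega) t⟩,
    fun π hπ => ⟨fun s => ⟨⟨fun i hi => h1 _ (by simp; omega) _, fun i hi => by
      have := h2 (ch π s i) (by simp; omega) (!s)
      rwa [← ch_succ] at this⟩, (h3 π hπ).1 s⟩, (h3 π hπ).2⟩, h4⟩

theorem pinv_of_nb (hc : ∀ s t, 1 ≤ cap s t ∧ cap s t ≤ 2) (hS : Shape h S) {X : Dt}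
    (hn : (PS cap eqf).NB (tree h) S X) : PInv cap h S X := by
  have key : ∀ π : Path, π.length < h → PI (h - π.length) (cpv cap S π) (get π X) := fun π hπ =>
    (((proc_tree hS hπ).nb hc hn).reset (top_tree hS hπ)).1
  exact PInv.mk' (fun ρ hρ t => bd_of hn.not_TB hρ t)
    (fun ρ hρ t => ok_of hn.not_TB hρ (hS.par ρ t hρ))
    (fun π hπ => ⟨fun s => ((key π hπ).1 s).2, (key π hπ).2⟩) fun π hπ => by_contra fun c =>
      hn.not_TB (Or.inr (Or.inr (Or.inr ⟨π, hπ.le, Or.inr (Or.inr
        ⟨(hS.leaf π hπ.le).2 hπ, c⟩)⟩)))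

open Classical in
/-- the state with the processes in `L` reset -/
noncomputable def clean (h : ℕ) (L : Set Path) (X : Dt) : Dt :=
  mk (fun q => if ∃ π ∈ L, ∃ i < h - π.length, q.1 = ch π (!q.2) i then (0, Fz.none) else cs X q)
    fun π => if π ∈ L then (false, fun _ => none) else hs X π

theorem cs_clean_pos {L : Set Path} {X : Dt} {q : Path × Bool}
    (a : ∃ π ∈ L, ∃ i < h - π.length, q.1 = ch π (!q.2) i) : cs (clean h L X) q = (0, Fz.none) :=
  if_pos a

theorem cs_clean_neg {L : Set Path} {X : Dt} {q : Path × Bool}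
    (a : ¬ ∃ π ∈ L, ∃ i < h - π.length, q.1 = ch π (!q.2) i) : cs (clean h L X) q = cs X q :=
  if_neg a

theorem hs_clean_pos {L : Set Path} {X : Dt} (a : π ∈ L) :
    hs (clean h L X) π = (false, fun _ => none) := if_pos a

theorem hs_clean_neg {L : Set Path} {X : Dt} (a : π ∉ L) : hs (clean h L X) π = hs X π := if_neg a

theorem con_clean (hc : ∀ s t, 1 ≤ cap s t ∧ cap s t ≤ 2) (hS : Shape h S) {X : Dt}
    (hn : (PS cap eqf).NB (tree h) S X) {L : Set Path} (hL : L.Finite) :
    (∀ π ∈ L, π.length < h) → (PS cap eqf).Con (tree h) S X (clean h L X) := by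
  induction L, hL using Set.Finite.induction_on with
  | empty =>
    have : clean h ∅ X = X := dat_ext.2 ⟨funext fun q => if_neg (by simp), funext fun π => if_neg id⟩
    exact fun _ => this.symm ▸ Lay.Con.refl _
  | @insert π L _ _ ih =>
    intro hL
    have h1 := ih fun ρ hρ => hL ρ (Or.inr hρ)
    have hπ := hL π (Or.inl rfl)
    have h2 := (proc_tree hS hπ).con (cap := cap) (eqf := eqf) (clean h L X)
      (((proc_tree hS hπ).nb hc (hn.of_con h1)).clean (top_tree hS hπ))
    rw [put_get] at h2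
    refine (?_ : clean h (insert π L) X = _).symm ▸ h1.trans h2
    refine dat_ext.2 ⟨funext fun q => ?_, funext fun ρ => ?_⟩
    · rw [cs_put, pc]
      by_cases a : ∃ i < h - π.length, q.1 = ch π (!q.2) i
      · obtain ⟨i, a1, a2⟩ := a
        have a3 : q.1.length - π.length - 1 = i := by rw [a2, length_ch]; omega
        rw [cs_clean_pos ⟨π, Or.inl rfl, i, a1, a2⟩, a3, if_pos a2]
        exact (if_pos a1).symm
      · have a4 : cs (clean h (insert π L) X) q = cs (clean h L X) q := by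
          by_cases b : ∃ π ∈ L, ∃ i < h - π.length, q.1 = ch π (!q.2) i
          · exact (cs_clean_pos (b.imp fun _ c => ⟨Or.inr c.1, c.2⟩)).trans (cs_clean_pos b).symm
          · rw [cs_clean_neg b, cs_clean_neg (by
              rintro ⟨ρ, rfl | c, d⟩
              exacts [a d, b ⟨ρ, c, d⟩])]
        rw [a4]
        dsimp only
        split_ifs with b1 b2
        · exact absurd ⟨_, b2, b1⟩ a
        · simp only [get, gv, ← b1, Bool.not_not]
        · rfl
    · by_cases e : ρ = π
      · subst e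
        rw [hs_put, update_self]
        exact hs_clean_pos (Or.inl rfl)
      · rw [hs_put, update_of_ne e]
        by_cases b : ρ ∈ L
        · rw [hs_clean_pos b, hs_clean_pos (Or.inr b)]
        · rw [hs_clean_neg b, hs_clean_neg (by simp [e, b])]

/-! ### exchange of subtrees -/

variable {z z' : Path}

theorem swap_left (z z' ρ : Path) : swapP z z' (z ++ ρ) = z' ++ ρ := by simp [swapP]

theorem swap_comm (hl : z.length = z'.length) (ρ : Path) : swapP z z' ρ = swapP z' z ρ := by
  unfold swapP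
  split_ifs with a b
  · obtain rfl := List.prefix_of_prefix_length_le a b hl.le |>.eq_of_length hl
    rfl
  · rfl
  · rfl
  · rfl

theorem swap_fix {ρ : Path} (a : ¬ z <+: ρ) (b : ¬ z' <+: ρ) : swapP z z' ρ = ρ := by
  simp [swapP, a, b]

theorem prefix_ch {s : Bool} (a : ¬ z <+: π) : ∀ i, z <+: ch π s i → ∃ j ≤ i, z = ch π s j := by
  intro i
  induction i with
  | zero =>
    intro b
    rcases List.prefix_concat_iff.1 b with e | e
    exacts [⟨0, le_rfl, e⟩, absurd e a]
  | succ i ih =>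
    intro b
    rw [ch_succ] at b
    rcases List.prefix_concat_iff.1 b with e | e
    · exact ⟨i + 1, le_rfl, by rw [e, ch_succ]⟩
    · obtain ⟨j, h1, h2⟩ := ih e
      exact ⟨j, by omega, h2⟩

theorem ch_add (π : Path) (s : Bool) (i j : ℕ) :
    ch π s (i + j) = ch π s i ++ List.replicate j (!s) := by
  rw [ch, ch, List.replicate_add, List.append_assoc, List.cons_append]

/-- the hypotheses of the exchange -/
structure Sw (h : ℕ) (S : Path → St) (X : Dt) (z z' : Path) (k : ℕ) : Prop where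
  hz : z.length + k = h
  hz' : z'.length + k = h
  hst : ∀ ρ : Path, ρ.length ≤ k → S (z ++ ρ) = S (z' ++ ρ)
  hr : (X z).1 = (X z').1
  hsum : ∀ t, ∑ i ∈ Finset.range (k + 1), (cs X (z ++ List.replicate i t, t)).1.val =
    ∑ i ∈ Finset.range (k + 1), (cs X (z' ++ List.replicate i t, t)).1.val
  hfz : ∀ t, (cs X (z ++ List.replicate k t, t)).2 = (cs X (z' ++ List.replicate k t, t)).2

namespace Sw

variable {X : Dt} {k : ℕ} (H : Sw h S X z z' k)
include H

theorem symm : Sw h S X z' z k :=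
  ⟨H.hz', H.hz, fun ρ a => (H.hst ρ a).symm, H.hr.symm, fun t => (H.hsum t).symm,
    fun t => (H.hfz t).symm⟩

theorem len : z.length = z'.length := by have := H.hz; have := H.hz'; omega

/-- case analysis -/
theorem cases {P : Prop} (ρ : Path)
    (h1 : ∀ {y y'}, Sw h S X y y' k → swapP z z' = swapP y y' → (y = z ∨ y = z') → y <+: ρ → P)
    (h2 : ¬ z <+: ρ → ¬ z' <+: ρ → P) : P := by
  by_cases a : z <+: ρ
  · exact h1 H rfl (Or.inl rfl) a
  · by_cases b : z' <+: ρ
    · exact h1 H.symm (funext (swap_comm H.len)) (Or.inr rfl) b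
    · exact h2 a b

theorem node (ρ : Path) : (swapP z z' ρ).length = ρ.length ∧
    (ρ.length ≤ h → S (swapP z z' ρ) = S ρ) := by
  refine H.cases ρ ?_ fun a b => by simp [swap_fix a b]
  rintro y y' H' e - ⟨τ, rfl⟩
  have := H'.hz
  rw [e, swap_left, List.length_append, List.length_append]
  exact ⟨by rw [H'.len], fun a => (H'.hst τ (by omega)).symm⟩

theorem edge (ρ : Path) (t : Bool) :
    (X (swapP z z' (ρ ++ [t]))).1 = (X (swapP z z' ρ ++ [t])).1 := by
  refine H.cases ρ ?_ fun a b => ?_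
  · rintro y y' H' e - ⟨τ, rfl⟩
    rw [e, List.append_assoc, swap_left, swap_left, List.append_assoc]
  · rw [swap_fix a b]
    refine H.cases (ρ ++ [t]) ?_ fun a b => by rw [swap_fix a b]
    rintro y y' H' e e' c
    have : y = ρ ++ [t] := (List.prefix_concat_iff.1 c).resolve_right (by
      rcases e' with rfl | rfl <;> assumption)
    rw [e, ← this]
    simpa [swapP] using H'.hr.symm

theorem chain (hπ : π.length < h) (a : ¬ z <+: π) (b : ¬ z' <+: π) (s : Bool) :
    (cs X (swapP z z' (ch π s (h - π.length - 1)), !s)).2 =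
      (cs X (ch π s (h - π.length - 1), !s)).2 ∧
    ∑ i ∈ Finset.range (h - π.length), (cs X (swapP z z' (ch π s i), !s)).1.val =
      ∑ i ∈ Finset.range (h - π.length), (cs X (ch π s i, !s)).1.val := by
  refine H.cases (ch π s (h - π.length - 1)) ?_ fun a b => ⟨by rw [swap_fix a b],
    Finset.sum_congr rfl fun i hi => ?_⟩
  · rintro y y' H' e e' c
    obtain ⟨j, -, rfl⟩ := prefix_ch (by rcases e' with rfl | rfl <;> assumption) _ c
    have h1 := H'.hz
    have h2 := H'.len
    rw [length_ch] at h1 h2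
    rw [e, show h - π.length = j + (k + 1) by omega, Finset.sum_range_add _ j,
      Finset.sum_range_add _ j, show j + (k + 1) - 1 = j + k by omega]
    simp only [ch_add, swap_left]
    refine ⟨(H'.hfz _).symm, ?_⟩
    rw [H'.hsum]
    congr 1
    refine Finset.sum_congr rfl fun i hi => ?_
    have := Finset.mem_range.1 hi
    rw [swap_fix] <;> intro c <;> have := c.length_le <;> simp only [length_ch] at this <;> omega
  · have := Finset.mem_range.1 hi
    have c : ch π s i <+: ch π s (h - π.length - 1) :=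
      ⟨_, by rw [← ch_add, Nat.add_sub_of_le (show i ≤ h - π.length - 1 by omega)]⟩
    rw [swap_fix (fun d => a (d.trans c)) fun d => b (d.trans c)]

theorem pinv (hX : PInv cap h S X) :
    PInv cap h S fun π => if π.length ≤ h then X (swapP z z' π) else X π := by
  set Y : Dt := fun π => if π.length ≤ h then X (swapP z z' π) else X π with hY
  have e1 : ∀ ρ : Path, ρ.length ≤ h → ∀ t, cs Y (ρ, t) = cs X (swapP z z' ρ, t) :=
    fun ρ a t => by simp [cs, hY, a]
  have e2 : ∀ ρ : Path, ρ.length ≤ h → hs Y ρ = hs X (swapP z z' ρ) :=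
    fun ρ a => by simp [hs, hY, a]
  refine PInv.mk' (fun ρ a t => ?_) (fun ρ a t => ?_) (fun π a => ?_) fun π a => ?_
  · rw [e1 ρ a, ← (H.node ρ).2 a]
    exact hX.bd ((H.node ρ).1.trans_le a) t
  · rw [e1 ρ a.le, e1 _ (by simpa using a), cs, cs, H.edge]
    exact hX.ok ((H.node ρ).1.trans_lt a) t
  · have e3 : ∀ s, sm (h - π.length) ((get π Y).1 s).1 =
        ∑ i ∈ Finset.range (h - π.length), (cs X (swapP z z' (ch π s i), !s)).1.val := fun s =>
      Finset.sum_congr rfl fun i hi => by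
        have := Finset.mem_range.1 hi
        rw [← e1 _ (by rw [length_ch]; omega)]
        rfl
    have e4 := hX.2.1 _ ((H.node π).1.trans_lt a)
    rw [(H.node π).1] at e4
    simp only [e3, e2 π a.le,
      fun s => e1 (ch π s (h - π.length - 1)) (by rw [length_ch]; omega)]
    refine H.cases π ?_ fun b c => ?_
    · rintro y y' H' e - ⟨τ, rfl⟩
      have e5 : ∀ s i, swapP z z' (ch (y ++ τ) s i) = ch (swapP z z' (y ++ τ)) s i := fun s i => by
        rw [e, ch, ch, List.append_assoc, swap_left, swap_left, List.append_assoc]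
      simp only [e5]
      exact ⟨fun s => (e4.1 s).2, e4.2⟩
    · rw [swap_fix b c] at e4 ⊢
      simp only [H.chain a b c]
      exact ⟨fun s => (e4.1 s).2, e4.2⟩
  · rw [e2 π a.le]
    exact hX.2.2 _ ((H.node π).1.trans a)

end Sw

end PSAux

open PSAux

variable {cap : St → Bool → ℕ} {eqf : St → Bool} {h : ℕ} {S : Path → St}

theorem PS_cap (hc : ∀ s t, 1 ≤ cap s t ∧ cap s t ≤ 2) (hS : Shape h S) {X : (PS cap eqf).Dat}
    (hn : (PS cap eqf).NB (tree h) S X) : CapOK cap eqf h S := fun _ hπ =>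
  ((proc_tree hS hπ).nb hc hn).capOK (top_tree hS hπ)

theorem PS_inf (hc : ∀ s t, 1 ≤ cap s t ∧ cap s t ≤ 2) (hS : Shape h S)
    (hk : CapOK cap eqf h S) : ∃ X, (PS cap eqf).NB (tree h) S X :=
  ⟨mk (fun _ => (0, Fz.none)) fun _ => (false, fun _ => none), PInv.nb hS hk (PInv.mk'
    (fun _ _ _ => ⟨Nat.zero_le _, fun _ e => by cases e⟩)
    (fun _ _ _ => Or.inl ⟨fun _ e => (by cases e), rfl⟩) (fun _ _ => ⟨fun _ => rfl, rfl⟩)
    fun _ _ => rfl)⟩

theorem PS_swap (hc : ∀ s t, 1 ≤ cap s t ∧ cap s t ≤ 2) (hS : Shape h S) {X : (PS cap eqf).Dat}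
    (hn : (PS cap eqf).NB (tree h) S X) {z z' : Path} {k : ℕ} (hz : z.length + k = h)
    (hz' : z'.length + k = h) (hne : ∀ t, z ≠ List.replicate z.length t)
    (hne' : ∀ t, z' ≠ List.replicate z'.length t)
    (hst : ∀ ρ : Path, ρ.length ≤ k → S (z ++ ρ) = S (z' ++ ρ)) (hr : (X z).1 = (X z').1)
    (hsum : ∀ t, psum X k z t = psum X k z' t)
    (hfz : ∀ t, ((X (z ++ List.replicate k t)).1 t).2 = ((X (z' ++ List.replicate k t)).1 t).2) :
    ∃ Y, (PS cap eqf).Con (tree h) S X Y ∧ ∀ π : Path, π.length ≤ h → Y π = X (swapP z z' π) := by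
  change Dt at X
  have H : Sw h S X z z' k := ⟨hz, hz', hst, hr, hsum, hfz⟩
  have hX := pinv_of_nb hc hS hn
  have hY := H.pinv hX
  set Y : Dt := fun π => if π.length ≤ h then X (swapP z z' π) else X π with e
  have hL := List.finite_length_lt Bool h
  have h1 := con_clean hc hS hn hL fun _ a => a
  have h2 := con_clean hc hS (hY.nb hS (PS_cap hc hS hn)) hL fun _ a => a
  refine ⟨Y, h1.trans (Lay.Con.symm ((?_ : clean h _ Y = clean h _ X) ▸ h2)),
    fun π a => if_pos a⟩
  refine dat_ext.2 ⟨funext fun q => ?_, funext fun π => ?_⟩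
  · by_cases a : ∃ π ∈ {l : Path | l.length < h}, ∃ i < h - π.length, q.1 = ch π (!q.2) i
    · rw [cs_clean_pos a, cs_clean_pos a]
    rw [cs_clean_neg a, cs_clean_neg a]
    simp only [cs, e]
    split_ifs with b
    · rcases exists_ch q.1 q.2 with c | ⟨π, i, c⟩
      · have key : ∀ y : Path, (∀ t, y ≠ List.replicate y.length t) → ¬ y <+: q.1 := fun y a b =>
          a q.2 (List.eq_replicate_iff.2 ⟨rfl, fun x hx =>
            List.eq_of_mem_replicate (c ▸ b.subset hx)⟩)
        rw [swap_fix (key _ hne) (key _ hne')]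
      · have := congrArg List.length c
        rw [length_ch] at this
        exact absurd ⟨π, show π.length < h by omega, i, by omega, c⟩ a
    · rfl
  · by_cases a : π ∈ {l : Path | l.length < h}
    · rw [hs_clean_pos a, hs_clean_pos a]
    rw [hs_clean_neg a, hs_clean_neg a]
    by_cases b : π.length ≤ h
    · have c : π.length = h := le_antisymm b (not_lt.1 a)
      rw [hX.2.2 π c, hY.2.2 π c]
    · exact congrArg Prod.snd (if_neg b)

theorem PS_pseudo (hS : ∀ s, Shape h fun ρ => S (s :: ρ)) (hp : (S [false]).par = (S [true]).par)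
    (X : (PS cap0 fun _ => true).Dat) : ¬ (PS cap0 fun _ => true).NB (pseudo h) S X := by
  intro hn
  have h1 : ∀ s i, i < h → (S (ch [] s (i + 1))).par = s := fun s i hi => by
    simpa [ch, List.replicate_succ'] using (hS s).par (List.replicate i (!s)) (!s) (by simpa)
  have hP : Proc (pseudo h) S [] (h + 1) :=
    ⟨by omega, fun π s l e => by rw [e.1, e.2]; simp, fun s i hi => ⟨s, i, by omega, rfl⟩,
      fun s i hi => ⟨⟨i, by omega, by simp [ch]⟩, h1 s i (by omega)⟩, fun s => ⟨rfl, rfl⟩, rfl⟩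
  have hN := hP.nb (fun s t => by unfold cap0; split_ifs <;> omega) hn
  have h2 : ∀ s, tot (h + 1) (cpv cap0 S [] s) = 2 * h + cap0 (S [s]) (!s) := fun s => by
    rw [tot, Finset.sum_range_succ', Finset.sum_congr rfl (g := fun _ => 2) fun i hi => by
      simp [cpv, cap0, h1 s i (Finset.mem_range.1 hi)]]
    simp [mul_comm, cpv, ch]
  cases e : (S [true]).par
  · exact hN.pseudoR e (by simp [h2, cap0, hp, e])
  · exact hN.pseudoL (hp.trans e) rfl (by simp [h2, cap0, hp, e])

end Vale.Agent.P192
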