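import Vale.Agent.P192.Stat
import Vale.Agent.P192.FerB
import Vale.Agent.P192.FerD
import Vale.Agent.P192.PS
import Vale.Agent.P192.Col

/-! Assembly: the rewriting system of the full data layer. -/

namespace Vale.Agent.P192

open Lay

theorem cap0_bd (s : St) (t : Bool) : 1 ≤ cap0 s t ∧ cap0 s t ≤ 2 := by
  unfold cap0; split_ifs <;> simp

theorem cap1_bd (s : St) (t : Bool) : 1 ≤ cap1 s t ∧ cap1 s t ≤ 2 := by
  unfold cap1; split_ifs <;> simp

/-- components of a state of the full layer -/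
def c0 (X : LF.Dat) : LS.Dat := fst X
def c1 (X : LF.Dat) : (PS cap0 fun _ => true).Dat := fst (snd X)
def c2 (X : LF.Dat) : (PS cap1 St.sp).Dat := fst (snd (snd X))
def c3 (X : LF.Dat) : LJ.Dat := snd (snd (snd X))

theorem LF_nb {N : Net} {S : Path → St} {X : LF.Dat} : LF.NB N S X ↔ LS.NB N S (c0 X) ∧
    (PS cap0 fun _ => true).NB N S (c1 X) ∧ (PS cap1 St.sp).NB N S (c2 X) ∧ LJ.NB N S (c3 X) :=
  NB_prod.trans (and_congr_right' (NB_prod.trans (and_congr_right' NB_prod)))

theorem LF_inf (h : ℕ) : ∃ S X, Shape h S ∧ LF.NB (tree h) S X := by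
  obtain ⟨S, hS⟩ := exists_VS h
  obtain ⟨X1, h1⟩ := PS_inf cap0_bd hS.toShape (capOK0 hS.toShape)
  obtain ⟨X2, h2⟩ := PS_inf cap1_bd hS.toShape hS.capOK1
  obtain ⟨X3, h3⟩ := LJ_inf hS
  exact ⟨S, pair (fun _ => ((), ())) (pair X1 (pair X2 X3)), hS.toShape,
    LF_nb.2 ⟨hS.nb_LS _, h1, h2, h3⟩⟩

theorem ferry_inf : (ferry LF).Inf := by
  intro N
  obtain ⟨S, X, hS, hn⟩ := LF_inf N
  obtain ⟨w, hw⟩ := exists_rest hS X (2 ^ N - 1) Hd.I
  refine ⟨w, (hw.fv_free.nz hn).mono (by omega) ?_⟩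
  have : (N : ℤ) < 2 ^ N := by exact_mod_cast Nat.lt_two_pow_self
  omega

theorem LF_vs {h : ℕ} {S : Path → St} (hS : Shape h S) {X : LF.Dat} (hn : LF.NB (tree h) S X) :
    VS h S :=
  VS.of_nb hS (LF_nb.1 hn).1 (PS_cap cap1_bd hS (LF_nb.1 hn).2.2.1)

/-- the finite part of an interface -/
abbrev IF := St × LF.Cd × (Bool → Fz) × (Bool → Fz)

/-- the interface of the subtree of height `k` at `z` -/
def ifc (S : Path → St) (X : LF.Dat) (k : ℕ) (z : Path) : IF × (Bool → ℕ) × (Bool → ℕ) :=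
  ((S z, (X z).1, fun t => ((c1 X (z ++ List.replicate k t)).1 t).2,
    fun t => ((c2 X (z ++ List.replicate k t)).1 t).2), psum (c1 X) k z, psum (c2 X) k z)

/-- good interfaces -/
def good (v : IF) : Prop := v.1.col = false ∧ (v.2.1.2.2.2 Role.D).mr = Mk.U

theorem psum_le {cap : St → Bool → ℕ} {eqf : St → Bool} (X : (PS cap eqf).Dat) (k : ℕ) (z : Path)
    (t : Bool) : psum X k z t < 2 * k + 3 := by
  have : psum X k z t ≤ ∑ _i ∈ Finset.range (k + 1), 2 :=
    Finset.sum_le_sum fun i _ => Nat.lt_succ_iff.1 (Fin.is_lt _)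
  simp at this; omega

theorem ifc_congr {S S' : Path → St} {X X' : LF.Dat} {k : ℕ} {z z' : Path} (hS : S z = S' z')
    (hX : ∀ ρ : Path, ρ.length ≤ k → X (z ++ ρ) = X' (z' ++ ρ)) : ifc S X k z = ifc S' X' k z' := by
  have h0 : X z = X' z' := by simpa using hX [] (by simp)
  have h1 : ∀ i t, i ≤ k → X (z ++ List.replicate i t) = X' (z' ++ List.replicate i t) :=
    fun i t hi => hX _ (by simpa using hi)
  simp only [ifc, hS, h0, Prod.mk.injEq, true_and]
  refine ⟨⟨funext fun t => ?_, funext fun t => ?_⟩, funext fun t => ?_, funext fun t => ?_⟩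
  · simp only [c1, fst, snd, h1 k t le_rfl]
  · simp only [c2, fst, snd, h1 k t le_rfl]
  · exact Finset.sum_congr rfl fun i hi => by
      simp only [c1, fst, snd, h1 i t (Nat.lt_succ_iff.1 (Finset.mem_range.1 hi))]
  · exact Finset.sum_congr rfl fun i hi => by
      simp only [c2, fst, snd, h1 i t (Nat.lt_succ_iff.1 (Finset.mem_range.1 hi))]

theorem LF_swap {k : ℕ} (hk : Special k) {S : Path → St} (hS : Shape (2 * k + 1) S) {X : LF.Dat}
    (hn : LF.NB (tree (2 * k + 1)) S X) {z z' : Path} (hz : z.length = k + 1)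
    (hz' : z'.length = k + 1) (hzz : z ≠ z') (hne : ∀ t, z ≠ List.replicate (k + 1) t)
    (hne' : ∀ t, z' ≠ List.replicate (k + 1) t) (he : ifc S X k z = ifc S X k z')
    (hg : good (ifc S X k z).1) :
    (∃ Y, LF.Con (tree (2 * k + 1)) S X Y ∧
      ∀ π : Path, π.length ≤ 2 * k + 1 → Y π = X (swapP z z' π)) ∧
    ∃ ρ : Path, ρ ≠ [] ∧ ρ.length ≤ k ∧ X (z ++ ρ) ≠ X (z' ++ ρ) := by
  have hV := LF_vs hS hn
  obtain ⟨-, n1, n2, n3⟩ := LF_nb.1 hn
  simp only [ifc, Prod.mk.injEq] at he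
  obtain ⟨⟨e1, e2, e3, e4⟩, e5, e6⟩ := he
  have hst : ∀ ρ : Path, ρ.length ≤ k → S (z ++ ρ) = S (z' ++ ρ) := fun ρ hρ =>
    hV.sub_eq (by omega) e1 ρ (by omega)
  obtain ⟨Y1, a1, b1⟩ := PS_swap cap0_bd hS n1 (z := z) (z' := z') (k := k) (by omega) (by omega)
    (by rwa [hz]) (by rwa [hz']) hst (congrArg (fun c : LF.Cd => c.2.1) e2) (congrFun e5)
    (congrFun e3)
  obtain ⟨Y2, a2, b2⟩ := PS_swap cap1_bd hS n2 (z := z) (z' := z') (k := k) (by omega) (by omega)
    (by rwa [hz]) (by rwa [hz']) hst (congrArg (fun c : LF.Cd => c.2.2.1) e2) (congrFun e6)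
    (congrFun e4)
  obtain ⟨⟨Y3, a3, b3⟩, ρ, r1, r2, r3⟩ := LJ_swap hk hV n3 hz hz' hzz (hne _) (hne' _) e1 hg.1
    (congrArg (fun c : LF.Cd => c.2.2.2) e2) hg.2
  refine ⟨⟨pair (c0 X) (pair Y1 (pair Y2 Y3)), (Lay.Con.refl (c0 X)).pair (a1.pair (a2.pair a3)),
    fun π hπ => ?_⟩, ρ, r1, r2, fun h => r3 (by simp only [c3, snd, h]; rfl)⟩
  simp only [pair, b1 π hπ, b2 π hπ, b3 π hπ]
  rfl

/-- all paths of a given length -/
def slots (k : ℕ) : Finset Path := Finset.univ.image (List.ofFn : (Fin k → Bool) → Path)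

theorem mem_slots {k : ℕ} {z : Path} : z ∈ slots k ↔ z.length = k := by
  simp only [slots, Finset.mem_image, Finset.mem_univ, true_and]
  constructor
  · rintro ⟨f, rfl⟩; simp
  · rintro rfl; exact ⟨z.get, List.ofFn_get z⟩

theorem card_slots (k : ℕ) : (slots k).card = 2 ^ k := by
  rw [slots, Finset.card_image_of_injective _ List.ofFn_injective]; simp

open Classical in
theorem LF_good {k : ℕ} (hk : Special k) {S : Path → St} (hS : Shape (2 * k + 1) S) {X : LF.Dat}
    (hn : LF.NB (tree (2 * k + 1)) S X) : 2 ^ (k + 1) ≤ ((slots (k + 1)).filter fun z =>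
      (∀ t, z ≠ List.replicate (k + 1) t) ∧ good (ifc S X k z).1).card + 5 := by
  have hV := LF_vs hS hn
  obtain ⟨a, b, hab⟩ := LJ_good hk hV (LF_nb.1 hn).2.2.2
  rw [← card_slots]
  refine le_trans (Finset.card_le_card (t := ((slots (k + 1)).filter fun z =>
      (∀ t, z ≠ List.replicate (k + 1) t) ∧ good (ifc S X k z).1) ∪
      {a, b, List.replicate (k + 1) false, List.replicate (k + 1) true,
        true :: List.replicate k false}) fun z hz => ?_)
    ((Finset.card_union_le _ _).trans (Nat.add_le_add_left Finset.card_le_five _))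
  by_contra h
  simp only [Finset.mem_union, Finset.mem_filter, Finset.mem_insert, Finset.mem_singleton,
    not_or] at h
  obtain ⟨h0, h1, h2, h3, h4, h5⟩ := h
  have hl := mem_slots.1 hz
  refine h0 ⟨hz, fun t => by cases t <;> assumption, ?_, hab z hl h1 h2⟩
  by_contra hc
  rcases hV.col_true hk z hl.le (by simpa [ifc] using hc) with h | h
  · exact h3 (by rwa [hl] at h)
  · exact h5 (by rwa [hl] at h)

theorem exists_level (C : ℕ) : ∃ k, Special k ∧ C * (2 * k + 3) ^ 4 + 5 < 2 ^ (k + 1) := by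
  have h := tendsto_pow_const_div_const_pow_of_one_lt 4 (show (1 : ℝ) < 2 by norm_num)
  have hpos : (0 : ℝ) < 1 / (81 * C + 6) := by positivity
  obtain ⟨N, hN⟩ := Filter.eventually_atTop.1 (h.eventually (gt_mem_nhds hpos))
  have h1 : N < 2 ^ N := Nat.lt_two_pow_self
  refine ⟨2 ^ N - 1, ⟨N, by omega⟩, ?_⟩
  obtain ⟨k, hk⟩ : ∃ k, 2 ^ N = k + 1 := ⟨2 ^ N - 1, by omega⟩
  have h2 := hN (k + 1) (by omega)
  rw [hk, Nat.add_sub_cancel]
  rw [div_lt_div_iff₀ (by positivity) (by positivity), one_mul] at h2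
  have h3 : (k + 1) ^ 4 * (81 * C + 6) < 2 ^ (k + 1) := by exact_mod_cast h2
  have h4 : (2 * k + 3) ^ 4 ≤ 81 * (k + 1) ^ 4 := by
    calc (2 * k + 3) ^ 4 ≤ (3 * (k + 1)) ^ 4 := Nat.pow_le_pow_left (by omega) 4
      _ = _ := by ring
  have h5 : 1 ≤ (k + 1) ^ 4 := Nat.one_le_pow _ _ (by omega)
  nlinarith [Nat.mul_le_mul_left C h4]

theorem SP_congr {Λ : Lay} {w w' : ℤ → Lt Λ} (hw : ∀ i, (w i).st = (w' i).st) (h : ℕ) :
    ∀ p, SP w h p ↔ SP w' h p := by
  induction h with
  | zero => intro p; simp [SP, hw]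
  | succ h ih => intro p; simp [SP, hw, ih]

/-- the class of a slot -/
abbrev CL := Sts LF × IF × (Bool → ℕ) × (Bool → ℕ)

instance : Nonempty CL := by
  obtain ⟨c⟩ := LF.inhC
  exact ⟨(Sts.free, (⟨false, false, false, false, fun _ => false⟩, c, fun _ => Fz.none,
    fun _ => Fz.none), fun _ => 0, fun _ => 0)⟩

/-- the class of the slot `z` of the tree at `p` -/
noncomputable def cls (k : ℕ) (p : ℤ) (w : ℤ → Lt LF) (z : Path) : CL :=
  Classical.epsilon fun v => ∃ S E st s0, FV w (2 * k + 1) p S E st ∧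
    FV w k (pos (2 * k + 1) p z) (fun ρ => S (z ++ ρ)) (fun ρ => E (z ++ ρ)) s0 ∧
    v = (s0, ifc S E k z)

theorem FV.static_eq {Λ : Lay} {w : ℤ → Lt Λ} {h : ℕ} {p : ℤ} {S S' : Path → St} {E E' : Λ.Dat}
    {st st' : Sts Λ} (hf : FV w h p S E st) (hf' : FV w h p S' E' st') (π : Path)
    (hπ : π.length ≤ h) : S π = S' π := by
  rw [← (hf.letter π hπ).1, (hf'.letter π hπ).1]

theorem cls_eq {k : ℕ} {p : ℤ} {w : ℤ → Lt LF} {z : Path} (hz : z.length = k + 1) {S E st s0}
    (h1 : FV w (2 * k + 1) p S E st)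
    (h2 : FV w k (pos (2 * k + 1) p z) (fun ρ => S (z ++ ρ)) (fun ρ => E (z ++ ρ)) s0) :
    cls k p w z = (s0, ifc S E k z) := by
  obtain ⟨S', E', st', s0', a1, a2, a3⟩ := Classical.epsilon_spec
    (p := fun v : CL => ∃ S E st s0, FV w (2 * k + 1) p S E st ∧
      FV w k (pos (2 * k + 1) p z) (fun ρ => S (z ++ ρ)) (fun ρ => E (z ++ ρ)) s0 ∧
      v = (s0, ifc S E k z)) ⟨_, S, E, st, s0, h1, h2, rfl⟩
  rw [cls, a3, (a2.uniq h2).1, ifc_congr (a1.static_eq h1 z (by omega)) fun ρ hρ =>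
    (a1.uniq h1).2.1 _ (by simp; omega) (by intro h; rw [List.append_eq_nil_iff] at h; simp [h.1] at hz)]

open Classical in
/-- the good slots in class `v` -/
noncomputable def fib (k : ℕ) (c : Path → CL) (v : CL) : Finset Path :=
  ((slots (k + 1)).filter fun z =>
    (∀ t, z ≠ List.replicate (k + 1) t) ∧ good (c z).2.1).filter fun z => c z = v

theorem mem_fib {k : ℕ} {c : Path → CL} {v : CL} {z : Path} : z ∈ fib k c v ↔
    (z.length = k + 1 ∧ (∀ t, z ≠ List.replicate (k + 1) t) ∧ good (c z).2.1) ∧ c z = v := by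
  classical
  rw [fib, Finset.mem_filter, Finset.mem_filter, mem_slots]

/-- the chosen family of slots -/
noncomputable def big (D k : ℕ) (c : Path → CL) : Finset Path :=
  fib k c (Classical.epsilon fun v => D < (fib k c v).card)

theorem big_congr (D k : ℕ) {c c' : Path → CL} (h : ∀ z : Path, z.length = k + 1 → c z = c' z) :
    big D k c = big D k c' := by
  have : fib k c = fib k c' := by
    funext v
    ext z
    simp only [mem_fib]
    constructor
    · rintro ⟨⟨a, b⟩, d⟩; rw [h z a] at b d; exact ⟨⟨a, b⟩, d⟩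
    · rintro ⟨⟨a, b⟩, d⟩; rw [← h z a] at b d; exact ⟨⟨a, b⟩, d⟩
  rw [big, big, this]

theorem swp_out {α : Type*} {l p q i : ℤ} (w : ℤ → α) (h1 : i < p ∨ p + l ≤ i)
    (h2 : i < q ∨ q + l ≤ i) : swp l p q w i = w i := by
  rw [swp, if_neg (by omega), if_neg (by omega)]

theorem ferry_nil : (ferry LF).Nil := by
  classical
  intro D
  have := LF.finC
  let _ : Fintype (Sts LF × IF) := Fintype.ofFinite _
  obtain ⟨k, hk, hC⟩ := exists_level (Fintype.card (Sts LF × IF) * D)
  obtain ⟨n, hn⟩ := parse (Λ := LF) (fun h S E h1 h2 h3 =>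
    PS_pseudo h1 h2 _ (LF_nb.1 h3).2.1) (2 * k + 1)
  let Q : (ℤ → Lt LF) → ℤ → Prop := fun w p =>
    0 ≤ p - 2 ^ (2 * k + 1) ∧ p + 2 ^ (2 * k + 1) < n ∧ SP w (2 * k + 1) p
  let P : (ℤ → Lt LF) → ℤ := fun w => Classical.epsilon (Q w)
  let lft : ℤ → Path → ℤ := fun p z => pos (2 * k + 1) p z - 2 ^ k + 1
  have hl : ((2 ^ (k + 1) - 1 : ℕ) : ℤ) = 2 ^ (k + 1) - 1 := by
    rw [Nat.cast_sub Nat.one_le_two_pow]; simp
  have h2k : (2 : ℤ) ^ (k + 1) = 2 * 2 ^ k := by ring
  have hpk : (0 : ℤ) < 2 ^ k := by positivity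
  refine ⟨n, 2 ^ (k + 1) - 1, fun w => (big D k (cls k (P w) w)).image (lft (P w)), fun w hw => ?_⟩
  obtain ⟨q1, q2, q3⟩ : Q w (P w) := Classical.epsilon_spec (hn w hw)
  rw [hl]
  beta_reduce
  generalize hp : P w = p at q1 q2 q3 ⊢
  have hm : (ferry LF).NZ (p - 2 ^ (2 * k + 1)) (p + 2 ^ (2 * k + 1) + 1) w :=
    hw.mono q1 (by omega)
  obtain ⟨S, E, st, hf⟩ := exists_FV q3 hm
  obtain ⟨e, hd, b, hh, -, hrel⟩ := hf.release hm
  obtain ⟨w1, a1, a2, a3⟩ := hrel w S E hf rfl rfl fun _ => rfl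
  have hS := hf.shape
  set E1 := Function.update E [] (e, (E []).2) with hE1
  have hnb : LF.NB (tree (2 * k + 1)) S E1 :=
    a2.nb hh ((hm.of_eqv a1).mono (by omega) (by omega))
  have hV := LF_vs hS hnb
  have hne : ∀ z ρ : Path, z.length = k + 1 → z ++ ρ ≠ [] := fun z ρ hz h => by
    rw [List.append_eq_nil_iff] at h; simp [h.1] at hz
  have hsub : ∀ z : Path, z.length = k + 1 → ∃ s0, FV w k (pos (2 * k + 1) p z)
      (fun ρ => S (z ++ ρ)) (fun ρ => E (z ++ ρ)) s0 ∧ cls k p w z = (s0, ifc S E1 k z) := by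
    intro z hz
    obtain ⟨s0, h0⟩ := hf.sub z (by omega)
    rw [show 2 * k + 1 - z.length = k by omega] at h0
    exact ⟨s0, h0, by
      rw [cls_eq hz hf h0, ifc_congr rfl fun ρ _ => (Function.update_of_ne (hne z ρ hz) _ _).symm]⟩
  have hbd : ∀ z : Path, z.length = k + 1 → p - 2 ^ (2 * k + 1) + 2 ^ k ≤ pos (2 * k + 1) p z ∧
      pos (2 * k + 1) p z ≤ p + 2 ^ (2 * k + 1) - 2 ^ k := fun z hz => by
    have := pos_bound (2 * k + 1) p z (by omega)
    rwa [show 2 * k + 1 - z.length = k by omega] at this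
  have hsep : ∀ z z' : Path, z.length = k + 1 → z'.length = k + 1 → z ≠ z' →
      pos (2 * k + 1) p z + 2 * 2 ^ k ≤ pos (2 * k + 1) p z' ∨
      pos (2 * k + 1) p z' + 2 * 2 ^ k ≤ pos (2 * k + 1) p z := fun z z' hz hz' h => by
    have := pos_sep (2 * k + 1) p (π := z) (ρ := z') (by omega) (by omega) h
    rwa [show 2 * k + 1 - z.length = k by omega, h2k] at this
  have hmem : ∀ z ∈ big D k (cls k p w), z.length = k + 1 ∧ (∀ t, z ≠ List.replicate (k + 1) t) ∧
      good (cls k p w z).2.1 ∧ ∀ z' ∈ big D k (cls k p w), cls k p w z = cls k p w z' := by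
    intro z hz
    have hz := mem_fib.1 hz
    exact ⟨hz.1.1, hz.1.2.1, hz.1.2.2, fun z' hz' => hz.2.trans (mem_fib.1 hz').2.symm⟩
  refine ⟨?_, ?_, ?_⟩
  · rw [Finset.card_image_of_injOn]
    · refine Classical.epsilon_spec (p := fun v => D < (fib k (cls k p w) v).card) ?_
      have hg := LF_good hk hS hnb
      let T : Finset CL := ((Finset.univ : Finset (Sts LF × IF)) ×ˢ
        ((Fintype.piFinset fun _ : Bool => Finset.range (2 * k + 3)) ×ˢ
          (Fintype.piFinset fun _ : Bool => Finset.range (2 * k + 3)))).image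
          fun x => (x.1.1, x.1.2, x.2)
      have hT : T.card ≤ Fintype.card (Sts LF × IF) * (2 * k + 3) ^ 4 := by
        refine Finset.card_image_le.trans (le_of_eq ?_)
        simp only [Finset.card_product, Finset.card_univ, Fintype.card_piFinset, Finset.card_range,
          Finset.prod_const, Fintype.card_bool]
        ring
      obtain ⟨v, -, hv⟩ := Finset.exists_lt_card_fiber_of_mul_lt_card_of_maps_to
        (s := (slots (k + 1)).filter fun z =>
          (∀ t, z ≠ List.replicate (k + 1) t) ∧ good (cls k p w z).2.1) (t := T)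
        (f := cls k p w) (n := D) (fun z hz => by
          obtain ⟨s0, -, h0⟩ := hsub z (mem_slots.1 (Finset.mem_filter.1 hz).1)
          rw [h0]
          exact Finset.mem_image.2 ⟨((s0, (ifc S E1 k z).1), (ifc S E1 k z).2), by
            simp [ifc, psum_le], rfl⟩) (by
          have e : ((slots (k + 1)).filter fun z =>
              (∀ t, z ≠ List.replicate (k + 1) t) ∧ good (cls k p w z).2.1) =
              (slots (k + 1)).filter fun z =>
              (∀ t, z ≠ List.replicate (k + 1) t) ∧ good (ifc S E1 k z).1 :=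
            Finset.filter_congr fun z hz => by
              obtain ⟨s0, -, h0⟩ := hsub z (mem_slots.1 hz)
              rw [h0]
          rw [e]
          have := Nat.mul_le_mul_right D hT
          nlinarith)
      exact ⟨v, hv⟩
    · intro z hz z' hz' h
      by_contra h0
      rcases hsep z z' (hmem z hz).1 (hmem z' hz').1 h0 with h1 | h1 <;>
        simp only [lft] at h <;> omega
  · intro x hx
    obtain ⟨z, hz, rfl⟩ := Finset.mem_image.1 hx
    have := hbd z (hmem z hz).1
    simp only [lft]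
    omega
  · intro x hx y hy hxy
    obtain ⟨z, hz, rfl⟩ := Finset.mem_image.1 hx
    obtain ⟨z', hz', rfl⟩ := Finset.mem_image.1 hy
    obtain ⟨l1, n1, g1, c1⟩ := hmem z hz
    obtain ⟨l2, n2, -, -⟩ := hmem z' hz'
    have hcc := c1 z' hz'
    simp only [lft] at hxy ⊢
    have hlt : pos (2 * k + 1) p z < pos (2 * k + 1) p z' := by omega
    have hzz : z ≠ z' := fun h => by rw [h] at hlt; omega
    have hs := (hsep z z' l1 l2 hzz).resolve_right (by omega)
    obtain ⟨s0, f1, e1⟩ := hsub z l1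
    obtain ⟨s0', f2, e2⟩ := hsub z' l2
    rw [e1] at g1
    rw [e1, e2, Prod.mk.injEq] at hcc
    obtain ⟨rfl, hi⟩ := hcc
    have hSz : S z = S z' := congrArg (fun v => v.1.1) hi
    have hEz : (E z).1 = (E z').1 := by
      have : (E1 z).1 = (E1 z').1 := congrArg (fun v => v.1.2.1) hi
      rwa [hE1, Function.update_of_ne (by simpa using hne z [] l1),
        Function.update_of_ne (by simpa using hne z' [] l2)] at this
    have hf' := hf.swap (k := k) (by omega) (by omega) hlt f1 f2 hSz hEz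
    set w' := swp (2 ^ (k + 1) - 1) (pos (2 * k + 1) p z - 2 ^ k + 1)
      (pos (2 * k + 1) p z' - 2 ^ k + 1) w with hw'
    have hll : z.length = z'.length := by omega
    have hf'' : FV w' (2 * k + 1) p S (fun π => E (swapP z z' π)) st :=
      hf'.congr (fun π hπ => (hV.swap_eq hll hSz π hπ).symm) fun _ _ => rfl
    have b1 := hbd z l1
    have b2 := hbd z' l2
    have hout : ∀ i, i ≤ p - 2 ^ (2 * k + 1) ∨ p + 2 ^ (2 * k + 1) ≤ i → w' i = w i := fun i hi =>
      swp_out w (by omega) (by omega)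
    obtain ⟨⟨Y, y1, y2⟩, ρ, r1, r2, r3⟩ := LF_swap hk hS hnb l1 l2 hzz n1 n2 hi g1
    have hnil : swapP z z' [] = [] := swapP_short hll (by simp; omega)
    refine ⟨by omega, ?_, ?_, fun h => r3 ?_⟩
    · obtain ⟨w2, d1, d2, d3⟩ := hrel w' S _ hf'' rfl (by simp only [hnil]) fun σ =>
        hout _ (by cases σ <;> simp [sg])
      obtain ⟨w3, g1, g2⟩ := a2.sim hh y1
      have g3 := g2.congr (S' := S) (E' := Function.update (fun π => E (swapP z z' π)) []
          (e, (E (swapP z z' [])).2)) (fun _ _ => rfl) fun π hπ => by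
        rw [y2 π hπ]
        by_cases h0 : π = []
        · subst h0; simp [hnil, hE1]
        · rw [Function.update_of_ne h0, hE1, Function.update_of_ne]
          intro h1
          exact h0 (List.length_eq_zero_iff.1 (by rw [← swapP_length hll π, h1]; rfl))
      have : w3 = w2 := by
        funext i
        by_cases hi : p - 2 ^ (2 * k + 1) < i ∧ i < p + 2 ^ (2 * k + 1)
        · exact g3.ext d2 i hi.1 hi.2
        rw [g1.out (by omega)]
        by_cases h1 : i = p - 2 ^ (2 * k + 1)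
        · have u1 := a3 false
          have u2 := d3 false
          simp only [sg, Bool.false_eq_true, if_false, neg_mul, one_mul, ← sub_eq_add_neg] at u1 u2
          rw [h1, u1, u2]
        by_cases h2 : i = p + 2 ^ (2 * k + 1)
        · have u1 := a3 true
          have u2 := d3 true
          simp only [sg, if_true, one_mul] at u1 u2
          rw [h2, u1, u2]
        rw [a1.out (by omega), d1.out (by omega), hout i (by omega)]
      subst this
      exact ((a1.trans (g1.mono (by omega) (by omega))).trans d1.symm).mono q1 (by omega)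
    · have hst : ∀ i, (w' i).st = (w i).st := fun i => by
        by_cases hi : p - 2 ^ (2 * k + 1) < i ∧ i < p + 2 ^ (2 * k + 1)
        · obtain ⟨π, h1, rfl⟩ := pos_surj _ p i hi.1 hi.2
          rw [(hf.letter π h1).1, (hf''.letter π h1).1]
        · rw [hout i (by omega)]
      have hP : P w' = p := by
        rw [← hp]
        exact congrArg Classical.epsilon (funext fun x => by simp only [Q, SP_congr hst])
      rw [hP, big_congr D k (c' := cls k p w)]
      intro y hy
      have key : ∀ y' : Path, y'.length = k + 1 → (∀ ρ, swapP z z' (y ++ ρ) = y' ++ ρ) →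
          (∀ i : ℤ, -2 ^ k < i → i < 2 ^ k →
            w' (pos (2 * k + 1) p y + i) = w (pos (2 * k + 1) p y' + i)) →
          cls k p w' y = cls k p w y' := by
        intro y' hy' h1 h2
        obtain ⟨s1, u1, u2⟩ := hsub y' hy'
        have u3 := u1.transl (w' := w') h2
        rw [cls_eq hy' hf u1]
        refine (cls_eq hy hf' (s0 := s1) (by simp only [h1]; exact u3)).trans ?_
        exact congrArg _ (ifc_congr (by simpa using congrArg S (h1 [])) fun ρ _ => by rw [h1])
      by_cases h1 : y = z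
      · subst h1
        rw [key z' l2 (swapP_left _ _) fun i i1 i2 => ?_, e1, e2, hi]
        rw [hw', swp, if_pos (by omega)]
        congr 1; omega
      by_cases h2 : y = z'
      · subst h2
        rw [key z l1 (swapP_right hll) fun i i1 i2 => ?_, e1, e2, hi]
        rw [hw', swp, if_neg (by omega), if_pos (by omega)]
        congr 1; omega
      refine key y hy (swapP_other (by omega) (by omega) h1 h2) fun i i1 i2 => ?_
      have s1 := hsep y z hy l1 h1
      have s2 := hsep y z' hy l2 h2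
      exact swp_out w (by omega) (by omega)
    · rw [h] at hf''
      have := (hf''.uniq hf).2.1 (z ++ ρ) (by simp; omega) (hne z ρ l1)
      simp only [swapP_left] at this
      rw [hE1, Function.update_of_ne (hne z ρ l1), Function.update_of_ne (hne z' ρ l2), this]

end Vale.Agent.P192
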