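import Vale.Agent.P192.Lin

/-! Part Cent: the kernel of a Steinberg cover is central. -/

namespace Vale.Agent.P192

open scoped commutatorElement

namespace CentAux

variable {ι : Type} [Fintype ι] [DecidableEq ι] {A : Type} [Ring A] {Γ : Type*} [Group Γ]

/-- the subgroup generated by the root subgroups in `D` -/
def U (x : ι → ι → A → Γ) (D : Set (ι × ι)) : Subgroup Γ :=
  Subgroup.closure {y | ∃ a b r, a ≠ b ∧ (a, b) ∈ D ∧ y = x a b r}

variable {x : ι → ι → A → Γ}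

omit [Fintype ι] [DecidableEq ι] [Ring A] in
theorem mem_U {D : Set (ι × ι)} {a b : ι} (h : a ≠ b) (h' : (a, b) ∈ D) (r : A) :
    x a b r ∈ U x D := Subgroup.subset_closure ⟨a, b, r, h, h', rfl⟩

omit [Fintype ι] [DecidableEq ι] [Ring A] in
theorem U_mono {D D' : Set (ι × ι)} (h : D ⊆ D') : U x D ≤ U x D' :=
  Subgroup.closure_mono fun _ ⟨a, b, r, h1, h2, e⟩ => ⟨a, b, r, h1, h h2, e⟩

omit [Fintype ι] [DecidableEq ι] in
theorem x_zero (hx : StS x) {a b : ι} (h : a ≠ b) : x a b 0 = 1 := by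
  have := hx.add a b h 0 0
  rw [add_zero] at this
  exact left_eq_mul.mp this

omit [Fintype ι] [DecidableEq ι] in
theorem x_neg (hx : StS x) {a b : ι} (h : a ≠ b) (r : A) : (x a b r)⁻¹ = x a b (-r) := by
  apply inv_eq_of_mul_eq_one_left
  rw [← hx.add a b h, neg_add_cancel, x_zero hx h]

omit [Fintype ι] [DecidableEq ι] in
theorem U_ind (hx : StS x) {D : Set (ι × ι)} {p : Γ → Prop} (h1 : p 1)
    (h2 : ∀ a b r y, a ≠ b → (a, b) ∈ D → y ∈ U x D → p y → p (x a b r * y)) {y : Γ}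
    (hy : y ∈ U x D) : p y := by
  induction hy using Subgroup.closure_induction_left with
  | one => exact h1
  | mul_left g hg y hy ih =>
    obtain ⟨a, b, r, h3, h4, rfl⟩ := hg
    exact h2 a b r y h3 h4 hy ih
  | inv_mul_cancel g hg y hy ih =>
    obtain ⟨a, b, r, h3, h4, rfl⟩ := hg
    rw [x_neg hx h3]
    exact h2 a b _ y h3 h4 hy ih

omit [Fintype ι] [DecidableEq ι] in
theorem conj_mem (hx : StS x) {D D' : Set (ι × ι)}
    (h : ∀ a b r c d s, a ≠ b → (a, b) ∈ D → c ≠ d → (c, d) ∈ D' →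
      x a b r * x c d s * (x a b r)⁻¹ ∈ U x D') {y : Γ} (hy : y ∈ U x D) :
    ∀ u ∈ U x D', y * u * y⁻¹ ∈ U x D' := by
  refine U_ind hx (p := fun y => ∀ u ∈ U x D', y * u * y⁻¹ ∈ U x D') (by simp)
    (fun a b r y h1 h2 _ ih u hu => ?_) hy
  have := U_ind hx (p := fun v => x a b r * v * (x a b r)⁻¹ ∈ U x D') (by simp)
    (fun c d s v h3 h4 _ ih => by
      convert mul_mem (h a b r c d s h1 h2 h3 h4) ih using 1
      group) (ih u hu)
  convert this using 1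
  group

variable {π : Γ →* (Matrix ι ι A)ˣ}

theorem unip (hx : StS x) (hπ : ∀ i j, i ≠ j → ∀ r, π (x i j r) = rt i j r) (D : Finset (ι × ι))
    (hD : ∀ p ∈ D, ∀ q ∈ D, p.2 ≠ q.1) : ∀ y ∈ U x D, ∃ M : Matrix ι ι A,
      (∀ a b, (a, b) ∉ D → M a b = 0) ∧ (π y : Matrix ι ι A) = 1 + M ∧ (M = 0 → y = 1) := by
  induction D using Finset.induction_on with
  | empty =>
    intro y hy
    refine U_ind hx (p := fun z => ∃ M : Matrix ι ι A, (∀ a b, (a, b) ∉ (∅ : Finset (ι × ι)) →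
      M a b = 0) ∧ (π z : Matrix ι ι A) = 1 + M ∧ (M = 0 → z = 1)) ⟨0, by simp⟩ (by simp) hy
  | insert p D hp ih =>
    obtain ⟨a, b⟩ := p
    have hab : a ≠ b := (hD _ (Finset.mem_insert_self _ _) _ (Finset.mem_insert_self _ _)).symm
    have hc : ∀ r, ∀ y ∈ U x D, Commute (x a b r) y := fun r y hy =>
      U_ind hx (p := fun y => Commute (x a b r) y) (.one_right _) (fun c d s y h1 h2 _ ih =>
        (hx.comm a b c d hab h1 (hD _ (Finset.mem_insert_self _ _) _ (Finset.mem_insert_of_mem h2))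
          (hD _ (Finset.mem_insert_of_mem h2) _ (Finset.mem_insert_self _ _)).symm r s).mul_right ih)
        hy
    intro y hy
    obtain ⟨r, z, hz, rfl⟩ : ∃ r, ∃ z ∈ U x D, y = x a b r * z := by
      refine U_ind hx (p := fun y => ∃ r, ∃ z ∈ U x D, y = x a b r * z)
        ⟨0, 1, one_mem _, by simp [x_zero hx hab]⟩ ?_ hy
      rintro c d s _ h1 h2 - ⟨r, z, hz, rfl⟩
      rcases Finset.mem_insert.1 h2 with h | h
      · cases h
        exact ⟨s + r, z, hz, by rw [hx.add _ _ hab, mul_assoc]⟩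
      · exact ⟨r, _, mul_mem (mem_U h1 h s) hz, by
          rw [← mul_assoc, ← (hc r _ (mem_U h1 h s)).eq, mul_assoc]⟩
    obtain ⟨M, M1, M2, M3⟩ := ih (fun p hp q hq =>
      hD _ (Finset.mem_insert_of_mem hp) _ (Finset.mem_insert_of_mem hq)) z hz
    have h0 : Matrix.single a b r * M = 0 := by
      ext c d
      by_cases h : a = c
      · subst h
        rw [Matrix.single_mul_apply_same, M1, mul_zero, Matrix.zero_apply]
        exact fun h => hD _ (Finset.mem_insert_self _ _) _ (Finset.mem_insert_of_mem h) rfl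
      · rw [Matrix.single_mul_apply_of_ne _ _ _ _ _ (Ne.symm h), Matrix.zero_apply]
    refine ⟨Matrix.single a b r + M, fun c d h => ?_, ?_, fun h => ?_⟩
    · rw [Finset.mem_insert, not_or] at h
      rw [Matrix.add_apply, M1 c d h.2, Matrix.single_apply_of_ne, add_zero]
      rintro ⟨rfl, rfl⟩
      exact h.1 rfl
    · rw [map_mul, Units.val_mul, hπ a b hab, rt_val hab, M2, add_mul, mul_add, mul_add, h0]
      simp only [one_mul, mul_one]
      abel
    · have h1 : r = 0 := by simpa [M1 a b hp] using congrFun (congrFun h a) b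
      rw [h1, Matrix.single_zero, zero_add] at h
      rw [h1, M3 h, x_zero hx hab, one_mul]

theorem inj (hx : StS x) (hπ : ∀ i j, i ≠ j → ∀ r, π (x i j r) = rt i j r) {D : Set (ι × ι)}
    (hD : ∀ p ∈ D, ∀ q ∈ D, p.2 ≠ q.1) {y : Γ} (hy : y ∈ U x D)
    (h : ∀ p ∈ D, (π y : Matrix ι ι A) p.1 p.2 = (1 : Matrix ι ι A) p.1 p.2) : y = 1 := by
  classical
  obtain ⟨M, M1, M2, M3⟩ := unip hx hπ D.toFinset (by simpa using hD) y (by simpa using hy)
  refine M3 (Matrix.ext fun a b => ?_)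
  by_cases hab : (a, b) ∈ D
  · simpa [M2] using h _ hab
  · exact M1 a b (by simpa using hab)

omit [Fintype ι] in
theorem conj_row (hx : StS x) (i : ι) {y : Γ} (hy : y ∈ U x {p | p.1 ≠ i ∧ p.2 ≠ i}) :
    ∀ u ∈ U x {p | p.1 = i ∧ p.2 ≠ i}, y * u * y⁻¹ ∈ U x {p | p.1 = i ∧ p.2 ≠ i} := by
  refine conj_mem hx ?_ hy
  rintro a b r c d s h1 ⟨h2 : a ≠ i, h3 : b ≠ i⟩ h4 h5
  obtain rfl : c = i := h5.1
  by_cases h : a = d
  · subst h
    convert mul_mem (inv_mem (mem_U (x := x) (D := {p | p.1 = c ∧ p.2 ≠ c}) h3.symm ⟨rfl, h3⟩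
      (s * r))) (mem_U h4 h5 s) using 1
    rw [← hx.mul c a b h4 h1 h3.symm, commutatorElement_def]
    group
  · rw [(hx.comm a b c d h1 h4 h3 h r s).eq, mul_inv_cancel_right]
    exact mem_U h4 h5 s

omit [Fintype ι] in
theorem conj_col (hx : StS x) (i : ι) {y : Γ} (hy : y ∈ U x {p | p.1 ≠ i ∧ p.2 ≠ i}) :
    ∀ u ∈ U x {p | p.1 ≠ i ∧ p.2 = i}, y * u * y⁻¹ ∈ U x {p | p.1 ≠ i ∧ p.2 = i} := by
  refine conj_mem hx ?_ hy
  rintro a b r c d s h1 ⟨h2 : a ≠ i, h3 : b ≠ i⟩ h4 h5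
  obtain rfl : d = i := h5.2
  by_cases h : b = c
  · subst h
    convert mul_mem (mem_U (x := x) (D := {p | p.1 ≠ d ∧ p.2 = d}) h2 ⟨h2, rfl⟩
      (r * s)) (mem_U h4 h5 s) using 1
    rw [← hx.mul a b d h1 h4 h2, commutatorElement_def]
    group
  · rw [(hx.comm a b c d h1 h4 h h2 r s).eq, mul_inv_cancel_right]
    exact mem_U h4 h5 s

theorem central (hx : StS x) (hgen : U x Set.univ = ⊤)
    (hπ : ∀ i j, i ≠ j → ∀ r, π (x i j r) = rt i j r) (i : ι) {y : Γ}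
    (hy : y ∈ U x {p | p.1 ≠ i ∧ p.2 ≠ i}) (h : π y = 1) : y ∈ Subgroup.center Γ := by
  have key : ∀ D : Set (ι × ι), (∀ p ∈ D, ∀ q ∈ D, p.2 ≠ q.1) →
      (∀ u ∈ U x D, y * u * y⁻¹ ∈ U x D) → ∀ u ∈ U x D, Commute y u := fun D h1 h2 u hu => by
    have := inj hx hπ h1 (mul_mem (h2 u hu) (inv_mem hu)) (by simp [h])
    rwa [← commutatorElement_def, commutatorElement_eq_one_iff_commute] at this
  have h1 := key _ (fun p hp q hq => by rw [hq.1]; exact hp.2) (conj_row hx i hy)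
  have h2 := key _ (fun p hp q hq => by rw [hp.2]; exact hq.1.symm) (conj_col hx i hy)
  refine Subgroup.mem_center_iff.2 fun g => (U_ind hx (D := Set.univ) (p := fun g => Commute y g)
    (.one_right _) (fun a b r g hab _ _ ih => Commute.mul_right ?_ ih) (by rw [hgen]; trivial)).symm.eq
  by_cases ha : a = i
  · exact h1 _ (mem_U hab (by exact ⟨ha, by rw [← ha]; exact hab.symm⟩) r)
  by_cases hb : b = i
  · exact h2 _ (mem_U hab (by exact ⟨ha, hb⟩) r)
  have h3 := h2 _ (mem_U ha (by exact ⟨ha, rfl⟩) r)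
  have h4 := h1 _ (mem_U (Ne.symm hb) (by exact ⟨rfl, hb⟩) 1)
  rw [← mul_one r, ← hx.mul a i b ha (Ne.symm hb) hab, commutatorElement_def]
  exact ((h3.mul_right h4).mul_right h3.inv_right).mul_right h4.inv_right

theorem central' (hx : StS x) (hgen : U x Set.univ = ⊤)
    (hπ : ∀ i j, i ≠ j → ∀ r, π (x i j r) = rt i j r) (i : ι) {y : Γ}
    (hy : y ∈ U x {p | p.2 ≠ i}) (h : π y = 1) : y ∈ Subgroup.center Γ := by
  obtain ⟨u, hu, s, hs, rfl⟩ : ∃ u ∈ U x {p | p.1 = i ∧ p.2 ≠ i},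
      ∃ s ∈ U x {p | p.1 ≠ i ∧ p.2 ≠ i}, y = u * s := by
    refine U_ind hx (p := fun y => ∃ u ∈ U x {p | p.1 = i ∧ p.2 ≠ i},
      ∃ s ∈ U x {p | p.1 ≠ i ∧ p.2 ≠ i}, y = u * s) ⟨1, one_mem _, 1, one_mem _, by simp⟩ ?_ hy
    rintro a b r _ hab hb - ⟨u, hu, s, hs, rfl⟩
    by_cases ha : a = i
    · exact ⟨_, mul_mem (mem_U hab (by exact ⟨ha, hb⟩) r) hu, s, hs, (mul_assoc _ _ _).symm⟩
    · have h1 := mem_U (x := x) (D := {p | p.1 ≠ i ∧ p.2 ≠ i}) hab ⟨ha, hb⟩ r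
      exact ⟨_, conj_row hx i h1 u hu, _, mul_mem h1 hs, by group⟩
  have h1 : π s ∈ GLs A {i}ᶜ := El_le_GLs _ (U_ind hx (p := fun s => π s ∈ El A {i}ᶜ) (by simp)
    (fun a b r y hab h _ ih => by
      rw [map_mul, hπ a b hab]
      exact mul_mem (rt_mem_El (by simpa using h.1) (by simpa using h.2) r) ih) hs)
  rw [map_mul, mul_eq_one_iff_eq_inv] at h
  have h2 := inj hx hπ (fun p hp q hq => by rw [hq.1]; exact hp.2) hu fun p hp => by
    rw [h]
    exact mem_GLs.1 (inv_mem h1) _ _ (.inl (by simp [hp.1]))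
  rw [h2, map_one, eq_comm, inv_eq_one] at h
  rw [h2, one_mul]
  exact central hx hgen hπ i hs h

end CentAux

open CentAux in
theorem ker_central {ι : Type} [Fintype ι] [DecidableEq ι] (hι : 8 ≤ Fintype.card ι) {A : Type}
    [Ring A] (L : Loc A) {Γ : Type*} [Group Γ] {x : ι → ι → A → Γ} (hx : StS x)
    (hgen : Subgroup.closure {y | ∃ i j r, i ≠ j ∧ y = x i j r} = ⊤)
    (π : Γ →* (Matrix ι ι A)ˣ) (hπ : ∀ i j, i ≠ j → ∀ r, π (x i j r) = rt i j r) :
    π.ker ≤ Subgroup.center Γ := by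
  have hg : U x Set.univ = ⊤ := by simpa [U] using hgen
  have lift : ∀ t : Finset ι, t.card ≤ 2 → ∀ p ∈ El A Finset.univ ⊓ Fx A t,
      ∃ y ∈ U x {q | q.2 ∉ t}, π y = p := fun t ht p hp => by
    have h1 := stab_gen L (by rw [Finset.card_univ_sdiff]; omega) hp.1 hp.2
    refine (Subgroup.closure_le ((U x {q | q.2 ∉ t}).map π)).2 ?_ h1
    rintro _ ⟨a, -, b, -, hb, hab, r, rfl⟩
    exact ⟨_, mem_U hab hb r, hπ a b hab r⟩
  let Z : Subgroup Γ := π.ker ⊓ Subgroup.center Γ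
  have : Z.Normal := Subgroup.normal_inf_normal _ _
  have wd : ∀ i, ∀ y ∈ U x {q | q.2 ∉ ({i} : Finset ι)}, ∀ z ∈ U x {q | q.2 ∉ ({i} : Finset ι)},
      π y = π z → (y : Γ ⧸ Z) = z := fun i y hy z hz h => by
    have h1 : π (y⁻¹ * z) = 1 := by simp [h]
    exact QuotientGroup.eq.2 ⟨h1, central' hx hg hπ i
      (by simpa using mul_mem (inv_mem hy) hz) h1⟩
  choose! σ σ1 σ2 using fun i : ι => lift {i} (by simp)
  have : Nonempty (Finset.univ : Finset ι) := by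
    rw [Finset.nonempty_coe_sort, ← Finset.card_pos, Finset.card_univ]; omega
  obtain ⟨s, s1, s2⟩ := glueHom (H := Γ ⧸ Z) (fun _ => inf_le_left)
    (cone_lin L le_rfl (El_le_GLs _) (by rw [Finset.card_univ]; omega))
    (El_gen (by rw [Finset.card_univ]; omega)) (fun i p => σ i.1 p)
    (fun i p hp q hq => wd i _ (σ1 _ _ (mul_mem hp hq)) _ (mul_mem (σ1 _ _ hp) (σ1 _ _ hq))
      (by rw [map_mul, σ2 _ _ hp, σ2 _ _ hq, σ2 _ _ (mul_mem hp hq)]))
    (fun i j p hp hp' => by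
      obtain ⟨y, y1, y2⟩ := lift {i.1, j.1} Finset.card_le_two p ⟨hp.1, mem_Fx.2 fun a b hb => by
        rcases Finset.mem_insert.1 hb with rfl | hb
        exacts [mem_Fx.1 hp.2 a _ (by simp), mem_Fx.1 hp'.2 a _ hb]⟩
      exact (wd i _ (σ1 _ _ hp) y (U_mono (by simp +contextual) y1) (by rw [σ2 _ _ hp, y2])).trans
        (wd j _ (σ1 _ _ hp') y (U_mono (by simp +contextual) y1) (by rw [σ2 _ _ hp', y2])).symm)
  have s0 : s 1 = 1 := by simpa using s1 1 (one_mem _) 1 (one_mem _)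
  have key : ∀ y, π y ∈ El A Finset.univ ∧ s (π y) = y := fun y =>
    U_ind hx (D := Set.univ) (p := fun y => π y ∈ El A Finset.univ ∧ s (π y) = y)
      (by simpa using s0) (fun a b r y hab _ _ ih => by
        have h1 : rt a b r ∈ El A Finset.univ ⊓ Fx A {a} :=
          ⟨rt_mem_El (by simp) (by simp) r, rt_mem_Fx (by simpa using hab.symm) r⟩
        rw [map_mul, hπ a b hab, s1 _ h1.1 _ ih.1, ih.2, s2 ⟨a, by simp⟩ _ h1,
          wd a _ (σ1 _ _ h1) _ (mem_U hab (by simpa using hab.symm) r)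
            (by rw [σ2 _ _ h1, hπ a b hab])]
        exact ⟨mul_mem h1.1 ih.1, rfl⟩) (by rw [hg]; trivial)
  intro y hy
  have h := (key y).2
  rw [show π y = 1 from hy, s0, eq_comm, QuotientGroup.eq_one_iff] at h
  exact h.2

end Vale.Agent.P192
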