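import Vale.Agent.P192.KDefs

/-! Part Coc: canonical rational cocycles on periodic groups. -/

namespace Vale.Agent.P192

variable {Γ : Type*} [Group Γ] {E : Subgroup Γ} {f : Γ → Γ → ℚ}

theorem Can.mono {E' : Subgroup Γ} (h : Can E f) (hE : E' ≤ E) : Can E' f :=
  ⟨fun a ha b hb c hc => h.1 a (hE ha) b (hE hb) c (hE hc), fun g hg => h.2 g (hE hg)⟩

theorem map_one_on {Γ' : Type*} [Group Γ'] {E' : Subgroup Γ'} {φ : Γ' → Γ}
    (hm : ∀ g ∈ E', ∀ g' ∈ E', φ (g * g') = φ g * φ g') : φ 1 = 1 := by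
  simpa using hm 1 (one_mem _) 1 (one_mem _)

theorem Can.comap {Γ' : Type*} [Group Γ'] {E' : Subgroup Γ'} (h : Can E f) (φ : Γ' → Γ)
    (hφ : ∀ g ∈ E', φ g ∈ E) (hm : ∀ g ∈ E', ∀ g' ∈ E', φ (g * g') = φ g * φ g') :
    Can E' fun a b => f (φ a) (φ b) := by
  refine ⟨fun a ha b hb c hc => ?_, fun g hg m hm' => ?_⟩
  · simpa only [hm a ha b hb, hm b hb c hc] using h.1 _ (hφ a ha) _ (hφ b hb) _ (hφ c hc)
  · have hp : ∀ j : ℕ, φ (g ^ j) = φ g ^ j := fun j => by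
      induction j with
      | zero => simpa using map_one_on hm
      | succ j ih => rw [pow_succ, pow_succ, hm _ (pow_mem hg j) g hg, ih]
    simp only [hp]
    exact h.2 _ (hφ g hg) m (by rw [← hp, hm', map_one_on hm])

theorem Can.one_one (h : Can E f) : f 1 1 = 0 := by simpa using h.2 1 (one_mem _) 1 (by simp)

theorem Can.one_left (h : Can E f) {g : Γ} (hg : g ∈ E) : f 1 g = 0 := by
  simpa [h.one_one] using h.1 1 (one_mem _) 1 (one_mem _) g hg

theorem Can.one_right (h : Can E f) {g : Γ} (hg : g ∈ E) : f g 1 = 0 := by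
  simpa [h.one_one] using h.1 g hg 1 (one_mem _) 1 (one_mem _)

theorem sum_cob (F : Γ → Γ → ℚ) (b : Γ → ℚ) {g : Γ} {m : ℕ} (hm : g ^ m = 1) :
    ∑ j ∈ Finset.range m, (F (g ^ j) g + b (g ^ j) + b g - b (g ^ j * g)) =
      ∑ j ∈ Finset.range m, F (g ^ j) g + m * b g := by
  have := Finset.sum_range_sub' (fun j => b (g ^ j)) m
  rw [hm, pow_zero, sub_self] at this
  rw [← add_zero (_ + _ * _), ← this, ← nsmul_eq_mul, ← Finset.card_range m, ← Finset.sum_const,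
    Finset.card_range, ← Finset.sum_add_distrib, ← Finset.sum_add_distrib]
  exact Finset.sum_congr rfl fun j _ => by rw [pow_succ]; ring

theorem can_exists (hE : Per E) (h : Coc E f) :
    ∃ b : Γ → ℚ, Can E fun p q => f p q + b p + b q - b (p * q) := by
  refine ⟨fun g => -(∑ j ∈ Finset.range (orderOf g), f (g ^ j) g) / orderOf g,
    fun a ha b hb c hc => ?_, fun g hg m hm => ?_⟩
  · simp only [mul_assoc]
    linarith [h a ha b hb c hc]
  · rw [sum_cob f (fun g => -(∑ j ∈ Finset.range (orderOf g), f (g ^ j) g) / orderOf g) hm]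
    obtain ⟨k, rfl⟩ := orderOf_dvd_of_pow_eq_one hm
    have h0 : (orderOf g : ℚ) ≠ 0 := Nat.cast_ne_zero.2 (hE g hg).orderOf_pos.ne'
    have : ∀ k : ℕ, ∑ j ∈ Finset.range (orderOf g * k), f (g ^ j) g =
        k * ∑ j ∈ Finset.range (orderOf g), f (g ^ j) g := fun k => by
      induction k with
      | zero => simp
      | succ k ih =>
        rw [mul_add, mul_one, Finset.sum_range_add, ih]
        simp only [pow_add, pow_mul, pow_orderOf_eq_one, one_pow, one_mul]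
        push_cast; ring
    rw [this]
    push_cast
    field_simp
    ring

theorem can_unique (hE : Per E) {f' : Γ → Γ → ℚ} (h : Can E f) (h' : Can E f') (b : Γ → ℚ)
    (hb : ∀ p ∈ E, ∀ q ∈ E, f p q = f' p q + b p + b q - b (p * q)) :
    ∀ p ∈ E, ∀ q ∈ E, f p q = f' p q := by
  have h0 : ∀ g ∈ E, b g = 0 := fun g hg => by
    obtain ⟨m, hm, h1⟩ := isOfFinOrder_iff_pow_eq_one.1 (hE g hg)
    have := sum_cob f' b h1
    rw [← Finset.sum_congr rfl fun j _ => hb _ (pow_mem hg j) g hg, h.2 g hg m h1,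
      h'.2 g hg m h1, zero_add] at this
    exact (mul_eq_zero.1 this.symm).resolve_left (Nat.cast_ne_zero.2 hm.ne')
  intro p hp q hq
  rw [hb p hp q hq, h0 p hp, h0 q hq, h0 _ (mul_mem hp hq)]; ring

/-- the twisted group -/
@[ext] structure Tw (h : Can E f) where
  g : Γ
  mem : g ∈ E
  a : ℚ

namespace Tw
variable {h : Can E f}

instance : Mul (Tw h) := ⟨fun x y => ⟨x.g * y.g, mul_mem x.mem y.mem, x.a + y.a + f x.g y.g⟩⟩
instance : One (Tw h) := ⟨⟨1, one_mem _, 0⟩⟩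
instance : Inv (Tw h) := ⟨fun x => ⟨x.g⁻¹, inv_mem x.mem, -x.a - f x.g⁻¹ x.g⟩⟩

theorem mul_g (x y : Tw h) : (x * y).g = x.g * y.g := rfl
theorem mul_a (x y : Tw h) : (x * y).a = x.a + y.a + f x.g y.g := rfl
theorem one_g : (1 : Tw h).g = 1 := rfl
theorem one_a : (1 : Tw h).a = 0 := rfl
theorem inv_g (x : Tw h) : x⁻¹.g = x.g⁻¹ := rfl

instance : Group (Tw h) := Group.ofLeftAxioms
  (fun x y z => Tw.ext (mul_assoc _ _ _) (by
    simp only [mul_a, mul_g]; linarith [h.1 _ x.mem _ y.mem _ z.mem]))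
  (fun x => Tw.ext (one_mul _) (by simp [mul_a, one_a, one_g, h.one_left x.mem]))
  (fun x => Tw.ext (inv_mul_cancel _) (by
    change -x.a - f x.g⁻¹ x.g + x.a + f x.g⁻¹ x.g = 0; ring))

/-- first coordinate -/
def gH (h : Can E f) : Tw h →* Γ := MonoidHom.mk' Tw.g fun _ _ => rfl

theorem pow_g (x : Tw h) (m : ℕ) : (x ^ m).g = x.g ^ m := map_pow (gH h) x m

theorem pow_a (x : Tw h) (m : ℕ) :
    (x ^ m).a = m * x.a + ∑ j ∈ Finset.range m, f (x.g ^ j) x.g := by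
  induction m with
  | zero => simp [one_a]
  | succ m ih => rw [pow_succ, mul_a, ih, pow_g, Finset.sum_range_succ]; push_cast; ring

theorem a_zero {x : Tw h} (hx : IsOfFinOrder x) : x.a = 0 := by
  obtain ⟨m, hm, h1⟩ := isOfFinOrder_iff_pow_eq_one.1 hx
  have := pow_a x m
  rw [h.2 _ x.mem m (by rw [← pow_g, h1, one_g]), h1, one_a, add_zero] at this
  exact (mul_eq_zero.1 this.symm).resolve_left (Nat.cast_ne_zero.2 hm.ne')

theorem fin_of (hE : Per E) {x : Tw h} (hx : x.a = 0) : IsOfFinOrder x := by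
  obtain ⟨m, hm, h1⟩ := isOfFinOrder_iff_pow_eq_one.1 (hE _ x.mem)
  exact isOfFinOrder_iff_pow_eq_one.2 ⟨m, hm, Tw.ext (by rw [pow_g, h1, one_g])
    (by rw [pow_a, hx, h.2 _ x.mem m h1, one_a]; simp)⟩

theorem mul_a_left {x : Tw h} (hx : x.g = 1) (y : Tw h) : (x * y).a = x.a + y.a := by
  rw [mul_a, hx, h.one_left y.mem, add_zero]

theorem central {x : Tw h} (hx : x.g = 1) (y : Tw h) : Commute x y :=
  Tw.ext (by simp [mul_g, hx]) (by
    rw [mul_a_left hx, mul_a, hx, h.one_right y.mem]; ring)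

theorem conj_a (hE : Per E) (u x : Tw h) : (u * x * u⁻¹).a = x.a := by
  let y : Tw h := ⟨x.g, x.mem, 0⟩
  let c : Tw h := ⟨1, one_mem _, x.a⟩
  have e : x = c * y := Tw.ext (one_mul _).symm (by rw [mul_a_left rfl]; exact (add_zero _).symm)
  have h1 : (u * y * u⁻¹).a = 0 :=
    a_zero (isOfFinOrder_iff_pow_eq_one.2 (by
      obtain ⟨m, hm, h1⟩ := isOfFinOrder_iff_pow_eq_one.1 (fin_of hE (x := y) rfl)
      exact ⟨m, hm, by rw [conj_pow, h1]; simp⟩))
  conv_lhs => rw [e, ← mul_assoc, ← (central (x := c) rfl u).eq, mul_assoc, mul_assoc,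
    mul_a_left rfl, ← mul_assoc, h1]
  exact add_zero _

theorem commute_of (hE : Per E) {x y : Tw h} (hxy : Commute x.g y.g) : Commute x y := by
  have hc : (x * y * x⁻¹ * y⁻¹).g = 1 := by simp [mul_g, inv_g, hxy.eq]
  have h1 := mul_a_left hc y
  rw [inv_mul_cancel_right, conj_a hE, right_eq_add] at h1
  exact commutatorElement_eq_one_iff_commute.1 (Tw.ext hc h1)

open Classical in
/-- canonical lift -/
noncomputable def lf (h : Can E f) (g : Γ) : Tw h := if hg : g ∈ E then ⟨g, hg, 0⟩ else 1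

theorem lf_g {g : Γ} (hg : g ∈ E) : (lf h g).g = g := by rw [lf, dif_pos hg]

theorem lf_a (g : Γ) : (lf h g).a = 0 := by rw [lf]; split_ifs <;> rfl

theorem lf_mul_a {a b : Γ} (ha : a ∈ E) (hb : b ∈ E) : (lf h a * lf h b).a = f a b := by
  simp [mul_a, lf_a, lf_g ha, lf_g hb]

theorem eq_lf {x : Tw h} {g : Γ} (hg : x.g = g) (hx : x.a = 0) : x = lf h g :=
  Tw.ext (by rw [lf_g (hg ▸ x.mem), hg]) (by rw [hx, lf_a])

theorem lf_mul {a b : Γ} (ha : a ∈ E) (hb : b ∈ E) (hab : f a b = 0) :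
    lf h a * lf h b = lf h (a * b) :=
  eq_lf (by rw [mul_g, lf_g ha, lf_g hb]) (by rw [lf_mul_a ha hb, hab])

theorem conj_lf (hE : Per E) (u : Tw h) {a : Γ} (ha : a ∈ E) :
    u * lf h a * u⁻¹ = lf h (u.g * a * u.g⁻¹) :=
  eq_lf (by rw [mul_g, mul_g, inv_g, lf_g ha]) (by rw [conj_a hE, lf_a])

theorem prod_lf (l : List Γ) (hl : ∀ g ∈ l, g ∈ E) :
    (l.map (lf h)).prod.g = l.prod ∧ (l.map (lf h)).prod.a = ev f l := by
  induction l with
  | nil => exact ⟨rfl, rfl⟩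
  | cons g l ih =>
    obtain ⟨h1, h2⟩ := ih fun x hx => hl x (List.mem_cons_of_mem _ hx)
    have hg := hl g List.mem_cons_self
    simp only [List.map_cons, List.prod_cons, mul_g, mul_a, h1, h2, lf_g hg, lf_a, ev]
    exact ⟨trivial, by ring⟩

end Tw

open Tw

theorem can_comm (hE : Per E) (h : Can E f) {a b : Γ} (ha : a ∈ E) (hb : b ∈ E)
    (hab : Commute a b) : f a b = 0 := by
  rw [← lf_mul_a (h := h) ha hb]
  exact a_zero ((commute_of hE (by rwa [lf_g ha, lf_g hb])).isOfFinOrder_mul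
    (fin_of hE (lf_a a)) (fin_of hE (lf_a b)))

theorem can_conj (hE : Per E) (h : Can E f) {u a b : Γ} (hu : u ∈ E) (ha : a ∈ E) (hb : b ∈ E) :
    f (u * a * u⁻¹) (u * b * u⁻¹) = f a b := by
  have h1 := conj_lf (h := h) hE (lf h u) ha
  have h2 := conj_lf (h := h) hE (lf h u) hb
  rw [lf_g hu] at h1 h2
  rw [← lf_mul_a (h := h) (mul_mem (mul_mem hu ha) (inv_mem hu))
    (mul_mem (mul_mem hu hb) (inv_mem hu)), ← h1, ← h2, conj_mul, conj_a hE, lf_mul_a ha hb]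

theorem can_fin (h : Can E f) {H : Subgroup Γ} (hH : H ≤ E) [Finite H] {a b : Γ} (ha : a ∈ H)
    (hb : b ∈ H) : f a b = 0 := by
  have := Fintype.ofFinite H
  have h0 : (Fintype.card H : ℚ) ≠ 0 := Nat.cast_ne_zero.2 Fintype.card_ne_zero
  refine can_unique (E := H) (f' := fun _ _ => 0) (fun g hg => ?_) (h.mono hH)
    ⟨fun _ _ _ _ _ _ => rfl, fun _ _ _ _ => by simp⟩
    (fun a => (∑ c : H, f a c) / Fintype.card H) (fun p hp q hq => ?_) a ha b hb
  · exact H.subtype.isOfFinOrder (isOfFinOrder_of_finite ⟨g, hg⟩)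
  · have h1 : ∑ c : H, (f p q + f (p * q) c) = ∑ c : H, (f q c + f p (q * c)) :=
      Finset.sum_congr rfl fun c _ => h.1 p (hH hp) q (hH hq) c (hH c.2)
    have h2 : ∑ c : H, f p (q * c) = ∑ c : H, f p c :=
      Equiv.sum_comp (Equiv.mulLeft (⟨q, hq⟩ : H)) fun c : H => f p c
    rw [Finset.sum_add_distrib, Finset.sum_add_distrib, h2, Finset.sum_const, Finset.card_univ,
      nsmul_eq_mul] at h1
    field_simp
    linarith

theorem can_par (hE : Per E) (h : Can E f) {P : Subgroup Γ} (hP : P ≤ E) (lam : Γ → Γ)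
    (h1 : ∀ p ∈ P, lam p ∈ P) (h2 : ∀ p ∈ P, ∀ q ∈ P, lam (p * q) = lam p * lam q)
    (h3 : ∀ p ∈ P, lam (lam p) = lam p)
    (h4 : ∀ u ∈ P, ∀ v ∈ P, lam u = 1 → lam v = 1 → Commute u v) {a b : Γ} (ha : a ∈ P)
    (hb : b ∈ P) : f a b = f (lam a) (lam b) := by
  have hinv : ∀ p ∈ P, lam p⁻¹ = (lam p)⁻¹ := fun p hp => eq_inv_of_mul_eq_one_left (by
    rw [← h2 _ (inv_mem hp) p hp, inv_mul_cancel, map_one_on h2])
  have hcj : ∀ p ∈ P, ∀ u ∈ P, lam u = 1 → lam (p⁻¹ * u * p) = 1 := fun p hp u hu h0 => by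
    rw [h2 _ (mul_mem (inv_mem hp) hu) p hp, h2 _ (inv_mem hp) u hu, h0, hinv p hp]; simp
  have hsw : ∀ p ∈ P, ∀ u ∈ P, lf h u * lf h p = lf h p * lf h (p⁻¹ * u * p) := fun p hp u hu => by
    have := conj_lf (h := h) hE (lf h p)⁻¹ (hP hu)
    rw [inv_g, lf_g (hP hp), inv_inv, inv_inv] at this
    rw [← this]; group
  have key : ∀ p ∈ P, ∀ u ∈ P, lam u = 1 → lf h p * lf h u = lf h (p * u) := by
    intro p hp u hu h0
    have hn : ∀ n : ℕ, ∃ v ∈ P, lam v = 1 ∧ (lf h p * lf h u) ^ n = lf h p ^ n * lf h v := by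
      intro n
      induction n with
      | zero => exact ⟨1, one_mem _, map_one_on h2, by simpa using eq_lf one_g one_a⟩
      | succ n ih =>
        obtain ⟨v, hv, v1, e⟩ := ih
        have hv' := mul_mem (mul_mem (inv_mem hp) hv) hp
        refine ⟨p⁻¹ * v * p * u, mul_mem hv' hu, by rw [h2 _ hv' u hu, hcj p hp v hv v1, h0, one_mul], ?_⟩
        rw [pow_succ, e, mul_assoc, ← mul_assoc (lf h v), hsw p hp v hv, mul_assoc,
          lf_mul (hP hv') (hP hu) (can_comm hE h (hP hv') (hP hu)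
            (h4 _ hv' u hu (hcj p hp v hv v1) h0)), ← mul_assoc, ← pow_succ]
    obtain ⟨m, hm, e⟩ := isOfFinOrder_iff_pow_eq_one.1 (fin_of (h := h) hE (lf_a p))
    obtain ⟨v, -, -, e2⟩ := hn m
    rw [e, one_mul] at e2
    refine lf_mul (hP hp) (hP hu) ?_
    rw [← lf_mul_a (h := h) (hP hp) (hP hu)]
    exact a_zero (IsOfFinOrder.of_pow (e2 ▸ fin_of hE (lf_a v)) hm.ne')
  have dec : ∀ a ∈ P, ∃ u ∈ P, lam u = 1 ∧ lf h a = lf h (lam a) * lf h u := fun a ha => by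
    have hu := mul_mem (inv_mem (h1 a ha)) ha
    have h0 : lam ((lam a)⁻¹ * a) = 1 := by
      rw [h2 _ (inv_mem (h1 a ha)) a ha, hinv _ (h1 a ha), h3 a ha, inv_mul_cancel]
    exact ⟨_, hu, h0, by rw [key _ (h1 a ha) _ hu h0, mul_inv_cancel_left]⟩
  have k2 : ∀ x : Tw h, x.g ∈ P → ∀ u ∈ P, lam u = 1 → (x * lf h u).a = x.a := by
    intro x hx u hu h0
    rw [mul_a, lf_a, lf_g (hP hu), ← lf_mul_a (h := h) (hP hx) (hP hu), key _ hx u hu h0, lf_a]
    ring
  obtain ⟨u, hu, u1, eu⟩ := dec a ha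
  obtain ⟨v, hv, v1, ev⟩ := dec b hb
  have hb' := h1 b hb
  have hw := mul_mem (mul_mem (inv_mem hb') hu) hb'
  rw [← lf_mul_a (h := h) (hP ha) (hP hb), eu, ev, ← mul_assoc, mul_assoc (lf h (lam a)),
    hsw _ hb' u hu, key _ hb' _ hw (hcj _ hb' u hu u1), k2 _ _ v hv v1, ← key _ hb' _ hw
    (hcj _ hb' u hu u1), ← mul_assoc, k2 _ _ _ hw (hcj _ hb' u hu u1),
    lf_mul_a (hP (h1 a ha)) (hP hb')]
  · rw [mul_g, lf_g (hP (h1 a ha)), lf_g (hP hb')]; exact mul_mem (h1 a ha) hb'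
  · rw [mul_g, lf_g (hP (h1 a ha)), lf_g (hP (mul_mem hb' hw))]
    exact mul_mem (h1 a ha) (mul_mem hb' hw)

theorem ev_map {Γ' : Type*} [Group Γ'] {P : Subgroup Γ'} {f' : Γ' → Γ' → ℚ} (φ : Γ' → Γ)
    (hm : ∀ g ∈ P, ∀ g' ∈ P, φ (g * g') = φ g * φ g')
    (hf : ∀ g ∈ P, ∀ g' ∈ P, f (φ g) (φ g') = f' g g') (l : List Γ') (hl : ∀ g ∈ l, g ∈ P) :
    ev f (l.map φ) = ev f' l := by
  have : (l.map φ).prod = φ l.prod ∧ ev f (l.map φ) = ev f' l := by
    induction l with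
    | nil => exact ⟨(map_one_on hm).symm, rfl⟩
    | cons g l ih =>
      have hl' := fun x hx => hl x (List.mem_cons_of_mem _ hx)
      obtain ⟨h1, h2⟩ := ih hl'
      have hg := hl g List.mem_cons_self
      simp only [List.map_cons, List.prod_cons, ev, h1, h2, hm g hg _ (list_prod_mem hl'),
        hf g hg _ (list_prod_mem hl'), and_self]
  exact this.2

theorem ev_fin (h : Can E f) {H : Subgroup Γ} (hH : H ≤ E) [Finite H] (l : List Γ)
    (hl : ∀ g ∈ l, g ∈ H) : ev f l = 0 := by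
  induction l with
  | nil => rfl
  | cons g l ih =>
    have hl' := fun x hx => hl x (List.mem_cons_of_mem _ hx)
    rw [ev, ih hl', can_fin h hH (hl g List.mem_cons_self) (list_prod_mem hl'), add_zero]

/-- product of conjugates by the prefixes -/
def cjp {G T : Type*} [Group G] (x w : T → G) : G → List T → G
  | _, [] => 1
  | p, t :: l => p * w t * p⁻¹ * cjp x w (p * x t) l

theorem cjp_spec {G T : Type*} [Group G] (x w : T → G) (l : List T)
    (hc : ∀ t ∈ l, Commute (x t) (w t)) (p : G) :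
    p * (l.map fun t => x t * w t).prod = cjp x w p l * (p * (l.map x).prod) := by
  induction l generalizing p with
  | nil => simp [cjp]
  | cons t l ih =>
    have := ih (fun s hs => hc s (List.mem_cons_of_mem _ hs)) (p * x t)
    simp only [List.map_cons, List.prod_cons, cjp]
    rw [mul_assoc (p * w t * p⁻¹), ← mul_assoc p (x t), ← this, (hc t List.mem_cons_self).eq]
    group

theorem cjp_mul {G T : Type*} [Group G] (x u v : T → G) (K K' : Set G)
    (hK : ∀ a ∈ K, ∀ b ∈ K', Commute a b) (l : List T) (p : G)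
    (hconj : ∀ l1 t l2, l = l1 ++ t :: l2 →
      p * (l1.map x).prod * u t * (p * (l1.map x).prod)⁻¹ ∈ K ∧
      p * (l1.map x).prod * v t * (p * (l1.map x).prod)⁻¹ ∈ K') :
    cjp x (fun t => u t * v t) p l = cjp x u p l * cjp x v p l ∧
      ∀ b ∈ K', Commute (cjp x u p l) b := by
  induction l generalizing p with
  | nil => simp [cjp]
  | cons t l ih =>
    obtain ⟨h1, h2⟩ := ih (p * x t) fun l1 s l2 e => by
      simpa only [List.map_cons, List.prod_cons, mul_assoc] using hconj (t :: l1) s l2 (by rw [e]; rfl)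
    obtain ⟨h3, h4⟩ := hconj [] t l rfl
    simp only [List.map_nil, List.prod_nil, mul_one] at h3 h4
    refine ⟨?_, fun b hb => (hK _ h3 b hb).mul_left (h2 b hb)⟩
    simp only [cjp]
    rw [h1, ← conj_mul, mul_assoc (p * u t * p⁻¹), mul_assoc (p * u t * p⁻¹), ← mul_assoc (cjp x u _ l),
      (h2 _ h4).eq, mul_assoc (p * v t * p⁻¹)]

/-- inclusion-exclusion -/
theorem ev_IE (hE : Per E) (h : Can E f) {T : Type*} (X U V : T → Γ) (l : List T) (K K' : Set Γ)
    (hK : ∀ a ∈ K, ∀ b ∈ K', Commute a b)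
    (hmem : ∀ t ∈ l, X t ∈ E ∧ U t ∈ E ∧ V t ∈ E)
    (hcom : ∀ t ∈ l, Commute (X t) (U t) ∧ Commute (X t) (V t) ∧ Commute (U t) (V t))
    (hconj : ∀ l1 t l2, l = l1 ++ t :: l2 →
      (l1.map X).prod * U t * (l1.map X).prod⁻¹ ∈ K ∧
      (l1.map X).prod * V t * (l1.map X).prod⁻¹ ∈ K')
    (h0 : (l.map X).prod = 1) (h1 : (l.map fun t => X t * U t).prod = 1)
    (h2 : (l.map fun t => X t * V t).prod = 1) :
    ev f (l.map fun t => X t * U t * V t) + ev f (l.map X) =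
      ev f (l.map fun t => X t * U t) + ev f (l.map fun t => X t * V t) := by
  have pl : ∀ (l : List T) (Y : T → Γ) (y : T → Tw h), (∀ t ∈ l, Y t ∈ E ∧ y t = lf h (Y t)) →
      (l.map y).prod.g = (l.map Y).prod ∧ (l.map y).prod.a = ev f (l.map Y) := by
    intro l Y y hY
    have := prod_lf (h := h) (l.map Y) (by simpa using fun t ht => (hY t ht).1)
    rwa [List.map_map, ← List.map_congr_left (f := y) (g := lf h ∘ Y) fun t ht => (hY t ht).2] at this
  have lm : ∀ {a b : Γ}, a ∈ E → b ∈ E → Commute a b → lf h a * lf h b = lf h (a * b) :=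
    fun ha hb hab => lf_mul ha hb (can_comm hE h ha hb hab)
  have lc : ∀ {a b : Γ}, a ∈ E → b ∈ E → Commute a b → Commute (lf h a) (lf h b) :=
    fun ha hb hab => commute_of hE (by rwa [lf_g ha, lf_g hb])
  let x := fun t => lf h (X t)
  let u := fun t => lf h (U t)
  let v := fun t => lf h (V t)
  have p0 := pl l X x fun t ht => ⟨(hmem t ht).1, rfl⟩
  have p1 := pl l (fun t => X t * U t) (fun t => x t * u t) fun t ht =>
    ⟨mul_mem (hmem t ht).1 (hmem t ht).2.1, lm (hmem t ht).1 (hmem t ht).2.1 (hcom t ht).1⟩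
  have p2 := pl l (fun t => X t * V t) (fun t => x t * v t) fun t ht =>
    ⟨mul_mem (hmem t ht).1 (hmem t ht).2.2, lm (hmem t ht).1 (hmem t ht).2.2 (hcom t ht).2.1⟩
  have p3 := pl l (fun t => X t * U t * V t) (fun t => x t * (u t * v t)) fun t ht =>
    ⟨mul_mem (mul_mem (hmem t ht).1 (hmem t ht).2.1) (hmem t ht).2.2, by
      rw [← mul_assoc, lm (hmem t ht).1 (hmem t ht).2.1 (hcom t ht).1,
        lm (mul_mem (hmem t ht).1 (hmem t ht).2.1) (hmem t ht).2.2
          ((hcom t ht).2.1.mul_left (hcom t ht).2.2)]⟩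
  have c1 := fun t ht => lc (hmem t ht).1 (hmem t ht).2.1 (hcom t ht).1
  have c2 := fun t ht => lc (hmem t ht).1 (hmem t ht).2.2 (hcom t ht).2.1
  have s1 := cjp_spec x u l c1 1
  have s2 := cjp_spec x v l c2 1
  have s3 := cjp_spec x (fun t => u t * v t) l (fun t ht => (c1 t ht).mul_right (c2 t ht)) 1
  rw [(cjp_mul x u v {y | y.g ∈ K} {y | y.g ∈ K'} (fun a ha b hb => commute_of hE (hK _ ha _ hb))
    l 1 fun l1 t l2 e => by
      have ht : t ∈ l := by simp [e]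
      have := (pl l1 X x fun s hs => ⟨(hmem s (by simp [e, hs])).1, rfl⟩).1
      simpa only [one_mul, Set.mem_ofPred_eq, mul_g, inv_g, this, u, v, lf_g (hmem t ht).2.1,
        lf_g (hmem t ht).2.2] using hconj l1 t l2 e).1] at s3
  simp only [one_mul] at s1 s2 s3
  have g1 : (cjp x u 1 l).g = 1 := by
    have := congrArg Tw.g s1
    rwa [mul_g, p0.1, p1.1, h0, h1, mul_one, eq_comm] at this
  have g2 : (cjp x v 1 l).g = 1 := by
    have := congrArg Tw.g s2
    rwa [mul_g, p0.1, p2.1, h0, h2, mul_one, eq_comm] at this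
  rw [← p0.2, ← p1.2, ← p2.2, ← p3.2, s1, s2, s3, mul_assoc, mul_a_left g1, mul_a_left g1,
    mul_a_left g2]
  ring

theorem exists_kappa {Γ0 : Type*} [Group Γ0] (Z : Subgroup Γ0) (hZ : Z ≤ Subgroup.center Γ0)
    {z : Γ0} (hz : z ∈ Z) (hinf : ¬ IsOfFinOrder z) :
    ∃ κ : Γ0 → ℚ, (∀ a ∈ Z, ∀ b ∈ Z, κ (a * b) = κ a + κ b) ∧ κ z ≠ 0 := by
  classical
  let _ : CommGroup Z := { (inferInstance : Group Z) with
    mul_comm := fun a b => Subtype.ext (Subgroup.mem_center_iff.1 (hZ b.2) a) }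
  obtain ⟨k, hk⟩ := (Module.Baer.of_divisible ℚ).extension_property_addMonoidHom
    (zmultiplesHom (Additive Z) (Additive.ofMul ⟨z, hz⟩)) (fun m n hmn =>
      injective_zpow_iff_not_isOfFinOrder.2 hinf
        (congrArg (fun y : Additive Z => ((Additive.toMul y : Z) : Γ0)) hmn))
    (Int.castAddHom ℚ)
  refine ⟨fun a => if ha : a ∈ Z then k (Additive.ofMul ⟨a, ha⟩) else 0, fun a ha b hb => ?_, ?_⟩
  · simp only [dif_pos ha, dif_pos hb, dif_pos (mul_mem ha hb)]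
    exact map_add k (Additive.ofMul ⟨a, ha⟩) (Additive.ofMul ⟨b, hb⟩)
  · have := DFunLike.congr_fun hk 1
    simp only [dif_pos hz]
    simp at this
    rw [this]; exact one_ne_zero

theorem base_coc {Γ0 : Type*} [Group Γ0] (π : Γ0 →* Γ) (hπ : π.range = E) (hE : Per E)
    (hc : π.ker ≤ Subgroup.center Γ0) (κ : Γ0 → ℚ)
    (hκ : ∀ a ∈ π.ker, ∀ b ∈ π.ker, κ (a * b) = κ a + κ b) :
    ∃ f : Γ → Γ → ℚ, Can E f ∧ ∀ l : List Γ0, (∀ y ∈ l, IsOfFinOrder y) → π l.prod = 1 →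
      ev f (l.map π) = κ l.prod := by
  have : ∀ g, ∃ y, g ∈ E → π y = g := fun g => by
    by_cases hg : g ∈ E
    · obtain ⟨y, hy⟩ := hπ ▸ hg
      exact ⟨y, fun _ => hy⟩
    · exact ⟨1, fun h => (hg h).elim⟩
  choose σ hσ using this
  have hE' : ∀ y, π y ∈ E := fun y => hπ ▸ ⟨y, rfl⟩
  have n1 : ∀ a ∈ E, ∀ b ∈ E, σ a * σ b * (σ (a * b))⁻¹ ∈ π.ker := fun a ha b hb => by
    simp [MonoidHom.mem_ker, hσ a ha, hσ b hb, hσ _ (mul_mem ha hb)]
  have n2 : ∀ y, y * (σ (π y))⁻¹ ∈ π.ker := fun y => by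
    simp [MonoidHom.mem_ker, hσ _ (hE' y)]
  obtain ⟨b, hb⟩ := can_exists (f := fun a b => κ (σ a * σ b * (σ (a * b))⁻¹)) hE
    fun a ha b hb c hc' => by
      simp only
      rw [← hκ _ (n1 a ha b hb) _ (n1 _ (mul_mem ha hb) c hc'),
        ← hκ _ (n1 b hb c hc') _ (n1 a ha _ (mul_mem hb hc'))]
      congr 1
      rw [← mul_assoc, ← mul_assoc, ← mul_assoc, ← mul_assoc,
        ← Subgroup.mem_center_iff.1 (hc (n1 b hb c hc')) (σ a)]
      group
  let Φ : Γ0 →* Tw hb := MonoidHom.mk' (fun y => ⟨π y, hE' y, κ (y * (σ (π y))⁻¹) - b (π y)⟩)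
    fun y y' => Tw.ext (map_mul π y y') (by
      have e : y * y' * (σ (π y * π y'))⁻¹ = y * (σ (π y))⁻¹ * (y' * (σ (π y'))⁻¹) *
          (σ (π y) * σ (π y') * (σ (π y * π y'))⁻¹) := by
        rw [mul_assoc y (σ (π y))⁻¹, Subgroup.mem_center_iff.1 (hc (n2 y'))]
        group
      simp only [mul_a, map_mul]
      rw [e, hκ _ (mul_mem (n2 y) (n2 y')) _ (n1 _ (hE' y) _ (hE' y')), hκ _ (n2 y) _ (n2 y')]
      ring)
  refine ⟨_, hb, fun l hl h1 => ?_⟩
  rw [← (prod_lf (h := hb) (l.map π) (by simpa using fun y _ => hE' y)).2, List.map_map,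
    ← List.map_congr_left (f := Φ) (g := lf hb ∘ π)
      fun y hy => eq_lf rfl (a_zero (Φ.isOfFinOrder (hl y hy))),
    ← map_list_prod]
  have h2 : κ (1 * (σ (π 1))⁻¹) - b (π 1) = 0 := congrArg Tw.a (map_one Φ)
  change κ (l.prod * (σ (π l.prod))⁻¹) - b (π l.prod) = _
  have h3 := n2 1
  rw [one_mul, map_one] at h2 h3
  rw [h1, hκ _ h1 _ h3]
  linarith

end Vale.Agent.P192
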