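import Vale.Agent.P192.Stat

/-! The colour system: abstract machine. -/

namespace Vale.Agent.P192

open Function

/-- abstract states: pebbles, side and position of the messenger, its state, contents -/
structure AS where
  β : Bool → Path
  σ : Bool
  γ : Path
  q : Msg
  κ : Path → Bool

section

variable (act : Prop) (k : ℕ)

def okA (s : Bool) (a : Path) (d : Bool) : Prop :=
  act ∧ a.length < 2 * k + 1 ∧ (a = [] → d = s) ∧ (a.length = k + 1 → d = true) ∧
    (k + 1 < a.length → d = false)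

def Val (s : Bool) (a : Path) : Prop := ∀ b d, b ++ [d] <+: a → okA act k s b d

def preA (a : Path) : Bool := decide (a.length ≤ k)

def lastA (a : Path) : Bool := decide (a.length = 2 * k + 1)

def WF (B : AS) : Prop := (∀ s, Val act k s (B.β s)) ∧ B.γ <+: B.β B.σ

def AdvC (side : Bool) (md : Md) (ph0 : Ph) (pl c0 : Bool) (ph : Ph) (ct : Bool) : Prop :=
  ((pl = true ∨ md = Md.free) ∧ ph = ph0 ∧ ct = c0) ∨
  (pl = false ∧ md ≠ Md.free ∧ side = false ∧ ph0 = Ph.plain ∧ ph = Ph.one c0 ∧ ct = false) ∨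
  (pl = false ∧ md ≠ Md.free ∧ side = true ∧ ph0 = Ph.one ct ∧ ph = Ph.two c0 ∧
    (md = Md.eq → c0 = ct))

inductive AStep : AS → AS → Prop
  | travel (B : AS) (d : Bool) (h : B.γ ++ [d] <+: B.β B.σ) :
      AStep B ⟨B.β, B.σ, B.γ ++ [d], B.q, B.κ⟩
  | adv (B : AS) (d : Bool) (ph : Ph) (ct : Bool) (hγ : B.γ = B.β B.σ)
      (hok : okA act k B.σ B.γ d) (he : B.q.e B.q.side = preA k B.γ) (hf : B.q.f B.q.side = false)
      (hc : AdvC B.q.side B.q.md B.q.ph (preA k (B.γ ++ [d])) (B.κ (B.γ ++ [d])) ph ct) :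
      AStep B ⟨update B.β B.σ (B.γ ++ [d]), B.σ, B.γ ++ [d],
        ⟨B.q.side, B.q.md, ph, update B.q.e B.q.side (preA k (B.γ ++ [d])),
          update B.q.f B.q.side (lastA k (B.γ ++ [d]))⟩, update B.κ (B.γ ++ [d]) ct⟩
  | put (B : AS) (b : Bool) (hγ : B.γ = B.β B.σ) (h1 : preA k B.γ = false) (h2 : B.κ B.γ = false)
      (h3 : B.q.side = false) (h4 : B.q.md ≠ Md.free) (h5 : B.q.ph = Ph.two b) :
      AStep B ⟨B.β, B.σ, B.γ, ⟨B.q.side, B.q.md, Ph.plain, B.q.e, B.q.f⟩, update B.κ B.γ b⟩
  | switch (B : AS) (h1 : B.σ = false) (h2 : B.γ = []) (h3 : B.q.side = false) :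
      AStep B ⟨B.β, true, [], ⟨true, B.q.md, B.q.ph, B.q.e, B.q.f⟩, B.κ⟩
  | mode (B : AS) (m : Md) (h1 : B.σ = false) (h2 : B.γ = []) (h3 : B.q.md = Md.free)
      (h4 : B.q.ph = Ph.plain) (h5 : (B.q.e false = true ∧ B.q.e true = true) ∨
        (B.q.f false = true ∧ B.q.f true = true ∧ m = Md.sw)) :
      AStep B ⟨B.β, B.σ, B.γ, ⟨B.q.side, m, B.q.ph, B.q.e, B.q.f⟩, B.κ⟩

def AConn : AS → AS → Prop := Relation.EqvGen fun B B' => WF act k B ∧ AStep act k B B'

def ABad (B : AS) : Prop :=
  (∃ s a, Val act k s a ∧ preA k a = true ∧ B.κ a = true) ∨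
  (B.q.md = Md.free ∧ B.q.ph ≠ Ph.plain) ∨
  (B.γ = B.β B.σ ∧ (B.q.e B.q.side ≠ preA k B.γ ∨ B.q.f B.q.side ≠ lastA k B.γ ∨
    (B.q.side = false ∧ B.q.ph ≠ Ph.plain ∧ (preA k B.γ = true ∨ B.κ B.γ = true)) ∨
    (B.q.side = true ∧ ∃ b, B.q.ph = Ph.two b ∧
      (preA k B.γ = true ∨ (B.q.md = Md.eq ∧ B.κ B.γ ≠ b))))) ∨
  (B.γ = [] ∧ (B.q.side ≠ B.σ ∨ (B.q.md ≠ Md.free ∧ B.q.ph = Ph.plain ∧
    (B.q.e false ≠ B.q.e true ∨ (B.q.md = Md.eq ∧ B.q.f false = true)))))

def ANB (B : AS) : Prop := ∀ B', AConn act k B B' → ¬ ABad act k B'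

/-- normal states: correct claims -/
def KS (β : Bool → Path) (md : Md) (ph : Ph) (κ : Path → Bool) (s : Bool) (g : Path) : AS :=
  ⟨β, s, g, ⟨s, md, ph, fun s => preA k (β s), fun s => lastA k (β s)⟩, κ⟩

/-- clean states -/
def K0 (κ : Path → Bool) : AS := KS k (fun _ => []) Md.free Ph.plain κ false []

end

variable {act : Prop} {k : ℕ}

theorem prefix_snoc {a b : Path} {d : Bool} : a <+: b ++ [d] ↔ a <+: b ∨ a = b ++ [d] := by
  rw [List.prefix_concat_iff]; tauto

theorem Val.nil (s : Bool) : Val act k s [] := fun b d h => by simp at h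

theorem Val.pre {s : Bool} {a b : Path} (h : Val act k s a) (hb : b <+: a) : Val act k s b :=
  fun c d hc => h c d (hc.trans hb)

theorem val_snoc {s d : Bool} {a : Path} :
    Val act k s (a ++ [d]) ↔ Val act k s a ∧ okA act k s a d := by
  refine ⟨fun h => ⟨h.pre (List.prefix_append _ _), h a d List.prefix_rfl⟩, fun h b e hb => ?_⟩
  rcases prefix_snoc.1 hb with hb | hb
  · exact h.1 b e hb
  · obtain ⟨rfl, h2⟩ := List.append_inj' hb rfl
    obtain rfl : e = d := by simpa using h2
    exact h.2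

theorem Val.len {s : Bool} {a : Path} (h : Val act k s a) : a.length ≤ 2 * k + 1 := by
  rcases List.eq_nil_or_concat a with rfl | ⟨b, d, rfl⟩
  · simp
  · have := (h b d (by simp)).2.1
    simp; omega

theorem Val.head {s : Bool} {a : Path} (h : Val act k s a) (ha : a ≠ []) :
    act ∧ ∃ b, a = s :: b := by
  obtain ⟨d, b, rfl⟩ := List.exists_cons_of_ne_nil ha
  have := h [] d (by simp)
  exact ⟨this.1, b, by rw [this.2.2.1 rfl]⟩

theorem Val.side_eq {s s' : Bool} {a : Path} (h : Val act k s a) (h' : Val act k s' a)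
    (ha : a ≠ []) : s = s' := by
  obtain ⟨-, b, h1⟩ := h.head ha
  obtain ⟨-, b', h2⟩ := h'.head ha
  rw [h1] at h2
  exact (List.cons.inj h2).1

theorem Val.not_prefix {a b c : Path} (ha : Val act k false a) (hb : Val act k true b)
    (hc : k < c.length) (h1 : c <+: a) : ¬ c <+: b := fun h2 => by
  have := (ha.pre h1).side_eq (hb.pre h2) (by rintro rfl; simp at hc)
  simp at this

theorem AConn.refl (B : AS) : AConn act k B B := Relation.EqvGen.refl B

theorem AConn.symm {B B' : AS} (h : AConn act k B B') : AConn act k B' B :=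
  Relation.EqvGen.symm _ _ h

theorem AConn.trans {B B' B'' : AS} (h : AConn act k B B') (h' : AConn act k B' B'') :
    AConn act k B B'' := Relation.EqvGen.trans _ _ _ h h'

theorem AStep.conn {B B' : AS} (h : AStep act k B B') (hw : WF act k B) : AConn act k B B' :=
  Relation.EqvGen.rel _ _ ⟨hw, h⟩

theorem ANB.of_conn {B B' : AS} (h : ANB act k B) (hc : AConn act k B B') : ANB act k B' :=
  fun C hC => h C (hc.trans hC)

theorem AStep.wf {B B' : AS} (h : AStep act k B B') (hw : WF act k B) : WF act k B' := by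
  cases h with
  | travel d h => exact ⟨hw.1, h⟩
  | adv d ph ct hγ hok he hf hc =>
    refine ⟨fun s => ?_, by simp⟩
    by_cases hs : s = B.σ
    · subst hs
      simpa using val_snoc.2 ⟨hγ ▸ hw.1 _, hok⟩
    · simpa [hs] using hw.1 s
  | put => exact hw
  | switch => exact ⟨hw.1, by simp⟩
  | mode => exact hw

theorem goto {B : AS} (hw : WF act k B) {g : Path} (hg : g <+: B.β B.σ) :
    AConn act k B ⟨B.β, B.σ, g, B.q, B.κ⟩ := by
  have key : ∀ g : Path, g <+: B.β B.σ →
      AConn act k ⟨B.β, B.σ, [], B.q, B.κ⟩ ⟨B.β, B.σ, g, B.q, B.κ⟩ := by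
    intro g
    induction g using List.reverseRecOn with
    | nil => exact fun _ => AConn.refl _
    | append_singleton g d ih =>
      intro h
      have h1 : g <+: B.β B.σ := (List.prefix_append _ _).trans h
      exact (ih h1).trans ((AStep.travel ⟨B.β, B.σ, g, B.q, B.κ⟩ d h).conn ⟨hw.1, h1⟩)
  exact (key B.γ hw.2).symm.trans (key g hg)

theorem goSide {β : Bool → Path} (hβ : ∀ s, Val act k s (β s)) (md : Md) (ph : Ph)
    (e f : Bool → Bool) (κ : Path → Bool) (s : Bool) {g : Path} (hg : g <+: β s) :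
    AConn act k ⟨β, false, [], ⟨false, md, ph, e, f⟩, κ⟩ ⟨β, s, g, ⟨s, md, ph, e, f⟩, κ⟩ := by
  cases s with
  | false => exact goto (B := ⟨β, false, [], ⟨false, md, ph, e, f⟩, κ⟩) ⟨hβ, by simp⟩ hg
  | true =>
    exact ((AStep.switch ⟨β, false, [], ⟨false, md, ph, e, f⟩, κ⟩ rfl rfl rfl).conn
      ⟨hβ, by simp⟩).trans (goto (B := ⟨β, true, [], ⟨true, md, ph, e, f⟩, κ⟩) ⟨hβ, by simp⟩ hg)

theorem toKS {B : AS} (hw : WF act k B) (hn : ANB act k B) :
    AConn act k B (KS k B.β B.q.md B.q.ph B.κ false []) := by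
  obtain ⟨β, σ, γ, ⟨side, md, ph, e, f⟩, κ⟩ := B
  have h1 := goto hw (g := []) (by simp)
  obtain rfl : side = σ := by
    by_contra h
    exact hn _ h1 (Or.inr (Or.inr (Or.inr ⟨rfl, Or.inl h⟩)))
  have h2 := h1.trans (goSide hw.1 md ph e f κ side (g := []) (by simp)).symm
  have h3 : ∀ s, e s = preA k (β s) ∧ f s = lastA k (β s) := fun s => by
    have := hn _ (h2.trans (goSide hw.1 md ph e f κ s (g := β s) List.prefix_rfl))
    constructor
    · by_contra h
      exact this (Or.inr (Or.inr (Or.inl ⟨rfl, Or.inl h⟩)))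
    · by_contra h
      exact this (Or.inr (Or.inr (Or.inl ⟨rfl, Or.inr (Or.inl h)⟩)))
  obtain rfl : e = fun s => preA k (β s) := funext fun s => (h3 s).1
  obtain rfl : f = fun s => lastA k (β s) := funext fun s => (h3 s).2
  exact h2

section macros

variable {β : Bool → Path} {md : Md} {ph : Ph} {κ : Path → Bool}

theorem goKS (hβ : ∀ s, Val act k s (β s)) (s : Bool) :
    AConn act k (KS k β md ph κ false []) (KS k β md ph κ s (β s)) :=
  goSide hβ md ph _ _ κ s List.prefix_rfl

theorem mAdv (hβ : ∀ s, Val act k s (β s)) {s d : Bool} (hok : okA act k s (β s) d) {ph' : Ph}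
    {ct : Bool} (hc : AdvC s md ph (preA k (β s ++ [d])) (κ (β s ++ [d])) ph' ct) :
    AConn act k (KS k β md ph κ false [])
      (KS k (update β s (β s ++ [d])) md ph' (update κ (β s ++ [d]) ct) false []) := by
  have hw : WF act k (KS k β md ph κ s (β s)) := ⟨hβ, List.prefix_rfl⟩
  have h1 := AStep.adv (act := act) (k := k) (KS k β md ph κ s (β s)) d ph' ct rfl hok rfl
    (by have := hok.2.1; simp [KS, lastA]; omega) hc
  have h2 := (h1.wf hw).1
  refine ((goKS hβ s).trans (h1.conn hw)).trans ?_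
  refine AConn.symm (cast ?_ (goKS (md := md) (ph := ph') (κ := update κ (β s ++ [d]) ct) h2 s))
  congr 1
  simp only [KS, update_self, AS.mk.injEq, Msg.mk.injEq, true_and, and_true]
  constructor <;> funext t <;> by_cases ht : t = s <;> simp [ht]

theorem mPut (hβ : ∀ s, Val act k s (β s)) {b : Bool} (h1 : preA k (β false) = false)
    (h2 : κ (β false) = false) (h4 : md ≠ Md.free) :
    AConn act k (KS k β md (Ph.two b) κ false [])
      (KS k β md Ph.plain (update κ (β false) b) false []) :=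
  ((goKS hβ false).trans ((AStep.put (KS k β md (Ph.two b) κ false (β false)) b rfl h1 h2 rfl h4
    rfl).conn ⟨hβ, List.prefix_rfl⟩)).trans (goKS hβ false).symm

theorem mMode (hβ : ∀ s, Val act k s (β s)) {m : Md}
    (h : (preA k (β false) = true ∧ preA k (β true) = true) ∨
      (lastA k (β false) = true ∧ lastA k (β true) = true ∧ m = Md.sw)) :
    AConn act k (KS k β Md.free Ph.plain κ false []) (KS k β m Ph.plain κ false []) :=
  (AStep.mode (KS k β Md.free Ph.plain κ false []) m rfl rfl rfl rfl h).conn ⟨hβ, by simp [KS]⟩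

/-- undoing an advance -/
theorem mBack (hβ : ∀ s, Val act k s (β s)) {s d : Bool} {b : Path} (hb : β s = b ++ [d])
    {ph0 : Ph} {c0 : Bool} (hc : AdvC s md ph0 (preA k (β s)) c0 ph (κ (β s))) :
    AConn act k (KS k β md ph κ false [])
      (KS k (update β s b) md ph0 (update κ (β s) c0) false []) := by
  have h0 := val_snoc.1 (hb ▸ hβ s)
  have h1 : ∀ t, Val act k t (update β s b t) := fun t => by
    by_cases ht : t = s
    · subst ht; simpa using h0.1
    · simpa [ht] using hβ t
  have := mAdv (md := md) (ph := ph0) (κ := update κ (β s) c0) h1 (s := s) (d := d)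
    (by simpa using h0.2) (ph' := ph) (ct := κ (β s)) (by simpa [← hb] using hc)
  simp only [update_self, ← hb, update_idem, update_eq_self] at this
  exact this.symm

theorem val_update (hβ : ∀ s, Val act k s (β s)) {s : Bool} {b : Path} (hb : Val act k s b) :
    ∀ t, Val act k t (update β s b t) := fun t => by
  by_cases ht : t = s
  · subst ht; simpa using hb
  · simpa [ht] using hβ t

theorem pull_free : ∀ (n : ℕ) (β : Bool → Path), (∀ s, Val act k s (β s)) →
    (β false).length + (β true).length = n →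
    AConn act k (KS k β Md.free Ph.plain κ false []) (K0 k κ) := by
  intro n
  induction n with
  | zero =>
    intro β _ h
    obtain rfl : β = fun _ => [] := funext fun s => by
      cases s <;> exact List.length_eq_zero_iff.1 (by omega)
    exact AConn.refl _
  | succ n ih =>
    intro β hβ h
    obtain ⟨s, hs⟩ : ∃ s, β s ≠ [] := by
      by_contra h1
      push Not at h1
      simp [h1] at h
    obtain ⟨b, d, hb⟩ := (List.eq_nil_or_concat (β s)).resolve_left hs
    rw [List.concat_eq_append] at hb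
    have h1 := mBack (md := Md.free) (ph := Ph.plain) (κ := κ) hβ hb (ph0 := Ph.plain)
      (c0 := κ (β s)) (Or.inl ⟨Or.inr rfl, rfl, rfl⟩)
    rw [update_eq_self] at h1
    refine h1.trans (ih _ (val_update hβ (val_snoc.1 (hb ▸ hβ s)).1) ?_)
    have := congrArg List.length hb
    cases s <;> simp at this ⊢ <;> omega

theorem reset : ∀ (n : ℕ) (β : Bool → Path) (md : Md) (ph : Ph) (κ : Path → Bool),
    (∀ s, Val act k s (β s)) → ANB act k (KS k β md ph κ false []) →
    2 * ((β false).length + (β true).length) + (if ph = Ph.plain then 1 else 0) ≤ n →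
    ∃ κ', AConn act k (KS k β md ph κ false []) (K0 k κ') := by
  intro n
  induction n with
  | zero =>
    intro β md ph κ hβ hn h
    have h1 : ph ≠ Ph.plain := by rintro rfl; simp at h
    have h2 : β false = [] := List.length_eq_zero_iff.1 (by omega)
    exact absurd (Or.inr (Or.inr (Or.inl ⟨rfl, Or.inr (Or.inr (Or.inl ⟨rfl, h1, Or.inl
      (by simp [KS, preA, h2])⟩))⟩))) (hn _ (goKS hβ false))
  | succ n ih =>
    intro β md ph κ hβ hn h
    by_cases hm : md = Md.free
    · subst hm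
      obtain rfl : ph = Ph.plain := by
        by_contra h1
        exact hn _ (AConn.refl _) (Or.inr (Or.inl ⟨rfl, h1⟩))
      exact ⟨κ, pull_free _ β hβ rfl⟩
    have F2 : ph ≠ Ph.plain → preA k (β false) = false ∧ κ (β false) = false := fun h1 => by
      have := hn _ (goKS hβ false)
      constructor
      · by_contra h2
        exact this (Or.inr (Or.inr (Or.inl ⟨rfl, Or.inr (Or.inr (Or.inl ⟨rfl, h1, Or.inl
          (by simpa [KS] using h2)⟩))⟩)))
      · by_contra h2
        exact this (Or.inr (Or.inr (Or.inl ⟨rfl, Or.inr (Or.inr (Or.inl ⟨rfl, h1, Or.inr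
          (by simpa [KS] using h2)⟩))⟩)))
    have ne : ∀ s, preA k (β s) = false → ∃ b d, β s = b ++ [d] := fun s hs => by
      rcases List.eq_nil_or_concat (β s) with h0 | ⟨b, d, h0⟩
      · simp [preA, h0] at hs
      · exact ⟨b, d, by simpa using h0⟩
    cases ph with
    | plain =>
      by_cases hp : preA k (β false) = true
      · have hp' : preA k (β true) = true := by
          by_contra h2
          exact hn _ (AConn.refl _) (Or.inr (Or.inr (Or.inr ⟨rfl, Or.inr ⟨hm, rfl, Or.inl
            (by simpa [KS, hp] using h2)⟩⟩)))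
        exact ⟨κ, (mMode hβ (Or.inl ⟨hp, hp'⟩)).symm.trans (pull_free _ β hβ rfl)⟩
      · have h1 := mPut (md := md) (κ := update κ (β false) false) hβ (b := κ (β false))
          (by simpa using hp) (by simp) hm
        rw [update_idem, update_eq_self] at h1
        obtain ⟨κ', h2⟩ := ih β md _ _ hβ (hn.of_conn h1.symm) (by simp at h ⊢; omega)
        exact ⟨κ', h1.symm.trans h2⟩
    | one a =>
      obtain ⟨p1, p2⟩ := F2 (by simp)
      obtain ⟨b, d, hb⟩ := ne false p1
      have h1 := mBack (md := md) (ph := Ph.one a) (κ := κ) hβ hb (ph0 := Ph.plain) (c0 := a)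
        (Or.inr (Or.inl ⟨p1, hm, rfl, rfl, rfl, p2⟩))
      have hl := congrArg List.length hb
      obtain ⟨κ', h2⟩ := ih _ md _ _ (val_update hβ (val_snoc.1 (hb ▸ hβ false)).1)
        (hn.of_conn h1) (by simp at h hl ⊢; omega)
      exact ⟨κ', h1.trans h2⟩
    | two c =>
      have F3 := hn _ (goKS hβ true)
      have p1 : preA k (β true) = false := by
        by_contra h2
        exact F3 (Or.inr (Or.inr (Or.inl ⟨rfl, Or.inr (Or.inr (Or.inr ⟨rfl, c, rfl, Or.inl
          (by simpa [KS] using h2)⟩))⟩)))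
      have p2 : md = Md.eq → c = κ (β true) := fun h3 => by
        by_contra h2
        exact F3 (Or.inr (Or.inr (Or.inl ⟨rfl, Or.inr (Or.inr (Or.inr ⟨rfl, c, rfl, Or.inr
          ⟨h3, Ne.symm h2⟩⟩))⟩)))
      obtain ⟨b, d, hb⟩ := ne true p1
      have h1 := mBack (md := md) (ph := Ph.two c) (κ := κ) hβ hb (ph0 := Ph.one (κ (β true)))
        (c0 := c) (Or.inr (Or.inr ⟨p1, hm, rfl, rfl, rfl, p2⟩))
      have hl := congrArg List.length hb
      obtain ⟨κ', h2⟩ := ih _ md _ _ (val_update hβ (val_snoc.1 (hb ▸ hβ true)).1)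
        (hn.of_conn h1) (by simp at h hl ⊢; omega)
      exact ⟨κ', h1.trans h2⟩

end macros

theorem ANB.clean {B : AS} (hn : ANB act k B) (hw : WF act k B) :
    ∃ κ', AConn act k B (K0 k κ') := by
  have h1 := toKS hw hn
  obtain ⟨κ', h2⟩ := reset _ B.β B.q.md B.q.ph B.κ hw.1 (hn.of_conn h1) le_rfl
  exact ⟨κ', h1.trans h2⟩

end Vale.Agent.P192
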