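import Vale.Agent.P192.ColA

/-! The colour system: invariant and canonical form. -/

namespace Vale.Agent.P192

open Function

/-- address of the `i`-th colour cell of the slot `x` -/
def adr {k : ℕ} (x : Fin (k + 1) → Bool) (i : ℕ) : Path :=
  List.ofFn x ++ (true :: List.replicate k false).take i

/-- the slot on a path -/
def slot (k : ℕ) (b : Path) : Fin (k + 1) → Bool := fun i => b.getD i false

/-- the colouring of the slots -/
def clr (k : ℕ) (κ : Path → Bool) (x : Fin (k + 1) → Bool) (i : Fin (k + 1)) : Bool := κ (adr x i)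

variable {act : Prop} {k : ℕ}

theorem adr_length (x : Fin (k + 1) → Bool) {i : ℕ} (hi : i ≤ k) :
    (adr x i).length = k + 1 + i := by
  simp only [adr, List.length_append, List.length_ofFn, List.length_take, List.length_cons,
    List.length_replicate]
  omega

theorem adr_succ (x : Fin (k + 1) → Bool) {i : ℕ} (hi : i < k) :
    adr x (i + 1) = adr x i ++ [decide (i = 0)] := by
  rw [adr, adr, List.take_succ_eq_append_getElem (by simp; omega), List.append_assoc]
  cases i <;> simp

theorem slot_append {z : Path} (hz : z.length = k + 1) (ρ : Path) :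
    List.ofFn (slot k (z ++ ρ)) = z := by
  apply List.ext_getElem (by simp [hz])
  intro i h1 h2
  rw [List.getElem_ofFn]
  simp [slot, List.getElem?_append_left h2, h2]

theorem slot_adr (x : Fin (k + 1) → Bool) (i : ℕ) : slot k (adr x i) = x :=
  List.ofFn_injective (slot_append (by simp) _)

theorem val_short (ha : act) {s : Bool} {a : Path} (h1 : a.length ≤ k + 1)
    (h2 : ∀ d b, a = d :: b → d = s) : Val act k s a := by
  rintro b d ⟨t, rfl⟩
  simp only [List.length_append, List.length_singleton] at h1
  refine ⟨ha, by omega, ?_, by omega, by omega⟩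
  rintro rfl
  exact h2 d t rfl

theorem val_adr (ha : act) (x : Fin (k + 1) → Bool) {i : ℕ} (hi : i ≤ k) :
    Val act k (x 0) (adr x i) := by
  induction i with
  | zero =>
    refine val_short ha (by simp [adr]) fun d b h => ?_
    simp only [adr, List.take_zero, List.append_nil, List.ofFn_succ, List.cons.injEq] at h
    exact h.1.symm
  | succ i ih =>
    rw [adr_succ x hi]
    have := adr_length x (i := i) (by omega)
    refine val_snoc.2 ⟨ih (by omega), ha, by omega, fun h => ?_, fun h => ?_, fun h => ?_⟩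
    · rw [h] at this; simp at this; omega
    · simp; omega
    · simp; omega

theorem slot_snoc {b : Path} (hb : k + 1 ≤ b.length) (d : Bool) : slot k (b ++ [d]) = slot k b := by
  funext i
  have : (i : ℕ) < b.length := by omega
  simp [slot, List.getElem?_append_left this]

theorem Val.eq_adr {s : Bool} {b : Path} (h : Val act k s b) (hb : k < b.length) :
    b = adr (slot k b) (b.length - (k + 1)) := by
  induction b using List.reverseRecOn with
  | nil => simp at hb
  | append_singleton b d ih =>
    obtain ⟨h1, h2⟩ := val_snoc.1 h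
    by_cases h3 : b.length = k
    · have := slot_append (k := k) (z := b ++ [d]) (by simp [h3]) []
      rw [List.append_nil] at this
      simp [adr, h3, this, -List.ofFn_succ]
    · simp only [List.length_append, List.length_singleton] at hb ⊢
      have h4 := h2.2.1
      rw [slot_snoc (by omega), show b.length + 1 - (k + 1) = b.length - (k + 1) + 1 by omega,
        adr_succ _ (by omega), ← ih h1 (by omega)]
      congr 2
      by_cases h5 : b.length = k + 1
      · rw [h2.2.2.2.1 h5]; simp [h5]
      · rw [h2.2.2.2.2 (by omega)]; simp; omega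

theorem adr_take (x : Fin (k + 1) → Bool) {i j : ℕ} (hj : j ≤ i) :
    (adr x i).take (k + 1 + j) = adr x j := by
  have := List.take_length_add_append (l₁ := List.ofFn x)
    (l₂ := (true :: List.replicate k false).take i) j
  rw [List.length_ofFn] at this
  rw [adr, this, List.take_take, min_eq_left hj, adr]

theorem adr_prefix {x y : Fin (k + 1) → Bool} {i : ℕ} {b : Path} (h : adr x i <+: b)
    (h' : slot k b = y) : x = y := by
  obtain ⟨t, rfl⟩ := h
  rw [← h']
  apply List.ofFn_injective
  rw [adr, List.append_assoc, slot_append (by simp)]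

theorem Val.slot_zero {s : Bool} {b : Path} (h : Val act k s b) (hb : b ≠ []) : slot k b 0 = s := by
  obtain ⟨-, c, rfl⟩ := h.head hb
  simp [slot]

/-- injectivity of the colouring -/
def Inj (act : Prop) (k : ℕ) (κ : Path → Bool) : Prop := act → Injective (clr k κ)

def PhC (k : ℕ) (V : Path → Bool) (n : ℕ) (β : Bool → Path) (md : Md) (κ : Path → Bool) : Ph → Prop
  | Ph.plain => (β false).length - k = n ∧ (β true).length - k = n
  | Ph.one a => (β false).length = k + n + 1 ∧ (β true).length - k = n ∧ κ (β false) = false ∧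
      a = V (β false)
  | Ph.two b => (β false).length = k + n + 1 ∧ (β true).length = k + n + 1 ∧ κ (β false) = false ∧
      b = V (β true) ∧ κ (β true) = V (β false) ∧ (md = Md.eq → V (β false) = V (β true))

def SemV (k : ℕ) (V : Path → Bool) (n : ℕ) (β : Bool → Path) (md : Md) (ph : Ph)
    (κ : Path → Bool) : Prop :=
  (∀ a : Path, ¬ (k < a.length ∧ a <+: β false) → ¬ (k < a.length ∧ a <+: β true) → κ a = V a) ∧
  (∀ j, k < j → j ≤ k + n → κ ((β false).take j) = V ((β true).take j) ∧
    κ ((β true).take j) = V ((β false).take j) ∧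
    (md = Md.eq → V ((β false).take j) = V ((β true).take j))) ∧
  PhC k V n β md κ ph

section sem

variable {V κ : Path → Bool} {n : ℕ} {β : Bool → Path} {md : Md} {ph : Ph}

theorem take_ne {b c : Path} {j : ℕ} (h : j < c.length) : b.take j ≠ c := fun h1 => by
  have := congrArg List.length h1
  simp at this; omega

theorem semV_pre {β' : Bool → Path} (s : Bool) (h1 : (β s).length ≤ k) (h2 : (β' s).length ≤ k)
    (h3 : β' (!s) = β (!s)) (h : SemV k V n β md ph κ) : SemV k V n β' md ph κ := by
  obtain ⟨a1, a2, a3⟩ := h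
  have u : ∀ b : Path, b.length ≤ k → ∀ a : Path, ¬ (k < a.length ∧ a <+: b) :=
    fun b hb a ha => by have := ha.2.length_le; omega
  cases s with
  | false =>
    simp only [Bool.not_false] at h3
    have hn : n = 0 := by cases ph <;> simp only [PhC] at a3 <;> omega
    refine ⟨fun a _ b2 => a1 a (u _ h1 a) (h3 ▸ b2), fun j _ _ => by omega, ?_⟩
    cases ph <;> simp only [PhC, h3] at a3 ⊢ <;> omega
  | true =>
    simp only [Bool.not_true] at h3
    have hn : n = 0 := by cases ph <;> simp only [PhC] at a3 <;> omega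
    refine ⟨fun a b1 _ => a1 a (h3 ▸ b1) (u _ h1 a), fun j _ _ => by omega, ?_⟩
    cases ph <;> simp only [PhC, h3] at a3 ⊢
    · omega
    · exact ⟨a3.1, by omega, a3.2.2⟩
    · omega

theorem semV_one {d : Bool} (hL : Val act k false (β false ++ [d])) (hR : Val act k true (β true))
    (hc : k < (β false ++ [d]).length) : SemV k V n β md Ph.plain κ ↔
      SemV k V n (update β false (β false ++ [d])) md (Ph.one (κ (β false ++ [d])))
        (update κ (β false ++ [d]) false) := by
  have hl : (β false ++ [d]).length = (β false).length + 1 := by simp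
  simp only [SemV, PhC, update_self, update_of_ne (show true ≠ false by simp)]
  constructor
  · rintro ⟨a1, a2, a3, a4⟩
    refine ⟨fun a b1 b2 => ?_, fun j j1 j2 => ?_, by omega, a4, trivial,
      a1 _ (fun h => ?_) fun h => ?_⟩
    · rw [update_of_ne (by rintro rfl; exact b1 ⟨hc, List.prefix_rfl⟩)]
      exact a1 a (fun h => b1 ⟨h.1, prefix_snoc.2 (Or.inl h.2)⟩) b2
    · rw [List.take_append_of_le_length (by omega), update_of_ne (take_ne (by omega)),
        update_of_ne (take_ne (by omega))]
      exact a2 j j1 j2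
    · have := h.2.length_le; omega
    · exact hL.not_prefix hR hc List.prefix_rfl h.2
  · rintro ⟨a1, a2, a3, a4, -, a5⟩
    refine ⟨fun a b1 b2 => ?_, fun j j1 j2 => ?_, by omega, a4⟩
    · by_cases h : a = β false ++ [d]
      · rw [h, a5]
      · have := a1 a (fun h1 => b1 ⟨h1.1, (prefix_snoc.1 h1.2).resolve_right h⟩) b2
        rwa [update_of_ne h] at this
    · have := a2 j j1 j2
      rwa [List.take_append_of_le_length (by omega), update_of_ne (take_ne (by omega)),
        update_of_ne (take_ne (by omega))] at this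

theorem semV_two {d a : Bool} (hL : Val act k false (β false))
    (hR : Val act k true (β true ++ [d])) (hc : k < (β true ++ [d]).length)
    (he : md = Md.eq → κ (β true ++ [d]) = a) : SemV k V n β md (Ph.one a) κ ↔
      SemV k V n (update β true (β true ++ [d])) md (Ph.two (κ (β true ++ [d])))
        (update κ (β true ++ [d]) a) := by
  have hl : (β true ++ [d]).length = (β true).length + 1 := by simp
  have hne : β false ≠ β true ++ [d] := fun h => hL.not_prefix hR hc (by rw [h]) List.prefix_rfl
  simp only [SemV, PhC, update_self, update_of_ne (show false ≠ true by simp), update_of_ne hne]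
  constructor
  · rintro ⟨a1, a2, a3, a4, a5, a6⟩
    have a7 : κ (β true ++ [d]) = V (β true ++ [d]) :=
      a1 _ (fun h => hL.not_prefix hR hc h.2 List.prefix_rfl)
        fun h => by have := h.2.length_le; omega
    refine ⟨fun a b1 b2 => ?_, fun j j1 j2 => ?_, a3, by omega, a5, a7, a6, fun h => ?_⟩
    · rw [update_of_ne (by rintro rfl; exact b2 ⟨hc, List.prefix_rfl⟩)]
      exact a1 a b1 fun h => b2 ⟨h.1, prefix_snoc.2 (Or.inl h.2)⟩
    · rw [List.take_append_of_le_length (by omega), update_of_ne (take_ne (by omega)),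
        update_of_ne (take_ne (by omega))]
      exact a2 j j1 j2
    · rw [← a6, ← a7, he h]
  · rintro ⟨a1, a2, a3, a4, a5, a6, a7, -⟩
    refine ⟨fun a b1 b2 => ?_, fun j j1 j2 => ?_, a3, by omega, a5, a7⟩
    · by_cases h : a = β true ++ [d]
      · rw [h, a6]
      · have := a1 a b1 fun h1 => b2 ⟨h1.1, (prefix_snoc.1 h1.2).resolve_right h⟩
        rwa [update_of_ne h] at this
    · have := a2 j j1 j2
      rwa [List.take_append_of_le_length (by omega), update_of_ne (take_ne (by omega)),
        update_of_ne (take_ne (by omega))] at this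

theorem semV_put {b : Bool} (hβ : ∀ s, Val act k s (β s)) (hc : k < (β false).length)
    (h0 : κ (β false) = false) : SemV k V n β md (Ph.two b) κ ↔
      SemV k V (n + 1) β md Ph.plain (update κ (β false) b) := by
  have hne : β true ≠ β false := fun h =>
    (hβ false).not_prefix (hβ true) hc List.prefix_rfl (by rw [h])
  simp only [SemV, PhC]
  constructor
  · rintro ⟨a1, a2, a3, a4, a5, a6, a7, a8⟩
    refine ⟨fun a b1 b2 => ?_, fun j j1 j2 => ?_, by omega, by omega⟩
    · rw [update_of_ne (by rintro rfl; exact b1 ⟨hc, List.prefix_rfl⟩)]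
      exact a1 a b1 b2
    · by_cases hj : j = k + n + 1
      · rw [List.take_of_length_le (by omega), List.take_of_length_le (by omega), update_self,
          update_of_ne hne]
        exact ⟨a6, a7, a8⟩
      · rw [update_of_ne (take_ne (by omega)), update_of_ne (take_ne (by omega))]
        exact a2 j j1 (by omega)
  · rintro ⟨a1, a2, a3, a4⟩
    have := a2 (k + n + 1) (by omega) (by omega)
    rw [List.take_of_length_le (by omega), List.take_of_length_le (by omega), update_self,
      update_of_ne hne] at this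
    refine ⟨fun a b1 b2 => ?_, fun j j1 j2 => ?_, by omega, by omega, h0, this.1, this.2⟩
    · have := a1 a b1 b2
      rwa [update_of_ne (by rintro rfl; exact b1 ⟨hc, List.prefix_rfl⟩)] at this
    · have := a2 j j1 (by omega)
      rwa [update_of_ne (take_ne (by omega)), update_of_ne (take_ne (by omega))] at this

theorem Val.take_eq {s : Bool} {b : Path} (h : Val act k s b) {i : ℕ} (hb : k + 1 + i ≤ b.length) :
    b.take (k + 1 + i) = adr (slot k b) i := by
  conv_lhs => rw [h.eq_adr (by omega)]
  exact adr_take _ (by omega)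

theorem slot_ne (hβ : ∀ s, Val act k s (β s)) (h1 : β false ≠ []) (h2 : β true ≠ []) :
    slot k (β false) ≠ slot k (β true) := fun h => by
  have := (hβ false).slot_zero h1
  rw [h, (hβ true).slot_zero h2] at this
  simp at this

theorem semV_full (hβ : ∀ s, Val act k s (β s)) (h1 : (β false).length = 2 * k + 1)
    (h : SemV k V n β md Ph.plain κ) :
    clr k κ = clr k V ∘ Equiv.swap (slot k (β false)) (slot k (β true)) ∧
      (md = Md.eq → clr k V (slot k (β false)) = clr k V (slot k (β true))) := by
  obtain ⟨a1, a2, a3, a4⟩ := h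
  have t : ∀ (i : Fin (k + 1)) s, (β s).take (k + 1 + i) = adr (slot k (β s)) i := fun i s =>
    (hβ s).take_eq (by cases s <;> omega)
  constructor
  · funext y i
    have := a2 (k + 1 + i) (by omega) (by omega)
    rw [t, t] at this
    by_cases e1 : y = slot k (β false)
    · simp only [clr, comp, e1, Equiv.swap_apply_left, this.1]
    by_cases e2 : y = slot k (β true)
    · simp only [clr, comp, e2, Equiv.swap_apply_right, this.2.1]
    simp only [clr, comp, Equiv.swap_apply_of_ne_of_ne e1 e2]
    exact a1 _ (fun h => e1 (adr_prefix h.2 rfl)) fun h => e2 (adr_prefix h.2 rfl)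
  · intro h
    funext i
    have := (a2 (k + 1 + i) (by omega) (by omega)).2.2 h
    rwa [t, t] at this

theorem exists_semV_full (hβ : ∀ s, Val act k s (β s)) (h1 : (β false).length = 2 * k + 1)
    (h2 : (β true).length = 2 * k + 1) : ∃ V, SemV k V (k + 1) β Md.sw Ph.plain κ := by
  classical
  refine ⟨fun a => if k < a.length ∧ a <+: β false then κ ((β true).take a.length) else
    if k < a.length ∧ a <+: β true then κ ((β false).take a.length) else κ a,
    fun a b1 b2 => by simp only [if_neg b1, if_neg b2], fun j j1 j2 => ?_, by omega, by omega⟩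
  have l1 : ((β false).take j).length = j := by simp; omega
  have l2 : ((β true).take j).length = j := by simp; omega
  have n1 : ¬ (β true).take j <+: β false := fun h =>
    (hβ false).not_prefix (hβ true) (by omega) h (List.take_prefix _ _)
  simp only [l1, l2, j1, n1, List.take_prefix, and_self, and_false, if_true, if_false]
  simp

theorem semV_zero (h1 : (β false).length ≤ k) (h2 : (β true).length ≤ k) :
    SemV k V n β md Ph.plain κ ↔ n = 0 ∧ κ = V := by
  have u : ∀ b : Path, b.length ≤ k → ∀ a : Path, ¬ (k < a.length ∧ a <+: b) :=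
    fun b hb a ha => by have := ha.2.length_le; omega
  constructor
  · rintro ⟨a1, -, a3, -⟩
    exact ⟨by omega, funext fun a => a1 a (u _ h1 a) (u _ h2 a)⟩
  · rintro ⟨rfl, rfl⟩
    exact ⟨fun _ _ _ => rfl, fun j _ _ => by omega, by simp only [PhC]; omega⟩

end sem

def Sem (act : Prop) (k : ℕ) (β : Bool → Path) (md : Md) (ph : Ph) (κ : Path → Bool) : Prop :=
  (md = Md.free ∧ ph = Ph.plain ∧ Inj act k κ) ∨
    (md ≠ Md.free ∧ ∃ V n, Inj act k V ∧ SemV k V n β md ph κ)

/-- the invariant -/
structure AInv (act : Prop) (k : ℕ) (B : AS) : Prop where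
  wf : WF act k B
  side : B.q.side = B.σ
  cl : ∀ s, B.q.e s = preA k (B.β s) ∧ B.q.f s = lastA k (B.β s)
  pf : ∀ s a, Val act k s a → preA k a = true → B.κ a = false
  sem : Sem act k B.β B.q.md B.q.ph B.κ

theorem Inj.comp {κ V : Path → Bool} (h : Inj act k V) (τ : Equiv.Perm (Fin (k + 1) → Bool))
    (he : clr k κ = clr k V ∘ τ) : Inj act k κ := fun ha => he ▸ (h ha).comp τ.injective

theorem sem_adv {β : Bool → Path} {md : Md} {ph0 ph : Ph} {κ : Path → Bool} {s d ct : Bool}
    (hβ : ∀ s, Val act k s (β s)) (hok : okA act k s (β s) d)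
    (hc : AdvC s md ph0 (preA k (β s ++ [d])) (κ (β s ++ [d])) ph ct) :
    Sem act k β md ph0 κ ↔
      Sem act k (update β s (β s ++ [d])) md ph (update κ (β s ++ [d]) ct) := by
  have hv := val_snoc.2 ⟨hβ s, hok⟩
  rcases hc with ⟨h1, rfl, rfl⟩ | ⟨h1, h2, rfl, rfl, rfl, rfl⟩ | ⟨h1, h2, rfl, rfl, rfl, h3⟩
  · rw [update_eq_self]
    refine or_congr Iff.rfl (and_congr_right fun h2 => exists₂_congr fun V n =>
      and_congr_right fun _ => ?_)
    have h3 : (β s ++ [d]).length ≤ k := by simpa [preA] using h1.resolve_right h2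
    have h4 : (β s).length ≤ k := by simp at h3; omega
    exact ⟨semV_pre s h4 (by simpa using h3) (by simp),
      semV_pre s (by simpa using h3) h4 (by simp)⟩
  · simp only [Sem, h2, false_and, false_or]
    exact and_congr_right fun _ => exists₂_congr fun V n => and_congr_right fun _ =>
      semV_one hv (hβ true) (by simpa [preA, -List.length_append] using h1)
  · simp only [Sem, h2, false_and, false_or]
    exact and_congr_right fun _ => exists₂_congr fun V n => and_congr_right fun _ =>
      semV_two (hβ false) hv (by simpa [preA, -List.length_append] using h1) h3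

theorem AStep.inv_iff {B B' : AS} (h : AStep act k B B') (hw : WF act k B) :
    AInv act k B ↔ AInv act k B' := by
  have hw' := h.wf hw
  cases h with
  | travel d h => exact ⟨fun i => ⟨hw', i.2, i.3, i.4, i.5⟩, fun i => ⟨hw, i.2, i.3, i.4, i.5⟩⟩
  | switch h1 h2 h3 =>
    exact ⟨fun i => ⟨hw', rfl, i.3, i.4, i.5⟩, fun i => ⟨hw, h3.trans h1.symm, i.3, i.4, i.5⟩⟩
  | adv d ph ct hγ hok he hf hc =>
    obtain ⟨β, σ, γ, ⟨side, md, ph0, e, f⟩, κ⟩ := B
    simp only at hγ hok he hf hc
    subst hγ
    have hct : preA k (β σ ++ [d]) = true → ct = κ (β σ ++ [d]) := fun h => by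
      rcases hc with h1 | h1 | h1
      · exact h1.2.2
      · simp [h] at h1
      · simp [h] at h1
    constructor
    · rintro ⟨-, i2, i3, i4, i5⟩
      simp only at i2 i3 i4 i5
      subst i2
      refine ⟨hw', rfl, fun s => ?_, fun s a h1 h2 => ?_, (sem_adv hw.1 hok hc).1 i5⟩
      · by_cases hs : s = side
        · subst hs; simp
        · simpa [hs] using i3 s
      · by_cases ha : a = β side ++ [d]
        · subst ha; simpa [hct h2] using i4 s _ h1 h2
        · simpa [ha] using i4 s a h1 h2
    · rintro ⟨-, i2, i3, i4, i5⟩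
      simp only at i2 i3 i4 i5
      subst i2
      refine ⟨hw, rfl, fun s => ?_, fun s a h1 h2 => ?_, (sem_adv hw.1 hok hc).2 i5⟩
      · by_cases hs : s = side
        · subst hs
          refine ⟨he, hf.trans ?_⟩
          have := hok.2.1
          simp [lastA]; omega
        · simpa [hs] using i3 s
      · by_cases ha : a = β side ++ [d]
        · subst ha; simpa [hct h2] using i4 s _ h1 h2
        · simpa [ha] using i4 s a h1 h2
  | put b hγ h1 h2 h3 h4 h5 =>
    obtain ⟨β, σ, γ, ⟨side, md, ph0, e, f⟩, κ⟩ := B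
    simp only at hγ h1 h2 h3 h4 h5
    subst hγ h3 h5
    have hne : ∀ a, preA k a = true → a ≠ β σ := by rintro a ha rfl; simp [h1] at ha
    have hc : k < (β σ).length := by simpa [preA] using h1
    constructor
    · rintro ⟨-, i2, i3, i4, i5⟩
      simp only at i2 i3 i4 i5
      subst i2
      refine ⟨hw', rfl, i3, fun s a a1 a2 => ?_, ?_⟩
      · simpa [hne a a2] using i4 s a a1 a2
      · obtain ⟨-, V, n, a1, a2⟩ := i5.resolve_left fun h => h4 h.1
        exact Or.inr ⟨h4, V, n + 1, a1, (semV_put hw.1 hc h2).1 a2⟩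
    · rintro ⟨-, i2, i3, i4, i5⟩
      simp only at i2 i3 i4 i5
      subst i2
      refine ⟨hw, rfl, i3, fun s a a1 a2 => ?_, ?_⟩
      · simpa [hne a a2] using i4 s a a1 a2
      · obtain ⟨-, V, n, a1, a2⟩ := i5.resolve_left fun h => h4 h.1
        obtain ⟨m, rfl⟩ : ∃ m, n = m + 1 := ⟨n - 1, by have := a2.2.2.1; omega⟩
        exact Or.inr ⟨h4, V, m, a1, (semV_put hw.1 hc h2).2 a2⟩
  | mode m h1 h2 h3 h4 h5 =>
    obtain ⟨β, σ, γ, ⟨side, md, ph0, e, f⟩, κ⟩ := B
    simp only at h1 h2 h3 h4 h5
    subst h1 h2 h3 h4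
    have key : (∀ s, e s = preA k (β s) ∧ f s = lastA k (β s)) →
        (Sem act k β Md.free Ph.plain κ ↔ Sem act k β m Ph.plain κ) := by
      intro i3
      by_cases hm : m = Md.free
      · rw [hm]
      simp only [Sem, hm, true_and, ne_eq, not_true, false_and, or_false, false_or, not_false_iff]
      rcases h5 with ⟨a1, a2⟩ | ⟨a1, a2, rfl⟩
      · rw [(i3 _).1] at a1 a2
        simp only [semV_zero (by simpa [preA] using a1) (by simpa [preA] using a2)]
        exact ⟨fun h => ⟨κ, 0, h, rfl, rfl⟩, fun ⟨V, n, b1, _, b2⟩ => b2 ▸ b1⟩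
      · rw [(i3 _).2] at a1 a2
        have l1 : (β false).length = 2 * k + 1 := by simpa [lastA] using a1
        have l2 : (β true).length = 2 * k + 1 := by simpa [lastA] using a2
        constructor
        · intro h
          obtain ⟨V, hV⟩ := exists_semV_full (κ := κ) hw.1 l1 l2
          refine ⟨V, k + 1, h.comp (Equiv.swap (slot k (β false)) (slot k (β true))) ?_, hV⟩
          rw [(semV_full hw.1 l1 hV).1]
          funext y; simp
        · rintro ⟨V, n, b1, b2⟩
          exact b1.comp _ (semV_full hw.1 l1 b2).1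
    exact ⟨fun i => ⟨hw', i.2, i.3, i.4, (key i.3).1 i.5⟩,
      fun i => ⟨hw, i.2, i.3, i.4, (key i.3).2 i.5⟩⟩

theorem AConn.inv_iff {B B' : AS} (h : AConn act k B B') : AInv act k B ↔ AInv act k B' := by
  induction h with
  | rel a b h => exact h.2.inv_iff h.1
  | refl => rfl
  | symm a b _ ih => exact ih.symm
  | trans a b c _ _ ih1 ih2 => exact ih1.trans ih2

theorem AInv.not_bad {B : AS} (h : AInv act k B) : ¬ ABad act k B := by
  obtain ⟨β, σ, γ, ⟨side, md, ph, e, f⟩, κ⟩ := B
  obtain ⟨i1, i2, i3, i4, i5⟩ := h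
  simp only at i2 i3 i4 i5
  subst i2
  rintro (⟨s, a, h1, h2, h3⟩ | ⟨h1, h2⟩ | ⟨h1, h2⟩ | ⟨h1, h2⟩)
  · simp [i4 s a h1 h2] at h3
  · rcases i5 with h | h
    · exact h2 h.2.1
    · exact h.1 h1
  · simp only at h1 h2
    subst h1
    rcases h2 with h2 | h2 | ⟨rfl, h3, h4⟩ | ⟨rfl, b, rfl, h4⟩
    · exact h2 (i3 _).1
    · exact h2 (i3 _).2
    · obtain ⟨-, V, n, -, -, -, a⟩ := i5.resolve_left fun h => h3 h.2.1
      cases ph with
      | plain => exact h3 rfl
      | one c => simp only [PhC] at a; simp [preA, a.2.2.1] at h4; omega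
      | two c => simp only [PhC] at a; simp [preA, a.2.2.1] at h4; omega
    · obtain ⟨-, V, n, -, -, -, a⟩ := i5.resolve_left fun h => by simp at h
      simp only [PhC] at a
      rcases h4 with h4 | ⟨h4, h5⟩
      · simp [preA] at h4; omega
      · exact h5 (by rw [a.2.2.2.2.1, a.2.2.2.2.2 h4, a.2.2.2.1])
  · simp only at h1 h2
    rcases h2 with h2 | ⟨h2, rfl, h4⟩
    · exact h2 rfl
    obtain ⟨-, V, n, a1, a2⟩ := i5.resolve_left fun h => h2 h.1
    have a3 := a2.2.2
    simp only [PhC] at a3
    rcases h4 with h4 | ⟨h4, h5⟩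
    · apply h4
      rw [(i3 _).1, (i3 _).1]
      simp only [preA, decide_eq_decide]; omega
    · rw [(i3 _).2] at h5
      have l1 : (β false).length = 2 * k + 1 := by simpa [lastA] using h5
      have n1 : β false ≠ [] := by intro h; simp [h] at l1
      have n2 : β true ≠ [] := by intro h; simp [h] at a3; omega
      exact slot_ne i1.1 n1 n2 (a1 ((i1.1 false).head n1).1 ((semV_full i1.1 l1 a2).2 h4))

theorem AInv.anb {B : AS} (h : AInv act k B) : ANB act k B :=
  fun _ hc => (hc.inv_iff.1 h).not_bad

theorem ainv_K0 {κ : Path → Bool} (h1 : Inj act k κ)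
    (h2 : ∀ s a, Val act k s a → preA k a = true → κ a = false) : AInv act k (K0 k κ) :=
  ⟨⟨fun s => Val.nil s, List.prefix_rfl⟩, rfl, fun _ => ⟨rfl, rfl⟩, h2, Or.inl ⟨rfl, rfl, h1⟩⟩

theorem run (ha : act) (x : Bool → Fin (k + 1) → Bool) (hx : ∀ s, x s 0 = s) {md : Md}
    (hm : md ≠ Md.free) {κ : Path → Bool}
    (he : md = Md.eq → clr k κ (x false) = clr k κ (x true)) (n : ℕ) (hn : n ≤ k + 1) :
    ∃ κ', AConn act k (K0 k κ) (KS k (fun s => (adr (x s) k).take (k + n)) md Ph.plain κ' false [])
      ∧ SemV k κ n (fun s => (adr (x s) k).take (k + n)) md Ph.plain κ' := by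
  have hv : ∀ s, Val act k s (adr (x s) k) := fun s => by
    have := val_adr ha (x s) (le_refl k); rwa [hx] at this
  have hl : ∀ s, (adr (x s) k).length = k + 1 + k := fun s => adr_length _ le_rfl
  have hv' : ∀ j s, Val act k s ((adr (x s) k).take j) :=
    fun j s => (hv s).pre (List.take_prefix _ _)
  induction n with
  | zero =>
    refine ⟨κ, (pull_free _ _ (hv' _) rfl).symm.trans (mMode (hv' _) (Or.inl ?_)), ?_⟩
    · simp [preA]
    · rw [semV_zero (by simp) (by simp)]; exact ⟨rfl, rfl⟩
  | succ n ih =>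
    obtain ⟨κ1, c1, s1⟩ := ih (by omega)
    set β : Bool → Path := fun s => (adr (x s) k).take (k + n) with hβ
    have hs : ∀ s, ∃ d, β s ++ [d] = (adr (x s) k).take (k + (n + 1)) := fun s =>
      ⟨_, (List.take_succ_eq_append_getElem (by rw [hl]; omega)).symm⟩
    choose d hd using hs
    have hvd : ∀ s, Val act k s (β s ++ [d s]) := fun s => hd s ▸ hv' _ s
    have hld : ∀ s, (β s ++ [d s]).length = k + n + 1 := fun s => by
      rw [hd, List.length_take, hl]; omega
    have hp : ∀ s, preA k (β s ++ [d s]) = false := fun s => by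
      simp only [preA, hld]; simp
    have c2 := mAdv (md := md) (ph := Ph.plain) (κ := κ1) (hv' (k + n)) (val_snoc.1 (hvd false)).2
      (Or.inr (Or.inl ⟨hp false, hm, rfl, rfl, rfl, rfl⟩))
    have s2 := (semV_one (hvd false) (hv' _ true) (by rw [hld]; omega)).1 s1
    set β1 := update β false (β false ++ [d false]) with hβ1
    set κ2 := update κ1 (β false ++ [d false]) false with hκ2
    have v1 : ∀ s, Val act k s (β1 s) := val_update (hv' _) (hvd false)
    have e1 : β1 true = β true := by simp [hβ1]
    have e2 : β1 false = β false ++ [d false] := by simp [hβ1]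
    have heq : md = Md.eq → κ2 (β1 true ++ [d true]) = κ1 (β false ++ [d false]) := fun h => by
      rw [s2.2.2.2.2.2, s2.1 _ (fun h => ?_) fun h => ?_, e1, e2, hd, hd,
        show k + (n + 1) = k + 1 + n by omega, adr_take _ (by omega), adr_take _ (by omega)]
      · exact (congrFun (he h) ⟨n, by omega⟩).symm
      · exact (v1 false).not_prefix (e1 ▸ hvd true) h.1 h.2 List.prefix_rfl
      · have := h.2.length_le; simp at this
    have c3 := mAdv (md := md) (ph := Ph.one (κ1 (β false ++ [d false]))) (κ := κ2) v1 (s := true)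
      (d := d true) (e1 ▸ (val_snoc.1 (hvd true)).2)
      (Or.inr (Or.inr ⟨e1 ▸ hp true, hm, rfl, rfl, rfl, heq⟩))
    have s3 := (semV_two (v1 false) (e1 ▸ hvd true) (by rw [e1, hld]; omega) heq).1 s2
    have e3 : update β1 true (β1 true ++ [d true]) = fun s => (adr (x s) k).take (k + (n + 1)) := by
      funext s
      cases s
      · simp [e2, hd]
      · simp [e1, hd]
    rw [e3] at c3 s3
    have h0 := s3.2.2.2.2.1
    have hk : k < ((adr (x false) k).take (k + (n + 1))).length := by
      rw [List.length_take, hl]; omega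
    exact ⟨_, ((c1.trans c2).trans c3).trans (mPut (hv' _) (by simpa [preA, -List.length_take]
      using hk) h0 hm), (semV_put (hv' _) hk h0).1 s3⟩

theorem run_full (ha : act) (x : Bool → Fin (k + 1) → Bool) (hx : ∀ s, x s 0 = s) {md : Md}
    (hm : md ≠ Md.free) {κ : Path → Bool}
    (he : md = Md.eq → clr k κ (x false) = clr k κ (x true)) :
    ∃ κ', AConn act k (K0 k κ) (KS k (fun s => adr (x s) k) md Ph.plain κ' false [])
      ∧ SemV k κ (k + 1) (fun s => adr (x s) k) md Ph.plain κ' := by
  have := run ha x hx hm he (k + 1) le_rfl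
  rwa [show (fun s => (adr (x s) k).take (k + (k + 1))) = fun s => adr (x s) k from
    funext fun s => List.take_of_length_le (by rw [adr_length _ le_rfl]; omega)] at this

theorem conn_swap (ha : act) {x y : Fin (k + 1) → Bool} (hx : x 0 = false) (hy : y 0 = true)
    (κ : Path → Bool) :
    ∃ κ', AConn act k (K0 k κ) (K0 k κ') ∧ clr k κ' = clr k κ ∘ Equiv.swap x y := by
  let z : Bool → Fin (k + 1) → Bool := fun s => if s then y else x
  have hz : ∀ s, z s 0 = s := fun s => by cases s <;> simp [z, hx, hy]
  obtain ⟨κ', c, s⟩ := run_full ha z hz (md := Md.sw) (by simp) (κ := κ) (by simp)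
  have hv : ∀ s, Val act k s (adr (z s) k) := fun s => by
    have := val_adr ha (z s) (le_refl k); rwa [hz] at this
  have hl : ∀ s, (adr (z s) k).length = 2 * k + 1 := fun s => by rw [adr_length _ le_rfl]; omega
  refine ⟨κ', (c.trans (mMode hv (Or.inr ⟨by simp [lastA, hl], by simp [lastA, hl], rfl⟩)).symm).trans
    (pull_free _ _ hv rfl), ?_⟩
  simpa [slot_adr, z] using (semV_full hv (hl false) s).1

theorem conn_perm (ha : act) (τ : Equiv.Perm (Fin (k + 1) → Bool)) : ∀ κ : Path → Bool,
    ∃ κ', AConn act k (K0 k κ) (K0 k κ') ∧ clr k κ' = clr k κ ∘ τ := by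
  let P : Equiv.Perm (Fin (k + 1) → Bool) → Prop := fun τ => ∀ κ : Path → Bool,
    ∃ κ', AConn act k (K0 k κ) (K0 k κ') ∧ clr k κ' = clr k κ ∘ τ
  have mul : ∀ a b, P a → P b → P (a * b) := fun a b h1 h2 κ => by
    obtain ⟨κ1, c1, e1⟩ := h1 κ
    obtain ⟨κ2, c2, e2⟩ := h2 κ1
    exact ⟨κ2, c1.trans c2, by rw [e2, e1]; rfl⟩
  have opp : ∀ x y : Fin (k + 1) → Bool, x 0 ≠ y 0 → P (Equiv.swap x y) := fun x y h κ => by
    cases hx : x 0
    · exact conn_swap ha hx (by simpa [hx] using h) κ
    · rw [Equiv.swap_comm]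
      exact conn_swap ha (by simpa [hx] using h) hx κ
  induction τ using Equiv.Perm.swap_induction_on with
  | one => exact fun κ => ⟨κ, AConn.refl _, rfl⟩
  | swap_mul f x y hxy ih =>
    refine mul _ _ ?_ ih
    by_cases h : x 0 = y 0
    · have a1 : (fun _ => !x 0 : Fin (k + 1) → Bool) 0 ≠ x 0 := by simp
      have a2 : (fun _ => !x 0 : Fin (k + 1) → Bool) 0 ≠ y 0 := by simp [h]
      generalize (fun _ => !x 0 : Fin (k + 1) → Bool) = w at a1 a2
      rw [Equiv.swap_comm, ← Equiv.swap_mul_swap_mul_swap (x := x) (y := w) (z := y)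
        (fun h => a1 (by rw [h])) hxy]
      exact mul _ _ (mul _ _ (opp _ _ a2) (opp _ _ a1.symm)) (opp _ _ a2)
    · exact opp x y h

theorem ANB.inj {κ : Path → Bool} (h : ANB act k (K0 k κ)) : Inj act k κ := by
  intro ha x y hxy
  by_contra hne
  let z : Bool → Fin (k + 1) → Bool := fun s _ => s
  have hz : z false ≠ z true := fun h => by simpa [z] using congrFun h 0
  let τ1 := Equiv.swap (z false) x
  have h1 : z false ≠ τ1.symm y := fun h => hne (by
    rw [Equiv.eq_symm_apply] at h; simpa [τ1] using h)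
  obtain ⟨κ1, c1, e1⟩ := conn_perm ha (τ1 * Equiv.swap (z true) (τ1.symm y)) κ
  obtain ⟨κ2, c2, -⟩ := run_full ha z (fun _ => rfl) (md := Md.eq) (by simp) (κ := κ1) fun _ => by
    rw [e1]
    simp only [comp, Equiv.Perm.mul_apply, Equiv.swap_apply_left,
      Equiv.swap_apply_of_ne_of_ne hz h1, Equiv.apply_symm_apply, τ1]
    exact hxy
  exact h _ (c1.trans c2) (Or.inr (Or.inr (Or.inr ⟨rfl, Or.inr ⟨by simp [KS], rfl,
    Or.inr ⟨rfl, by simp [KS, lastA, adr_length _ le_rfl]; omega⟩⟩⟩)))

/-- the canonical contents -/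
def kcan (k : ℕ) (a : Path) : Bool := decide (k < a.length) && a.getD (a.length - (k + 1)) false

theorem kcan_adr (x : Fin (k + 1) → Bool) (i : Fin (k + 1)) : kcan k (adr x i) = x i := by
  have h1 := adr_length x (i := i) (by omega)
  have h2 := congrFun (slot_adr x i) i
  simp only [kcan, h1, Nat.add_sub_cancel_left]
  rw [decide_eq_true (by omega), Bool.true_and]
  exact h2

theorem ANB.pf {κ : Path → Bool} (h : ANB act k (K0 k κ)) (s : Bool) (a : Path)
    (h1 : Val act k s a) (h2 : preA k a = true) : κ a = false := by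
  by_contra h3
  exact h _ (AConn.refl _) (Or.inl ⟨s, a, h1, h2, by simpa [K0, KS] using h3⟩)

theorem ANB.ainv {B : AS} (h : ANB act k B) (hw : WF act k B) : AInv act k B := by
  obtain ⟨κ, c⟩ := h.clean hw
  exact c.inv_iff.2 (ainv_K0 (h.of_conn c).inj (h.of_conn c).pf)

theorem ANB.canon {B : AS} (h : ANB act k B) (hw : WF act k B) :
    ∃ κ, AConn act k B (K0 k κ) ∧ ∀ s a, Val act k s a → κ a = kcan k a := by
  obtain ⟨κ, c⟩ := h.clean hw
  have h1 := h.of_conn c
  have short : ∀ κ', ANB act k (K0 k κ') → ∀ s a, Val act k s a → a.length ≤ k →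
      κ' a = kcan k a := fun κ' h2 s a v l => by
    rw [h2.pf s a v (by simpa [preA] using l), kcan, decide_eq_false (by omega), Bool.false_and]
  by_cases ha : act
  · obtain ⟨κ', c', e⟩ := conn_perm ha
      (Equiv.ofBijective _ (Finite.injective_iff_bijective.1 (h1.inj ha))).symm κ
    refine ⟨κ', c.trans c', fun s a v => ?_⟩
    by_cases l : a.length ≤ k
    · exact short κ' (h1.of_conn c') s a v l
    have l2 := v.len
    have := congrFun (congrFun e (slot k a)) ⟨a.length - (k + 1), by omega⟩
    have e2 := congrFun (Equiv.ofBijective_apply_symm_apply _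
      (Finite.injective_iff_bijective.1 (h1.inj ha)) (slot k a)) ⟨a.length - (k + 1), by omega⟩
    have e3 := (this.trans e2).trans (kcan_adr _ _).symm
    simpa only [clr, ← v.eq_adr (by omega)] using e3
  · refine ⟨κ, c, fun s a v => short κ h1 s a v ?_⟩
    by_contra l
    exact ha (v.head (by rintro rfl; simp at l)).1

theorem ainv_can : AInv act k (K0 k (kcan k)) :=
  ainv_K0 (fun _ x y h => funext fun i => by
      have := congrFun h i
      rwa [clr, clr, kcan_adr, kcan_adr] at this)
    fun s a _ h => by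
      rw [kcan, decide_eq_false (by simpa [preA] using h), Bool.false_and]

theorem clr_swap {z z' : Path} (hz : z.length = k + 1) (hz' : z'.length = k + 1)
    (κ : Path → Bool) :
    clr k (fun a => κ (swapP z z' a)) = clr k κ ∘ Equiv.swap (slot k z) (slot k z') := by
  have e1 : List.ofFn (slot k z) = z := by simpa using slot_append hz []
  have e2 : List.ofFn (slot k z') = z' := by simpa using slot_append hz' []
  funext y i
  by_cases h1 : y = slot k z
  · simp only [clr, comp, h1, Equiv.swap_apply_left, adr, e1, e2, swapP_left]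
  by_cases h2 : y = slot k z'
  · simp only [clr, comp, h2, Equiv.swap_apply_right, adr, e1, e2,
      swapP_right (hz.trans hz'.symm)]
  simp only [clr, comp, Equiv.swap_apply_of_ne_of_ne h1 h2, adr]
  rw [swapP_other (by simp [hz]) (by simp [hz']) (fun h => h1 (List.ofFn_injective (h.trans e1.symm)))
    fun h => h2 (List.ofFn_injective (h.trans e2.symm))]

theorem AInv.swap {B : AS} (h : AInv act k B) {z z' : Path} (hz : z.length = k + 1)
    (hz' : z'.length = k + 1) (h1 : ∀ s, ¬ z <+: B.β s) (h2 : ∀ s, ¬ z' <+: B.β s) :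
    AInv act k ⟨B.β, B.σ, B.γ, B.q, fun a => B.κ (swapP z z' a)⟩ := by
  have hl := hz.trans hz'.symm
  have fix : ∀ s a, a <+: B.β s → swapP z z' a = a := fun s a ha => by
    rcases swapP_cases hl a with ⟨ρ, rfl, -⟩ | ⟨ρ, rfl, -⟩ | h
    · exact absurd ((List.prefix_append _ _).trans ha) (h1 s)
    · exact absurd ((List.prefix_append _ _).trans ha) (h2 s)
    · exact h.2.2
  refine ⟨h.wf, h.side, h.cl, fun s a v p => ?_, ?_⟩
  · show B.κ (swapP z z' a) = false
    rw [swapP_short hl (by simp [preA] at p; omega)]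
    exact h.pf s a v p
  rcases h.sem with ⟨a1, a2, a3⟩ | ⟨a1, V, n, a2, a3, a4, a5⟩
  · exact Or.inl ⟨a1, a2, a3.comp _ (clr_swap hz hz' _)⟩
  refine Or.inr ⟨a1, fun a => V (swapP z z' a), n, a2.comp _ (clr_swap hz hz' _),
    fun a b1 b2 => ?_, fun j j1 j2 => ?_, ?_⟩
  · rcases swapP_cases hl a with ⟨ρ, rfl, e⟩ | ⟨ρ, rfl, e⟩ | ⟨-, -, e⟩
    · simp only [e]
      exact a3 _ (fun h => h2 _ ((List.prefix_append _ _).trans h.2))
        fun h => h2 _ ((List.prefix_append _ _).trans h.2)
    · simp only [e]
      exact a3 _ (fun h => h1 _ ((List.prefix_append _ _).trans h.2))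
        fun h => h1 _ ((List.prefix_append _ _).trans h.2)
    · simp only [e]
      exact a3 a b1 b2
  · simp only [fix _ _ (List.take_prefix _ _)]
    exact a4 j j1 j2
  · show PhC k _ n B.β B.q.md _ B.q.ph
    cases hp : B.q.ph <;> rw [hp] at a5 <;> simpa only [PhC, fix _ _ List.prefix_rfl] using a5

theorem AInv.distinct (ha : act) {B : AS} (h : AInv act k B) {z z' : Path} (hz : z.length = k + 1)
    (hz' : z'.length = k + 1) (hne : z ≠ z') (h1 : ∀ s, ¬ z <+: B.β s) (h2 : ∀ s, ¬ z' <+: B.β s) :
    ∃ i ≤ k, B.κ (z ++ (true :: List.replicate k false).take i) ≠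
      B.κ (z' ++ (true :: List.replicate k false).take i) := by
  have e1 : List.ofFn (slot k z) = z := by simpa using slot_append hz []
  have e2 : List.ofFn (slot k z') = z' := by simpa using slot_append hz' []
  by_contra hc
  push Not at hc
  obtain ⟨V, a1, a2⟩ : ∃ V, Inj act k V ∧ ∀ a : Path, (∀ s, ¬ a <+: B.β s) → B.κ a = V a := by
    rcases h.sem with ⟨-, -, a3⟩ | ⟨-, V, n, a2, a3, -⟩
    · exact ⟨_, a3, fun _ _ => rfl⟩
    · exact ⟨V, a2, fun a h => a3 a (fun h' => h _ h'.2) fun h' => h _ h'.2⟩
  apply hne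
  rw [← e1, ← e2, a1 ha (a₁ := slot k z) (a₂ := slot k z')]
  funext i
  simp only [clr, adr, e1, e2]
  rw [← a2 _ fun s h => h1 s ((List.prefix_append _ _).trans h),
    ← a2 _ fun s h => h2 s ((List.prefix_append _ _).trans h), hc i (by omega)]

end Vale.Agent.P192
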