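import Vale.Agent.P192.ColB

/-! The colour system: rendering of abstract states. -/

namespace Vale.Agent.P192

open Function

/-- marks along a path -/
def mkF (b a : Path) : Mk :=
  if a = b then Mk.P else if a <+: b then Mk.M (b.getD a.length false) else Mk.U

/-- arrows along a path -/
def arF (q : Msg) : Mk → Ar
  | Mk.P => Ar.here q
  | Mk.M _ => Ar.dn
  | Mk.U => Ar.up

/-- the cells of an abstract state -/
def rend (B : AS) (s : Bool) (a : Path) : Cell :=
  ⟨mkF (B.β s) a, if s = B.σ then arF B.q (mkF B.γ a) else Ar.up, B.κ a⟩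

theorem mkF_P {a b : Path} : mkF b a = Mk.P ↔ a = b := by
  unfold mkF; split_ifs <;> simp_all

theorem mkF_U {a b : Path} : mkF b a = Mk.U ↔ ¬ a <+: b := by
  unfold mkF; split_ifs <;> simp_all

theorem mkF_M {a b : Path} {d : Bool} : mkF b a = Mk.M d ↔ a ++ [d] <+: b := by
  constructor
  · intro h
    unfold mkF at h
    split_ifs at h with h1 h2
    obtain ⟨t, rfl⟩ := h2
    cases t with
    | nil => simp at h1
    | cons e t =>
      obtain rfl : e = d := by simpa using h
      exact ⟨t, by simp⟩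
  · rintro ⟨t, rfl⟩
    simp [mkF]

theorem mkF_self (a : Path) : mkF a a = Mk.P := mkF_P.2 rfl

theorem mkF_up (a : Path) (d : Bool) : mkF (a ++ [d]) a = Mk.M d := mkF_M.2 List.prefix_rfl

theorem mkF_dn (a : Path) (d : Bool) : mkF a (a ++ [d]) = Mk.U :=
  mkF_U.2 fun h => by have := h.length_le; simp at this

theorem mkF_snoc {a b : Path} {d : Bool} (h1 : a ≠ b) (h2 : a ≠ b ++ [d]) :
    mkF (b ++ [d]) a = mkF b a := by
  cases h : mkF b a with
  | P => exact absurd (mkF_P.1 h) h1
  | U => exact mkF_U.2 fun h3 => (prefix_snoc.1 h3).elim (mkF_U.1 h) h2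
  | M e => exact mkF_M.2 ((mkF_M.1 h).trans (List.prefix_append _ _))

theorem arF_here {q q' : Msg} {m : Mk} : arF q m = Ar.here q' ↔ m = Mk.P ∧ q = q' := by
  cases m <;> simp [arF]

theorem arF_up {q : Msg} {m : Mk} : arF q m = Ar.up ↔ m = Mk.U := by cases m <;> simp [arF]

theorem arF_dn {q : Msg} {m : Mk} : arF q m = Ar.dn ↔ ∃ d, m = Mk.M d := by
  cases m <;> simp [arF]

theorem arF_ne {q q' : Msg} {a b : Path} (h : a ≠ b) : arF q (mkF b a) = arF q' (mkF b a) := by
  cases h1 : mkF b a with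
  | P => exact absurd (mkF_P.1 h1) h
  | U => rfl
  | M e => rfl

theorem rend_here {B : AS} {s : Bool} {a : Path} {q : Msg} :
    (rend B s a).ar = Ar.here q ↔ s = B.σ ∧ a = B.γ ∧ B.q = q := by
  by_cases h : s = B.σ <;> simp [rend, h, arF_here, mkF_P]

theorem rend_up {B : AS} {s : Bool} {a : Path} :
    (rend B s a).ar = Ar.up ↔ ¬ (s = B.σ ∧ a <+: B.γ) := by
  by_cases h : s = B.σ <;> simp [rend, h, arF_up, mkF_U]

theorem rend_dn {B : AS} {s : Bool} {a : Path} :
    (rend B s a).ar = Ar.dn ↔ s = B.σ ∧ ∃ d, a ++ [d] <+: B.γ := by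
  by_cases h : s = B.σ <;> simp [rend, h, arF_dn, mkF_M]

variable {act : Prop} {k : ℕ}

/-- the renderings agree off two cells -/
def Frame (act : Prop) (k : ℕ) (B B' : AS) (c c' : Bool × Path) : Prop :=
  ∀ s a, Val act k s a → (s, a) ≠ c → (s, a) ≠ c' → rend B' s a = rend B s a

theorem Frame.symm {B B' : AS} {c c' : Bool × Path} (h : Frame act k B B' c c') :
    Frame act k B' B c c' := fun s a h1 h2 h3 => (h s a h1 h2 h3).symm

theorem frame_travel (B : AS) (d : Bool) :
    Frame act k B ⟨B.β, B.σ, B.γ ++ [d], B.q, B.κ⟩ (B.σ, B.γ) (B.σ, B.γ ++ [d]) := by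
  intro s a _ h2 h3
  by_cases hs : s = B.σ
  · subst hs
    simp only [rend, if_true]
    rw [mkF_snoc (by simpa using h2) (by simpa using h3)]
  · simp [rend, hs]

theorem frame_adv (B : AS) (d : Bool) (q : Msg) (ct : Bool) (hγ : B.γ = B.β B.σ)
    (hv : Val act k B.σ (B.γ ++ [d])) :
    Frame act k B ⟨update B.β B.σ (B.γ ++ [d]), B.σ, B.γ ++ [d], q, update B.κ (B.γ ++ [d]) ct⟩
      (B.σ, B.γ) (B.σ, B.γ ++ [d]) := by
  intro s a h1 h2 h3
  by_cases hs : s = B.σ
  · subst hs
    have e1 : a ≠ B.γ := by simpa using h2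
    have e2 : a ≠ B.γ ++ [d] := by simpa using h3
    simp only [rend, if_true, update_self, update_of_ne e2]
    rw [mkF_snoc e1 e2, ← hγ, arF_ne (q := q) (q' := B.q) e1]
  · have e2 : a ≠ B.γ ++ [d] := by
      rintro rfl
      exact hs (h1.side_eq hv (by simp))
    simp [rend, hs, e2]

theorem frame_loc (B : AS) (q : Msg) (ct : Bool) (hv : Val act k B.σ B.γ)
    (h : B.γ = [] → ct = B.κ B.γ) :
    Frame act k B ⟨B.β, B.σ, B.γ, q, update B.κ B.γ ct⟩ (B.σ, B.γ) (B.σ, B.γ) := by
  intro s a h1 h2 _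
  by_cases hs : s = B.σ
  · subst hs
    have e1 : a ≠ B.γ := by simpa using h2
    simp only [rend, if_true, update_of_ne e1]
    rw [arF_ne (q := q) (q' := B.q) e1]
  · by_cases e1 : a = B.γ
    · subst e1
      have : B.γ = [] := by
        by_contra h0
        exact hs (h1.side_eq hv h0)
      simp [rend, hs, h this]
    · simp [rend, hs, e1]

theorem frame_switch (B : AS) (q : Msg) (h2 : B.γ = []) :
    Frame act k B ⟨B.β, true, [], q, B.κ⟩ (false, []) (true, []) := by
  intro s a _ h3 h4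
  have : a ≠ [] := by rintro rfl; cases s <;> simp at h3 h4
  have e : mkF [] a = Mk.U := mkF_U.2 (by simpa using this)
  simp [rend, h2, e, arF]

theorem link_f {B : AS} {s d : Bool} {a : Path} (hv : Val act k s a) (hok : okA act k s a d)
    {x y : Cell} (h : CellMove d (preA k a) (preA k (a ++ [d])) (lastA k (a ++ [d]))
      (rend B s a) (rend B s (a ++ [d])) x y) :
    ∃ B', AStep act k B B' ∧ x = rend B' s a ∧ y = rend B' s (a ++ [d]) ∧
      Frame act k B B' (s, a) (s, a ++ [d]) := by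
  obtain ⟨q, h1, -, h2⟩ := h
  obtain ⟨rfl, rfl, rfl⟩ := rend_here.1 h1
  rcases h2 with ⟨h3, rfl, rfl⟩ | ⟨h3, -, h4, h5, rfl, ph, ct, rfl, h6⟩
  · refine ⟨_, AStep.travel B d (mkF_M.1 h3), ?_, ?_, frame_travel B d⟩
    · simp [rend, mkF_up, arF]
    · simp [rend, mkF_self, arF]
  · have hγ := mkF_P.1 h3
    refine ⟨_, AStep.adv B d ph ct hγ hok h4 h5 h6, ?_, ?_,
      frame_adv B d _ ct hγ (val_snoc.2 ⟨hv, hok⟩)⟩
    · simp [rend, mkF_up, arF]
    · simp [rend, mkF_self, arF]

theorem link_b {B : AS} (hw : WF act k B) {s d : Bool} {a : Path} (hv : Val act k s a)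
    (hok : okA act k s a d) {x y : Cell}
    (h : CellMove d (preA k a) (preA k (a ++ [d])) (lastA k (a ++ [d])) x y
      (rend B s a) (rend B s (a ++ [d]))) :
    ∃ B', WF act k B' ∧ AStep act k B' B ∧ x = rend B' s a ∧ y = rend B' s (a ++ [d]) ∧
      Frame act k B' B (s, a) (s, a ++ [d]) := by
  obtain ⟨β, σ, γ, q0, κ⟩ := B
  obtain ⟨xm, xa, xc⟩ := x
  obtain ⟨ym, ya, yc⟩ := y
  obtain ⟨q, rfl, rfl, h2⟩ := h
  rcases h2 with ⟨rfl, h3, h4⟩ | ⟨rfl, rfl, h4, h5, h3, ph, ct, h7, h6⟩
  · obtain ⟨rfl, rfl, rfl⟩ := rend_here.1 (congrArg Cell.ar h4)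
    have e1 := congrArg Cell.mr h3
    have e2 := congrArg Cell.ct h3
    have e3 := congrArg Cell.mr h4
    have e4 := congrArg Cell.ct h4
    simp only [rend] at e1 e2 e3 e4
    refine ⟨⟨β, s, a, q0, κ⟩, ⟨hw.1, (List.prefix_append _ _).trans hw.2⟩,
      AStep.travel ⟨β, s, a, q0, κ⟩ d hw.2, ?_, ?_, frame_travel ⟨β, s, a, q0, κ⟩ d⟩
    · simp [rend, mkF_self, arF, e1, e2]
    · simp [rend, mkF_dn, arF, e3, e4]
  · obtain ⟨rfl, rfl, rfl⟩ := rend_here.1 (congrArg Cell.ar h7)
    have e2 := congrArg Cell.ct h3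
    have e3 := (mkF_P.1 (congrArg Cell.mr h7)).symm
    have e4 := congrArg Cell.ct h7
    simp only [rend] at e2 e3 e4
    have e5 : update (update β s a) s (a ++ [d]) = β := by rw [update_idem, ← e3, update_eq_self]
    have e6 : update (update κ (a ++ [d]) yc) (a ++ [d]) ct = κ := by
      rw [update_idem, ← e4, update_eq_self]
    have s1 := AStep.adv (act := act) (k := k) ⟨update β s a, s, a, q, update κ (a ++ [d]) yc⟩ d ph
      ct (by simp) hok h4 h5 (by simp only [update_self]; exact h6)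
    have s2 := frame_adv (act := act) (k := k) ⟨update β s a, s, a, q, update κ (a ++ [d]) yc⟩ d
      ⟨q.side, q.md, ph, update q.e q.side (preA k (a ++ [d])),
        update q.f q.side (lastA k (a ++ [d]))⟩ ct (by simp) (val_snoc.2 ⟨hv, hok⟩)
    simp only [e5, e6] at s1 s2
    refine ⟨_, ⟨val_update hw.1 hv, by simp⟩, s1, ?_, ?_, s2⟩
    · simp [rend, mkF_self, arF, e2]
    · simp [rend, mkF_dn, arF]

/-- a consistent system of marks is a path -/
theorem exists_path {s : Bool} (m : Path → Mk) (h0 : m [] ≠ Mk.U)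
    (h1 : ∀ a d, Val act k s a → m a = Mk.M d → okA act k s a d)
    (h2 : ∀ a d, Val act k s a → okA act k s a d → (m (a ++ [d]) ≠ Mk.U ↔ m a = Mk.M d)) :
    ∃ b, Val act k s b ∧ ∀ a, Val act k s a → m a = mkF b a := by
  have key : ∀ n (b : Path), 2 * k + 1 - b.length = n → Val act k s b → m b ≠ Mk.U →
      (∀ a d, a ++ [d] <+: b → m a = Mk.M d) →
      ∃ c, Val act k s c ∧ m c = Mk.P ∧ ∀ a d, a ++ [d] <+: c → m a = Mk.M d := by
    intro n
    induction n using Nat.strong_induction_on with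
    | _ n ih =>
      intro b hn v u c
      cases h : m b with
      | U => exact absurd h u
      | P => exact ⟨b, v, h, c⟩
      | M d =>
        have ok := h1 b d v h
        refine ih _ ?_ (b ++ [d]) rfl (val_snoc.2 ⟨v, ok⟩) ((h2 b d v ok).2 h) fun a e ha => ?_
        · have := ok.2.1; simp; omega
        · rcases prefix_snoc.1 ha with ha | ha
          · exact c a e ha
          · obtain ⟨rfl, h3⟩ := List.append_inj' ha rfl
            obtain rfl : e = d := by simpa using h3
            exact h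
  obtain ⟨b, v, p, c⟩ := key _ [] rfl (Val.nil s) h0 fun a d h => by simp at h
  have hon : ∀ a, a <+: b → m a = mkF b a := fun a ha => by
    obtain ⟨t, rfl⟩ := ha
    cases t with
    | nil => simp only [List.append_nil] at p ⊢; rw [p, mkF_self]
    | cons d t =>
      have : a ++ [d] <+: a ++ d :: t := ⟨t, by simp⟩
      rw [c a d this, mkF_M.2 this]
  refine ⟨b, v, fun a => ?_⟩
  induction a using List.reverseRecOn with
  | nil => exact fun _ => hon _ (by simp)
  | append_singleton a d ih =>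
    intro va
    obtain ⟨v1, v2⟩ := val_snoc.1 va
    by_cases h : a ++ [d] <+: b
    · exact hon _ h
    · rw [mkF_U.2 h]
      by_contra h3
      exact h (mkF_M.1 ((ih v1).symm.trans ((h2 a d v1 v2).1 h3)))

end Vale.Agent.P192
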