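import Vale.Agent.P192.ColC

/-! The colour system: processes on the tree. -/

namespace Vale.Agent.P192

open Function

/-- states of the colour system -/
abbrev JD := Path → (Role → Cell) × Unit

/-- active homes -/
def actT (h : ℕ) (t : Path) : Prop := Special (h - t.length) ∧ t.length < h

/-- height of the slots of a home -/
def kT (h : ℕ) (t : Path) : ℕ := (h - t.length) / 2

/-- role of the cell with a given address -/
def role (k : ℕ) (s : Bool) (a : Path) : Role :=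
  if a = [] then Role.H s else if a.length ≤ k + 1 then Role.D else Role.S

/-- valid addresses of the process with home `t` -/
abbrev VT (h : ℕ) (t : Path) (s : Bool) (a : Path) : Prop := Val (actT h t) (kT h t) s a

/-- the cell `(π, r)` belongs to the process with home `t` -/
def Own (h : ℕ) (t π : Path) (r : Role) : Prop :=
  ∃ s a, VT h t s a ∧ π = t ++ a ∧ r = role (kT h t) s a

/-- the state `X` shows the abstract state `B` on the cells of `t` -/
def Rep (h : ℕ) (X : JD) (t : Path) (B : AS) : Prop :=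
  ∀ s a, VT h t s a → (X (t ++ a)).1 (role (kT h t) s a) = rend B s a

theorem Special.half {j : ℕ} (h : Special j) (hj : 0 < j) : j = 2 * (j / 2) + 1 ∧ Special (j / 2) := by
  obtain ⟨i, hi⟩ := h
  cases i with
  | zero => omega
  | succ i => rw [pow_succ] at hi; exact ⟨by omega, i, by omega⟩

variable {h : ℕ} {S : Path → St} {t a : Path} {s d : Bool}

theorem actT.spec (ha : actT h t) : h = t.length + (2 * kT h t + 1) ∧ Special (kT h t) := by
  have := ha.1.half (by have := ha.2; omega)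
  exact ⟨by have := ha.2; unfold kT; omega, this.2⟩

theorem role_nil (k : ℕ) (s : Bool) : role k s [] = Role.H s := by simp [role]

theorem role_snoc (k : ℕ) (s d : Bool) (a : Path) :
    role k s (a ++ [d]) = if a.length ≤ k then Role.D else Role.S := by simp [role]

theorem role_H {k : ℕ} {s u : Bool} {a : Path} : role k s a = Role.H u ↔ a = [] ∧ s = u := by
  unfold role; split_ifs <;> simp_all

theorem VT.len (ht : t.length ≤ h) (hv : VT h t s a) : (t ++ a).length ≤ h := by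
  by_cases ha : a = []
  · simpa [ha] using ht
  · have := (hv.head ha).1.spec.1
    have := Val.len hv
    simp; omega

theorem VT.sp (hS : VS h S) (hv : VT h t s a) (ha : a ≠ []) (hl : a.length ≤ kT h t + 1) :
    (S (t ++ a)).sp = decide (a.length = kT h t + 1) := by
  obtain ⟨e, hk⟩ := (hv.head ha).1.spec
  have h0 : 0 < a.length := List.length_pos_iff.2 ha
  rw [Bool.eq_iff_iff, hS.sp _ (by simp; omega), decide_eq_true_iff, List.length_append]
  constructor
  · intro h1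
    by_contra h2
    exact hk.gap (by omega) (by omega) h1
  · intro h1
    rwa [show h - (t.length + a.length) = kT h t by omega]

theorem VT.leaf (hS : VS h S) (hv : VT h t s a) (ha : a ≠ []) :
    (S (t ++ a)).leaf = lastA (kT h t) a := by
  obtain ⟨e, -⟩ := (hv.head ha).1.spec
  have := Val.len hv
  rw [Bool.eq_iff_iff, hS.leaf _ (by simp; omega), lastA, decide_eq_true_iff, List.length_append]
  omega

theorem VT.pre_eq (hS : VS h S) (hv : VT h t s a) :
    preR (S (t ++ a)) (role (kT h t) s a) = preA (kT h t) a := by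
  unfold role
  split_ifs with h1 h2
  · simp [preR, preA, h1]
  · rw [preR, hv.sp hS h1 h2, preA, Bool.eq_iff_iff]; simp; omega
  · simp [preR, preA]; omega

theorem VT.last_eq (hS : VS h S) (hv : VT h t s a) :
    lastR (S (t ++ a)) (role (kT h t) s a) = lastA (kT h t) a := by
  unfold role
  split_ifs with h1 h2
  · simp [lastR, lastA, h1]
  · exact hv.leaf hS h1
  · exact hv.leaf hS h1

theorem VT.okd_iff (hS : VS h S) (ht : t.length ≤ h) (hv : VT h t s a) :
    okd (S (t ++ a)) d (role (kT h t) s a) ↔ okA (actT h t) (kT h t) s a d := by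
  unfold role
  split_ifs with h1 h2
  · subst h1
    simp only [okd, okA, List.append_nil, actT, ← hS.sp t ht, ← Bool.not_eq_true, hS.leaf t ht]
    simp only [List.length_nil, forall_const]
    constructor
    · rintro ⟨a1, a2, a3⟩
      exact ⟨⟨a2, by omega⟩, by omega, a3, by omega, by omega⟩
    · rintro ⟨⟨a1, a2⟩, -, a3, -⟩
      exact ⟨by omega, a1, a3⟩
  · have := Val.len hv
    simp only [okd, okA, hv.sp hS h1 h2, hv.leaf hS h1, lastA, h1, (hv.head h1).1,
      decide_eq_false_iff_not, decide_eq_true_eq, true_and, false_imp_iff]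
    exact ⟨fun b => ⟨by omega, b.2, by omega⟩, fun b => ⟨by omega, b.2.1⟩⟩
  · have := Val.len hv
    simp only [okd, okA, hv.leaf hS h1, lastA, h1, (hv.head h1).1,
      decide_eq_false_iff_not, true_and, false_imp_iff]
    exact ⟨fun b => ⟨by omega, by omega, fun _ => b.2⟩, fun b => ⟨by omega, b.2.2 (by omega)⟩⟩

theorem VT.prv_iff (hS : VS h S) (ht : t.length ≤ h) (hv : VT h t s a)
    (hok : okA (actT h t) (kT h t) s a d) {rc : Role} :
    prv (S (t ++ a)) d rc = some (role (kT h t) s a) ↔ rc = role (kT h t) s (a ++ [d]) := by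
  rw [role_snoc]
  obtain ⟨o1, o2, o3, o4, o5⟩ := hok
  by_cases h1 : a = []
  · subst h1
    have := (hS.sp t ht).2 o1.1
    obtain rfl := o3 rfl
    cases rc <;> cases d <;> simp [prv, role_nil, this]
  by_cases h2 : a.length ≤ kT h t + 1
  · have := hv.sp hS h1 h2
    by_cases h3 : a.length = kT h t + 1
    · obtain rfl := o4 h3
      cases rc <;> simp [prv, role, h1, h3, this]
    · have h4 : a.length ≤ kT h t := by omega
      cases rc <;> cases d <;> simp [prv, role, h1, h2, h3, h4, this]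
  · obtain rfl := o5 (by omega)
    have h4 : ¬ a.length ≤ kT h t := by omega
    cases rc <;> simp [prv, role, h1, h2, h4]
    split_ifs <;> simp

theorem okA.lt (ht : okA (actT h t) (kT h t) s a d) : (t ++ a).length < h := by
  have := ht.1.spec.1
  have := ht.2.1
  simp; omega

theorem VT.col_eq (hS : VS h S) (hv : VT h t s a) (hr : role (kT h t) s a = Role.S) :
    (S (t ++ a)).col = true := by
  induction a using List.reverseRecOn with
  | nil => simp [role] at hr
  | append_singleton a d ih =>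
    obtain ⟨v, o⟩ := val_snoc.1 hv
    rw [role_snoc] at hr
    have h1 : ¬ a.length ≤ kT h t := fun h => by simp [h] at hr
    have h2 : a ≠ [] := by rintro rfl; simp at h1
    rw [← List.append_assoc, hS.col _ _ o.lt]
    by_cases h3 : a.length = kT h t + 1
    · rw [o.2.2.2.1 h3, VT.sp hS v h2 h3.le]; simp [h3]
    · rw [o.2.2.2.2 (by omega)]
      simpa using ih v (by simp [role, h2]; omega)

theorem own_same {s' : Bool} {a' : Path} (hv : VT h t s a) (hv' : VT h t s' a')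
    (h1 : t ++ a = t ++ a') (h2 : role (kT h t) s a = role (kT h t) s' a') : (s, a) = (s', a') := by
  obtain rfl := List.append_cancel_left h1
  by_cases ha : a = []
  · subst ha; simpa [role_nil] using h2
  · rw [hv.side_eq hv' ha]

theorem own_uniq (hS : VS h S) {t' : Path} (ht : t.length ≤ h) (ht' : t'.length ≤ h) {π : Path}
    {r : Role} (h1 : Own h t π r) (h2 : Own h t' π r) : t = t' := by
  obtain ⟨s, a, v, rfl, rfl⟩ := h1
  induction a using List.reverseRecOn with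
  | nil =>
    obtain ⟨s', a', -, e1, e2⟩ := h2
    rw [role_nil, eq_comm, role_H] at e2
    simpa [e2.1] using e1
  | append_singleton a d ih =>
    obtain ⟨s', a', v', e1, e2⟩ := h2
    rcases List.eq_nil_or_concat a' with rfl | ⟨b, d', rfl⟩
    · rw [role_nil, role_H] at e2; simp at e2
    rw [List.concat_eq_append] at v' e1 e2
    rw [← List.append_assoc, ← List.append_assoc] at e1
    obtain ⟨e3, e4⟩ := List.append_inj' e1 rfl
    obtain rfl : d = d' := by simpa using e4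
    obtain ⟨v1, o1⟩ := val_snoc.1 v
    obtain ⟨v2, o2⟩ := val_snoc.1 v'
    have p1 := (VT.prv_iff hS ht v1 o1).2 rfl
    have p2 := (VT.prv_iff hS ht' v2 o2).2 e2
    rw [← e3, p1] at p2
    exact ih v1 ⟨s', b, v2, e3, Option.some.inj p2⟩

theorem Own.succ (hS : VS h S) (ht : t.length ≤ h) {π : Path} {rp rc : Role} (h1 : Own h t π rp)
    (h2 : prv (S π) d rc = some rp) (h3 : okd (S π) d rp) : Own h t (π ++ [d]) rc := by
  obtain ⟨s, a, v, rfl, rfl⟩ := h1
  have o := (v.okd_iff hS ht).1 h3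
  exact ⟨s, a ++ [d], val_snoc.2 ⟨v, o⟩, by simp, (v.prv_iff hS ht o).1 h2⟩

theorem own_home (t : Path) (s : Bool) : Own h t t (Role.H s) :=
  ⟨s, [], Val.nil s, by simp, (role_nil _ _).symm⟩

/-- change one cell -/
def cu (X : JD) (π : Path) (r : Role) (x : Cell) : JD :=
  update X π (update (X π).1 r x, (X π).2)

theorem cu_apply (X : JD) (π : Path) (r : Role) (x : Cell) (π' : Path) (r' : Role) :
    (cu X π r x π').1 r' = if π' = π ∧ r' = r then x else (X π').1 r' := by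
  by_cases h1 : π' = π
  · subst h1
    by_cases h2 : r' = r
    · subst h2; simp [cu]
    · simp [cu, h2]
  · simp [cu, h1]

theorem LJ_ext {X Y : JD} (h : ∀ π r, (X π).1 r = (Y π).1 r) : X = Y :=
  funext fun π => Prod.ext (funext (h π)) rfl

open Classical in
/-- overwrite the cells of the process at `t` -/
noncomputable def ow (h : ℕ) (t : Path) (B : AS) (X : JD) : JD := fun π =>
  (fun r => if H : ∃ p : Bool × Path, VT h t p.1 p.2 ∧ π = t ++ p.2 ∧ r = role (kT h t) p.1 p.2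
    then rend B H.choose.1 H.choose.2 else (X π).1 r, ())

theorem ow_rep (B : AS) (X : JD) : Rep h (ow h t B X) t B := by
  intro s a v
  have H : ∃ p : Bool × Path, VT h t p.1 p.2 ∧ t ++ a = t ++ p.2 ∧
      role (kT h t) s a = role (kT h t) p.1 p.2 := ⟨(s, a), v, rfl, rfl⟩
  have := own_same v H.choose_spec.1 H.choose_spec.2.1 H.choose_spec.2.2
  simp only [ow, dif_pos H]
  rw [← (Prod.mk.inj this).1, ← (Prod.mk.inj this).2]

theorem ow_other (B : AS) (X : JD) {π : Path} {r : Role} (ho : ¬ Own h t π r) :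
    (ow h t B X π).1 r = (X π).1 r := by
  simp only [ow]
  rw [dif_neg]
  rintro ⟨p, hp⟩
  exact ho ⟨p.1, p.2, hp⟩

theorem Rep.eq_ow {X Y : JD} {B : AS} (hr : Rep h Y t B)
    (ho : ∀ π r, ¬ Own h t π r → (Y π).1 r = (X π).1 r) : Y = ow h t B X :=
  LJ_ext fun π r => by
    by_cases h1 : Own h t π r
    · obtain ⟨s, a, v, rfl, rfl⟩ := h1
      rw [hr s a v, ow_rep B X s a v]
    · rw [ho π r h1, ow_other B X h1]

theorem Rep.frame {X Y : JD} {B B' : AS} (hr : Rep h X t B) {s' : Bool} {a' : Path}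
    (v : VT h t s a) (v' : VT h t s' a') (hf : Frame (actT h t) (kT h t) B B' (s, a) (s', a'))
    (h1 : (Y (t ++ a)).1 (role (kT h t) s a) = rend B' s a)
    (h2 : (Y (t ++ a')).1 (role (kT h t) s' a') = rend B' s' a')
    (h3 : ∀ π r, ¬ (π = t ++ a ∧ r = role (kT h t) s a) → ¬ (π = t ++ a' ∧ r = role (kT h t) s' a') →
      (Y π).1 r = (X π).1 r) : Rep h Y t B' := by
  intro u b w
  by_cases e1 : (u, b) = (s, a)
  · obtain ⟨rfl, rfl⟩ := Prod.mk.inj e1; exact h1
  by_cases e2 : (u, b) = (s', a')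
  · obtain ⟨rfl, rfl⟩ := Prod.mk.inj e2; exact h2
  rw [h3 _ _ (fun e => e1 (own_same w v e.1 e.2)) fun e => e2 (own_same w v' e.1 e.2), hr u b w,
    hf u b w e1 e2]

theorem ow_cu {X : JD} {B B' : AS} {s' : Bool} {a' : Path}
    (v : VT h t s a) (v' : VT h t s' a') (hf : Frame (actT h t) (kT h t) B B' (s, a) (s', a')) :
    cu (cu (ow h t B X) (t ++ a') (role (kT h t) s' a') (rend B' s' a')) (t ++ a)
      (role (kT h t) s a) (rend B' s a) = ow h t B' X := by
  refine Rep.eq_ow ((ow_rep B X).frame v v' hf (by simp [cu_apply]) ?_ fun π r h1 h2 => ?_)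
    fun π r ho => ?_
  · rw [cu_apply]
    split_ifs with e
    · obtain ⟨rfl, rfl⟩ := Prod.mk.inj (own_same v' v e.1 e.2); rfl
    · simp [cu_apply]
  · rw [cu_apply, if_neg h1, cu_apply, if_neg h2]
  · rw [cu_apply, if_neg fun e => ho ⟨s, a, v, e⟩, cu_apply, if_neg fun e => ho ⟨s', a', v', e⟩,
      ow_other B X ho]

theorem cu_cu_same (X : JD) (π : Path) (r : Role) (x y : Cell) :
    cu (cu X π r x) π r y = cu X π r y :=
  LJ_ext fun π' r' => by simp only [cu_apply]; split_ifs <;> rfl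

theorem tm_link (hS : VS h S) {X : JD} {π : Path} (hπ : π.length < h) {rc rp : Role}
    {x y : Cell} (h1 : prv (S π) d rc = some rp) (h2 : okd (S π) d rp)
    (h3 : CellMove d (preR (S π) rp) (preR (S (π ++ [d])) rc) (lastR (S (π ++ [d])) rc)
      ((X π).1 rp) ((X (π ++ [d])).1 rc) x y) :
    LJ.TM (tree h) S X (cu (cu X (π ++ [d]) rc y) π rp x) := by
  refine Or.inr (Or.inl ⟨π, d, _, _, hπ, ⟨rc, rp, x, y, ?_, ?_, ?_, rfl, rfl⟩, ?_⟩)
  · rwa [hS.par π d hπ, Bool.not_not]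
  · rwa [hS.par π d hπ, Bool.not_not]
  · rwa [hS.par π d hπ, Bool.not_not]
  · simp [cu]; rfl

theorem tm_ow (hS : VS h S) (ht : t.length ≤ h) {B B' : AS} (hw : WF (actT h t) (kT h t) B)
    (hs : AStep (actT h t) (kT h t) B B') (X : JD) :
    LJ.TM (tree h) S (ow h t B X) (ow h t B' X) := by
  have hγ : VT h t B.σ B.γ := (hw.1 _).pre hw.2
  have link : ∀ d B', okA (actT h t) (kT h t) B.σ B.γ d →
      Frame (actT h t) (kT h t) B B' (B.σ, B.γ) (B.σ, B.γ ++ [d]) →
      CellMove d (preA (kT h t) B.γ) (preA (kT h t) (B.γ ++ [d])) (lastA (kT h t) (B.γ ++ [d]))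
        (rend B B.σ B.γ) (rend B B.σ (B.γ ++ [d])) (rend B' B.σ B.γ) (rend B' B.σ (B.γ ++ [d])) →
      LJ.TM (tree h) S (ow h t B X) (ow h t B' X) := by
    intro d B' o f c
    have v' : VT h t B.σ (B.γ ++ [d]) := val_snoc.2 ⟨hγ, o⟩
    rw [← ow_cu hγ v' f, ← List.append_assoc]
    refine tm_link hS o.lt ((hγ.prv_iff hS ht o).2 rfl) ((hγ.okd_iff hS ht).2 o) ?_
    rwa [List.append_assoc, hγ.pre_eq hS, v'.pre_eq hS, v'.last_eq hS, ow_rep B X _ _ hγ,
      ow_rep B X _ _ v']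
  have h0 := ow_rep (h := h) (t := t) B X false [] (Val.nil _)
  have h1 := ow_rep (h := h) (t := t) B X true [] (Val.nil _)
  rw [List.append_nil, role_nil] at h0 h1
  cases hs with
  | travel d h =>
    refine link d _ (hw.1 _ _ _ h) (frame_travel B d) ⟨B.q, rend_here.2 ⟨rfl, rfl, rfl⟩, ?_,
      Or.inl ⟨mkF_M.2 h, ?_, ?_⟩⟩ <;> simp [rend, mkF_dn, mkF_up, mkF_self, arF]
  | adv d ph ct hg hok he hf hc =>
    refine link d _ hok (frame_adv B d _ ct hg (val_snoc.2 ⟨hγ, hok⟩))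
      ⟨B.q, rend_here.2 ⟨rfl, rfl, rfl⟩, ?_, Or.inr ⟨mkF_P.2 hg, ?_, he, hf, ?_, ph, ct, ?_, hc⟩⟩ <;>
      simp [rend, mkF_dn, mkF_up, mkF_self, arF, ← hg]
  | put b hg p1 p2 p3 p4 p5 =>
    rw [← ow_cu hγ hγ (frame_loc B _ b hγ fun e => by simp [e, preA] at p1), cu_cu_same]
    refine Or.inl ⟨t ++ B.γ, _, hγ.len ht, Or.inl ⟨role (kT h t) B.σ B.γ, B.q, b,
      (hγ.pre_eq hS).trans p1, ?_, p3, p4, p5, rfl⟩, ?_⟩
    · rw [ow_rep B X _ _ hγ]; simp [rend, ← hg, mkF_self, arF, p2]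
    · simp [cu, rend, ← hg, mkF_self, arF]; rfl
  | switch p1 p2 p3 =>
    rw [← ow_cu (Val.nil true) (Val.nil false)
      fun s a v e1 e2 => frame_switch B _ p2 s a v e2 e1]
    refine Or.inl ⟨t, _, ht, Or.inr (Or.inl ⟨B.q, ?_, p3, ?_, rfl⟩), ?_⟩
    · rw [h0]; exact rend_here.2 ⟨p1.symm, p2.symm, rfl⟩
    · rw [h1]; simp [rend, p1]
    · rw [h0, h1]; simp [cu, rend, role_nil, mkF_self, arF]; rfl
  | mode m p1 p2 p3 p4 p5 =>
    have f := frame_loc B ⟨B.q.side, m, B.q.ph, B.q.e, B.q.f⟩ (B.κ B.γ) hγ fun _ => rfl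
    rw [update_eq_self] at f
    rw [← ow_cu hγ hγ f, cu_cu_same]
    refine Or.inl ⟨t, _, ht, Or.inr (Or.inr ⟨B.q, m, ?_, p3, p4, p5, rfl⟩), ?_⟩
    · rw [h0]; exact rend_here.2 ⟨p1.symm, p2.symm, rfl⟩
    · rw [h0]; simp [cu, rend, role_nil, mkF_self, arF, p1, p2]; rfl

theorem con_ow (hS : VS h S) (ht : t.length ≤ h) {B B' : AS}
    (hc : AConn (actT h t) (kT h t) B B') (X : JD) :
    LJ.Con (tree h) S (ow h t B X) (ow h t B' X) := by
  induction hc with
  | rel a b h => exact (tm_ow hS ht h.1 h.2 X).con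
  | refl => exact Lay.Con.refl _
  | symm a b _ ih => exact ih.symm
  | trans a b c _ _ ih1 ih2 => exact ih1.trans ih2

theorem AConn.wf {act : Prop} {k : ℕ} {B B' : AS} (hc : AConn act k B B') :
    WF act k B ↔ WF act k B' := by
  induction hc with
  | rel a b h => exact ⟨fun _ => h.2.wf h.1, fun _ => h.1⟩
  | refl => rfl
  | symm a b _ ih => exact ih.symm
  | trans a b c _ _ ih1 ih2 => exact ih1.trans ih2

theorem cellBad_iff (hS : VS h S) (ht : t.length ≤ h) {B : AS} (hw : WF (actT h t) (kT h t) B) :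
    (∃ s a, VT h t s a ∧ CellBad (S (t ++ a)) (role (kT h t) s a) (rend B s a)) ↔
      ABad (actT h t) (kT h t) B := by
  constructor
  · rintro ⟨s, a, v, ⟨d, h1, h2⟩ | ⟨h1, h2⟩ | ⟨h1, h2⟩ | ⟨q, h1, h2⟩ | ⟨u, h1, h2⟩⟩
    · exact absurd ((v.okd_iff hS ht).2 (hw.1 s _ _ (mkF_M.1 h1))) h2
    · obtain ⟨rfl, d, h3⟩ := rend_dn.1 h1
      exact absurd (mkF_M.2 (h3.trans hw.2)) (h2 d)
    · rcases h2 with h2 | ⟨h2, h3⟩
      · exact Or.inl ⟨s, a, v, (v.pre_eq hS).symm.trans h2, h1⟩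
      · simp [v.col_eq hS h2] at h3
    · obtain ⟨rfl, rfl, rfl⟩ := rend_here.1 h1
      rw [v.pre_eq hS, v.last_eq hS] at h2
      rcases h2 with h2 | ⟨h2, h3⟩ | ⟨u, h2, h3⟩
      · exact Or.inr (Or.inl h2)
      · exact Or.inr (Or.inr (Or.inl ⟨mkF_P.1 h2, h3⟩))
      · obtain ⟨h4, rfl⟩ := role_H.1 h2
        exact Or.inr (Or.inr (Or.inr ⟨h4, h3⟩))
    · obtain ⟨rfl, rfl⟩ := role_H.1 h1
      exact absurd (by simp) (mkF_U.1 h2)
  · have hγ : VT h t B.σ B.γ := (hw.1 _).pre hw.2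
    have hh : (rend B B.σ B.γ).ar = Ar.here B.q := rend_here.2 ⟨rfl, rfl, rfl⟩
    rintro (⟨s, a, v, h1, h2⟩ | h1 | ⟨h1, h2⟩ | ⟨h1, h2⟩)
    · exact ⟨s, a, v, Or.inr (Or.inr (Or.inl ⟨h2, Or.inl ((VT.pre_eq hS v).trans h1)⟩))⟩
    · exact ⟨_, _, hγ, Or.inr (Or.inr (Or.inr (Or.inl ⟨_, hh, Or.inl h1⟩)))⟩
    · refine ⟨_, _, hγ, Or.inr (Or.inr (Or.inr (Or.inl ⟨_, hh, Or.inr (Or.inl ⟨mkF_P.2 h1, ?_⟩)⟩)))⟩
      rwa [hγ.pre_eq hS, hγ.last_eq hS]
    · exact ⟨_, _, hγ, Or.inr (Or.inr (Or.inr (Or.inl ⟨_, hh, Or.inr (Or.inr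
        ⟨B.σ, role_H.2 ⟨h1, rfl⟩, h2⟩)⟩)))⟩

theorem Rep.anb (hS : VS h S) (ht : t.length ≤ h) {X : JD} (hn : LJ.NB (tree h) S X) {B : AS}
    (hw : WF (actT h t) (kT h t) B) (hr : Rep h X t B) : ANB (actT h t) (kT h t) B := by
  intro B' hc hb
  obtain ⟨s, a, v, h1⟩ := (cellBad_iff hS ht (hc.wf.1 hw)).2 hb
  have h2 := con_ow hS ht hc X
  rw [← hr.eq_ow fun _ _ _ => rfl] at h2
  refine hn _ h2 (Or.inl ⟨t ++ a, v.len ht, Or.inl ⟨role (kT h t) s a, ?_⟩⟩)
  rwa [ow_rep B' X s a v]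

theorem not_BE (hS : VS h S) {X : JD} (hb : ¬ LJ.TB (tree h) S X) {π : Path}
    (hπ : π.length < h) (d : Bool) {rc : Role} (hrc : ∀ u, rc ≠ Role.H u) :
    (((X (π ++ [d])).1 rc).mr ≠ Mk.U ↔
      ∃ rp, prv (S π) d rc = some rp ∧ ((X π).1 rp).mr = Mk.M d) ∧
    (((X (π ++ [d])).1 rc).ar ≠ Ar.up ↔
      ∃ rp, prv (S π) d rc = some rp ∧ ((X π).1 rp).mr = Mk.M d ∧ ((X π).1 rp).ar = Ar.dn) := by
  by_contra h1
  refine hb (Or.inr (Or.inl ⟨π, d, hπ, rc, hrc, ?_⟩))
  rwa [hS.par π d hπ, Bool.not_not]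

theorem exists_rep (hS : VS h S) (ht : t.length ≤ h) {X : JD} (hb : ¬ LJ.TB (tree h) S X) :
    ∃ B, WF (actT h t) (kT h t) B ∧ Rep h X t B := by
  let Y : Bool → Path → Cell := fun s a => (X (t ++ a)).1 (role (kT h t) s a)
  have nb : ∀ s a, VT h t s a → ¬ CellBad (S (t ++ a)) (role (kT h t) s a) (Y s a) :=
    fun s a v h1 => hb (Or.inl ⟨t ++ a, v.len ht, Or.inl ⟨_, h1⟩⟩)
  have m1 : ∀ s a d, VT h t s a → (Y s a).mr = Mk.M d → okA (actT h t) (kT h t) s a d :=
    fun s a d v h1 => by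
      by_contra h2
      exact nb s a v (Or.inl ⟨d, h1, fun h3 => h2 ((v.okd_iff hS ht).1 h3)⟩)
  have be : ∀ s a d, VT h t s a → okA (actT h t) (kT h t) s a d →
      ((Y s (a ++ [d])).mr ≠ Mk.U ↔ (Y s a).mr = Mk.M d) ∧
      ((Y s (a ++ [d])).ar ≠ Ar.up ↔ (Y s a).mr = Mk.M d ∧ (Y s a).ar = Ar.dn) := fun s a d v o => by
    have := not_BE hS hb o.lt d (rc := role (kT h t) s (a ++ [d])) fun u e => by
      simpa using (role_H.1 e).1
    rw [(v.prv_iff hS ht o).2 rfl, List.append_assoc] at this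
    simpa using this
  have hβ : ∀ s, ∃ b, VT h t s b ∧ ∀ a, VT h t s a → (Y s a).mr = mkF b a := fun s =>
    exists_path (fun a => (Y s a).mr)
      (fun h1 => nb s [] (Val.nil s) (Or.inr (Or.inr (Or.inr (Or.inr ⟨s, role_nil _ _, h1⟩)))))
      (m1 s) fun a d v o => (be s a d v o).1
  choose β hβ1 hβ2 using hβ
  obtain ⟨σ, s1, s2⟩ : ∃ σ, (Y σ []).ar ≠ Ar.up ∧ (Y (!σ) []).ar = Ar.up := by
    have : ¬ ((Y false []).ar = Ar.up ↔ (Y true []).ar = Ar.up) := fun h1 =>
      hb (Or.inl ⟨t, ht, Or.inr (by simpa [Y, role_nil] using h1)⟩)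
    by_cases h1 : (Y false []).ar = Ar.up
    · exact ⟨true, fun h2 => this (iff_of_true h1 h2), h1⟩
    · exact ⟨false, h1, by by_contra h2; exact this (iff_of_false h1 h2)⟩
  let m : Path → Mk := fun a => match (Y σ a).ar with
    | Ar.up => Mk.U
    | Ar.here _ => Mk.P
    | Ar.dn => (Y σ a).mr
  have dn : ∀ s a, VT h t s a → (Y s a).ar = Ar.dn → ∃ d, (Y s a).mr = Mk.M d := fun s a v h1 => by
    by_contra h2
    exact nb s a v (Or.inr (Or.inl ⟨h1, by simpa using h2⟩))
  have mU : ∀ a, VT h t σ a → (m a = Mk.U ↔ (Y σ a).ar = Ar.up) := fun a v => by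
    cases h1 : (Y σ a).ar with
    | up => simp [m, h1]
    | here q => simp [m, h1]
    | dn => obtain ⟨d, h2⟩ := dn σ a v h1; simp [m, h1, h2]
  have mM : ∀ a d, m a = Mk.M d ↔ (Y σ a).mr = Mk.M d ∧ (Y σ a).ar = Ar.dn := fun a d => by
    cases h1 : (Y σ a).ar <;> simp [m, h1]
  obtain ⟨γ, g1, g2⟩ := exists_path (act := actT h t) (k := kT h t) (s := σ) m
    (fun h1 => s1 ((mU [] (Val.nil _)).1 h1)) (fun a d v h1 => m1 σ a d v ((mM a d).1 h1).1)
    fun a d v o => by rw [mM, ← (be σ a d v o).2, Ne, mU _ (val_snoc.2 ⟨v, o⟩)]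
  obtain ⟨q, hq⟩ : ∃ q, (Y σ γ).ar = Ar.here q := by
    have h0 := g2 γ g1
    rw [mkF_self] at h0
    cases h1 : (Y σ γ).ar with
    | up => simp [m, h1] at h0
    | here q => exact ⟨q, rfl⟩
    | dn => obtain ⟨d, h2⟩ := dn σ γ g1 h1; simp [m, h1, h2] at h0
  have other : ∀ a, VT h t (!σ) a → (Y (!σ) a).ar = Ar.up := by
    intro a
    induction a using List.reverseRecOn with
    | nil => exact fun _ => s2
    | append_singleton a d ih =>
      intro v
      obtain ⟨v1, o⟩ := val_snoc.1 v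
      by_contra h1
      have := ((be _ a d v1 o).2.1 h1).2
      rw [ih v1] at this
      cases this
  have c0 : ∀ s, (Y s []).ct = false := fun s => by
    by_contra h1
    exact nb s [] (Val.nil s) (Or.inr (Or.inr (Or.inl ⟨by simpa using h1, Or.inl (by
      simp [role_nil, preR])⟩)))
  refine ⟨⟨β, σ, γ, q, fun a => (Y (a.headD false) a).ct⟩, ⟨hβ1, ?_⟩, fun s a v => ?_⟩
  · rcases List.eq_nil_or_concat γ with rfl | ⟨a, d, rfl⟩
    · simp
    · rw [List.concat_eq_append] at g1 g2 ⊢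
      have v := (val_snoc.1 g1).1
      exact mkF_M.1 ((hβ2 σ a v).symm.trans ((mM a d).1 ((g2 a v).trans (mkF_up a d))).1)
  · have e3 : (Y s a).ct = (Y (a.headD false) a).ct := by
      by_cases ha : a = []
      · subst ha; rw [c0, c0]
      · obtain ⟨-, b, rfl⟩ := v.head ha; rfl
    have e2 : (Y s a).ar = if s = σ then arF q (mkF γ a) else Ar.up := by
      by_cases hs : s = σ
      · subst hs
        rw [if_pos rfl, ← g2 a v]
        cases h1 : (Y s a).ar with
        | up => simp [m, h1, arF]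
        | dn => obtain ⟨d, h2⟩ := dn s a v h1; simp [m, h1, h2, arF]
        | here q' =>
          have : a = γ := mkF_P.1 ((g2 a v).symm.trans (by simp [m, h1]))
          subst this
          rw [hq] at h1
          simp [m, hq, arF, (Ar.here.inj h1)]
      · rw [if_neg hs]
        obtain rfl : s = !σ := by cases s <;> cases σ <;> simp_all
        exact other a v
    show Y s a = _
    simp only [rend]
    rw [← hβ2 s a v, ← e2, ← e3]

end Vale.Agent.P192
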