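import Vale.Agent.P192.KDefs

/-! Part Cone: gluing over a coset complex that can be coned off. -/

namespace Vale.Agent.P192

namespace ConeAux

section abstr

variable {V C : Type*} {In : C → V → Prop}

/-- abstract coning property -/
def Cn (In : C → V → Prop) (m : ℕ) : Prop :=
  ∀ F : List V, F.length ≤ m → ∃ c, ∀ g, ∃ g', In g' c ∧ ∀ v ∈ F, In g v → In g' v

theorem one_coc {H : Type*} [Group H] [Nonempty V] (hv : ∀ v, ∃ g, In g v) (hc : Cn In 5)
    (T : V → V → H) (hT : ∀ g u v w, In g u → In g v → In g w → T u v * T v w = T u w) :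
    ∃ φ : V → H, ∀ g u v, In g u → In g v → φ u * T u v = φ v := by
  obtain ⟨b⟩ := ‹Nonempty V›
  have h1 : ∀ v, ∃ c, (∃ g, In g b ∧ In g c) ∧ ∃ g, In g c ∧ In g v := by
    intro v
    obtain ⟨c, h⟩ := hc [b, v] (by simp)
    obtain ⟨g1, hg1⟩ := hv b
    obtain ⟨g2, hg2⟩ := hv v
    obtain ⟨g1', h3, h4⟩ := h g1
    obtain ⟨g2', h5, h6⟩ := h g2
    exact ⟨c, ⟨g1', h4 b (by simp) hg1, h3⟩, g2', h5, h6 v (by simp) hg2⟩
  choose β hβ1 hβ2 using h1
  refine ⟨fun v => T b (β v) * T (β v) v, fun g u v hu hv' => ?_⟩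
  obtain ⟨c, h⟩ := hc [b, β u, β v, u, v] (by simp)
  have key : ∀ x, x ∈ [b, β u, β v, u, v] → β x ∈ [b, β u, β v, u, v] →
      T b (β x) * T (β x) x = T b c * T c x := by
    intro x hx hx'
    obtain ⟨g1, h1, h2⟩ := hβ1 x
    obtain ⟨g2, h3, h4⟩ := hβ2 x
    obtain ⟨g1', h5, h6⟩ := h g1
    obtain ⟨g2', h7, h8⟩ := h g2
    rw [← hT g1' b c (β x) (h6 b (by simp) h1) h5 (h6 _ hx' h2), mul_assoc,
      hT g2' c (β x) x h7 (h8 _ hx' h3) (h8 _ hx h4)]
  obtain ⟨g', h1, h2⟩ := h g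
  show T b (β u) * T (β u) u * T u v = T b (β v) * T (β v) v
  rw [key u (by simp) (by simp), key v (by simp) (by simp), mul_assoc,
    hT g' c u v h1 (h2 u (by simp) hu) (h2 v (by simp) hv')]

theorem two_coc [Nonempty V] (hv : ∀ v, ∃ g, In g v) (hc : Cn In 10) (τ : V → V → V → ℚ)
    (hτ : ∀ g u v w z, In g u → In g v → In g w → In g z →
      τ v w z - τ u w z + τ u v z - τ u v w = 0) :
    ∃ k : V → V → ℚ, ∀ g u v w, In g u → In g v → In g w → k u v + k v w - k u w = τ u v w := by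
  obtain ⟨b⟩ := ‹Nonempty V›
  have h1 : ∀ v, ∃ c, (∃ g, In g b ∧ In g c) ∧ ∃ g, In g c ∧ In g v := by
    intro v
    obtain ⟨c, h⟩ := hc [b, v] (by simp)
    obtain ⟨g1, hg1⟩ := hv b
    obtain ⟨g2, hg2⟩ := hv v
    obtain ⟨g1', h3, h4⟩ := h g1
    obtain ⟨g2', h5, h6⟩ := h g2
    exact ⟨c, ⟨g1', h4 b (by simp) hg1, h3⟩, g2', h5, h6 v (by simp) hg2⟩
  choose β hβ1 hβ2 using h1
  have h2 : ∀ u v, ∃ c, ∀ g, ∃ g', In g' c ∧ ∀ x ∈ [b, β u, β v, u, v], In g x → In g' x :=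
    fun u v => hc _ (by simp)
  choose c hcc using h2
  let K : V → V → V → ℚ := fun d u v =>
    τ d u v + (τ d b (β u) + τ d (β u) u) - (τ d b (β v) + τ d (β v) v)
  refine ⟨fun u v => K (c u v) u v, fun g u v w hu hv' hw => ?_⟩
  obtain ⟨d, hd⟩ := hc [b, β u, β v, β w, u, v, w, c u v, c v w, c u w] (by simp)
  have key : ∀ x y, In g x → In g y →
      (∀ z ∈ c x y :: [b, β x, β y, x, y], z ∈ [b, β u, β v, β w, u, v, w, c u v, c v w, c u w]) →
      K (c x y) x y = K d x y := by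
    intro x y hx hy hs
    have e : ∀ g1 p q, In g1 p → In g1 q → p ∈ [b, β x, β y, x, y] → q ∈ [b, β x, β y, x, y] →
        τ (c x y) p q = τ d p q + τ d (c x y) p - τ d (c x y) q := by
      intro g1 p q hp hq hp' hq'
      obtain ⟨g2, h3, h4⟩ := hcc x y g1
      obtain ⟨g3, h5, h6⟩ := hd g2
      have := hτ g3 d (c x y) p q h5 (h6 _ (hs _ (by simp)) h3)
        (h6 _ (hs _ (List.mem_cons_of_mem _ hp')) (h4 _ hp' hp))
        (h6 _ (hs _ (List.mem_cons_of_mem _ hq')) (h4 _ hq' hq))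
      linarith
    obtain ⟨g1, a1, a2⟩ := hβ1 x
    obtain ⟨g2, a3, a4⟩ := hβ2 x
    obtain ⟨g3, a5, a6⟩ := hβ1 y
    obtain ⟨g4, a7, a8⟩ := hβ2 y
    simp only [K]
    rw [e g x y hx hy (by simp) (by simp), e g1 b (β x) a1 a2 (by simp) (by simp),
      e g2 (β x) x a3 a4 (by simp) (by simp), e g3 b (β y) a5 a6 (by simp) (by simp),
      e g4 (β y) y a7 a8 (by simp) (by simp)]
    ring
  show K (c u v) u v + K (c v w) v w - K (c u w) u w = τ u v w
  rw [key u v hu hv' (by simp), key v w hv' hw (by simp), key u w hu hw (by simp)]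
  obtain ⟨g', h3, h4⟩ := hd g
  have := hτ g' d u v w h3 (h4 _ (by simp) hu) (h4 _ (by simp) hv') (h4 _ (by simp) hw)
  simp only [K]
  linarith

end abstr

variable {Γ : Type*} [Group Γ] {I : Type*} {G : Subgroup Γ} {P : I → Subgroup Γ}

/-- incidence of chambers and vertices -/
def Inc (G : Subgroup Γ) (P : I → Subgroup Γ) (g : G) (v : I × G) : Prop :=
  (g : Γ)⁻¹ * v.2 ∈ P v.1

theorem inc_self (i : I) (g : G) : Inc G P g (i, g) := by simp [Inc]

theorem inc_ex (v : I × G) : ∃ g, Inc G P g v := ⟨v.2, inc_self v.1 v.2⟩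

theorem Inc.inv {g : G} {v : I × G} (h : Inc G P g v) : (v.2 : Γ)⁻¹ * g ∈ P v.1 := by
  simpa using inv_mem h

theorem Inc.div {g g' : G} {v : I × G} (h : Inc G P g v) (h' : Inc G P g' v) :
    (g : Γ)⁻¹ * g' ∈ P v.1 := by
  simpa [mul_assoc] using mul_mem h h'.inv

theorem Inc.mul {g g' : G} {v : I × G} (h : Inc G P g v) {p : Γ} (hp : p ∈ P v.1)
    (e : (g' : Γ) = g * p) : Inc G P g' v := by
  have := mul_mem (inv_mem hp) h
  simpa [Inc, e, mul_assoc] using this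

theorem cn_of_cone {m : ℕ} (hc : Cone G P m) : Cn (Inc G P) m := by
  intro F hF
  obtain ⟨c, hc1, hc2⟩ := hc (F.map fun v => (v.1, (v.2 : Γ))) (by simpa using hF) (by
    intro v hv
    obtain ⟨u, -, rfl⟩ := List.mem_map.1 hv
    exact u.2.2)
  refine ⟨(c.1, ⟨c.2, hc1⟩), fun g => ?_⟩
  obtain ⟨g', h1, h2, h3⟩ := hc2 g g.2
  exact ⟨⟨g', h1⟩, h2, fun v hv h => h3 _ (List.mem_map_of_mem hv) h⟩

theorem cone_mono {m n : ℕ} (h : m ≤ n) (hc : Cone G P n) : Cone G P m :=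
  fun F hF => hc F (hF.trans h)

theorem inv_ind (hP : ∀ i, P i ≤ G) (hgen : G ≤ Subgroup.closure (⋃ i, (P i : Set Γ)))
    {X : Type*} (D : Γ → X) (hD : ∀ i, ∀ g ∈ G, ∀ p ∈ P i, D (g * p) = D g) :
    ∀ c ∈ G, D c = D 1 := by
  have key : ∀ c ∈ Subgroup.closure (⋃ i, (P i : Set Γ)), c ∈ G ∧ ∀ g ∈ G, D (g * c) = D g := by
    intro c hc
    induction hc using Subgroup.closure_induction with
    | mem x hx =>
      obtain ⟨i, hi⟩ := Set.mem_iUnion.1 hx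
      exact ⟨hP i hi, fun g hg => hD i g hg x hi⟩
    | one => exact ⟨one_mem _, fun g _ => by rw [mul_one]⟩
    | mul x y _ _ hx hy =>
      exact ⟨mul_mem hx.1 hy.1, fun g hg => by
        rw [← mul_assoc, hy.2 _ (mul_mem hg hx.1), hx.2 g hg]⟩
    | inv x _ hx =>
      refine ⟨inv_mem hx.1, fun g hg => ?_⟩
      rw [← hx.2 _ (mul_mem hg (inv_mem hx.1))]
      simp
  intro c hc
  simpa using (key c (hgen hc)).2 1 (one_mem _)

end ConeAux

open ConeAux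

variable {Γ : Type*} [Group Γ] {I : Type*} [Nonempty I] {G : Subgroup Γ} {P : I → Subgroup Γ}

theorem glueA {H : Type*} [Group H] (hP : ∀ i, P i ≤ G) (hc : Cone G P 5) (t : I → Γ → Γ → H)
    (ht : ∀ i, ∀ g ∈ G, ∀ p ∈ P i, ∀ q ∈ P i, t i g p * t i (g * p) q = t i g (p * q))
    (hag : ∀ i j, ∀ g ∈ G, ∀ p ∈ P i, p ∈ P j → t i g p = t j g p) :
    ∃ s : Γ → H, s 1 = 1 ∧ ∀ i, ∀ g ∈ G, ∀ p ∈ P i, s (g * p) = s g * t i g p := by
  classical
  obtain ⟨i0⟩ := ‹Nonempty I›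
  let a : I × G → G → H := fun u g => t u.1 u.2 ((u.2 : Γ)⁻¹ * g)
  have ha : ∀ u g g', Inc G P g u → Inc G P g' u → a u g' = a u g * t u.1 g ((g : Γ)⁻¹ * g') := by
    intro u g g' h h'
    have := ht u.1 u.2 u.2.2 _ h.inv _ (h.div h')
    simp only [a]
    simpa [mul_assoc] using this.symm
  have hT : ∀ u v, ∃ T : H, ∀ g, Inc G P g u → Inc G P g v → T = a u g * (a v g)⁻¹ := by
    intro u v
    by_cases h : ∃ g, Inc G P g u ∧ Inc G P g v
    · obtain ⟨g0, h1, h2⟩ := h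
      refine ⟨a u g0 * (a v g0)⁻¹, fun g h3 h4 => ?_⟩
      rw [ha u g0 g h1 h3, ha v g0 g h2 h4, hag u.1 v.1 g0 g0.2 _ (h1.div h3) (h2.div h4)]
      group
    · exact ⟨1, fun g h1 h2 => (h ⟨g, h1, h2⟩).elim⟩
  choose T hT using hT
  obtain ⟨φ, hφ⟩ := one_coc (In := Inc G P) inc_ex (cn_of_cone hc) T (by
    intro g u v w hu hv hw
    rw [hT u v g hu hv, hT v w g hv hw, hT u w g hu hw]
    group)
  let S : G → H := fun g => φ (i0, g) * a (i0, g) g
  have hS : ∀ g u, Inc G P g u → S g = φ u * a u g := by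
    intro g u hu
    simp only [S]
    rw [← hφ g u (i0, g) hu (inc_self _ _), hT u (i0, g) g hu (inc_self _ _)]
    group
  refine ⟨fun g => if h : g ∈ G then (S 1)⁻¹ * S ⟨g, h⟩ else 1, ?_, fun i g hg p hp => ?_⟩
  · simp only [one_mem, dite_true]
    exact inv_mul_cancel _
  · have hgp : g * p ∈ G := mul_mem hg (hP i hp)
    simp only [hg, hgp, dite_true]
    have h1 : Inc G P ⟨g, hg⟩ (i, ⟨g, hg⟩) := inc_self _ _
    have h2 : Inc G P ⟨g * p, hgp⟩ (i, ⟨g, hg⟩) := h1.mul hp rfl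
    rw [hS _ _ h1, hS _ _ h2, ha _ _ _ h1 h2]
    simp [mul_assoc]

theorem glueHom {H : Type*} [Group H] (hP : ∀ i, P i ≤ G) (hc : Cone G P 5)
    (hgen : G ≤ Subgroup.closure (⋃ i, (P i : Set Γ))) (σ : I → Γ → H)
    (hσ : ∀ i, ∀ p ∈ P i, ∀ q ∈ P i, σ i (p * q) = σ i p * σ i q)
    (hag : ∀ i j, ∀ p ∈ P i, p ∈ P j → σ i p = σ j p) :
    ∃ s : Γ → H, (∀ g ∈ G, ∀ h ∈ G, s (g * h) = s g * s h) ∧ ∀ i, ∀ p ∈ P i, s p = σ i p := by
  obtain ⟨s, h1, h2⟩ := glueA hP hc (fun i _ p => σ i p)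
    (fun i _ _ p hp q hq => (hσ i p hp q hq).symm) (fun i j _ _ p hp hq => hag i j p hp hq)
  refine ⟨s, fun g hg h hh => ?_, fun i p hp => by simpa [h1] using h2 i 1 (one_mem _) p hp⟩
  have := inv_ind hP hgen (fun c => s (g * c) * (s c)⁻¹) (fun i x hx p hp => by
    rw [← mul_assoc, h2 i _ (mul_mem hg hx) p hp, h2 i x hx p hp]
    group) h hh
  simp only [h1, mul_one, inv_one] at this
  rw [← this]
  group

theorem glueB (hP : ∀ i, P i ≤ G) (hc : Cone G P 10)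
    (hgen : G ≤ Subgroup.closure (⋃ i, (P i : Set Γ))) (f : I → Γ → Γ → ℚ)
    (hf : ∀ i, Coc (P i) (f i))
    (hag : ∀ i j, ∀ p ∈ P i, p ∈ P j → ∀ q ∈ P i, q ∈ P j → f i p q = f j p q) :
    ∃ F : Γ → Γ → ℚ, Coc G F ∧ ∀ i, ∃ b : Γ → ℚ, ∀ p ∈ P i, ∀ q ∈ P i,
      F p q = f i p q + b p + b q - b (p * q) := by
  classical
  obtain ⟨i0⟩ := ‹Nonempty I›
  let A : I × G → G → G → ℚ := fun u g g' => f u.1 ((u.2 : Γ)⁻¹ * g) ((g : Γ)⁻¹ * g')
  have hA : ∀ u g g' g'', Inc G P g u → Inc G P g' u → Inc G P g'' u →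
      A u g g' + A u g' g'' = f u.1 ((g : Γ)⁻¹ * g') ((g' : Γ)⁻¹ * g'') + A u g g'' := by
    intro u g g' g'' h h' h''
    have := hf u.1 _ h.inv _ (h.div h') _ (h'.div h'')
    simp only [A]
    simpa [mul_assoc] using this
  have hγ : ∀ u v, ∃ γ : G → ℚ, ∀ g g', Inc G P g u → Inc G P g v → Inc G P g' u →
      Inc G P g' v → γ g' - γ g = A u g g' - A v g g' := by
    intro u v
    by_cases h : ∃ g, Inc G P g u ∧ Inc G P g v
    · obtain ⟨g0, h1, h2⟩ := h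
      refine ⟨fun g => A u g0 g - A v g0 g, fun g g' h3 h4 h5 h6 => ?_⟩
      have e1 := hA u g0 g g' h1 h3 h5
      have e2 := hA v g0 g g' h2 h4 h6
      have e3 := hag u.1 v.1 _ (h1.div h3) (h2.div h4) _ (h3.div h5) (h4.div h6)
      linarith
    · exact ⟨0, fun g _ h1 h2 _ _ => (h ⟨g, h1, h2⟩).elim⟩
  choose γ hγ using hγ
  have hτ : ∀ u v w, ∃ τ : ℚ, ∀ g, Inc G P g u → Inc G P g v → Inc G P g w →
      τ = γ u v g + γ v w g - γ u w g := by
    intro u v w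
    by_cases h : ∃ g, Inc G P g u ∧ Inc G P g v ∧ Inc G P g w
    · obtain ⟨g0, h1, h2, h3⟩ := h
      refine ⟨γ u v g0 + γ v w g0 - γ u w g0, fun g h4 h5 h6 => ?_⟩
      have e1 := hγ u v g0 g h1 h2 h4 h5
      have e2 := hγ v w g0 g h2 h3 h5 h6
      have e3 := hγ u w g0 g h1 h3 h4 h6
      linarith
    · exact ⟨0, fun g h1 h2 h3 => (h ⟨g, h1, h2, h3⟩).elim⟩
  choose τ hτ using hτ
  obtain ⟨k, hk⟩ := two_coc (In := Inc G P) inc_ex (cn_of_cone hc) τ (by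
    intro g u v w z hu hv hw hz
    rw [hτ v w z g hv hw hz, hτ u w z g hu hw hz, hτ u v z g hu hv hz, hτ u v w g hu hv hw]
    ring)
  let C : I × G → G → G → ℚ := fun u g g' =>
    A u g g' - (γ u (i0, g') g' - k u (i0, g')) + (γ u (i0, g) g - k u (i0, g))
  have hC : ∀ u v g g', Inc G P g u → Inc G P g v → Inc G P g' u → Inc G P g' v →
      C u g g' = C v g g' := by
    intro u v g g' h1 h2 h3 h4
    have e1 := hγ u v g g' h1 h2 h3 h4
    have e2 := hk g u v (i0, g) h1 h2 (inc_self _ _)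
    have e3 := hk g' u v (i0, g') h3 h4 (inc_self _ _)
    have e4 := hτ u v (i0, g) g h1 h2 (inc_self _ _)
    have e5 := hτ u v (i0, g') g' h3 h4 (inc_self _ _)
    simp only [C]
    linarith
  have hcc : ∃ c : I → Γ → Γ → ℚ, (∀ i, ∀ g ∈ G, ∀ p ∈ P i, ∀ q ∈ P i,
      c i g p + c i (g * p) q = f i p q + c i g (p * q)) ∧
      ∀ i j, ∀ g ∈ G, ∀ p ∈ P i, p ∈ P j → c i g p = c j g p := by
    refine ⟨fun i g p => if h : g ∈ G ∧ g * p ∈ G then C (i, ⟨g, h.1⟩) ⟨g, h.1⟩ ⟨g * p, h.2⟩ else 0,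
      fun i g hg p hp q hq => ?_, fun i j g hg p hp hp' => ?_⟩
    · have a1 : g * p ∈ G := mul_mem hg (hP i hp)
      have a2 : g * p * q ∈ G := mul_mem a1 (hP i hq)
      have a3 : g * (p * q) ∈ G := mul_mem hg (hP i (mul_mem hp hq))
      simp only [hg, a1, a2, a3, and_self, dite_true]
      have h1 : Inc G P ⟨g, hg⟩ (i, ⟨g, hg⟩) := inc_self _ _
      have h2 : Inc G P ⟨g * p, a1⟩ (i, ⟨g, hg⟩) := h1.mul hp rfl
      have h3 : Inc G P ⟨g * p * q, a2⟩ (i, ⟨g, hg⟩) := h2.mul hq rfl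
      have h4 : Inc G P ⟨g * p, a1⟩ (i, ⟨g * p, a1⟩) := inc_self _ _
      have e : (⟨g * (p * q), a3⟩ : G) = ⟨g * p * q, a2⟩ := Subtype.ext (mul_assoc _ _ _).symm
      rw [e, hC _ _ _ _ h4 h2 (h4.mul hq rfl) h3]
      have e1 := hA _ _ _ _ h1 h2 h3
      simp only [inv_mul_cancel_left] at e1
      simp only [C]
      linarith
    · have a1 : g * p ∈ G := mul_mem hg (hP i hp)
      simp only [hg, a1, and_self, dite_true]
      exact hC _ _ _ _ (inc_self _ _) (inc_self _ _) ((inc_self _ _).mul hp rfl)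
        ((inc_self _ _).mul hp' rfl)
  obtain ⟨c, hc1, hc2⟩ := hcc
  have hs : ∀ a, ∃ s : Γ → ℚ, a ∈ G → s 1 = 0 ∧
      ∀ i, ∀ g ∈ G, ∀ p ∈ P i, s (g * p) = s g + (c i (a * g) p - c i g p) := by
    intro a
    by_cases ha : a ∈ G
    · obtain ⟨s, h1, h2⟩ := glueA (H := Multiplicative ℚ) hP (cone_mono (by norm_num) hc)
        (fun i g p => Multiplicative.ofAdd (c i (a * g) p - c i g p))
        (fun i g hg p hp q hq => by
          rw [← ofAdd_add]
          congr 1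
          have e1 := hc1 i g hg p hp q hq
          have e2 := hc1 i _ (mul_mem ha hg) p hp q hq
          rw [mul_assoc] at e2
          linarith)
        (fun i j g hg p hp hp' => by
          rw [hc2 i j g hg p hp hp', hc2 i j _ (mul_mem ha hg) p hp hp'])
      refine ⟨fun g => (s g).toAdd, fun _ => ⟨by simp [h1], fun i g hg p hp => ?_⟩⟩
      simp [h2 i g hg p hp]
    · exact ⟨0, fun h => (ha h).elim⟩
  choose F hF using hs
  refine ⟨F, fun a ha b hb x hx => ?_, fun i => ⟨fun p => -c i 1 p, fun p hp q hq => ?_⟩⟩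
  · have hab := mul_mem ha hb
    have := inv_ind hP hgen (fun y => F (a * b) y - F b y - F a (b * y)) (fun i y hy p hp => by
      rw [← mul_assoc b, (hF _ hab).2 i y hy p hp, (hF b hb).2 i y hy p hp,
        (hF a ha).2 i _ (mul_mem hb hy) p hp, mul_assoc]
      ring) x hx
    simp only [(hF _ hab).1, (hF b hb).1, mul_one] at this
    linarith
  · have e1 := (hF p (hP i hp)).2 i 1 (one_mem _) q hq
    have e2 := hc1 i 1 (one_mem _) p hp q hq
    simp only [one_mul, mul_one, (hF p (hP i hp)).1] at e1 e2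
    linarith

end Vale.Agent.P192
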