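import Vale.Agent.P192.Lin
import Vale.Agent.P192.Coc

/-! Part Ext: a canonical cocycle extends to larger elementary groups. -/

namespace Vale.Agent.P192

namespace ExtAux

variable {ι κ : Type} [Fintype ι] [DecidableEq ι] [Fintype κ] [DecidableEq κ] {A : Type} [Ring A]

theorem emb_inj (φ : ι ↪ κ) : Function.Injective (emb (A := A) φ) := fun g h e => by
  have h1 : inc A φ * ((g : Matrix ι ι A) - 1) * (inc A φ).transpose =
      inc A φ * ((h : Matrix ι ι A) - 1) * (inc A φ).transpose :=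
    add_left_cancel (a := 1) (congrArg Units.val e)
  have h2 := congrArg (fun M => (inc A φ).transpose * M * inc A φ) h1
  simp only [← Matrix.mul_assoc, inc_t_mul_inc, Matrix.one_mul] at h2
  simp only [Matrix.mul_assoc, inc_t_mul_inc, Matrix.mul_one] at h2
  exact Units.ext (sub_left_injective h2)

theorem El_le_map (φ : ι ↪ κ) {J : Finset κ} {K : Finset ι} (h : ∀ b ∈ J, ∃ a ∈ K, φ a = b) :
    El A J ≤ (El A K).map (emb φ) := by
  refine (Subgroup.closure_le _).2 ?_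
  rintro _ ⟨a, ha, b, hb, -, r, rfl⟩
  obtain ⟨a, ha', rfl⟩ := h a ha
  obtain ⟨b, hb', rfl⟩ := h b hb
  exact ⟨_, rt_mem_El ha' hb' r, emb_rt ..⟩

theorem El_ext {Γ : Type*} [Group Γ] {f f' : (Matrix ι ι A)ˣ →* Γ} {K : Finset ι}
    (h : ∀ a ∈ K, ∀ b ∈ K, ∀ r, f (rt a b r) = f' (rt a b r)) {g : (Matrix ι ι A)ˣ}
    (hg : g ∈ El A K) : f g = f' g :=
  MonoidHom.eqOn_closure (by rintro _ ⟨a, ha, b, hb, -, r, rfl⟩; exact h a ha b hb r) hg

theorem perm_conj (L : Loc A) (τ : ι ≃ ι) : ∃ u ∈ El A (Finset.univ : Finset ι),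
    ∀ g, emb τ.toEmbedding g = u * g * u⁻¹ := by
  have h : inc A τ.toEmbedding * (inc A τ.toEmbedding).transpose = 1 := by
    ext i j
    obtain ⟨i, rfl⟩ := τ.surjective i
    obtain ⟨j, rfl⟩ := τ.surjective j
    simp [inc, Matrix.mul_apply, Matrix.one_apply, eq_comm]
  refine ⟨⟨_, _, h, inc_t_mul_inc _⟩, const_mem L (mem_GLs.2 (by simp)) fun a b => ?_,
    fun g => Units.ext ?_⟩
  · simp only [inc, Matrix.of_apply]
    split_ifs <;> simp
  · change 1 + inc A τ.toEmbedding * ((g : Matrix ι ι A) - 1) * (inc A τ.toEmbedding).transpose =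
      inc A τ.toEmbedding * (g : Matrix ι ι A) * (inc A τ.toEmbedding).transpose
    rw [mul_sub, sub_mul, mul_one, h, add_sub_cancel]

/-- compatible canonical cocycles on all index sets of size `n` -/
def Sys (f0 : (Matrix ι ι A)ˣ → (Matrix ι ι A)ˣ → ℚ) (n : ℕ)
    (F : Finset κ → (Matrix κ κ A)ˣ → (Matrix κ κ A)ˣ → ℚ) : Prop :=
  (∀ J, J.card = n → Can (El A J) (F J)) ∧
  (∀ J J', J.card = n → J'.card = n → ∀ g ∈ El A (J ∩ J'), ∀ h ∈ El A (J ∩ J'),
    F J g h = F J' g h) ∧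
  ∀ J, J.card = n → ∀ φ : ι ↪ κ, (∀ a, φ a ∈ J) → ∀ g ∈ El A (Finset.univ : Finset ι),
    ∀ h ∈ El A (Finset.univ : Finset ι), F J (emb φ g) (emb φ h) = f0 g h

variable {f0 : (Matrix ι ι A)ˣ → (Matrix ι ι A)ˣ → ℚ}

theorem base (N : GA A) (h0 : Can (El A Finset.univ) f0) :
    ∃ F : Finset κ → _, Sys f0 (Fintype.card ι) F := by
  have ex : ∀ J : Finset κ, ∃ F : (Matrix κ κ A)ˣ → (Matrix κ κ A)ˣ → ℚ,
      J.card = Fintype.card ι → Can (El A J) F ∧ ∀ φ : ι ↪ κ, (∀ a, φ a ∈ J) →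
        ∀ g ∈ El A (Finset.univ : Finset ι), ∀ h ∈ El A (Finset.univ : Finset ι),
          F (emb φ g) (emb φ h) = f0 g h := fun J => by
    by_cases hJ : J.card = Fintype.card ι
    swap
    · exact ⟨0, fun h => absurd h hJ⟩
    let e : ι ≃ J := Fintype.equivOfCardEq (by simp [hJ])
    let ψ : ι ↪ κ := e.toEmbedding.trans (Function.Embedding.subtype _)
    have h1 := El_le_map (A := A) ψ (J := J) (K := Finset.univ) fun b hb =>
      ⟨e.symm ⟨b, hb⟩, by simp, by simp [ψ]⟩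
    choose! res r1 r2 using fun g (hg : g ∈ El A J) => Subgroup.mem_map.1 (h1 hg)
    refine ⟨fun g h => f0 (res g) (res h), fun _ => ⟨h0.comap res r1 fun g hg h hh =>
      emb_inj ψ (by rw [map_mul, r2 _ hg, r2 _ hh, r2 _ (mul_mem hg hh)]), fun φ hφ g hg h hh => ?_⟩⟩
    let τ : ι ≃ ι := Equiv.ofBijective (fun a => e.symm ⟨φ a, hφ a⟩)
      (Finite.injective_iff_bijective.1 fun a b hab => by simpa using hab)
    obtain ⟨u, hu, hu'⟩ := perm_conj N.loc τ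
    have h2 : ∀ g ∈ El A (Finset.univ : Finset ι), res (emb φ g) = u * g * u⁻¹ := fun g hg =>
      emb_inj ψ (by
        rw [r2 _ (emb_El φ (fun a _ => hφ a) hg), ← hu']
        exact El_ext (f' := (emb ψ).comp (emb τ.toEmbedding))
          (fun a _ b _ r => by simp [emb_rt, ψ, τ]) hg)
    simp only [h2 g hg, h2 h hh]
    exact can_conj (fun g _ => gl_periodic N g) h0 hu hg hh
  choose F hF using ex
  refine ⟨F, fun J hJ => (hF J hJ).1, fun J J' hJ hJ' g hg h hh => ?_, fun J hJ => (hF J hJ).2⟩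
  let e : ι ≃ J := Fintype.equivOfCardEq (by simp [hJ])
  let ψ : ι ↪ κ := e.toEmbedding.trans (Function.Embedding.subtype _)
  obtain ⟨e', he'⟩ := Finset.exists_equiv_extend_of_card_eq hJ'.symm
    (s := Finset.univ.filter fun a => ψ a ∈ J') (f := ψ)
    (by simp +contextual [Finset.image_subset_iff]) ψ.injective.injOn
  let ψ' : ι ↪ κ := e'.toEmbedding.trans (Function.Embedding.subtype _)
  have h1 := El_le_map (A := A) ψ (J := J ∩ J') (K := Finset.univ.filter fun a => ψ a ∈ J')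
    fun b hb => ⟨e.symm ⟨b, (Finset.mem_inter.1 hb).1⟩,
      by simpa [ψ] using (Finset.mem_inter.1 hb).2, by simp [ψ]⟩
  have h2 : ∀ g ∈ El A (Finset.univ.filter fun a => ψ a ∈ J'), emb ψ g = emb ψ' g := fun g hg =>
    El_ext (fun a ha b hb r => by rw [emb_rt, emb_rt, ← he' a ha, ← he' b hb]; rfl) hg
  obtain ⟨g, hg', rfl⟩ := h1 hg
  obtain ⟨h, hh', rfl⟩ := h1 hh
  have h3 := El_mono (A := A) (Finset.subset_univ (Finset.univ.filter fun a => ψ a ∈ J'))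
  rw [(hF J hJ).2 ψ (fun a => (e a).2) g (h3 hg') h (h3 hh'), h2 g hg', h2 h hh',
    (hF J' hJ').2 ψ' (fun a => (e' a).2) g (h3 hg') h (h3 hh')]

theorem dgf_Fx {t t' : Finset κ} {g : (Matrix κ κ A)ˣ} (hg : g ∈ Fx A t) (hg' : g ∈ Fx A t') :
    dgf (pr A t) g ∈ Fx A t' := mem_Fx.2 fun i j hj => by
  rw [dgf_apply hg]
  split_ifs with h
  · exact mem_Fx.1 hg' i j hj
  · rw [Matrix.one_apply_ne]
    rintro rfl
    exact h Iff.rfl

theorem dgf_comm {t t' : Finset κ} {g : (Matrix κ κ A)ˣ} (hg : g ∈ Fx A t) (hg' : g ∈ Fx A t') :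
    dgf (pr A t') (dgf (pr A t) g) = dgf (pr A t) (dgf (pr A t') g) := by
  ext i j
  rw [dgf_apply (dgf_Fx hg hg'), dgf_apply (dgf_Fx hg' hg), dgf_apply hg, dgf_apply hg']
  split_ifs <;> rfl

theorem par (N : GA A) {J t : Finset κ} (h6 : 6 ≤ (J \ t).card)
    {f : (Matrix κ κ A)ˣ → (Matrix κ κ A)ˣ → ℚ} (hf : Can (El A J) f) {a b : (Matrix κ κ A)ˣ}
    (ha : a ∈ El A J ⊓ Fx A t) (hb : b ∈ El A J ⊓ Fx A t) :
    f a b = f (dgf (pr A t) a) (dgf (pr A t) b) :=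
  can_par (fun g _ => gl_periodic N g) hf inf_le_left _
    (fun _ hp => ⟨El_mono Finset.sdiff_subset (stab_dg N.loc h6 hp.1 hp.2), dgf_Fx hp.2 hp.2⟩)
    (fun _ hp _ hq => dgf_mul _ (Fx_le_Qp t hp.2) (Fx_le_Qp t hq.2))
    (fun _ hp => dgf_dgf _ (Fx_le_Qp t hp.2))
    (fun _ hp _ hq => dgf_ker_comm _ (Fx_le_Qp t hp.2) (Fx_le_Qp t hq.2)) ha hb

theorem step (N : GA A) {n : ℕ} (h11 : 11 ≤ n) (hn : Fintype.card ι ≤ n)
    {F : Finset κ → (Matrix κ κ A)ˣ → (Matrix κ κ A)ˣ → ℚ} (hF : Sys f0 n F) :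
    ∃ F' : Finset κ → _, Sys f0 (n + 1) F' := by
  obtain ⟨F1, F2, F3⟩ := hF
  have ex : ∀ J : Finset κ, ∃ f : (Matrix κ κ A)ˣ → (Matrix κ κ A)ˣ → ℚ, J.card = n + 1 →
      Can (El A J) f ∧ ∀ i ∈ J, ∀ g ∈ El A (J \ {i}), ∀ h ∈ El A (J \ {i}),
        f g h = F (J \ {i}) g h := fun J => by
    by_cases hJ : J.card = n + 1
    swap
    · exact ⟨0, fun h => absurd h hJ⟩
    have c1 : ∀ i : J, (J \ {i.1}).card = n := fun i => by
      rw [Finset.card_sdiff_of_subset (by simp), hJ]; simp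
    have c2 : ∀ (i : J) (j : κ), 6 ≤ ((J \ {i.1}) \ {j}).card := fun i j => by
      have := Finset.le_card_sdiff {j} (J \ {i.1})
      rw [c1, Finset.card_singleton] at this
      omega
    have l1 : ∀ i : J, ∀ p ∈ El A J ⊓ Fx A {i.1}, dgf (pr A {i.1}) p ∈ El A (J \ {i.1}) :=
      fun i p hp => stab_dg N.loc (by rw [c1]; omega) hp.1 hp.2
    have l2 : ∀ i : J, Can (El A J ⊓ Fx A {i.1})
        fun p q => F (J \ {i.1}) (dgf (pr A {i.1}) p) (dgf (pr A {i.1}) q) := fun i =>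
      (F1 _ (c1 i)).comap _ (l1 i) fun _ hp _ hq => dgf_mul _ (Fx_le_Qp _ hp.2) (Fx_le_Qp _ hq.2)
    have : Nonempty J := by rw [Finset.nonempty_coe_sort, ← Finset.card_pos]; omega
    obtain ⟨f, f1, f2⟩ := glueB (fun _ => inf_le_left)
      (cone_lin N.loc le_rfl (El_le_GLs J) (by omega)) (El_gen (by omega)) _ (fun i => (l2 i).1)
      fun i j p hp hp' q hq hq' => by
        by_cases hij : i = j
        · rw [hij]
        have key : ∀ p ∈ El A J ⊓ Fx A {i.1}, p ∈ El A J ⊓ Fx A {j.1} →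
            dgf (pr A {j.1}) (dgf (pr A {i.1}) p) ∈ El A (J \ {i.1} ∩ (J \ {j.1})) :=
          fun p hp hp' => El_mono (by intro a; simp +contextual)
            (stab_dg N.loc (c2 i j) (l1 i p hp) (dgf_Fx hp.2 hp'.2))
        rw [par N (c2 i j) (F1 _ (c1 i)) ⟨l1 i p hp, dgf_Fx hp.2 hp'.2⟩
            ⟨l1 i q hq, dgf_Fx hq.2 hq'.2⟩,
          par N (c2 j i) (F1 _ (c1 j)) ⟨l1 j p hp', dgf_Fx hp'.2 hp.2⟩
            ⟨l1 j q hq', dgf_Fx hq'.2 hq.2⟩, ← dgf_comm hp.2 hp'.2, ← dgf_comm hq.2 hq'.2]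
        exact F2 _ _ (c1 i) (c1 j) _ (key p hp hp') _ (key q hq hq')
    obtain ⟨b, hb⟩ := can_exists (fun g _ => gl_periodic N g) f1
    refine ⟨_, fun _ => ⟨hb, fun i hi g hg h hh => ?_⟩⟩
    obtain ⟨b', hb'⟩ := f2 ⟨i, hi⟩
    have m : ∀ g ∈ El A (J \ {i}), g ∈ El A J ⊓ Fx A {i} := fun g hg =>
      ⟨El_mono Finset.sdiff_subset hg, GLs_le_Fx (by simp) (El_le_GLs _ hg)⟩
    have := can_unique (fun g _ => gl_periodic N g) (hb.mono inf_le_left) (l2 ⟨i, hi⟩)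
      (fun p => b p + b' p) (fun p hp q hq => by rw [hb' p hp q hq]; ring) g (m g hg) h (m h hh)
    rwa [dgf_eq_self (El_le_GLs _ hg), dgf_eq_self (El_le_GLs _ hh)] at this
  choose G hG using ex
  have c1 : ∀ {J : Finset κ} {i}, J.card = n + 1 → i ∈ J → (J \ {i}).card = n := fun hJ hi => by
    rw [Finset.card_sdiff_of_subset (by simpa), hJ]; simp
  refine ⟨G, fun J hJ => (hG J hJ).1, fun J J' hJ hJ' g hg h hh => ?_, fun J hJ φ hφ g hg h hh => ?_⟩
  · by_cases e : J = J'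
    · rw [e]
    obtain ⟨i, hi, hi'⟩ := Finset.not_subset.1 fun h => e (Finset.eq_of_subset_of_card_le h (by omega))
    obtain ⟨j, hj, hj'⟩ := Finset.not_subset.1 fun h =>
      e (Finset.eq_of_subset_of_card_le h (by omega)).symm
    have s : J ∩ J' ⊆ J \ {i} ∩ (J' \ {j}) := fun a ha => by
      rw [Finset.mem_inter] at ha
      simp only [Finset.mem_inter, Finset.mem_sdiff, Finset.mem_singleton, ha, true_and]
      exact ⟨fun h => hi' (h ▸ ha.2), fun h => hj' (h ▸ ha.1)⟩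
    have s1 := El_mono (A := A) (s.trans Finset.inter_subset_left)
    have s2 := El_mono (A := A) (s.trans Finset.inter_subset_right)
    rw [(hG J hJ).2 i hi g (s1 hg) h (s1 hh), (hG J' hJ').2 j hj g (s2 hg) h (s2 hh)]
    exact F2 _ _ (c1 hJ hi) (c1 hJ' hj) g (El_mono s hg) h (El_mono s hh)
  · obtain ⟨i, hi, hi'⟩ := Finset.exists_mem_notMem_of_card_lt_card
      (show (Finset.univ.map φ).card < J.card by simp; omega)
    have s : ∀ a, φ a ∈ J \ {i} := fun a => by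
      simp only [Finset.mem_sdiff, hφ, Finset.mem_singleton, true_and]
      rintro rfl
      simp at hi'
    rw [(hG J hJ).2 i hi _ (emb_El φ (fun a _ => s a) hg) _ (emb_El φ (fun a _ => s a) hh)]
    exact F3 _ (c1 hJ hi) φ s g hg h hh

end ExtAux

theorem ext_coc {ι : Type} [Fintype ι] [DecidableEq ι] (hι : 11 ≤ Fintype.card ι) {A : Type}
    [Ring A] (N : GA A) {f0 : (Matrix ι ι A)ˣ → (Matrix ι ι A)ˣ → ℚ}
    (h0 : Can (El A Finset.univ) f0) (κ : Type) [Fintype κ] [DecidableEq κ] :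
    ∃ f : (Matrix κ κ A)ˣ → (Matrix κ κ A)ˣ → ℚ, Can (El A Finset.univ) f ∧
      ∀ φ : ι ↪ κ, ∀ g ∈ El A (Finset.univ : Finset ι), ∀ h ∈ El A (Finset.univ : Finset ι),
        f (emb φ g) (emb φ h) = f0 g h := by
  rcases lt_or_ge (Fintype.card κ) (Fintype.card ι) with h | h
  · exact ⟨0, ⟨fun _ _ _ _ _ _ => rfl, by simp⟩,
      fun φ => absurd (Fintype.card_le_of_embedding φ) h.not_ge⟩
  have key : ∀ n, Fintype.card ι ≤ n → ∃ F : Finset κ → _, ExtAux.Sys f0 n F := fun n hn => by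
    induction n, hn using Nat.le_induction with
    | base => exact ExtAux.base N h0
    | succ n hn ih => exact ih.elim fun F hF => ExtAux.step N (hι.trans hn) hn hF
  obtain ⟨F, F1, -, F3⟩ := key _ h
  exact ⟨F Finset.univ, F1 _ rfl, fun φ => F3 _ rfl φ (by simp)⟩

end Vale.Agent.P192
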