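import Vale.Agent.P192.FerryDefs

/-! Part FerA: structure of valid configurations (no rewriting). -/

namespace Vale.Agent.P192

variable {Λ : Lay} {w w' : ℤ → Lt Λ} {h : ℕ} {p : ℤ} {S S' : Path → St} {E E' : Λ.Dat}
  {st st' : Sts Λ}

@[simp] theorem pos_nil (h : ℕ) (p : ℤ) : pos h p [] = p := by
  cases h <;> rfl

@[simp] theorem pos_cons (h : ℕ) (p : ℤ) (s : Bool) (ρ : Path) :
    pos (h + 1) p (s :: ρ) = pos h (p + sg s * 2 ^ h) ρ := rfl

@[simp] theorem sg_true : sg true = 1 := rfl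

@[simp] theorem sg_false : sg false = -1 := rfl

theorem two_pow_pos' (k : ℕ) : (0 : ℤ) < 2 ^ k := by positivity

theorem bl_zero (p : ℤ) (σ : Bool) : bl 0 p σ = p := by simp [bl]

theorem bl_succ (h : ℕ) (p : ℤ) (σ : Bool) : bl (h + 1) p σ = bl h (p + sg σ * 2 ^ h) σ := by
  simp only [bl, pow_succ]; ring

theorem pos_append (h : ℕ) (p : ℤ) (π ρ : Path) (hπ : π.length ≤ h) :
    pos h p (π ++ ρ) = pos (h - π.length) (pos h p π) ρ := by
  induction π generalizing h p with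
  | nil => simp
  | cons s π ih =>
    obtain ⟨k, rfl⟩ : ∃ k, h = k + 1 := ⟨h - 1, by simp at hπ; omega⟩
    simp only [List.length_cons, Nat.add_le_add_iff_right] at hπ
    simp only [List.cons_append, pos_cons, List.length_cons, Nat.add_sub_add_right]
    exact ih k _ hπ

theorem pos_bound (h : ℕ) (p : ℤ) (π : Path) (hπ : π.length ≤ h) :
    p - 2 ^ h + 2 ^ (h - π.length) ≤ pos h p π ∧ pos h p π ≤ p + 2 ^ h - 2 ^ (h - π.length) := by
  induction π generalizing h p with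
  | nil => simp
  | cons s π ih =>
    obtain ⟨k, rfl⟩ : ∃ k, h = k + 1 := ⟨h - 1, by simp at hπ; omega⟩
    simp only [List.length_cons, Nat.add_le_add_iff_right] at hπ
    simp only [pos_cons, List.length_cons, Nat.add_sub_add_right, pow_succ]
    have := ih k (p + sg s * 2 ^ k) hπ
    have h2 := two_pow_pos' k
    cases s <;> simp only [sg_true, sg_false] at this ⊢ <;> constructor <;> linarith [this.1, this.2]

theorem pos_sep (h : ℕ) (p : ℤ) {π ρ : Path} (hπ : π.length ≤ h) (hl : π.length = ρ.length)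
    (hne : π ≠ ρ) : pos h p π + 2 ^ (h - π.length + 1) ≤ pos h p ρ ∨
      pos h p ρ + 2 ^ (h - π.length + 1) ≤ pos h p π := by
  induction π generalizing h p ρ with
  | nil =>
    cases ρ with
    | nil => exact absurd rfl hne
    | cons t ρ => simp at hl
  | cons s π ih =>
    cases ρ with
    | nil => simp at hl
    | cons t ρ =>
      obtain ⟨k, rfl⟩ : ∃ k, h = k + 1 := ⟨h - 1, by simp at hπ; omega⟩
      simp only [List.length_cons, Nat.add_le_add_iff_right, Nat.add_right_cancel_iff] at hπ hl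
      simp only [pos_cons, List.length_cons, Nat.add_sub_add_right]
      by_cases hst : s = t
      · subst hst
        exact ih k _ hπ hl (fun e => hne (by rw [e]))
      · have b1 := pos_bound k (p + sg s * 2 ^ k) π hπ
        have b2 := pos_bound k (p + sg t * 2 ^ k) ρ (hl ▸ hπ)
        rw [← hl] at b2
        rw [pow_succ]
        cases s <;> cases t <;> simp only [sg_true, sg_false] at b1 b2 ⊢
        · exact absurd rfl hst
        · left; linarith [b1.2, b2.1]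
        · right; linarith [b1.1, b2.2]
        · exact absurd rfl hst

theorem pos_surj (h : ℕ) (p i : ℤ) (h1 : p - 2 ^ h < i) (h2 : i < p + 2 ^ h) :
    ∃ π : Path, π.length ≤ h ∧ pos h p π = i := by
  induction h generalizing p with
  | zero => exact ⟨[], le_rfl, by simp at h1 h2 ⊢; omega⟩
  | succ k ih =>
    rw [pow_succ] at h1 h2
    rcases lt_trichotomy i p with a | a | a
    · obtain ⟨π, b, c⟩ := ih (p + sg false * 2 ^ k) (by simp only [sg_false]; linarith)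
        (by simp only [sg_false]; linarith)
      exact ⟨false :: π, by simpa using b, c⟩
    · exact ⟨[], by simp, by simp [a]⟩
    · obtain ⟨π, b, c⟩ := ih (p + sg true * 2 ^ k) (by simp only [sg_true]; linarith)
        (by simp only [sg_true]; linarith)
      exact ⟨true :: π, by simpa using b, c⟩

theorem pos_replicate (h : ℕ) (p : ℤ) (σ : Bool) : pos h p (List.replicate h σ) = bl h p σ := by
  induction h generalizing p with
  | zero => simp [bl]
  | succ k ih => rw [List.replicate_succ, pos_cons, ih, bl_succ]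

theorem FV.transl (hf : FV w h p S E st) {p' : ℤ}
    (hw : ∀ i : ℤ, -2 ^ h < i → i < 2 ^ h → w' (p' + i) = w (p + i)) : FV w' h p' S E st := by
  induction h generalizing p p' S E st with
  | zero =>
    have h0 : w' p' = w p := by simpa using hw 0 (by simp) (by simp)
    unfold FV at hf ⊢
    rw [h0]; exact hf
  | succ k ih =>
    have h2 := two_pow_pos' k
    have h0 : w' p' = w p := by
      simpa using hw 0 (by rw [pow_succ]; linarith) (by rw [pow_succ]; linarith)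
    unfold FV at hf ⊢
    rw [h0]
    obtain ⟨a, b, c, loc, sc, d, e⟩ := hf
    refine ⟨a, b, c, loc, sc, d, fun s => ⟨(e s).1, (e s).2.1, ih (e s).2.2 fun i i1 i2 => ?_⟩⟩
    rw [add_assoc, add_assoc]
    apply hw <;> rw [pow_succ] <;> cases s <;> simp only [sg_true, sg_false] <;> linarith

theorem FV.congr (hf : FV w h p S E st) (hS : ∀ π : Path, π.length ≤ h → S' π = S π)
    (hE : ∀ π : Path, π.length ≤ h → E' π = E π) : FV w h p S' E' st := by
  induction h generalizing p S E S' E' st with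
  | zero =>
    unfold FV at hf ⊢
    rw [hS [] le_rfl, hE [] le_rfl]; exact hf
  | succ k ih =>
    unfold FV at hf ⊢
    rw [hS [] (by simp), hE [] (by simp)]
    obtain ⟨a, b, c, loc, sc, d, e⟩ := hf
    refine ⟨a, b, c, loc, sc, d, fun s => ?_⟩
    rw [hS [s] (by simp), hE [s] (by simp)]
    exact ⟨(e s).1, (e s).2.1, ih (e s).2.2 (fun π hπ => hS _ (by simpa using hπ))
      (fun π hπ => hE _ (by simpa using hπ))⟩

theorem Top.dock_true {b : Lt Λ} {e : Λ.Cd} {loc : Option (Cargo Λ)} {chi : Bool}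
    (ht : Top b e loc (Sts.dock chi true)) (e' : Λ.Cd) : Top b e' loc (Sts.dock chi true) := by
  rcases ht with ⟨-, -, a⟩ | ⟨c, -, -, a⟩ | ⟨c, -, -, -, a, -⟩ | ⟨c, -, -, -, a⟩ |
    ⟨x, a, b1, ⟨-, c⟩ | ⟨c, d⟩⟩ | ⟨-, -, ⟨c, -, a⟩ | ⟨-, a⟩⟩
  · cases a
  · cases a
  · cases a
  · cases a
  · cases c
  · exact Or.inr (Or.inr (Or.inr (Or.inr (Or.inl ⟨x, a, b1, Or.inr ⟨c, d⟩⟩))))
  · cases a
  · cases a

theorem FV.root_free {chi : Bool} (hf : FV w h p S E (Sts.dock chi true)) (e : Λ.Cd) :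
    FV w h p S (Function.update E [] (e, (E []).2)) (Sts.dock chi true) := by
  cases h with
  | zero =>
    unfold FV at hf ⊢
    obtain ⟨a, b, c, d, f⟩ := hf
    exact ⟨a, by simpa using b, c, d, f.dock_true _⟩
  | succ k =>
    unfold FV at hf ⊢
    obtain ⟨a, b, c, loc, sc, d, f⟩ := hf
    refine ⟨a, by simpa using b, c, loc, sc, d.dock_true _, fun s => ?_⟩
    simpa using f s

theorem FV.sub (hf : FV w h p S E st) (π : Path) (hπ : π.length ≤ h) :
    ∃ s0, FV w (h - π.length) (pos h p π) (fun ρ => S (π ++ ρ)) (fun ρ => E (π ++ ρ)) s0 := by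
  induction π generalizing h p S E st with
  | nil => exact ⟨st, by simpa using hf⟩
  | cons s π ih =>
    obtain ⟨k, rfl⟩ : ∃ k, h = k + 1 := ⟨h - 1, by simp at hπ; omega⟩
    simp only [List.length_cons, Nat.add_le_add_iff_right] at hπ
    unfold FV at hf
    obtain ⟨-, -, -, loc, sc, -, f⟩ := hf
    simpa using ih (f s).2.2 hπ

theorem Top.cd {b : Lt Λ} {e e' : Λ.Cd} {loc : Option (Cargo Λ)} (ht : Top b e loc st)
    (he : b.cd = some e') : e' = e := by
  rcases ht with ⟨-, a, -⟩ | ⟨c, -, a, -⟩ | ⟨c, -, -, -, -, ⟨-, a⟩ | ⟨-, a⟩⟩ | ⟨c, -, -, a, -⟩ |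
    ⟨x, -, -, ⟨a, -⟩ | ⟨a, -⟩⟩ | ⟨-, a, -⟩ <;> simp_all

theorem FV.root (hf : FV w h p S E st) : (w p).st = S [] ∧ (w p).hm = (E []).2 ∧
    ((S []).leaf = true ↔ h = 0) ∧ ∃ loc, Top (w p) (E []).1 loc st := by
  cases h with
  | zero =>
    unfold FV at hf
    exact ⟨hf.1, hf.2.1, by simp [hf.2.2.1], none, hf.2.2.2.2⟩
  | succ k =>
    unfold FV at hf
    obtain ⟨a, b, c, loc, sc, d, -⟩ := hf
    exact ⟨a, b, by simp [c], loc, d⟩

theorem FV.letter (hf : FV w h p S E st) (π : Path) (hπ : π.length ≤ h) :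
    (w (pos h p π)).st = S π ∧ (w (pos h p π)).hm = (E π).2 ∧
      ∀ e, (w (pos h p π)).cd = some e → e = (E π).1 := by
  obtain ⟨s0, h0⟩ := hf.sub π hπ
  obtain ⟨a, b, -, loc, d⟩ := h0.root
  simp only [List.append_nil] at a b d
  exact ⟨a, b, fun e he => d.cd he⟩

theorem FV.shape (hf : FV w h p S E st) : Shape h S := by
  refine ⟨fun π hπ => ?_, fun π s hπ => ?_⟩
  · obtain ⟨s0, h0⟩ := hf.sub π hπ
    obtain ⟨-, -, c, -⟩ := h0.root
    simp only [List.append_nil] at c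
    rw [c]; omega
  · obtain ⟨s0, h0⟩ := hf.sub π hπ.le
    obtain ⟨k, hk⟩ : ∃ k, h - π.length = k + 1 := ⟨h - π.length - 1, by omega⟩
    rw [hk] at h0
    unfold FV at h0
    obtain ⟨-, -, -, loc, sc, -, f⟩ := h0
    exact (f s).1

theorem FV.sp (hf : FV w h p S E st) : SP w h p := by
  induction h generalizing p S E st with
  | zero =>
    unfold FV at hf
    unfold SP
    rw [hf.1]; exact hf.2.2.1
  | succ k ih =>
    unfold FV at hf
    unfold SP
    obtain ⟨a, -, c, loc, sc, -, f⟩ := hf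
    refine ⟨by rw [a]; exact c, fun s => ⟨?_, ih (f s).2.2⟩⟩
    rw [(f s).2.2.root.1]; exact (f s).1

theorem Top.uniq {b : Lt Λ} {e e' : Λ.Cd} {loc loc' : Option (Cargo Λ)} (ht : Top b e loc st)
    (ht' : Top b e' loc' st') (hl : (∃ s, b.away s) → loc = loc') :
    st = st' ∧ ((∀ chi, st ≠ Sts.dock chi true) → e = e') := by
  by_cases ha : ∃ s, b.away s
  · obtain rfl := hl ha
    obtain ⟨s, x, ha⟩ := ha
    rcases ht with ⟨a1, a2, a3⟩ | ⟨c, a1, a2, a3⟩ | ⟨c, a1, a2, a3, a4, ⟨a5, a6⟩ | ⟨a5, a6⟩⟩ |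
      ⟨c, a1, a2, a3, a4⟩ | ⟨c, a1, a2, ⟨a3, a4⟩ | ⟨a3, a4⟩⟩ | ⟨a1, a2, ⟨c, a3, a4⟩ | ⟨a3, a4⟩⟩ <;>
    rcases ht' with ⟨b1, b2, b3⟩ | ⟨d, b1, b2, b3⟩ | ⟨d, b1, b2, b3, b4, ⟨b5, b6⟩ | ⟨b5, b6⟩⟩ |
      ⟨d, b1, b2, b3, b4⟩ | ⟨d, b1, b2, ⟨b3, b4⟩ | ⟨b3, b4⟩⟩ | ⟨b1, b2, ⟨d, b3, b4⟩ | ⟨b3, b4⟩⟩ <;>
    simp_all
  · simp only [Lt.away, not_exists] at ha
    rcases ht with ⟨a1, a2, a3⟩ | ⟨c, a1, a2, a3⟩ | ⟨c, a1, a2, -⟩ |
      ⟨c, a1, a2, -⟩ | ⟨c, a1, a2, -⟩ | ⟨a2, -⟩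
    all_goals try exact absurd a2 (ha _ _)
    all_goals
      rcases ht' with ⟨b1, b2, b3⟩ | ⟨d, b1, b2, b3⟩ | ⟨d, b1, b2, -⟩ |
        ⟨d, b1, b2, -⟩ | ⟨d, b1, b2, -⟩ | ⟨b2, -⟩
      all_goals try exact absurd b2 (ha _ _)
      all_goals simp_all

theorem FV.uniq (hf : FV w h p S E st) (hf' : FV w h p S' E' st') :
    st = st' ∧ (∀ π : Path, π.length ≤ h → π ≠ [] → E π = E' π) ∧
      ((∀ chi, st ≠ Sts.dock chi true) → E [] = E' []) := by
  induction h generalizing p S E S' E' st st' with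
  | zero =>
    unfold FV at hf hf'
    obtain ⟨-, b, -, -, d⟩ := hf
    obtain ⟨-, b', -, -, d'⟩ := hf'
    obtain ⟨u1, u2⟩ := d.uniq d' fun _ => rfl
    refine ⟨u1, fun π hπ hne => absurd (List.length_eq_zero_iff.1 (by omega)) hne, fun hn => ?_⟩
    exact Prod.ext (u2 hn) (b.symm.trans b')
  | succ k ih =>
    unfold FV at hf hf'
    obtain ⟨-, b, -, loc, sc, d, f⟩ := hf
    obtain ⟨-, b', -, loc', sc', d', f'⟩ := hf'
    have hc := fun s => ih (f s).2.2 (f' s).2.2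
    have hl : (∃ s, (w p).away s) → loc = loc' := by
      rintro ⟨s, hs⟩
      have e1 := (hc s).1
      rcases (f s).2.1 with ⟨-, -, ⟨c, a1, a2⟩ | ⟨a1, a2⟩⟩ | ⟨a, -⟩
      · rcases (f' s).2.1 with ⟨-, -, ⟨c', b1, b2⟩ | ⟨b1, b2⟩⟩ | ⟨a, -⟩
        · rw [a1, b1] at e1
          cases e1; rw [a2, b2]
        · rw [a1, b1] at e1; cases e1
        · exact absurd hs a
      · rcases (f' s).2.1 with ⟨-, -, ⟨c', b1, b2⟩ | ⟨b1, b2⟩⟩ | ⟨a, -⟩
        · rw [a1, b1] at e1; cases e1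
        · rw [a2, b2]
        · exact absurd hs a
      · exact absurd hs a
    obtain ⟨u1, u2⟩ := d.uniq d' hl
    refine ⟨u1, fun π hπ hne => ?_, fun hn => Prod.ext (u2 hn) (b.symm.trans b')⟩
    obtain ⟨s, ρ, rfl⟩ := List.exists_cons_of_ne_nil hne
    by_cases hρ : ρ = []
    · subst hρ
      by_cases hd : ∀ chi, sc s ≠ Sts.dock chi true
      · exact (hc s).2.2 hd
      · push Not at hd
        obtain ⟨chi, hd⟩ := hd
        have hd' : sc' s = Sts.dock chi true := (hc s).1 ▸ hd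
        refine Prod.ext ?_ ((f s).2.2.root.2.1.symm.trans (f' s).2.2.root.2.1)
        have g := (f s).2.1
        have g' := (f' s).2.1
        rw [hd] at g
        rw [hd'] at g'
        rcases g with ⟨-, -, ⟨c, a1, -⟩ | ⟨a1, -⟩⟩ | ⟨-, ⟨-, a1⟩ | ⟨x, -, a1⟩ | ⟨x, a0, -⟩⟩
        · cases a1
        · cases a1
        · cases a1
        · cases a1
        rcases g' with ⟨-, -, ⟨c, a1, -⟩ | ⟨a1, -⟩⟩ | ⟨-, ⟨-, a1⟩ | ⟨y, -, a1⟩ | ⟨y, b0, -⟩⟩
        · cases a1
        · cases a1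
        · cases a1
        · cases a1
        rw [a0] at b0
        simp only [Option.some.injEq, Prod.mk.injEq] at b0
        exact b0.1.2
    · exact (hc s).2.1 ρ (by simpa using hπ) hρ

/-- replacing the subtree at `z` -/
theorem FV.subst (hf : FV w h p S E st) {z : Path} {k : ℕ} (hz : z.length + k = h) {s0 : Sts Λ}
    (h1 : FV w k (pos h p z) (fun ρ => S (z ++ ρ)) (fun ρ => E (z ++ ρ)) s0)
    (h2 : FV w' k (pos h p z) (fun ρ => S' (z ++ ρ)) (fun ρ => E' (z ++ ρ)) s0)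
    (hw : ∀ i, (i ≤ pos h p z - 2 ^ k ∨ pos h p z + 2 ^ k ≤ i) → w' i = w i)
    (hS : ∀ π, ¬ z <+: π → S' π = S π) (hE : ∀ π, ¬ z <+: π → E' π = E π)
    (hSz : S' z = S z) (hEz : (E' z).1 = (E z).1) : FV w' h p S' E' st := by
  induction z generalizing h p S E S' E' st with
  | nil =>
    obtain rfl : k = h := by simpa using hz
    simp only [pos_nil, List.nil_append] at h1 h2
    rw [(hf.uniq h1).1]; exact h2
  | cons s z ih =>
    obtain ⟨m, rfl⟩ : ∃ m, h = m + 1 := ⟨h - 1, by simp at hz; omega⟩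
    have hz' : z.length + k = m := by simp at hz; omega
    simp only [pos_cons] at h1 h2 hw
    have hb := pos_bound m (p + sg s * 2 ^ m) z (by omega)
    rw [show m - z.length = k by omega] at hb
    have hm := two_pow_pos' m
    have h0 : w' p = w p := by
      apply hw
      cases s <;> simp only [sg_true, sg_false] at hb ⊢
      · right; linarith [hb.2]
      · left; linarith [hb.1]
    unfold FV at hf ⊢
    rw [h0, hS [] (by simp), hE [] (by simp)]
    obtain ⟨a, b, c, loc, sc, d, f⟩ := hf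
    refine ⟨a, b, c, loc, sc, d, fun t => ?_⟩
    have e1 : S' [t] = S [t] := by
      by_cases hp : (s :: z) <+: [t]
      · have : s :: z = [t] := hp.eq_of_length_le (by simp)
        rw [← this]; exact hSz
      · exact hS _ hp
    have e2 : (E' [t]).1 = (E [t]).1 := by
      by_cases hp : (s :: z) <+: [t]
      · have : s :: z = [t] := hp.eq_of_length_le (by simp)
        rw [← this]; exact hEz
      · rw [hE _ hp]
    rw [e1, e2]
    refine ⟨(f t).1, (f t).2.1, ?_⟩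
    by_cases hts : t = s
    · subst hts
      exact ih (f t).2.2 hz' h1 h2 hw (fun π hπ => hS _ (by simpa using hπ))
        (fun π hπ => hE _ (by simpa using hπ)) hSz hEz
    · refine FV.congr (FV.transl (f t).2.2 fun i i1 i2 => hw _ ?_)
        (fun π _ => hS _ (by simp [Ne.symm hts])) (fun π _ => hE _ (by simp [Ne.symm hts]))
      cases s <;> cases t <;> simp only [sg_true, sg_false] at hb ⊢
      · exact absurd rfl hts
      · right; linarith [hb.2]
      · left; linarith [hb.1]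
      · exact absurd rfl hts

theorem not_prefix_append {z z' : Path} (hl : z.length = z'.length) (hne : z ≠ z') (ρ : Path) :
    ¬ z <+: z' ++ ρ := by
  rintro ⟨τ, hτ⟩
  exact hne (List.append_inj hτ hl).1

/-- exchange of two subtrees with the same status, root label and root data -/
theorem FV.swap (hf : FV w h p S E st) {z z' : Path} {k : ℕ} (hz : z.length + k = h)
    (hz' : z'.length + k = h) (hlt : pos h p z < pos h p z') {s0 : Sts Λ}
    (h1 : FV w k (pos h p z) (fun ρ => S (z ++ ρ)) (fun ρ => E (z ++ ρ)) s0)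
    (h2 : FV w k (pos h p z') (fun ρ => S (z' ++ ρ)) (fun ρ => E (z' ++ ρ)) s0)
    (hS : S z = S z') (hE : (E z).1 = (E z').1) :
    FV (swp (2 ^ (k + 1) - 1) (pos h p z - 2 ^ k + 1) (pos h p z' - 2 ^ k + 1) w) h p
      (fun π => S (swapP z z' π)) (fun π => E (swapP z z' π)) st := by
  have hne : z ≠ z' := by rintro rfl; exact lt_irrefl _ hlt
  have hl : z.length = z'.length := by omega
  have hk := two_pow_pos' k
  have hsep : pos h p z + 2 ^ (k + 1) ≤ pos h p z' := by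
    have := pos_sep h p (π := z) (ρ := z') (by omega) hl hne
    rw [show h - z.length = k by omega] at this
    have h3 := two_pow_pos' (k + 1)
    rcases this with a | a
    · exact a
    · linarith
  rw [pow_succ] at hsep
  have n1 := not_prefix_append hl hne
  have n2 := not_prefix_append hl.symm hne.symm
  set a := pos h p z with ha
  set a' := pos h p z' with ha'
  have g1 : FV (fun i => if a - 2 ^ k < i ∧ i < a + 2 ^ k then w (i - a + a') else w i) h p
      (fun π => if z <+: π then S (z' ++ π.drop z.length) else S π)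
      (fun π => if z <+: π then E (z' ++ π.drop z.length) else E π) st := by
    refine hf.subst hz h1 ?_ (fun i hi => ?_) (fun π hπ => by simp [hπ])
      (fun π hπ => by simp [hπ]) (by simp [hS]) (by simp [hE])
    · refine FV.congr (h2.transl fun i i1 i2 => ?_) (fun π _ => by simp) (fun π _ => by simp)
      rw [if_pos ⟨by linarith, by linarith⟩]
      congr 1; ring
    · rw [if_neg]
      rintro ⟨b1, b2⟩
      rcases hi with hi | hi <;> linarith
  refine g1.subst hz' (s0 := s0) ?_ ?_ (fun i hi => ?_) (fun π hπ => ?_) (fun π hπ => ?_) ?_ ?_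
  · refine FV.congr (h2.transl fun i i1 i2 => ?_) (fun π _ => by simp [n1])
      (fun π _ => by simp [n1])
    rw [if_neg]
    rintro ⟨b1, b2⟩
    linarith
  · refine FV.congr (h1.transl fun i i1 i2 => ?_) (fun π _ => by simp [swapP, n1])
      (fun π _ => by simp [swapP, n1])
    simp only [swp, pow_succ]
    rw [if_neg, if_pos ⟨by linarith, by linarith⟩]
    · congr 1; ring
    · rintro ⟨b1, b2⟩
      linarith
  · simp only [swp, pow_succ]
    by_cases c1 : a - 2 ^ k < i ∧ i < a + 2 ^ k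
    · rw [if_pos c1, if_pos ⟨by linarith [c1.1], by linarith [c1.2]⟩]
      congr 1; ring
    · rw [if_neg c1, if_neg, if_neg]
      · rintro ⟨b1, b2⟩
        rcases hi with hi | hi <;> linarith
      · rintro ⟨b1, b2⟩
        exact c1 ⟨by linarith, by linarith⟩
  · by_cases c : z <+: π <;> simp [swapP, c, hπ]
  · by_cases c : z <+: π <;> simp [swapP, c, hπ]
  · have := n1 []
    simp only [List.append_nil] at this
    simp [swapP, this, hS]
  · have := n1 []
    simp only [List.append_nil] at this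
    simp [swapP, this, hE]

theorem Top.away_none {b : Lt Λ} {e : Λ.Cd} (ht : Top b e none st) (σ : Bool) :
    b.away σ ↔ ((∃ chi mo, st = Sts.dock chi mo) ∧ σ = b.st.par) ∨
      (st = Sts.exit ∧ σ = !b.st.par) := by
  unfold Lt.away
  rcases ht with ⟨a1, a2, a3⟩ | ⟨c, a1, a2, a3⟩ | ⟨c, a1, -⟩ |
      ⟨c, a1, -⟩ | ⟨c, -, a2, ⟨a3, a4⟩ | ⟨a3, a4⟩⟩ | ⟨a1, a2, ⟨c, a3, a4⟩ | ⟨-, a4⟩⟩
  · simp [a1, a3]
  · simp [a1, a3]
  · cases a1
  · cases a1
  · simp [a2, a4, eq_comm]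
  · simp [a2, a4, eq_comm]
  · cases a3
  · simp only [a1, a4, Hd.A.injEq, reduceCtorEq, exists_false, false_and, true_and, false_or]
    exact ⟨fun ⟨_, x, _⟩ => x.symm, fun x => ⟨false, x.symm, rfl⟩⟩

theorem Top.loc_none {b : Lt Λ} {e : Λ.Cd} {loc : Option (Cargo Λ)} (ht : Top b e loc st)
    (hs : (∃ chi mo, st = Sts.dock chi mo) ∨ st = Sts.exit) : loc = none := by
  rcases ht with ⟨a1, a2, a3⟩ | ⟨c, a1, a2, a3⟩ | ⟨c, -, -, -, a3, -⟩ |
      ⟨c, -, -, -, a3⟩ | ⟨c, a0, -⟩ | ⟨a1, a2, ⟨c, -, a3⟩ | ⟨a0, -⟩⟩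
  · simp [a3] at hs
  · simp [a3] at hs
  · simp [a3] at hs
  · simp [a3] at hs
  · exact a0
  · simp [a3] at hs
  · exact a0

theorem FV.away_iff (hf : FV w h p S E st) (σ : Bool) :
    (w (bl h p σ)).away σ ↔ ((∃ chi mo, st = Sts.dock chi mo) ∧ σ = (S []).par) ∨
      (st = Sts.exit ∧ σ = !(S []).par) := by
  induction h generalizing p S E st with
  | zero =>
    unfold FV at hf
    rw [bl_zero, ← hf.1]
    exact hf.2.2.2.2.away_none σ
  | succ k ih =>
    unfold FV at hf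
    obtain ⟨a, -, -, loc, sc, d, f⟩ := hf
    rw [bl_succ, ih (f σ).2.2, (f σ).1, ← a]
    have e1 : ((∃ chi mo, sc σ = Sts.dock chi mo) ∧ σ = !σ ∨ sc σ = Sts.exit ∧ σ = !!σ) ↔
        sc σ = Sts.exit := by simp
    rw [e1]
    constructor
    · intro hx
      have g := (f σ).2.1
      rw [hx] at g
      rcases g with ⟨g1, -, ⟨c, g2, -⟩ | ⟨-, g2⟩⟩ | ⟨-, ⟨-, g2⟩ | ⟨x, -, g2⟩ | ⟨x, -, g2⟩⟩
      · cases g2
      · subst g2
        exact (d.away_none σ).1 g1
      · cases g2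
      · cases g2
      · cases g2
    · intro hx
      obtain rfl : loc = none := d.loc_none (hx.imp And.left And.left)
      have g1 := (d.away_none σ).2 hx
      rcases (f σ).2.1 with ⟨-, -, ⟨c, -, g2⟩ | ⟨g2, -⟩⟩ | ⟨g2, -⟩
      · cases g2
      · exact g2
      · exact absurd g1 g2

theorem bl_ne (k : ℕ) (p : ℤ) (σ : Bool) : p ≠ bl k (p + sg σ * 2 ^ k) σ := by
  have := two_pow_pos' k
  cases σ <;> simp only [bl, sg_true, sg_false] <;> intro e <;> linarith

theorem bl_ne' (k : ℕ) (p : ℤ) {σ t : Bool} (ht : t ≠ σ) {i : ℤ} (i1 : -2 ^ k < i)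
    (i2 : i < 2 ^ k) : p + sg t * 2 ^ k + i ≠ bl k (p + sg σ * 2 ^ k) σ := by
  have := two_pow_pos' k
  cases σ <;> cases t <;> simp only [bl, sg_true, sg_false] <;> intro e
  · exact ht rfl
  · linarith
  · linarith
  · exact ht rfl

theorem Side.other {b : Lt Λ} {σ t : Bool} (ha : b.away σ) (ht : t ≠ σ) {sc : St} {ec : Λ.Cd}
    {loc : Option (Cargo Λ)} (hs : Side b t sc ec st loc) (loc' : Option (Cargo Λ)) :
    Side b t sc ec st loc' := by
  rcases hs with ⟨⟨x, g⟩, -⟩ | g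
  · obtain ⟨y, ha⟩ := ha
    rw [ha] at g
    cases g
    exact absurd rfl ht
  · exact Or.inr g

theorem FV.emit (hf : FV w h p S E st) {σ : Bool} {c : Cargo Λ} {l' : Lt Λ}
    (hl : LeafOut (w (bl h p σ)) σ c l') : ∃ st', EmitR (S []) (E []).1 st σ c st' ∧
      FV (Function.update w (bl h p σ) l') h p S E st' := by
  induction h generalizing p S E st with
  | zero =>
    rw [bl_zero] at hl ⊢
    unfold FV at hf ⊢
    obtain ⟨a, b, c0, d, t⟩ := hf
    obtain ⟨-, e, he, hd⟩ := hl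
    obtain rfl : e = (E []).1 := t.cd he
    simp only [Function.update_self]
    rcases hd with ⟨d1, d2, d3, d4, rfl⟩ | ⟨d1, d2, d3, d4, rfl⟩ | ⟨d1, rfl⟩
    · have : st = Sts.free := (t.uniq (Or.inl ⟨d1, he, rfl⟩) (loc' := none) fun _ => rfl).1
      refine ⟨Sts.dock c.chi false, Or.inl ⟨a ▸ d2, this, d3, Or.inl ⟨d4, rfl⟩⟩, a, b, c0, d, ?_⟩
      exact Or.inr (Or.inr (Or.inr (Or.inr (Or.inl ⟨c.chi, rfl, by rw [d2], Or.inl ⟨he, rfl⟩⟩))))
    · have : st = Sts.free := (t.uniq (Or.inl ⟨d1, he, rfl⟩) (loc' := none) fun _ => rfl).1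
      refine ⟨Sts.dock c.chi true, Or.inl ⟨a ▸ d2, this, d3, Or.inr ⟨a ▸ d4, rfl⟩⟩, a, b, c0, d, ?_⟩
      exact Or.inr (Or.inr (Or.inr (Or.inr (Or.inl ⟨c.chi, rfl, by rw [d2], Or.inr ⟨rfl, rfl⟩⟩))))
    · have : st = Sts.carry c :=
        (t.uniq (Or.inr (Or.inl ⟨c, d1, he, rfl⟩)) (loc' := none) fun _ => rfl).1
      by_cases hσ : σ = (w p).st.par
      · refine ⟨Sts.dock (!c.chi) false, Or.inr (Or.inl ⟨a ▸ hσ, this, rfl⟩), a, b, c0, d, ?_⟩
        exact Or.inr (Or.inr (Or.inr (Or.inr (Or.inl ⟨!c.chi, rfl, by simp [hσ],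
          Or.inl ⟨he, rfl⟩⟩))))
      · have hσ' : σ = !(w p).st.par := Bool.eq_not_iff.2 hσ
        refine ⟨Sts.exit, Or.inr (Or.inr ⟨a ▸ hσ', this, rfl⟩), a, b, c0, d, ?_⟩
        exact Or.inr (Or.inr (Or.inr (Or.inr (Or.inr ⟨by simp only [if_neg hσ]; rw [hσ'], he,
          Or.inr ⟨rfl, rfl⟩⟩))))
  | succ k ih =>
    rw [bl_succ] at hl ⊢
    unfold FV at hf ⊢
    obtain ⟨a, b, c0, loc, sc, d, f⟩ := hf
    obtain ⟨s1, e1, f1⟩ := ih (f σ).2.2 hl
    have hp := (f σ).1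
    obtain ⟨e2, rfl⟩ : sc σ = Sts.carry c ∧ s1 = Sts.exit := by
      rcases e1 with ⟨x, -⟩ | ⟨x, -⟩ | ⟨-, x⟩
      · simp [hp] at x
      · simp [hp] at x
      · exact x
    obtain ⟨g1, g2, rfl⟩ : (w p).away σ ∧ (w p).pt σ = none ∧ loc = some c := by
      have g := (f σ).2.1
      rw [e2] at g
      rcases g with ⟨g1, g2, ⟨c', g3, g4⟩ | ⟨g3, -⟩⟩ | ⟨-, ⟨-, g3⟩ | ⟨x, -, g3⟩ | ⟨x, -, g3⟩⟩
      · cases g3; exact ⟨g1, g2, g4⟩
      all_goals cases g3
    rw [Function.update_of_ne (bl_ne k p σ)]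
    have key : ∃ st', EmitR (S []) (E []).1 st σ c st' ∧ Top (w p) (E []).1 none st' := by
      obtain ⟨y, hy⟩ := g1
      rcases d with ⟨a1, -⟩ | ⟨c', a1, -⟩ | ⟨c', a1, a2, a3, a4, a5⟩ |
        ⟨c', a1, a2, a3, a4⟩ | ⟨c', a1, -⟩ | ⟨a1, a2, ⟨c', a3, a4⟩ | ⟨a3, -⟩⟩
      · rw [hy] at a1; cases a1
      · rw [hy] at a1; cases a1
      · cases a1
        have hσ : σ = (w p).st.par := by rw [hy] at a2; cases a2; rfl
        rcases a5 with ⟨a5, a6⟩ | ⟨a5, a6⟩
        · exact ⟨Sts.dock c.chi false, Or.inl ⟨a ▸ hσ, a4, a3.trans hσ.symm, Or.inl ⟨a5, rfl⟩⟩,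
            Or.inr (Or.inr (Or.inr (Or.inr (Or.inl ⟨c.chi, rfl, a2, Or.inl ⟨a6, rfl⟩⟩))))⟩
        · exact ⟨Sts.dock c.chi true, Or.inl ⟨a ▸ hσ, a4, a3.trans hσ.symm, Or.inr ⟨a ▸ a5, rfl⟩⟩,
            Or.inr (Or.inr (Or.inr (Or.inr (Or.inl ⟨c.chi, rfl, a2, Or.inr ⟨a6, rfl⟩⟩))))⟩
      · cases a1
        have hσ : σ = (w p).st.par := by rw [hy] at a2; cases a2; rfl
        exact ⟨Sts.dock (!c.chi) false, Or.inr (Or.inl ⟨a ▸ hσ, a4, rfl⟩),
          Or.inr (Or.inr (Or.inr (Or.inr (Or.inl ⟨!c.chi, rfl, a2, Or.inl ⟨a3, rfl⟩⟩))))⟩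
      · cases a1
      · cases a3
        have hσ : σ = !(w p).st.par := by rw [hy] at a1; cases a1; rfl
        exact ⟨Sts.exit, Or.inr (Or.inr ⟨a ▸ hσ, a4, rfl⟩),
          Or.inr (Or.inr (Or.inr (Or.inr (Or.inr ⟨a1, a2, Or.inr ⟨rfl, rfl⟩⟩))))⟩
      · cases a3
    obtain ⟨s2, k1, k2⟩ := key
    refine ⟨s2, k1, a, b, c0, none, Function.update sc σ Sts.exit, k2, fun t => ⟨(f t).1, ?_⟩⟩
    by_cases ht : t = σ
    · subst ht
      rw [Function.update_self]
      exact ⟨Or.inl ⟨g1, g2, Or.inr ⟨rfl, rfl⟩⟩, f1⟩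
    · rw [Function.update_of_ne ht]
      exact ⟨(f t).2.1.other g1 ht _, (f t).2.2.transl fun i i1 i2 =>
        Function.update_of_ne (bl_ne' k p ht i1 i2) _ _⟩

theorem Top.dock_inv {b : Lt Λ} {e : Λ.Cd} {loc : Option (Cargo Λ)} {chi mo : Bool}
    (ht : Top b e loc (Sts.dock chi mo)) : loc = none ∧ b.hd = Hd.A b.st.par chi ∧
      b.cd = if mo then none else some e := by
  rcases ht with ⟨-, -, a⟩ | ⟨c, -, -, a⟩ | ⟨c, -, -, -, a, -⟩ | ⟨c, -, -, -, a⟩ |
    ⟨x, a, b1, ⟨c, d⟩ | ⟨c, d⟩⟩ | ⟨-, -, ⟨c, -, a⟩ | ⟨-, a⟩⟩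
  · cases a
  · cases a
  · cases a
  · cases a
  · cases d; exact ⟨a, b1, by simpa using c⟩
  · cases d; exact ⟨a, b1, by simpa using c⟩
  · cases a
  · cases a

theorem Top.exit_inv {b : Lt Λ} {e : Λ.Cd} {loc : Option (Cargo Λ)}
    (ht : Top b e loc Sts.exit) : loc = none ∧ b.hd = Hd.A (!b.st.par) false ∧ b.cd = some e := by
  rcases ht with ⟨-, -, a⟩ | ⟨c, -, -, a⟩ | ⟨c, -, -, -, a, -⟩ | ⟨c, -, -, -, a⟩ |
    ⟨x, -, -, ⟨-, a⟩ | ⟨-, a⟩⟩ | ⟨b1, b2, ⟨c, -, a⟩ | ⟨a, -⟩⟩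
  · cases a
  · cases a
  · cases a
  · cases a
  · cases a
  · cases a
  · cases a
  · exact ⟨a, b1, b2⟩

theorem FV.enter (hf : FV w h p S E st') {σ : Bool} {c : Cargo Λ} {e : Λ.Cd}
    (he : EmitR (S []) e st σ c st') (hE : (∀ chi, st' ≠ Sts.dock chi true) → e = (E []).1) :
    ∃ l0, LeafOut l0 σ c (w (bl h p σ)) ∧ FV (Function.update w (bl h p σ) l0) h p S
      (Function.update E [] (e, (E []).2)) st := by
  induction h generalizing p S E st st' e with
  | zero =>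
    rw [bl_zero]
    unfold FV at hf ⊢
    obtain ⟨a, b, c0, d, t⟩ := hf
    simp only [Function.update_self]
    generalize w p = x at a b d t
    obtain ⟨x1, x2, x3, x4, x5⟩ := x
    simp only at a b d
    subst a
    rcases he with ⟨h1, rfl, h3, ⟨h4, rfl⟩ | ⟨h4, rfl⟩⟩ | ⟨h1, rfl, rfl⟩ | ⟨h1, rfl, rfl⟩
    · obtain rfl := hE (by simp)
      obtain ⟨-, t1, t2⟩ := t.dock_inv
      simp only [Bool.false_eq_true, if_false] at t1 t2
      subst t1 t2
      exact ⟨⟨S [], some (E []).1, x3, Hd.I, x5⟩, ⟨c0, _, rfl, Or.inl ⟨rfl, h1, h3, h4, by rw [h1]⟩⟩,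
        rfl, b, c0, d, Or.inl ⟨rfl, rfl, rfl⟩⟩
    · obtain ⟨-, t1, t2⟩ := t.dock_inv
      simp only [if_true] at t1 t2
      subst t1 t2
      exact ⟨⟨S [], some e, x3, Hd.I, x5⟩,
        ⟨c0, _, rfl, Or.inr (Or.inl ⟨rfl, h1, h3, h4, by rw [h1]⟩)⟩,
        rfl, b, c0, d, Or.inl ⟨rfl, rfl, rfl⟩⟩
    · obtain rfl := hE (by simp)
      obtain ⟨-, t1, t2⟩ := t.dock_inv
      simp only [Bool.false_eq_true, if_false] at t1 t2
      subst t1 t2
      exact ⟨⟨S [], some (E []).1, x3, Hd.H c, x5⟩,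
        ⟨c0, _, rfl, Or.inr (Or.inr ⟨rfl, by simp [h1]⟩)⟩,
        rfl, b, c0, d, Or.inr (Or.inl ⟨c, rfl, rfl, rfl⟩)⟩
    · obtain rfl := hE (by simp)
      obtain ⟨-, t1, t2⟩ := t.exit_inv
      simp only at t1 t2
      subst t1 t2
      exact ⟨⟨S [], some (E []).1, x3, Hd.H c, x5⟩,
        ⟨c0, _, rfl, Or.inr (Or.inr ⟨rfl, by simp [h1]⟩)⟩,
        rfl, b, c0, d, Or.inr (Or.inl ⟨c, rfl, rfl, rfl⟩)⟩
  | succ k ih =>
    rw [bl_succ]
    unfold FV at hf ⊢
    obtain ⟨a, b, c0, loc, sc, d, f⟩ := hf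
    have key : loc = none ∧ (w p).away σ ∧ Top (w p) e (some c) st := by
      rcases he with ⟨h1, rfl, h3, ⟨h4, rfl⟩ | ⟨h4, rfl⟩⟩ | ⟨h1, rfl, rfl⟩ | ⟨h1, rfl, rfl⟩
      · obtain rfl := hE (by simp)
        obtain ⟨t0, t1, t2⟩ := d.dock_inv
        refine ⟨t0, ⟨_, by rw [t1, a, h1]⟩, Or.inr (Or.inr (Or.inl ⟨c, rfl, t1, ?_, rfl,
          Or.inl ⟨h4, by simpa using t2⟩⟩))⟩
        rw [h3, h1, a]
      · obtain ⟨t0, t1, t2⟩ := d.dock_inv
        refine ⟨t0, ⟨_, by rw [t1, a, h1]⟩, Or.inr (Or.inr (Or.inl ⟨c, rfl, t1, ?_, rfl,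
          Or.inr ⟨by rw [h4, a], by simpa using t2⟩⟩))⟩
        rw [h3, h1, a]
      · obtain rfl := hE (by simp)
        obtain ⟨t0, t1, t2⟩ := d.dock_inv
        exact ⟨t0, ⟨_, by rw [t1, a, h1]⟩, Or.inr (Or.inr (Or.inr (Or.inl ⟨c, rfl, t1,
          by simpa using t2, rfl⟩)))⟩
      · obtain rfl := hE (by simp)
        obtain ⟨t0, t1, t2⟩ := d.exit_inv
        exact ⟨t0, ⟨_, by rw [t1, a, h1]⟩, Or.inr (Or.inr (Or.inr (Or.inr (Or.inr ⟨t1, t2,
          Or.inl ⟨c, rfl, rfl⟩⟩))))⟩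
    obtain ⟨rfl, g1, k2⟩ := key
    obtain ⟨g2, g3⟩ : (w p).pt σ = none ∧ sc σ = Sts.exit := by
      rcases (f σ).2.1 with ⟨-, g2, ⟨c', -, g3⟩ | ⟨g3, -⟩⟩ | ⟨g2, -⟩
      · cases g3
      · exact ⟨g2, g3⟩
      · exact absurd g1 g2
    obtain ⟨l0, l1, l2⟩ := ih (f σ).2.2 (st := Sts.carry c) (e := (E [σ]).1)
      (Or.inr (Or.inr ⟨by simp [(f σ).1], rfl, g3⟩)) (fun _ => rfl)
    refine ⟨l0, l1, ?_⟩
    rw [Function.update_of_ne (bl_ne k p σ)]
    simp only [Function.update_self]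
    refine ⟨a, b, c0, some c, Function.update sc σ (Sts.carry c), k2, fun t => ⟨(f t).1, ?_⟩⟩
    have hu : (fun ρ => Function.update E [] (e, (E []).2) (t :: ρ)) = fun ρ => E (t :: ρ) :=
      funext fun ρ => Function.update_of_ne (by simp) _ _
    rw [hu, Function.update_of_ne (show [t] ≠ [] by simp)]
    by_cases ht : t = σ
    · subst ht
      rw [Function.update_self]
      refine ⟨Or.inl ⟨g1, g2, Or.inl ⟨c, rfl, rfl⟩⟩, l2.congr (fun _ _ => rfl) fun π _ => ?_⟩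
      by_cases hπ : π = []
      · subst hπ; simp
      · rw [Function.update_of_ne hπ]
    · rw [Function.update_of_ne ht]
      exact ⟨(f t).2.1.other g1 ht _, (f t).2.2.transl fun i i1 i2 =>
        Function.update_of_ne (bl_ne' k p ht i1 i2) _ _⟩

theorem Dep.left_unique {b b0 b' : Lt Λ} {s : Bool} {c : Cargo Λ} (h1 : Dep b s c b')
    (h2 : Dep b0 s c b') : b = b0 := by
  obtain ⟨x1, x2, x3, x4, x5⟩ := b
  obtain ⟨y1, y2, y3, y4, y5⟩ := b0
  obtain ⟨e, a0, ⟨a1, a2, a3, a4, rfl⟩ | ⟨a1, a2, a3, a4, rfl⟩ | ⟨a1, rfl⟩⟩ := h1 <;>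
  obtain ⟨e', b0, ⟨b1, b2, b3, b4, b5⟩ | ⟨b1, b2, b3, b4, b5⟩ | ⟨b1, b5⟩⟩ := h2 <;>
  simp only [Lt.mk.injEq] at b5 <;> obtain ⟨rfl, b6, rfl, b7, rfl⟩ := b5 <;> simp_all

theorem Rest.fv_free (hr : Rest w h p S E Hd.I) : FV w h p S E Sts.free := by
  induction h generalizing p S E with
  | zero =>
    unfold Rest at hr
    unfold FV
    rw [hr.1]
    exact ⟨rfl, rfl, hr.2, fun _ => rfl, Or.inl ⟨rfl, rfl, rfl⟩⟩
  | succ k ih =>
    unfold Rest at hr
    unfold FV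
    rw [hr.1]
    refine ⟨rfl, rfl, hr.2.1, none, fun _ => Sts.free, Or.inl ⟨rfl, rfl, rfl⟩, fun s =>
      ⟨(hr.2.2 s).1, Or.inr ⟨?_, Or.inl ⟨rfl, rfl⟩⟩, ih (hr.2.2 s).2⟩⟩
    rintro ⟨x, hx⟩
    cases hx

theorem Rest.fv_carry {c : Cargo Λ} (hr : Rest w h p S E (Hd.H c)) :
    FV w h p S E (Sts.carry c) := by
  cases h with
  | zero =>
    unfold Rest at hr
    unfold FV
    rw [hr.1]
    exact ⟨rfl, rfl, hr.2, fun _ => rfl, Or.inr (Or.inl ⟨c, rfl, rfl, rfl⟩)⟩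
  | succ k =>
    unfold Rest at hr
    unfold FV
    rw [hr.1]
    refine ⟨rfl, rfl, hr.2.1, none, fun _ => Sts.free, Or.inr (Or.inl ⟨c, rfl, rfl, rfl⟩), fun s =>
      ⟨(hr.2.2 s).1, Or.inr ⟨?_, Or.inl ⟨rfl, rfl⟩⟩, (hr.2.2 s).2.fv_free⟩⟩
    rintro ⟨x, hx⟩
    cases hx

theorem Rest.transl {hd : Hd Λ} (hr : Rest w h p S E hd) {p' : ℤ}
    (hw : ∀ i : ℤ, -2 ^ h < i → i < 2 ^ h → w' (p' + i) = w (p + i)) : Rest w' h p' S E hd := by
  induction h generalizing p p' S E hd with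
  | zero =>
    have h0 : w' p' = w p := by simpa using hw 0 (by simp) (by simp)
    unfold Rest at hr ⊢
    rw [h0]; exact hr
  | succ k ih =>
    have h2 := two_pow_pos' k
    have h0 : w' p' = w p := by
      simpa using hw 0 (by rw [pow_succ]; linarith) (by rw [pow_succ]; linarith)
    unfold Rest at hr ⊢
    rw [h0]
    obtain ⟨a, b, e⟩ := hr
    refine ⟨a, b, fun s => ⟨(e s).1, ih (e s).2 fun i i1 i2 => ?_⟩⟩
    rw [add_assoc, add_assoc]
    apply hw <;> rw [pow_succ] <;> cases s <;> simp only [sg_true, sg_false] <;> linarith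

theorem Rest.congr {hd : Hd Λ} (hr : Rest w h p S E hd)
    (hS : ∀ π : Path, π.length ≤ h → S' π = S π) (hE : ∀ π : Path, π.length ≤ h → E' π = E π) :
    Rest w h p S' E' hd := by
  induction h generalizing p S E S' E' hd with
  | zero =>
    unfold Rest at hr ⊢
    rw [hS [] le_rfl, hE [] le_rfl]; exact hr
  | succ k ih =>
    unfold Rest at hr ⊢
    rw [hS [] (by simp), hE [] (by simp)]
    obtain ⟨a, b, e⟩ := hr
    refine ⟨a, b, fun s => ?_⟩
    rw [hS [s] (by simp)]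
    exact ⟨(e s).1, ih (e s).2 (fun π hπ => hS _ (by simpa using hπ))
      (fun π hπ => hE _ (by simpa using hπ))⟩

theorem Rest.letter {hd : Hd Λ} (hr : Rest w h p S E hd) (π : Path) (hπ : π.length ≤ h) :
    w (pos h p π) = ⟨S π, some (E π).1, (E π).2, if π = [] then hd else Hd.I, fun _ => none⟩ := by
  induction π generalizing h p S E hd with
  | nil =>
    cases h <;> unfold Rest at hr <;> simpa using hr.1
  | cons s π ih =>
    obtain ⟨k, rfl⟩ : ∃ k, h = k + 1 := ⟨h - 1, by simp at hπ; omega⟩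
    simp only [List.length_cons, Nat.add_le_add_iff_right] at hπ
    unfold Rest at hr
    simpa using ih (hr.2.2 s).2 hπ

theorem Rest.ext {hd : Hd Λ} (hr : Rest w h p S E hd) (hr' : Rest w' h p S E hd) (i : ℤ)
    (h1 : p - 2 ^ h < i) (h2 : i < p + 2 ^ h) : w i = w' i := by
  obtain ⟨π, a, rfl⟩ := pos_surj h p i h1 h2
  rw [hr.letter π a, hr'.letter π a]

theorem Shape.child {k : ℕ} (hS : Shape (k + 1) S) (s : Bool) : Shape k fun ρ => S (s :: ρ) :=
  ⟨fun π hπ => by simpa using hS.leaf (s :: π) (by simpa using hπ),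
    fun π t hπ => hS.par (s :: π) t (by simpa using hπ)⟩

theorem exists_rest (hS : Shape h S) (E : Λ.Dat) (p : ℤ) (hd : Hd Λ) :
    ∃ w : ℤ → Lt Λ, Rest w h p S E hd := by
  induction h generalizing p S E hd with
  | zero =>
    refine ⟨fun _ => ⟨S [], some (E []).1, (E []).2, hd, fun _ => none⟩, ?_⟩
    unfold Rest
    exact ⟨rfl, (hS.leaf [] le_rfl).2 rfl⟩
  | succ k ih =>
    choose v hv using fun s => ih (hS.child s) (fun ρ => E (s :: ρ)) (p + sg s * 2 ^ k) Hd.I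
    refine ⟨fun i => if i = p then ⟨S [], some (E []).1, (E []).2, hd, fun _ => none⟩
      else v (decide (p < i)) i, ?_⟩
    unfold Rest
    refine ⟨by simp, ?_, fun s => ⟨hS.par [] s (by simp), (hv s).transl fun i i1 i2 => ?_⟩⟩
    · have := hS.leaf [] (by simp)
      simpa using this
    · have e1 : p + sg s * 2 ^ k + i ≠ p := by
        cases s <;> simp only [sg_true, sg_false] <;> intro e <;> linarith
      have e2 : decide (p < p + sg s * 2 ^ k + i) = s := by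
        cases s
        · exact decide_eq_false (by simp only [sg_false]; intro e; linarith)
        · exact decide_eq_true (by simp only [sg_true]; linarith)
      simp only [if_neg e1, e2]

end Vale.Agent.P192
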