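import Vale.Agent.P192.FerCA

/-! Part FerC: moving the tokens. -/

namespace Vale.Agent.P192

variable {Λ : Lay} {w : ℤ → Lt Λ} {h : ℕ} {p : ℤ} {S : Path → St} {E : Λ.Dat} {st : Sts Λ}

theorem FV.rest_free (hf : FV w h p S E Sts.free) :
    ∃ w', (ferry Λ).Eqv (p - 2 ^ h + 1) (p + 2 ^ h) w w' ∧ Rest w' h p S E Hd.I :=
  (prep_rst h).2 _ _ _ _ _ _ hf (Or.inl ⟨rfl, rfl⟩)

theorem FV.rest_carry {c : Cargo Λ} (hf : FV w h p S E (Sts.carry c)) :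
    ∃ w', (ferry Λ).Eqv (p - 2 ^ h + 1) (p + 2 ^ h) w w' ∧ Rest w' h p S E (Hd.H c) :=
  (prep_rst h).2 _ _ _ _ _ _ hf (Or.inr ⟨c, rfl, rfl⟩)

/-- every admissible emission can be prepared -/
theorem FV.prepare (hf : FV w h p S E st) {σ : Bool} {c : Cargo Λ} {st' : Sts Λ}
    (he : EmitR (S []) (E []).1 st σ c st') :
    ∃ w' l', (ferry Λ).Eqv (p - 2 ^ h + 1) (p + 2 ^ h) w w' ∧ FV w' h p S E st ∧
      LeafOut (w' (bl h p σ)) σ c l' ∧ FV (Function.update w' (bl h p σ) l') h p S E st' :=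
  (prep_rst h).1 _ _ _ _ _ hf _ _ _ he

theorem Dep.away {b b' : Lt Λ} {s : Bool} {c : Cargo Λ} (h : Dep b s c b') : b'.away s := by
  obtain ⟨e, -, ⟨-, -, -, -, rfl⟩ | ⟨-, -, -, -, rfl⟩ | ⟨-, rfl⟩⟩ := h <;> exact ⟨_, rfl⟩

theorem Dep.home {b b' : Lt Λ} {s : Bool} {c : Cargo Λ} (h : Dep b s c b') (t : Bool) :
    ¬ b.away t := by
  rintro ⟨x, hx⟩
  obtain ⟨e, -, ⟨h, -⟩ | ⟨h, -⟩ | ⟨h, -⟩⟩ := h <;> simp_all

theorem In.st_hm {b b' : Lt Λ} {s : Bool} {c : Cargo Λ} (h : In b s c b') :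
    b'.st = b.st ∧ b'.hm = b.hm := by
  rcases h with ⟨-, -, -, -, rfl⟩ |
    ⟨-, -, e, -, ⟨-, -, -, -, rfl⟩ | ⟨-, -, -, -, rfl⟩ | ⟨-, rfl⟩⟩ <;> exact ⟨rfl, rfl⟩

theorem FV.leaf (hf : FV w h p S E st) (σ : Bool) : (w (bl h p σ)).st.leaf = true := by
  induction h generalizing p S E st with
  | zero => simpa [bl, hf.1] using hf.2.2.1
  | succ h ih =>
    obtain ⟨-, -, -, loc, sc, -, hc⟩ := hf
    rw [bl_succ']
    exact ih (hc σ).2.2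

/-- facts about the letter next to a tree -/
theorem FV.margin (hf : FV w h p S E st) (hn : (ferry Λ).NZ (p - 2 ^ h) (p + 2 ^ h + 1) w)
    (σ : Bool) : (w (p + sg σ * 2 ^ h)).st.leaf = false ∧
      ((w (bl h p σ)).away σ ↔ (w (p + sg σ * 2 ^ h)).pt (!σ) ≠ none) ∧
      (∀ c l', LeafOut (w (bl h p σ)) σ c l' → ∃ b', In (w (p + sg σ * 2 ^ h)) (!σ) c b') ∧
      (∀ c b', In b' (!σ) c (w (p + sg σ * 2 ^ h)) → ∃ l', LeafOut l' σ c (w (bl h p σ))) ∧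
      ((w (p + sg σ * 2 ^ h)).away (!σ) → (w (p + sg σ * 2 ^ h)).pt (!σ) = none) := by
  have a := sgm σ (2 ^ h)
  have a0 := tp h
  have a1 := bl_eq h p σ
  have h1 := nz_Zs (l := bl h p σ) (m := p + sg σ * 2 ^ h) (σ := σ) hn (by omega) (by omega)
    (by omega) (by omega) (by omega)
  have h2 := nz_Z1 (i := p + sg σ * 2 ^ h) hn (by omega) (by omega)
  have h3 := hf.leaf σ
  have h4 : (w (p + sg σ * 2 ^ h)).st.leaf = false := by
    by_contra h4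
    exact h1 (Or.inl (by simp_all))
  simp only [Zs, h3, h4, Bool.not_not, true_and, not_or, not_not, not_exists, not_and,
    not_forall] at h1
  refine ⟨h4, h1.2.1, h1.2.2.1, h1.2.2.2.1, fun ha => ?_⟩
  by_contra h5
  exact h2 (Or.inr (Or.inr (Or.inr (Or.inl ⟨_, ha, h5⟩))))

/-- emission of a cargo to the letter next to the tree -/
theorem FV.emit_out (hf : FV w h p S E st) (hn : (ferry Λ).NZ (p - 2 ^ h) (p + 2 ^ h + 1) w)
    {σ : Bool} {c : Cargo Λ} {st' : Sts Λ} (he : EmitR (S []) (E []).1 st σ c st') :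
    ∃ w' b', In (w (p + sg σ * 2 ^ h)) (!σ) c b' ∧ EQ (p - 2 ^ h) (p + 2 ^ h + 1) w w' ∧
      FV w' h p S E st' ∧ w' (p + sg σ * 2 ^ h) = b' ∧
      w' (p + sg (!σ) * 2 ^ h) = w (p + sg (!σ) * 2 ^ h) := by
  obtain ⟨w1, l', e1, f1, l1, f2⟩ := (prep_rst h).1 _ _ _ _ _ hf _ _ _ he
  have a := sgm σ (2 ^ h)
  have a0 := tp h
  have a1 := bl_eq h p σ
  obtain ⟨b', hb⟩ := (f1.margin (e1.nz hn (by omega) (by omega)) σ).2.2.1 c l' l1
  refine ⟨_, b', by rwa [e1.out (by omega)] at hb, (e1.mono (by omega) (by omega)).trans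
    (step_out (by omega) (by omega) (by omega) (by omega) (by omega) l1 hb),
    f2.agree fun i _ _ => Function.update_of_ne (by omega) _ _, Function.update_self .., ?_⟩
  rw [Function.update_of_ne (by omega), Function.update_of_ne (by omega)]
  exact e1.out (by omega)

/-- a cargo enters from the letter next to the tree -/
theorem FV.enter_in {st' : Sts Λ} (hf : FV w h p S E st') {σ : Bool} {c : Cargo Λ} {e : Λ.Cd}
    (he : EmitR (S []) e st σ c st') (hE : (∀ chi, st' ≠ Sts.dock chi true) → e = (E []).1)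
    {b0 : Lt Λ} (hb : In b0 (!σ) c (w (p + sg σ * 2 ^ h))) :
    ∃ w', EQ (p - 2 ^ h) (p + 2 ^ h + 1) w w' ∧
      FV w' h p S (Function.update E [] (e, (E []).2)) st ∧ w' (p + sg σ * 2 ^ h) = b0 ∧
      w' (p + sg (!σ) * 2 ^ h) = w (p + sg (!σ) * 2 ^ h) := by
  obtain ⟨l0, l1, f1⟩ := hf.enter he hE
  have a := sgm σ (2 ^ h)
  have a0 := tp h
  have a1 := bl_eq h p σ
  refine ⟨_, step_in (by omega) (by omega) (by omega) (by omega) (by omega) l1 hb,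
    f1.agree fun i _ _ => Function.update_of_ne (by omega) _ _, Function.update_self .., ?_⟩
  rw [Function.update_of_ne (by omega), Function.update_of_ne (by omega)]

theorem FV.undock (hf : FV w h p S E st) (hn : (ferry Λ).NZ (p - 2 ^ h) (p + 2 ^ h + 1) w)
    {σ : Bool} (ha : ((∃ chi mo, st = Sts.dock chi mo) ∧ σ = (S []).par) ∨
      (st = Sts.exit ∧ σ = !(S []).par)) : ∃ c b0, c.dir = σ ∧ ¬ b0.away (!σ) ∧ b0.pt (!σ) = none ∧
      (w (p + sg σ * 2 ^ h)).pt (!σ) = some (c.m, c.chi) ∧ In b0 (!σ) c (w (p + sg σ * 2 ^ h)) := by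
  obtain ⟨m1, m2, -, -, m5⟩ := hf.margin hn σ
  have h1 := m2.1 ((hf.away_iff σ).2 ha)
  obtain ⟨⟨m, chi⟩, h2⟩ := Option.ne_none_iff_exists'.1 h1
  have h3 := dock_undo m1 (fun h => h1 (m5 h)) h2
  refine ⟨⟨m, chi, !!σ⟩, _, Bool.not_not σ, ?_, ?_, h2, h3⟩
  · exact fun h => h1 (m5 h)
  · exact Function.update_self ..

theorem lemG4 (hf : FV w h p S E st) (hn : (ferry Λ).NZ (p - 2 ^ h) (p + 2 ^ h + 1) w)
    (hs : (∃ c, st = Sts.carry c) ∨ st = Sts.exit) {σ : Bool} (hσ : σ = (S []).par)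
    (h1 : ¬ (w (p + sg σ * 2 ^ h)).away (!σ)) : False := by
  have k1 : ∀ (w : ℤ → Lt Λ) c, FV w h p S E (Sts.carry c) → c.dir = !σ →
      (ferry Λ).NZ (p - 2 ^ h) (p + 2 ^ h + 1) w → ¬ (w (p + sg σ * 2 ^ h)).away (!σ) → False := by
    intro w c hf hc hn h1
    obtain ⟨-, b', hb, -⟩ := hf.emit_out hn (Or.inr (Or.inl ⟨hσ, rfl, rfl⟩))
    rcases hb with hb | hb
    · have := hb.2.2.2.1
      simp [hc] at this
    · exact h1 hb.2.2.away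
  have k2 : ∀ (w : ℤ → Lt Λ), FV w h p S E Sts.exit →
      (ferry Λ).NZ (p - 2 ^ h) (p + 2 ^ h + 1) w → ¬ (w (p + sg σ * 2 ^ h)).away (!σ) → False := by
    intro w hf hn h1
    obtain ⟨c, b0, c1, -, -, -, c2⟩ := hf.undock hn (σ := !σ) (Or.inr ⟨rfl, by rw [hσ]⟩)
    obtain ⟨w1, e1, f1, -, q1⟩ := hf.enter_in (Or.inr (Or.inr ⟨by rw [hσ], rfl, rfl⟩))
      (fun _ => rfl) c2
    rw [update_root] at f1
    rw [Bool.not_not] at q1
    exact k1 w1 c f1 c1 (e1.nz hn le_rfl le_rfl) (by rwa [q1])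
  rcases hs with ⟨c, rfl⟩ | rfl
  · obtain ⟨w1, b', -, e1, f1, -, q1⟩ := hf.emit_out hn (σ := !σ)
      (Or.inr (Or.inr ⟨by rw [hσ], rfl, rfl⟩))
    rw [Bool.not_not] at q1
    exact k2 w1 f1 (e1.nz hn le_rfl le_rfl) (by rwa [q1])
  · exact k2 w hf hn h1

theorem Dep.emitR {b0 b : Lt Λ} {c : Cargo Λ} {σ chi mo : Bool} {e0 : Λ.Cd}
    (hd : Dep b0 σ c b) (hσ : σ = b.st.par) (ht : Top b e0 none (Sts.dock chi mo)) :
    ∃ st e, EmitR b.st e st σ c (Sts.dock chi mo) ∧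
      ((∀ x, Sts.dock (Λ := Λ) chi mo ≠ Sts.dock x true) → e = e0) := by
  obtain ⟨e, h0, ⟨h1, h2, h3, h4, rfl⟩ | ⟨h1, h2, h3, h4, rfl⟩ | ⟨h1, rfl⟩⟩ := hd
  · refine ⟨Sts.free, e0, Or.inl ⟨h2, rfl, h3, Or.inl ⟨h4, ?_⟩⟩, fun _ => rfl⟩
    simp_all [Top]
  · have : chi = c.chi ∧ mo = true := by simp_all [Top]
    refine ⟨Sts.free, e, Or.inl ⟨h2, rfl, h3, Or.inr ⟨h4, by rw [this.1, this.2]⟩⟩, fun h => ?_⟩
    exact (h chi (by rw [this.2])).elim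
  · refine ⟨Sts.carry c, e0, Or.inr (Or.inl ⟨hσ, rfl, ?_⟩), fun _ => rfl⟩
    rcases ht with ⟨hx, -⟩ | ⟨_, hx, -⟩ | ⟨_, hx, -⟩ | ⟨_, hx, -⟩ |
      ⟨x, -, hx, ⟨-, hy⟩ | ⟨hy, -⟩⟩ | ⟨-, -, ⟨_, hx, -⟩ | ⟨-, hx⟩⟩ <;> simp_all

theorem compat (hf : FV w h p S E st) (hn : (ferry Λ).NZ (p - 2 ^ h) (p + 2 ^ h + 1) w)
    {σ : Bool} (ha : ((∃ chi mo, st = Sts.dock chi mo) ∧ σ = (S []).par) ∨
      (st = Sts.exit ∧ σ = !(S []).par)) {c : Cargo Λ} {b0 : Lt Λ}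
    (hb : In b0 (!σ) c (w (p + sg σ * 2 ^ h))) :
    ∃ st0 e, EmitR (S []) e st0 σ c st ∧ ((∀ chi, st ≠ Sts.dock chi true) → e = (E []).1) := by
  rcases ha with ⟨⟨chi, mo, rfl⟩, hσ⟩ | ⟨rfl, hσ⟩
  swap
  · exact ⟨_, _, Or.inr (Or.inr ⟨hσ, rfl, rfl⟩), fun _ => rfl⟩
  cases h with
  | zero =>
    obtain ⟨l0, hl⟩ := (hf.margin hn σ).2.2.2.1 c b0 hb
    rw [show bl 0 p σ = p by simp [bl]] at hl
    rw [← hf.1] at hσ ⊢
    exact hl.2.emitR hσ hf.2.2.2.2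
  | succ h =>
    obtain ⟨h1, -, -, loc, sc, ht, hc⟩ := hf
    have h2 : loc = none ∧ (w p).away σ := by
      rcases ht with ⟨-, -, hx⟩ | ⟨_, -, -, hx⟩ | ⟨_, -, -, -, hx, -⟩ | ⟨_, -, -, -, hx⟩ |
        ⟨x, h3, h4, -⟩ | ⟨-, -, ⟨_, -, hx⟩ | ⟨-, hx⟩⟩ <;> try cases hx
      exact ⟨h3, x, by rw [h4, h1, hσ]⟩
    obtain ⟨rfl, h2⟩ := h2
    have h3 : sc σ = Sts.exit := by
      obtain ⟨-, -, ⟨_, -, h⟩ | h⟩ := (hc σ).2.1.resolve_right fun h => h.1 h2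
      · cases h
      · exact h.1
    have h4 := (hc σ).2.2
    rw [h3] at h4
    have a := sgm σ (2 ^ h)
    have a0 := tp h
    have a1 := sgm σ (2 ^ (h + 1))
    have hn' := hn.mono (lo := p + sg σ * 2 ^ h - 2 ^ h) (hi := p + sg σ * 2 ^ h + 2 ^ h + 1)
      (by omega) (by omega)
    have e0 : p + sg σ * 2 ^ h + sg (!σ) * 2 ^ h = p := by omega
    obtain ⟨w1, e1, f1, -, q1⟩ := h4.enter_in (σ := σ) (c := c) (b0 := b0)
      (Or.inr (Or.inr ⟨by rw [(hc σ).1, Bool.not_not], rfl, rfl⟩)) (fun _ => rfl)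
      (by rwa [show p + sg σ * 2 ^ h + sg σ * 2 ^ h = p + sg σ * 2 ^ (h + 1) by omega])
    obtain ⟨-, b', hb', -⟩ := f1.emit_out (e1.nz hn' le_rfl le_rfl) (σ := !σ)
      (Or.inr (Or.inl ⟨(hc σ).1.symm, rfl, rfl⟩))
    rw [q1, e0, Bool.not_not] at hb'
    rw [← h1] at hσ ⊢
    exact (hb'.resolve_left fun h => h.2.1 h2).2.2.emitR hσ ht

theorem exists_side {σ : Bool} (hf : FV w h p S E st) (hσ : σ = (S []).par)
    (hn : (ferry Λ).NZ (p - 2 ^ h) (p + 2 ^ h + 1) w) : ∃ E' loc, FV w h p S E' st ∧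
      Side (w (p + sg σ * 2 ^ h)) (!σ) (S []) (E' []).1 st loc ∧ ∀ c, loc = some c →
        (w (p + sg σ * 2 ^ h)).away (!σ) → ∃ b0, Dep b0 (!σ) c (w (p + sg σ * 2 ^ h)) := by
  obtain ⟨m1, m2, -, -, m5⟩ := hf.margin hn σ
  rw [hf.away_iff] at m2
  by_cases ha : (w (p + sg σ * 2 ^ h)).away (!σ)
  · cases st with
    | free =>
      exfalso
      obtain ⟨w1, b', hb, e1, f1, q1, -⟩ := hf.emit_out hn (σ := σ)
        (c := ⟨some (S [], (E []).1), false, σ⟩) (Or.inl ⟨hσ, rfl, rfl, Or.inr ⟨rfl, rfl⟩⟩)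
      have hb' := hb.resolve_left fun h => h.2.1 ha
      have hn1 := e1.nz hn le_rfl le_rfl
      obtain ⟨c, b0, -, -, -, c1, c2⟩ := f1.undock hn1 (Or.inl ⟨⟨_, _, rfl⟩, hσ⟩)
      obtain ⟨st0, e, he, -⟩ := compat f1 hn1 (Or.inl ⟨⟨_, _, rfl⟩, hσ⟩) c2
      rw [q1, hb'.2.1] at c1
      simp_all [EmitR]
    | dock chi mo => exact (m2.1 (Or.inl ⟨⟨_, _, rfl⟩, hσ⟩) (m5 ha)).elim
    | carry c =>
      refine ⟨E, some c, hf, Or.inl ⟨ha, m5 ha, Or.inl ⟨c, rfl, rfl⟩⟩, ?_⟩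
      rintro _ ⟨⟩ -
      obtain ⟨-, b', hb, -⟩ := hf.emit_out hn (Or.inr (Or.inl ⟨hσ, rfl, rfl⟩))
      exact ⟨_, (hb.resolve_left fun h => h.2.1 ha).2.2⟩
    | exit => exact ⟨E, none, hf, Or.inl ⟨ha, m5 ha, Or.inr ⟨rfl, rfl⟩⟩, by simp⟩
  · cases st with
    | free =>
      refine ⟨E, none, hf, Or.inr ⟨ha, Or.inl ⟨?_, rfl⟩⟩, by simp⟩
      by_contra h
      simpa using m2.2 h
    | carry c => exact (lemG4 hf hn (Or.inl ⟨c, rfl⟩) hσ ha).elim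
    | exit => exact (lemG4 hf hn (Or.inr rfl) hσ ha).elim
    | dock chi mo =>
      obtain ⟨c, b0, -, c0, -, c1, c2⟩ := hf.undock hn (Or.inl ⟨⟨_, _, rfl⟩, hσ⟩)
      obtain ⟨st0, e, he, hE⟩ := compat hf hn (Or.inl ⟨⟨_, _, rfl⟩, hσ⟩) c2
      rcases id he with ⟨-, -, -, ⟨h1, h2⟩ | ⟨h1, h2⟩⟩ | ⟨-, h1, -⟩ | ⟨-, -, h1⟩
      · exact ⟨E, none, hf, Or.inr ⟨ha, Or.inr (Or.inl ⟨_, by rw [c1, h1], h2⟩)⟩, by simp⟩
      · cases h2
        exact ⟨_, none, hf.root_free e, Or.inr ⟨ha, Or.inr (Or.inr ⟨_, by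
          rw [c1, h1, Function.update_self], rfl⟩)⟩, by simp⟩
      · obtain ⟨w1, e1, f1, q1, -⟩ := hf.enter_in he hE c2
        exact (lemG4 f1 (e1.nz hn le_rfl le_rfl) (Or.inl ⟨c, h1⟩) hσ (by rwa [q1])).elim
      · cases h1

theorem exists_top {b : Lt Λ} (hz : ¬ (ferry Λ).Z1 b) (loc : Option (Cargo Λ))
    (hl : ∀ c, loc = some c → ∀ s, b.away s → ∃ b0, Dep b0 s c b) : ∃ e st, Top b e loc st := by
  obtain ⟨e0⟩ := Λ.inhC
  have z1 : ¬ (b.cd = none ∧ ∀ s, ¬ b.away s) := fun h => hz (Or.inr (Or.inr (Or.inl h)))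
  have z2 : ¬ ∃ s chi, b.hd = Hd.A s chi ∧ s ≠ b.st.par ∧ (chi = true ∨ b.cd = none) :=
    fun h => hz (Or.inr (Or.inr (Or.inr (Or.inr (Or.inr h)))))
  obtain ⟨bs, bc, bh, bd, bp⟩ := b
  rcases bd with _ | c | ⟨s, chi⟩
  · cases bc <;> simp_all [Top, Lt.away]
  · cases bc <;> simp_all [Top, Lt.away]
  · by_cases hs : s = bs.par
    · subst hs
      rcases loc with _ | c
      · rcases bc with _ | e
        · exact ⟨e0, _, Or.inr (Or.inr (Or.inr (Or.inr (Or.inl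
            ⟨chi, rfl, rfl, Or.inr ⟨rfl, rfl⟩⟩))))⟩
        · exact ⟨e, _, Or.inr (Or.inr (Or.inr (Or.inr (Or.inl
            ⟨chi, rfl, rfl, Or.inl ⟨rfl, rfl⟩⟩))))⟩
      · obtain ⟨b0, e, h0, ⟨h1, h2, h3, h4, h5⟩ | ⟨h1, h2, h3, h4, h5⟩ | ⟨h1, h5⟩⟩ :=
          hl c rfl _ ⟨chi, rfl⟩
        · exact ⟨e, Sts.free, by simp_all [Top]⟩
        · exact ⟨e, Sts.free, by simp_all [Top]⟩
        · exact ⟨e, Sts.carry c, by simp_all [Top]⟩
    · have h1 : s = !bs.par := by cases s <;> simp_all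
      have h2 : ¬ (chi = true ∨ bc = none) := fun h => z2 ⟨s, chi, rfl, hs, h⟩
      subst h1
      rcases bc with _ | e
      · simp at h2
      have h3 : chi = false := by simpa using h2
      subst h3
      rcases loc with _ | c
      · exact ⟨e, _, Or.inr (Or.inr (Or.inr (Or.inr (Or.inr
          ⟨rfl, rfl, Or.inr ⟨rfl, rfl⟩⟩))))⟩
      · exact ⟨e, _, Or.inr (Or.inr (Or.inr (Or.inr (Or.inr
          ⟨rfl, rfl, Or.inl ⟨c, rfl, rfl⟩⟩))))⟩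

/-- a static tree inside a nonzero word (with one more letter on each side) is valid -/
theorem exists_FV (hs : SP w h p) (hn : (ferry Λ).NZ (p - 2 ^ h) (p + 2 ^ h + 1) w) :
    ∃ S E st, FV w h p S E st := by
  induction h generalizing p with
  | zero =>
    have hz := nz_Z1 (i := p) hn (by omega) (by omega)
    obtain ⟨e, st, ht⟩ := exists_top hz none (by simp)
    refine ⟨fun _ => (w p).st, fun _ => (e, (w p).hm), st, rfl, rfl, hs, fun s => ?_, ht⟩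
    by_contra h
    exact hz (Or.inr (Or.inr (Or.inr (Or.inr (Or.inl ⟨hs, s, h⟩)))))
  | succ h ih =>
    have a0 := tp h
    have key : ∀ s, ∃ S E st loc, (S []).par = !s ∧ FV w h (p + sg s * 2 ^ h) S E st ∧
        Side (w p) s (S []) (E []).1 st loc ∧
        ∀ c, loc = some c → (w p).away s → ∃ b0, Dep b0 s c (w p) := by
      intro s
      have a := sgm s (2 ^ h)
      have hn' := hn.mono (lo := p + sg s * 2 ^ h - 2 ^ h) (hi := p + sg s * 2 ^ h + 2 ^ h + 1)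
        (by omega) (by omega)
      obtain ⟨S, E, st, hf⟩ := ih (hs.2 s).2 hn'
      have h1 : (S []).par = !s := by rw [← hf.root.1, (hs.2 s).1]
      obtain ⟨E', loc, h2⟩ := exists_side hf h1.symm hn'
      rw [show p + sg s * 2 ^ h + sg (!s) * 2 ^ h = p by omega, Bool.not_not] at h2
      exact ⟨S, E', st, loc, h1, h2⟩
    choose S E sc loc h1 h2 h3 h4 using key
    obtain ⟨l, hl⟩ : ∃ l, ∀ s, (w p).away s → loc s = l := by
      by_cases ha : ∃ s, (w p).away s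
      · obtain ⟨s, x, hx⟩ := ha
        refine ⟨loc s, ?_⟩
        rintro t ⟨y, hy⟩
        rw [hx] at hy
        cases hy; rfl
      · exact ⟨none, fun s hs => (ha ⟨s, hs⟩).elim⟩
    obtain ⟨e, st, ht⟩ := exists_top (nz_Z1 (i := p) hn (by omega) (by omega)) l
      fun c hc s hs => h4 s c ((hl s hs).trans hc) hs
    refine ⟨fun π => π.casesOn (w p).st S, fun π => π.casesOn (e, (w p).hm) E, st, rfl, rfl, hs.1,
      l, sc, ht, fun s => ⟨h1 s, ?_, h2 s⟩⟩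
    rcases h3 s with h | h
    · exact Or.inl (hl s h.1 ▸ h)
    · exact Or.inr h

/-- bringing a tree to rest, uniformly for all words with the same interface -/
theorem FV.release (hf : FV w h p S E st) (hn : (ferry Λ).NZ (p - 2 ^ h) (p + 2 ^ h + 1) w) :
    ∃ (e : Λ.Cd) (hd : Hd Λ) (b : Bool → Lt Λ), hd.home ∧
      (∀ σ, (b σ).st = (w (p + sg σ * 2 ^ h)).st ∧ (b σ).hm = (w (p + sg σ * 2 ^ h)).hm) ∧
      ∀ (w' : ℤ → Lt Λ) (S' : Path → St) (E' : Λ.Dat), FV w' h p S' E' st → S' [] = S [] →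
        (E' []).1 = (E []).1 → (∀ σ, w' (p + sg σ * 2 ^ h) = w (p + sg σ * 2 ^ h)) →
        ∃ w1, (ferry Λ).Eqv (p - 2 ^ h) (p + 2 ^ h + 1) w' w1 ∧
          Rest w1 h p S' (Function.update E' [] (e, (E' []).2)) hd ∧
          ∀ σ, w1 (p + sg σ * 2 ^ h) = b σ := by
  have a0 := tp h
  have hh : ∀ {hd : Hd Λ} {st}, HS hd st → hd.home := by
    rintro _ _ (⟨rfl, -⟩ | ⟨c, rfl, -⟩) s chi h <;> cases h
  by_cases hs : ∃ hd, HS hd st
  · obtain ⟨hd, hs⟩ := hs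
    refine ⟨(E []).1, hd, _, hh hs, fun _ => ⟨rfl, rfl⟩, fun w' S' E' f1 _ h2 h3 => ?_⟩
    obtain ⟨w1, e1, r1⟩ := (prep_rst h).2 _ _ _ _ _ _ f1 hs
    refine ⟨w1, e1.mono (by omega) (by omega), by rwa [← h2, update_root], fun σ => ?_⟩
    have a := sgm σ (2 ^ h)
    exact (e1.out (by omega)).trans (h3 σ)
  obtain ⟨σ, ha⟩ : ∃ σ, ((∃ chi mo, st = Sts.dock chi mo) ∧ σ = (S []).par) ∨
      (st = Sts.exit ∧ σ = !(S []).par) := by
    cases st with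
    | free => exact (hs ⟨_, Or.inl ⟨rfl, rfl⟩⟩).elim
    | carry c => exact (hs ⟨_, Or.inr ⟨c, rfl, rfl⟩⟩).elim
    | dock chi mo => exact ⟨_, Or.inl ⟨⟨_, _, rfl⟩, rfl⟩⟩
    | exit => exact ⟨_, Or.inr ⟨rfl, rfl⟩⟩
  obtain ⟨c, b0, -, -, -, -, c2⟩ := hf.undock hn ha
  obtain ⟨st0, e, he, hE⟩ := compat hf hn ha c2
  obtain ⟨hd, hs0, -⟩ := he.dep
  refine ⟨e, hd, fun τ => if τ = σ then b0 else w (p + sg τ * 2 ^ h), hh hs0, fun τ => ?_,
    fun w' S' E' f1 h1 h2 h3 => ?_⟩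
  · beta_reduce
    split_ifs with h
    · rw [h]; exact ⟨c2.st_hm.1.symm, c2.st_hm.2.symm⟩
    · exact ⟨rfl, rfl⟩
  · obtain ⟨w1, e1, f2, q1, q2⟩ := f1.enter_in (b0 := b0) (h1 ▸ he) (fun h => (hE h).trans h2.symm)
      (by rwa [h3])
    obtain ⟨w2, e2, r2⟩ := (prep_rst h).2 _ _ _ _ _ _ f2 hs0
    refine ⟨w2, e1.trans (e2.mono (by omega) (by omega)), r2, fun τ => ?_⟩
    have a := sgm τ (2 ^ h)
    rw [e2.out (by omega)]
    beta_reduce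
    split_ifs with h
    · rw [h, q1]
    · rw [show τ = !σ by cases τ <;> simp_all, q2, h3]

end Vale.Agent.P192
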