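import Vale.Agent.P192.FerA

/-! Part FerC, first half: bringing trees to rest and preparing emissions. -/

namespace Vale.Agent.P192

variable {Λ : Lay} {w w' : ℤ → Lt Λ} {h : ℕ} {p : ℤ} {S : Path → St} {E : Λ.Dat} {st : Sts Λ}

theorem sgm (σ : Bool) (n : ℤ) : (sg σ * n = n ∧ sg (!σ) * n = -n ∧ sg σ = 1 ∧ sg (!σ) = -1) ∨
    (sg σ * n = -n ∧ sg (!σ) * n = n ∧ sg σ = -1 ∧ sg (!σ) = 1) := by
  cases σ <;> simp [sg]

theorem tp (h : ℕ) : (0 : ℤ) < 2 ^ h := by positivity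

theorem bl_eq (h : ℕ) (p : ℤ) (σ : Bool) : bl h p σ = p + sg σ * 2 ^ h - sg σ := by
  rw [bl]; ring

theorem bl_succ' (h : ℕ) (p : ℤ) (σ : Bool) :
    bl (h + 1) p σ = bl h (p + sg σ * 2 ^ h) σ := by
  rw [bl, bl]; ring

/-- equivalence of words, typed on letters -/
def EQ (lo hi : ℤ) (w w' : ℤ → Lt Λ) : Prop := (ferry Λ).Eqv lo hi w w'

theorem EQ.refl (lo hi : ℤ) (w : ℤ → Lt Λ) : EQ lo hi w w := Sys.Eqv.refl (S := ferry Λ) _ _ _

theorem EQ.symm {lo hi : ℤ} (h : EQ lo hi w w') : EQ lo hi w' w := Sys.Eqv.symm h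

theorem EQ.trans {lo hi : ℤ} {w'' : ℤ → Lt Λ} (h : EQ lo hi w w') (h' : EQ lo hi w' w'') :
    EQ lo hi w w'' := Sys.Eqv.trans h h'

theorem EQ.mono {lo hi lo' hi' : ℤ} (h : EQ lo hi w w') (h1 : lo' ≤ lo) (h2 : hi ≤ hi') :
    EQ lo' hi' w w' := Sys.Eqv.mono h1 h2 h

theorem EQ.out {lo hi : ℤ} (h : EQ lo hi w w') {i : ℤ} (hi' : i < lo ∨ hi ≤ i) : w' i = w i :=
  Sys.Eqv.out h hi'

theorem EQ.nz {lo hi lo' hi' : ℤ} (h : EQ lo hi w w') (hn : (ferry Λ).NZ lo' hi' w) (h1 : lo' ≤ lo)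
    (h2 : hi ≤ hi') : (ferry Λ).NZ lo' hi' w' := hn.of_eqv (h.mono h1 h2)

theorem step_out {lo hi l m : ℤ} {σ : Bool} {c : Cargo Λ} {l' b' : Lt Λ} (hm : m = l + sg σ)
    (h1 : lo ≤ l) (h2 : lo ≤ m) (h3 : l < hi) (h4 : m < hi) (hl : LeafOut (w l) σ c l')
    (hb : In (w m) (!σ) c b') :
    EQ lo hi w (Function.update (Function.update w l l') m b') := by
  apply Sys.Step.eqv (S := ferry Λ)
  cases σ
  · have e : l = m + 1 := by simp [sg] at hm; omega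
    subst e
    exact Or.inr ⟨m, b', l', h2, h3, Or.inl (Or.inl ⟨c, hl, hb⟩),
      Function.update_comm (by omega) _ _ _⟩
  · have e : m = l + 1 := by simpa [sg] using hm
    subst e
    exact Or.inr ⟨l, l', b', h1, h4, Or.inr (Or.inl ⟨c, hl, hb⟩), rfl⟩

theorem step_in {lo hi l m : ℤ} {σ : Bool} {c : Cargo Λ} {l0 b0 : Lt Λ} (hm : m = l + sg σ)
    (h1 : lo ≤ l) (h2 : lo ≤ m) (h3 : l < hi) (h4 : m < hi) (hl : LeafOut l0 σ c (w l))
    (hb : In b0 (!σ) c (w m)) :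
    EQ lo hi w (Function.update (Function.update w l l0) m b0) := by
  have hne : l ≠ m := by have := sgm σ 0; omega
  have := step_out (w := Function.update (Function.update w l l0) m b0) hm h1 h2 h3 h4
    (by rwa [Function.update_of_ne hne, Function.update_self]) (by rwa [Function.update_self])
  refine EQ.symm (Eq.mp ?_ this)
  congr 1
  funext i
  by_cases a : i = m
  · simp [a]
  · by_cases b : i = l
    · simp [b, hne]
    · simp [a, b]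

theorem nz_Zs {lo hi l m : ℤ} {σ : Bool} (hn : (ferry Λ).NZ lo hi w) (hm : m = l + sg σ)
    (h1 : lo ≤ l) (h2 : lo ≤ m) (h3 : l < hi) (h4 : m < hi) : ¬ Zs (w m) (!σ) (w l) := by
  intro hz
  apply hn w (EQ.refl _ _ _)
  cases σ
  · have e : l = m + 1 := by simp [sg] at hm; omega
    subst e
    exact Or.inr ⟨m, h2, h3, Or.inl hz⟩
  · have e : m = l + 1 := by simpa [sg] using hm
    subst e
    exact Or.inr ⟨l, h1, h4, Or.inr hz⟩

theorem nz_Z1 {lo hi i : ℤ} (hn : (ferry Λ).NZ lo hi w) (h1 : lo ≤ i) (h2 : i < hi) :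
    ¬ (ferry Λ).Z1 (w i) := fun hz => hn w (EQ.refl _ _ _) (Or.inl ⟨i, h1, h2, hz⟩)

theorem FV.agree (hf : FV w h p S E st) (hw : ∀ i, p - 2 ^ h < i → i < p + 2 ^ h → w' i = w i) :
    FV w' h p S E st := hf.transl fun i h1 h2 => hw _ (by omega) (by omega)

theorem Rest.agree {hd : Hd Λ} (hf : Rest w h p S E hd)
    (hw : ∀ i, p - 2 ^ h < i → i < p + 2 ^ h → w' i = w i) : Rest w' h p S E hd :=
  hf.transl fun i h1 h2 => hw _ (by omega) (by omega)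

theorem update_root (E : Λ.Dat) : Function.update E [] ((E []).1, (E []).2) = E :=
  Function.update_eq_self _ _

/-- the two subtrees -/
def Kids (w : ℤ → Lt Λ) (h : ℕ) (p : ℤ) (S : Path → St) (E : Λ.Dat) (sc : Bool → Sts Λ) : Prop :=
  ∀ s, (S [s]).par = !s ∧
    FV w h (p + sg s * 2 ^ h) (fun ρ => S (s :: ρ)) (fun ρ => E (s :: ρ)) (sc s)

theorem Kids.change {sc : Bool → Sts Λ} (hk : Kids w h p S E sc) (s : Bool) {st' : Sts Λ}
    (hf : FV w' h (p + sg s * 2 ^ h) (fun ρ => S (s :: ρ)) (fun ρ => E (s :: ρ)) st')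
    (hw : ∀ i, sg s * (i - p) < 0 → w' i = w i) : Kids w' h p S E (Function.update sc s st') := by
  intro t
  refine ⟨(hk t).1, ?_⟩
  by_cases hts : t = s
  · subst hts; rwa [Function.update_self]
  · rw [Function.update_of_ne hts]
    refine (hk t).2.agree fun i h1 h2 => hw i ?_
    cases s <;> cases t <;> simp [sg] at * <;> omega

/-- statement of `prepare` at height `h` -/
def Prep (Λ : Lay) (h : ℕ) : Prop :=
  ∀ (w : ℤ → Lt Λ) p S E st, FV w h p S E st → ∀ σ c st', EmitR (S []) (E []).1 st σ c st' →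
    ∃ w' l', EQ (p - 2 ^ h + 1) (p + 2 ^ h) w w' ∧ FV w' h p S E st ∧
      LeafOut (w' (bl h p σ)) σ c l' ∧ FV (Function.update w' (bl h p σ) l') h p S E st'

/-- head at rest and status -/
def HS (hd : Hd Λ) (st : Sts Λ) : Prop :=
  (hd = Hd.I ∧ st = Sts.free) ∨ ∃ c, hd = Hd.H c ∧ st = Sts.carry c

/-- statement of `rest` at height `h` -/
def Rst (Λ : Lay) (h : ℕ) : Prop :=
  ∀ (w : ℤ → Lt Λ) p S E st hd, FV w h p S E st → HS hd st →
    ∃ w', EQ (p - 2 ^ h + 1) (p + 2 ^ h) w w' ∧ Rest w' h p S E hd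

theorem Kids.emit (hP : Prep Λ h) {sc : Bool → Sts Λ} (hk : Kids w h p S E sc) {s : Bool}
    {c : Cargo Λ} {st' : Sts Λ} (he : EmitR (S [s]) (E [s]).1 (sc s) (!s) c st') {b' : Lt Λ}
    (hb : In (w p) s c b') : ∃ w', EQ (p - 2 ^ (h + 1) + 1) (p + 2 ^ (h + 1)) w w' ∧
      Kids w' h p S E (Function.update sc s st') ∧ w' p = b' := by
  obtain ⟨w1, l', h1, -, h3, h4⟩ := hP _ _ _ _ _ (hk s).2 _ _ _ he
  have a := sgm s (2 ^ h)
  have a0 := tp h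
  have a1 := bl_eq h (p + sg s * 2 ^ h) (!s)
  have h5 : w1 p = w p := h1.out (by omega)
  refine ⟨_, (h1.mono (by omega) (by omega)).trans (step_out (m := p) (by omega) (by omega)
    (by omega) (by omega) (by omega) h3 (by rwa [Bool.not_not, h5])), hk.change s
    (h4.agree fun i _ _ => Function.update_of_ne (by omega) _ _) fun i hi => ?_,
    Function.update_self ..⟩
  have a2 := sgm s (i - p)
  rw [Function.update_of_ne (by omega), Function.update_of_ne (by omega)]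
  exact h1.out (by omega)

theorem Kids.enter {sc : Bool → Sts Λ} (hk : Kids w h p S E sc) {s : Bool}
    {c : Cargo Λ} {st0 : Sts Λ} (he : EmitR (S [s]) (E [s]).1 st0 (!s) c (sc s)) {b0 : Lt Λ}
    (hb : In b0 s c (w p)) : ∃ w', EQ (p - 2 ^ (h + 1) + 1) (p + 2 ^ (h + 1)) w w' ∧
      Kids w' h p S E (Function.update sc s st0) ∧ w' p = b0 := by
  obtain ⟨l0, h3, h4⟩ := (hk s).2.enter he fun _ => rfl
  have a := sgm s (2 ^ h)
  have a0 := tp h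
  have a1 := bl_eq h (p + sg s * 2 ^ h) (!s)
  rw [update_root fun ρ => E (s :: ρ)] at h4
  refine ⟨_, step_in (m := p) (by omega) (by omega) (by omega) (by omega) (by omega) h3
    (by rwa [Bool.not_not]), hk.change s
    (h4.agree fun i _ _ => Function.update_of_ne (by omega) _ _) fun i hi => ?_,
    Function.update_self ..⟩
  have a2 := sgm s (i - p)
  rw [Function.update_of_ne (by omega), Function.update_of_ne (by omega)]

/-- a port and the status of the subtree behind it, when the head is not away there -/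
def Port (x : Option (Option (St × Λ.Cd) × Bool)) (sc : St) (ec : Λ.Cd) (st : Sts Λ) : Prop :=
  (x = none ∧ st = Sts.free) ∨ (∃ chi, x = some (none, chi) ∧ st = Sts.dock chi false) ∨
    (∃ chi, x = some (some (sc, ec), chi) ∧ st = Sts.dock chi true)

theorem dock_undo {b : Lt Λ} {s : Bool} {m : Option (St × Λ.Cd)} {chi : Bool}
    (h1 : b.st.leaf = false) (h2 : ¬ b.away s) (h3 : b.pt s = some (m, chi)) :
    In ⟨b.st, b.cd, b.hm, b.hd, Function.update b.pt s none⟩ s ⟨m, chi, !s⟩ b :=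
  Or.inl ⟨h1, h2, Function.update_self .., rfl, by simp [← h3]⟩

theorem Kids.undock {sc : Bool → Sts Λ} (hk : Kids w h p S E sc) (s : Bool)
    (h1 : (w p).st.leaf = false) (h2 : ¬ (w p).away s)
    (h3 : Port ((w p).pt s) (S [s]) (E [s]).1 (sc s)) :
    ∃ w', EQ (p - 2 ^ (h + 1) + 1) (p + 2 ^ (h + 1)) w w' ∧
      Kids w' h p S E (Function.update sc s Sts.free) ∧
      w' p = ⟨(w p).st, (w p).cd, (w p).hm, (w p).hd, Function.update (w p).pt s none⟩ := by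
  rcases h3 with ⟨h3, h4⟩ | ⟨chi, h3, h4⟩ | ⟨chi, h3, h4⟩
  · exact ⟨w, EQ.refl _ _ _, by rwa [← h4, Function.update_eq_self], by simp [← h3]⟩
  · exact hk.enter (Or.inl ⟨(hk s).1.symm, rfl, rfl, Or.inl ⟨rfl, h4⟩⟩) (dock_undo h1 h2 h3)
  · exact hk.enter (Or.inl ⟨(hk s).1.symm, rfl, rfl, Or.inr ⟨rfl, h4⟩⟩) (dock_undo h1 h2 h3)

theorem Kids.rest (hR : Rst Λ h) (hk : Kids w h p S E fun _ => Sts.free) :
    ∃ w', EQ (p - 2 ^ (h + 1) + 1) (p + 2 ^ (h + 1)) w w' ∧ w' p = w p ∧ ∀ s,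
      Rest w' h (p + sg s * 2 ^ h) (fun ρ => S (s :: ρ)) (fun ρ => E (s :: ρ)) Hd.I := by
  have a0 := tp h
  have a := sgm true (2 ^ h)
  have a1 : sg true = 1 := rfl
  simp only [Bool.not_true] at a
  obtain ⟨w1, h1, r1⟩ := hR _ _ _ _ _ _ (hk false).2 (Or.inl ⟨rfl, rfl⟩)
  obtain ⟨w2, h2, r2⟩ := hR w1 _ _ _ _ _ ((hk true).2.agree fun i _ _ => h1.out (by omega))
    (Or.inl ⟨rfl, rfl⟩)
  refine ⟨w2, (h1.mono (by omega) (by omega)).trans (h2.mono (by omega) (by omega)),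
    (h2.out (by omega)).trans (h1.out (by omega)), fun s => ?_⟩
  cases s
  · exact r1.agree fun i _ _ => h2.out (by omega)
  · exact r2

theorem Top.home {b : Lt Λ} {e : Λ.Cd} {loc : Option (Cargo Λ)} {hd : Hd Λ}
    (ht : Top b e loc st) (hs : HS hd st) : (b.hd = hd ∧ b.cd = some e) ∨
      ∃ s c, loc = some c ∧ b.away s ∧ Dep ⟨b.st, some e, b.hm, hd, b.pt⟩ s c b := by
  obtain ⟨bs, bc, bh, bd, bp⟩ := b
  rcases ht with ⟨h1, h2, rfl⟩ | ⟨c, h1, h2, rfl⟩ | ⟨c, h1, h2, h3, rfl, h5⟩ | ⟨c, h1, h2, h3, rfl⟩ |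
    ⟨chi, h1, h2, ⟨h3, rfl⟩ | ⟨h3, rfl⟩⟩ | ⟨h1, h2, ⟨c, h3, rfl⟩ | ⟨h3, rfl⟩⟩ <;>
  rcases hs with ⟨rfl, h0⟩ | ⟨c0, rfl, h0⟩ <;> cases h0
  · exact Or.inl ⟨h1, h2⟩
  · exact Or.inl ⟨h1, h2⟩
  · refine Or.inr ⟨_, c, h1, ⟨_, h2⟩, e, rfl, ?_⟩
    rcases h5 with ⟨h5, h6⟩ | ⟨h5, h6⟩
    · exact Or.inl ⟨rfl, rfl, h3, h5, by simp_all⟩
    · exact Or.inr (Or.inl ⟨rfl, rfl, h3, h5, by simp_all⟩)
  · exact Or.inr ⟨_, _, h1, ⟨_, h2⟩, e, rfl, Or.inr (Or.inr ⟨rfl, by simp_all⟩)⟩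
  · exact Or.inr ⟨_, _, h3, ⟨_, h1⟩, e, rfl, Or.inr (Or.inr ⟨rfl, by simp_all⟩)⟩

theorem HS.not_away {hd : Hd Λ} (hs : HS hd st) {b : Lt Λ} (hb : b.hd = hd) (s : Bool) :
    ¬ b.away s := by
  rintro ⟨x, hx⟩
  rcases hs with ⟨rfl, -⟩ | ⟨c, rfl, -⟩ <;> simp_all

theorem rst_zero : Rst Λ 0 := by
  rintro w p S E st hd ⟨h1, h2, h3, h4, h5⟩ hs
  refine ⟨w, EQ.refl _ _ _, ?_, h3⟩
  rcases h5.home hs with ⟨h6, h7⟩ | ⟨s, c, h6, -⟩
  · rw [← h1, ← h2, ← h6, ← h7, ← funext h4]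
  · cases h6

theorem rst_succ (hP : Prep Λ h) (hR : Rst Λ h) : Rst Λ (h + 1) := by
  rintro w p S E st hd ⟨h1, h2, h3, loc, sc, ht, hc⟩ hs
  have hk : Kids w h p S E sc := fun s => ⟨(hc s).1, (hc s).2.2⟩
  obtain ⟨w1, sc1, pt1, e1, k1, r1, p1⟩ : ∃ w1 sc1 pt1,
      EQ (p - 2 ^ (h + 1) + 1) (p + 2 ^ (h + 1)) w w1 ∧ Kids w1 h p S E sc1 ∧
      w1 p = ⟨S [], some (E []).1, (E []).2, hd, pt1⟩ ∧
      ∀ s, Port (pt1 s) (S [s]) (E [s]).1 (sc1 s) := by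
    rcases ht.home hs with ⟨h6, h7⟩ | ⟨s, c, rfl, h7, h8⟩
    · refine ⟨w, sc, (w p).pt, EQ.refl _ _ _, hk, by rw [← h1, ← h2, ← h6, ← h7], fun s => ?_⟩
      exact ((hc s).2.1.resolve_left fun h => hs.not_away h6 s h.1).2
    · obtain ⟨-, h9, h10⟩ := (hc s).2.1.resolve_right fun h => h.1 h7
      obtain ⟨c', h10, h11⟩ := h10.resolve_right fun h => by cases h.2
      cases h11
      obtain ⟨w1, e1, k1, r1⟩ := hk.emit hP (Or.inr (Or.inl ⟨(hk s).1.symm, h10, rfl⟩))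
        (b' := ⟨S [], some (E []).1, (E []).2, hd, Function.update (w p).pt s (some (none, !c.chi))⟩)
        (Or.inr ⟨h3, Function.update_self .., by simpa [← h9, ← h1, ← h2] using h8⟩)
      refine ⟨w1, _, _, e1, k1, r1, fun t => ?_⟩
      by_cases hts : t = s
      · subst hts
        exact Or.inr (Or.inl ⟨_, Function.update_self .., Function.update_self ..⟩)
      · rw [Function.update_of_ne hts, Function.update_of_ne hts]
        refine ((hc t).2.1.resolve_left fun h => hts ?_).2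
        obtain ⟨x, hx⟩ := h.1
        obtain ⟨y, hy⟩ := h7
        rw [hx] at hy
        cases hy; rfl
  obtain ⟨w2, e2, k2, r2⟩ := k1.undock false (by rw [r1]; exact h3)
    (hs.not_away (by rw [r1]) _) (by rw [r1]; exact p1 false)
  rw [r1] at r2
  obtain ⟨w3, e3, k3, r3⟩ := k2.undock true (by rw [r2]; exact h3)
    (hs.not_away (by rw [r2]) _) (by rw [r2]; exact p1 true)
  rw [r2] at r3
  obtain ⟨w4, e4, r4, k4⟩ := Kids.rest hR (w := w3) (p := p) (S := S) (E := E)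
    (fun s => by cases s <;> exact k3 _)
  refine ⟨w4, ((e1.trans e2).trans e3).trans e4, ?_, h3, fun s => ⟨(hk s).1, k4 s⟩⟩
  rw [r4, r3]
  congr 1
  funext s
  cases s <;> rfl

theorem EmitR.dep {s0 : St} {e : Λ.Cd} {σ : Bool} {c : Cargo Λ} {st' : Sts Λ}
    (he : EmitR s0 e st σ c st') : ∃ hd, HS hd st ∧ ∀ g pt, ∃ b2,
      Dep ⟨s0, some e, g, hd, pt⟩ σ c b2 ∧ b2.st = s0 ∧ b2.hm = g ∧ b2.pt = pt ∧ b2.away σ ∧
      Top b2 e (some c) st ∧ Top b2 e none st' := by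
  rcases he with ⟨rfl, rfl, h3, ⟨h4, rfl⟩ | ⟨h4, rfl⟩⟩ | ⟨rfl, rfl, rfl⟩ | ⟨rfl, rfl, rfl⟩
  · exact ⟨_, Or.inl ⟨rfl, rfl⟩, fun g pt => ⟨_, ⟨e, rfl, Or.inl ⟨rfl, rfl, h3, h4, rfl⟩⟩, rfl, rfl,
      rfl, ⟨_, rfl⟩, by simp [Top, h3, h4], by simp [Top]⟩⟩
  · exact ⟨_, Or.inl ⟨rfl, rfl⟩, fun g pt => ⟨_, ⟨e, rfl, Or.inr (Or.inl ⟨rfl, rfl, h3, h4, rfl⟩)⟩,
      rfl, rfl, rfl, ⟨_, rfl⟩, by simp [Top, h3, h4], by simp [Top]⟩⟩
  · exact ⟨_, Or.inr ⟨c, rfl, rfl⟩, fun g pt => ⟨_, ⟨e, rfl, Or.inr (Or.inr ⟨rfl, rfl⟩)⟩,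
      rfl, rfl, rfl, ⟨_, rfl⟩, by simp [Top], by simp [Top]⟩⟩
  · exact ⟨_, Or.inr ⟨c, rfl, rfl⟩, fun g pt => ⟨_, ⟨e, rfl, Or.inr (Or.inr ⟨rfl, rfl⟩)⟩,
      rfl, rfl, rfl, ⟨_, rfl⟩, by simp [Top], by simp [Top]⟩⟩

theorem HS.fv {hd : Hd Λ} (hs : HS hd st) (hr : Rest w h p S E hd) : FV w h p S E st := by
  rcases hs with ⟨rfl, rfl⟩ | ⟨c, rfl, rfl⟩
  · exact hr.fv_free
  · exact hr.fv_carry

theorem prep_zero : Prep Λ 0 := by
  intro w p S E st hf σ c st' he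
  obtain ⟨hd, hs, h2⟩ := he.dep
  obtain ⟨w1, e1, r1⟩ := rst_zero _ _ _ _ _ _ hf hs
  obtain ⟨b2, d1, d2, d3, d4, -, -, d5⟩ := h2 (E []).2 fun _ => none
  have hb : bl 0 p σ = p := by simp [bl]
  rw [hb]
  refine ⟨w1, b2, e1, hs.fv r1, ⟨by rw [r1.1]; exact r1.2, by rwa [r1.1]⟩, ?_⟩
  simp only [FV, Function.update_self]
  exact ⟨d2, d3, r1.2, fun s => by rw [d4], d5⟩

theorem prep_succ (hP : Prep Λ h) (hR : Rst Λ (h + 1)) : Prep Λ (h + 1) := by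
  intro w p S E st hf σ c st' he
  obtain ⟨hd, hs, h2⟩ := he.dep
  obtain ⟨w1, e1, r1, r2, r3⟩ := hR _ _ _ _ _ _ hf hs
  obtain ⟨b2, d1, d2, d3, d4, d5, d6, d7⟩ := h2 (E []).2 fun _ => none
  have k1 : Kids w1 h p S E fun _ => Sts.free := fun s => ⟨(r3 s).1, (r3 s).2.fv_free⟩
  obtain ⟨w2, e2, k2, q2⟩ := k1.emit hP (s := σ) (c := ⟨none, !c.chi, !σ⟩)
    (Or.inl ⟨(k1 σ).1.symm, rfl, rfl, Or.inl ⟨rfl, rfl⟩⟩)
    (Or.inl ⟨by rw [r1]; exact r2, hs.not_away (by rw [r1]) _, by rw [r1], rfl, rfl⟩)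
  rw [r1] at q2
  obtain ⟨w3, e3, k3, q3⟩ := k2.enter (s := σ) (c := c) (b0 := b2)
    (Or.inr (Or.inl ⟨(k1 σ).1.symm, rfl, Function.update_self ..⟩))
    (Or.inr ⟨by rw [q2]; exact r2, by rw [q2]; exact Function.update_self .., by
      simpa [q2] using d1⟩)
  rw [Function.update_idem] at k3
  obtain ⟨w4, l', e4, f4, l4, f5⟩ := hP _ _ _ _ _ (k3 σ).2 σ c Sts.exit
    (Or.inr (Or.inr ⟨by rw [(k1 σ).1, Bool.not_not], Function.update_self .., rfl⟩))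
  have a := sgm σ (2 ^ h)
  have a0 := tp h
  have a1 := bl_eq h (p + sg σ * 2 ^ h) σ
  have q4 : w4 p = b2 := (e4.out (by omega)).trans q3
  have k4 := k3.change σ f4 fun i hi => e4.out (by have := sgm σ (i - p); omega)
  have k5 := k4.change σ f5 fun i hi =>
    Function.update_of_ne (by have := sgm σ (i - p); omega) _ _
  have hside : ∀ (x : Sts Λ) (loc : Option (Cargo Λ)), ((∃ c, x = Sts.carry c ∧ loc = some c) ∨
      (x = Sts.exit ∧ loc = none)) → ∀ s, Side b2 s (S [s]) (E [s]).1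
        (Function.update (fun _ => Sts.free) σ x s) loc := fun x loc hx s => by
    by_cases hs : s = σ
    · subst hs
      rw [Function.update_self]
      exact Or.inl ⟨d5, by rw [d4], hx⟩
    · rw [Function.update_of_ne hs]
      refine Or.inr ⟨?_, Or.inl ⟨by rw [d4], rfl⟩⟩
      rintro ⟨y, hy⟩
      obtain ⟨z, hz⟩ := d5
      rw [hy] at hz
      cases hz; exact hs rfl
  simp only [Function.update_idem, Function.update_self] at k4 k5
  rw [bl_succ']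
  have q5 : Function.update w4 (bl h (p + sg σ * 2 ^ h) σ) l' p = b2 :=
    (Function.update_of_ne (by omega) _ _).trans q4
  refine ⟨w4, l', ((e1.trans e2).trans e3).trans (e4.mono (by omega) (by omega)),
    ⟨q4 ▸ d2, q4 ▸ d3, r2, some c, _, q4 ▸ d6, fun s => ⟨(k4 s).1,
      q4 ▸ hside _ _ (Or.inl ⟨c, rfl, rfl⟩) s, (k4 s).2⟩⟩, l4,
    ⟨q5 ▸ d2, q5 ▸ d3, r2, none, _, q5 ▸ d7, fun s => ⟨(k5 s).1,
      q5 ▸ hside _ _ (Or.inr ⟨rfl, rfl⟩) s, (k5 s).2⟩⟩⟩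

theorem prep_rst (h : ℕ) : Prep Λ h ∧ Rst Λ h := by
  induction h with
  | zero => exact ⟨prep_zero, rst_zero⟩
  | succ h ih => exact ⟨prep_succ ih.1 (rst_succ ih.1 ih.2), rst_succ ih.1 ih.2⟩

end Vale.Agent.P192
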