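import Mathlib

/-! Data layers: local rewriting systems on binary trees. -/

namespace Vale.Agent.P192

/-- static labels: `par` is the side on which the parent lies (`true` = right) -/
structure St where
  leaf : Bool
  par : Bool
  sp : Bool
  col : Bool
  upf : Bool → Bool
  deriving DecidableEq, Fintype

/-- a data layer: `Cd` is the movable data of a node, `Hm` the data kept at home.
`EM`, `BE`: moves and forbidden pairs on an edge (child, parent); `LM`, `BL`: at one node;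
`HM`, `BA`: between a node and the leaf next to it on side `s`; `BH`: forbidden home data -/
structure Lay where
  Cd : Type
  Hm : Type
  finC : Finite Cd
  finH : Finite Hm
  inhC : Nonempty Cd
  inhH : Nonempty Hm
  EM : St → Cd → St → Cd → Cd → Cd → Prop
  BE : St → Cd → St → Cd → Prop
  LM : St → Cd → Cd → Prop
  BL : St → Cd → Prop
  HM : Bool → St → Hm → St → Cd → Hm → Cd → Prop
  BA : Bool → St → Hm → St → Cd → Prop
  BH : St → Hm → Prop

/-- nodes are addressed by paths; the child of `π` on side `s` is `π ++ [s]` -/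
abbrev Path := List Bool

/-- a network: available nodes, edges `(π ++ [s], π)`, adjacent pairs (home, side, leaf), homes -/
structure Net where
  nd : Path → Prop
  ed : Path → Bool → Prop
  ad : Path → Bool → Path → Prop
  hv : Path → Prop

/-- the perfect binary tree of height `h` -/
def tree (h : ℕ) : Net where
  nd π := π.length ≤ h
  ed π _ := π.length < h
  ad π s l := π.length < h ∧ l = π ++ s :: List.replicate (h - π.length - 1) (!s)
  hv π := π.length ≤ h

/-- the two inner spines of two trees of height `h` next to a letter (the root) -/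
def pseudo (h : ℕ) : Net where
  nd π := ∃ s i, i ≤ h ∧ π = s :: List.replicate i (!s)
  ed π t := ∃ i, i < h ∧ π = (!t) :: List.replicate i t
  ad π s l := π = [] ∧ l = s :: List.replicate h (!s)
  hv π := π = []

namespace Lay

variable (Λ : Lay)

/-- states -/
abbrev Dat := Path → Λ.Cd × Λ.Hm

/-- one move -/
def TM (N : Net) (S : Path → St) (X Y : Λ.Dat) : Prop :=
  (∃ π e, N.nd π ∧ Λ.LM (S π) (X π).1 e ∧ Y = Function.update X π (e, (X π).2)) ∨
  (∃ π s e e', N.ed π s ∧ Λ.EM (S (π ++ [s])) (X (π ++ [s])).1 (S π) (X π).1 e e' ∧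
    Y = Function.update (Function.update X (π ++ [s]) (e, (X (π ++ [s])).2)) π (e', (X π).2)) ∨
  (∃ π s l g e, N.ad π s l ∧ Λ.HM s (S π) (X π).2 (S l) (X l).1 g e ∧
    Y = Function.update (Function.update X l (e, (X l).2)) π ((X π).1, g))

/-- a forbidden configuration -/
def TB (N : Net) (S : Path → St) (X : Λ.Dat) : Prop :=
  (∃ π, N.nd π ∧ Λ.BL (S π) (X π).1) ∨
  (∃ π s, N.ed π s ∧ Λ.BE (S (π ++ [s])) (X (π ++ [s])).1 (S π) (X π).1) ∨
  (∃ π s l, N.ad π s l ∧ Λ.BA s (S π) (X π).2 (S l) (X l).1) ∨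
  (∃ π, N.hv π ∧ Λ.BH (S π) (X π).2)

/-- connected by moves -/
def Con (N : Net) (S : Path → St) : Λ.Dat → Λ.Dat → Prop := Relation.EqvGen (Λ.TM N S)

/-- never bad -/
def NB (N : Net) (S : Path → St) (X : Λ.Dat) : Prop := ∀ Y, Λ.Con N S X Y → ¬ Λ.TB N S Y

variable {Λ} {N : Net} {S : Path → St}

theorem Con.refl (X : Λ.Dat) : Λ.Con N S X X := Relation.EqvGen.refl X

theorem Con.symm {X Y : Λ.Dat} (h : Λ.Con N S X Y) : Λ.Con N S Y X := Relation.EqvGen.symm _ _ h

theorem Con.trans {X Y Z : Λ.Dat} (h : Λ.Con N S X Y) (h' : Λ.Con N S Y Z) : Λ.Con N S X Z :=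
  Relation.EqvGen.trans _ _ _ h h'

theorem TM.con {X Y : Λ.Dat} (h : Λ.TM N S X Y) : Λ.Con N S X Y := Relation.EqvGen.rel _ _ h

theorem NB.of_con {X Y : Λ.Dat} (h : Λ.NB N S X) (hc : Λ.Con N S X Y) : Λ.NB N S Y :=
  fun Z hz => h Z (hc.trans hz)

theorem NB.not_TB {X : Λ.Dat} (h : Λ.NB N S X) : ¬ Λ.TB N S X := h X (Con.refl X)

/-- an invariant closed under moves in both directions and excluding bad states gives `NB` -/
theorem NB.of_inv {I : Λ.Dat → Prop} (hc : ∀ X Y, Λ.TM N S X Y → (I X ↔ I Y))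
    (hb : ∀ X, I X → ¬ Λ.TB N S X) {X : Λ.Dat} (hX : I X) : Λ.NB N S X := by
  intro Y hY
  have : I X ↔ I Y := by
    clear hX
    induction hY with
    | rel a b h => exact hc a b h
    | refl => rfl
    | symm a b _ ih => exact ih.symm
    | trans a b c _ _ ih1 ih2 => exact ih1.trans ih2
  exact hb Y (this.1 hX)

/-- independent product of two layers -/
def prod (Λ Λ' : Lay) : Lay where
  Cd := Λ.Cd × Λ'.Cd
  Hm := Λ.Hm × Λ'.Hm
  finC := by have := Λ.finC; have := Λ'.finC; infer_instance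
  finH := by have := Λ.finH; have := Λ'.finH; infer_instance
  inhC := by have := Λ.inhC; have := Λ'.inhC; infer_instance
  inhH := by have := Λ.inhH; have := Λ'.inhH; infer_instance
  EM sc c sp p c' p' := (Λ.EM sc c.1 sp p.1 c'.1 p'.1 ∧ c'.2 = c.2 ∧ p'.2 = p.2) ∨
    (Λ'.EM sc c.2 sp p.2 c'.2 p'.2 ∧ c'.1 = c.1 ∧ p'.1 = p.1)
  BE sc c sp p := Λ.BE sc c.1 sp p.1 ∨ Λ'.BE sc c.2 sp p.2
  LM s c c' := (Λ.LM s c.1 c'.1 ∧ c'.2 = c.2) ∨ (Λ'.LM s c.2 c'.2 ∧ c'.1 = c.1)
  BL s c := Λ.BL s c.1 ∨ Λ'.BL s c.2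
  HM s sh g sl c g' c' := (Λ.HM s sh g.1 sl c.1 g'.1 c'.1 ∧ g'.2 = g.2 ∧ c'.2 = c.2) ∨
    (Λ'.HM s sh g.2 sl c.2 g'.2 c'.2 ∧ g'.1 = g.1 ∧ c'.1 = c.1)
  BA s sh g sl c := Λ.BA s sh g.1 sl c.1 ∨ Λ'.BA s sh g.2 sl c.2
  BH s g := Λ.BH s g.1 ∨ Λ'.BH s g.2

variable {Λ' : Lay}

/-- first component of a state -/
def fst (X : (Λ.prod Λ').Dat) : Λ.Dat := fun π => ((X π).1.1, (X π).2.1)

/-- second component of a state -/
def snd (X : (Λ.prod Λ').Dat) : Λ'.Dat := fun π => ((X π).1.2, (X π).2.2)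

/-- a state from its components -/
def pair (X : Λ.Dat) (Y : Λ'.Dat) : (Λ.prod Λ').Dat :=
  fun π => (((X π).1, (Y π).1), ((X π).2, (Y π).2))

theorem pair_fst_snd (X : (Λ.prod Λ').Dat) : pair (fst X) (snd X) = X := rfl

theorem TM.pair_left {X X' : Λ.Dat} (h : Λ.TM N S X X') (Y : Λ'.Dat) :
    (Λ.prod Λ').TM N S (pair X Y) (pair X' Y) := by
  rcases h with ⟨π, e, h1, h2, rfl⟩ | ⟨π, s, e, e', h1, h2, rfl⟩ | ⟨π, s, l, g, e, h1, h2, rfl⟩
  · refine Or.inl ⟨π, (e, (Y π).1), h1, Or.inl ⟨h2, rfl⟩, funext fun ρ => ?_⟩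
    by_cases a : ρ = π
    · subst a; simp [pair]
    · simp [pair, a]
  · refine Or.inr (Or.inl ⟨π, s, (e, (Y (π ++ [s])).1), (e', (Y π).1), h1, Or.inl ⟨h2, rfl, rfl⟩,
      funext fun ρ => ?_⟩)
    by_cases a : ρ = π
    · subst a; simp [pair]
    · by_cases b : ρ = π ++ [s]
      · subst b; simp [pair]
      · simp [pair, a, b]
  · refine Or.inr (Or.inr ⟨π, s, l, (g, (Y π).2), (e, (Y l).1), h1, Or.inl ⟨h2, rfl, rfl⟩,
      funext fun ρ => ?_⟩)
    by_cases a : ρ = π
    · subst a; simp [pair]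
    · by_cases b : ρ = l
      · subst b; simp [pair, a]
      · simp [pair, a, b]

theorem TM.pair_right {Y Y' : Λ'.Dat} (h : Λ'.TM N S Y Y') (X : Λ.Dat) :
    (Λ.prod Λ').TM N S (pair X Y) (pair X Y') := by
  rcases h with ⟨π, e, h1, h2, rfl⟩ | ⟨π, s, e, e', h1, h2, rfl⟩ | ⟨π, s, l, g, e, h1, h2, rfl⟩
  · refine Or.inl ⟨π, ((X π).1, e), h1, Or.inr ⟨h2, rfl⟩, funext fun ρ => ?_⟩
    by_cases a : ρ = π
    · subst a; simp [pair]
    · simp [pair, a]
  · refine Or.inr (Or.inl ⟨π, s, ((X (π ++ [s])).1, e), ((X π).1, e'), h1, Or.inr ⟨h2, rfl, rfl⟩,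
      funext fun ρ => ?_⟩)
    by_cases a : ρ = π
    · subst a; simp [pair]
    · by_cases b : ρ = π ++ [s]
      · subst b; simp [pair]
      · simp [pair, a, b]
  · refine Or.inr (Or.inr ⟨π, s, l, ((X π).2, g), ((X l).1, e), h1, Or.inr ⟨h2, rfl, rfl⟩,
      funext fun ρ => ?_⟩)
    by_cases a : ρ = π
    · subst a; simp [pair]
    · by_cases b : ρ = l
      · subst b; simp [pair, a]
      · simp [pair, a, b]

theorem TM.split {X Y : (Λ.prod Λ').Dat} (h : (Λ.prod Λ').TM N S X Y) :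
    (Λ.TM N S (fst X) (fst Y) ∧ snd Y = snd X) ∨ (Λ'.TM N S (snd X) (snd Y) ∧ fst Y = fst X) := by
  rcases h with ⟨π, e, h1, h2, rfl⟩ | ⟨π, s, e, e', h1, h2, rfl⟩ | ⟨π, s, l, g, e, h1, h2, rfl⟩
  · rcases h2 with ⟨h2, h3⟩ | ⟨h2, h3⟩
    · refine Or.inl ⟨Or.inl ⟨π, e.1, h1, h2, funext fun ρ => ?_⟩, funext fun ρ => ?_⟩ <;>
        by_cases a : ρ = π <;> simp_all [fst, snd]
    · refine Or.inr ⟨Or.inl ⟨π, e.2, h1, h2, funext fun ρ => ?_⟩, funext fun ρ => ?_⟩ <;>
        by_cases a : ρ = π <;> simp_all [fst, snd]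
  · rcases h2 with ⟨h2, h3, h4⟩ | ⟨h2, h3, h4⟩
    · refine Or.inl ⟨Or.inr (Or.inl ⟨π, s, e.1, e'.1, h1, h2, funext fun ρ => ?_⟩),
        funext fun ρ => ?_⟩ <;> by_cases a : ρ = π <;> by_cases b : ρ = π ++ [s] <;>
        simp_all [fst, snd]
    · refine Or.inr ⟨Or.inr (Or.inl ⟨π, s, e.2, e'.2, h1, h2, funext fun ρ => ?_⟩),
        funext fun ρ => ?_⟩ <;> by_cases a : ρ = π <;> by_cases b : ρ = π ++ [s] <;>
        simp_all [fst, snd]
  · rcases h2 with ⟨h2, h3, h4⟩ | ⟨h2, h3, h4⟩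
    · refine Or.inl ⟨Or.inr (Or.inr ⟨π, s, l, g.1, e.1, h1, h2, funext fun ρ => ?_⟩),
        funext fun ρ => ?_⟩ <;> by_cases a : ρ = π <;> by_cases b : ρ = l <;>
        simp_all [fst, snd]
    · refine Or.inr ⟨Or.inr (Or.inr ⟨π, s, l, g.2, e.2, h1, h2, funext fun ρ => ?_⟩),
        funext fun ρ => ?_⟩ <;> by_cases a : ρ = π <;> by_cases b : ρ = l <;>
        simp_all [fst, snd]

theorem Con.pair_left {X X' : Λ.Dat} (h : Λ.Con N S X X') (Y : Λ'.Dat) :
    (Λ.prod Λ').Con N S (pair X Y) (pair X' Y) := by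
  induction h with
  | rel a b h => exact (h.pair_left Y).con
  | refl => exact Con.refl _
  | symm a b _ ih => exact ih.symm
  | trans a b c _ _ ih1 ih2 => exact ih1.trans ih2

theorem Con.pair_right {Y Y' : Λ'.Dat} (h : Λ'.Con N S Y Y') (X : Λ.Dat) :
    (Λ.prod Λ').Con N S (pair X Y) (pair X Y') := by
  induction h with
  | rel a b h => exact (h.pair_right X).con
  | refl => exact Con.refl _
  | symm a b _ ih => exact ih.symm
  | trans a b c _ _ ih1 ih2 => exact ih1.trans ih2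

theorem Con.pair {X X' : Λ.Dat} {Y Y' : Λ'.Dat} (h : Λ.Con N S X X') (h' : Λ'.Con N S Y Y') :
    (Λ.prod Λ').Con N S (pair X Y) (pair X' Y') := (h.pair_left Y).trans (h'.pair_right X')

theorem Con.split {X Y : (Λ.prod Λ').Dat} (h : (Λ.prod Λ').Con N S X Y) :
    Λ.Con N S (fst X) (fst Y) ∧ Λ'.Con N S (snd X) (snd Y) := by
  induction h with
  | rel a b h =>
    rcases h.split with ⟨h1, h2⟩ | ⟨h1, h2⟩
    · exact ⟨h1.con, h2 ▸ Con.refl _⟩
    · exact ⟨h2 ▸ Con.refl _, h1.con⟩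
  | refl => exact ⟨Con.refl _, Con.refl _⟩
  | symm a b _ ih => exact ⟨ih.1.symm, ih.2.symm⟩
  | trans a b c _ _ ih1 ih2 => exact ⟨ih1.1.trans ih2.1, ih1.2.trans ih2.2⟩

theorem TB_prod {X : (Λ.prod Λ').Dat} :
    (Λ.prod Λ').TB N S X ↔ Λ.TB N S (fst X) ∨ Λ'.TB N S (snd X) := by
  constructor
  · rintro (⟨π, h1, h | h⟩ | ⟨π, s, h1, h | h⟩ | ⟨π, s, l, h1, h | h⟩ | ⟨π, h1, h | h⟩)
    · exact Or.inl (Or.inl ⟨π, h1, h⟩)
    · exact Or.inr (Or.inl ⟨π, h1, h⟩)
    · exact Or.inl (Or.inr (Or.inl ⟨π, s, h1, h⟩))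
    · exact Or.inr (Or.inr (Or.inl ⟨π, s, h1, h⟩))
    · exact Or.inl (Or.inr (Or.inr (Or.inl ⟨π, s, l, h1, h⟩)))
    · exact Or.inr (Or.inr (Or.inr (Or.inl ⟨π, s, l, h1, h⟩)))
    · exact Or.inl (Or.inr (Or.inr (Or.inr ⟨π, h1, h⟩)))
    · exact Or.inr (Or.inr (Or.inr (Or.inr ⟨π, h1, h⟩)))
  · rintro ((⟨π, h1, h⟩ | ⟨π, s, h1, h⟩ | ⟨π, s, l, h1, h⟩ | ⟨π, h1, h⟩) |
      (⟨π, h1, h⟩ | ⟨π, s, h1, h⟩ | ⟨π, s, l, h1, h⟩ | ⟨π, h1, h⟩))
    · exact Or.inl ⟨π, h1, Or.inl h⟩
    · exact Or.inr (Or.inl ⟨π, s, h1, Or.inl h⟩)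
    · exact Or.inr (Or.inr (Or.inl ⟨π, s, l, h1, Or.inl h⟩))
    · exact Or.inr (Or.inr (Or.inr ⟨π, h1, Or.inl h⟩))
    · exact Or.inl ⟨π, h1, Or.inr h⟩
    · exact Or.inr (Or.inl ⟨π, s, h1, Or.inr h⟩)
    · exact Or.inr (Or.inr (Or.inl ⟨π, s, l, h1, Or.inr h⟩))
    · exact Or.inr (Or.inr (Or.inr ⟨π, h1, Or.inr h⟩))

theorem NB_prod {X : (Λ.prod Λ').Dat} :
    (Λ.prod Λ').NB N S X ↔ Λ.NB N S (fst X) ∧ Λ'.NB N S (snd X) := by
  constructor
  · intro h
    exact ⟨fun Y hY hb => h (pair Y (snd X)) (hY.pair_left (snd X)) (TB_prod.2 (Or.inl hb)),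
      fun Y hY hb => h (pair (fst X) Y) (hY.pair_right (fst X)) (TB_prod.2 (Or.inr hb))⟩
  · rintro ⟨h1, h2⟩ Y hY hb
    rcases TB_prod.1 hb with hb | hb
    · exact h1 _ hY.split.1 hb
    · exact h2 _ hY.split.2 hb

end Lay

/-- exchange of the subtrees at `z` and `z'` -/
def swapP (z z' π : Path) : Path :=
  if z <+: π then z' ++ π.drop z.length else if z' <+: π then z ++ π.drop z'.length else π

/-- special heights `0, 1, 3, 7, ...` -/
def Special (h : ℕ) : Prop := ∃ i, h + 1 = 2 ^ i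

/-- the shape of a perfect tree -/
structure Shape (h : ℕ) (S : Path → St) : Prop where
  leaf : ∀ π : Path, π.length ≤ h → ((S π).leaf = true ↔ π.length = h)
  par : ∀ (π : Path) s, π.length < h → (S (π ++ [s])).par = !s

/-- correct static labels on the tree of height `h` -/
structure VS (h : ℕ) (S : Path → St) : Prop extends Shape h S where
  sp : ∀ π : Path, π.length ≤ h → ((S π).sp = true ↔ Special (h - π.length))
  col : ∀ (π : Path) s, π.length < h → (S (π ++ [s])).col = if s then (S π).sp else (S π).col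
  upf : ∀ (π : Path) s t, π.length < h →
    (S (π ++ [s])).upf t = (s != t || ((S π).upf t && !(S π).sp))

/-- the static rules -/
def LS : Lay where
  Cd := Unit
  Hm := Unit
  finC := inferInstance
  finH := inferInstance
  inhC := inferInstance
  inhH := inferInstance
  EM _ _ _ _ _ _ := False
  BE sc _ sp _ := sc.col ≠ (if sc.par then sp.col else sp.sp) ∨
    ∃ t, sc.upf t ≠ (sc.par == t || (sp.upf t && !sp.sp))
  LM _ _ _ := False
  BL s _ := s.leaf = true ∧ s.sp = false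
  HM _ _ _ _ _ _ _ := False
  BA _ _ _ _ _ := False
  BH _ _ := False

/-! ### particle systems -/

/-- freezing state of a chain cell; `m = false`: empty, `m = true`: full -/
inductive Fz
  | none
  | front (m : Bool)
  | deep (m : Bool)
  deriving DecidableEq, Fintype

/-- not frozen -/
def Fz.soft (z : Fz) : Prop := ∀ m, z ≠ Fz.deep m

/-- consistent states of a cell `p` and the cell `c` below it -/
def Fz.ok (p c : Fz) : Prop :=
  (p.soft ∧ c = Fz.none) ∨ ∃ m, p = Fz.deep m ∧ (c = Fz.front m ∨ c = Fz.deep m)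

/-- what the home knows -/
def Fz.res : Fz → Option Bool
  | Fz.deep m => some m
  | _ => Option.none

/-- a chain cell -/
abbrev PC := Fin 3 × Fz

/-- the particle system with capacities `cap` (of the cell of a node in the chain running in
direction `t`) comparing the two inner spines below each node: the left capacity is at most the
right one, with equality iff `eqf` -/
def PS (cap : St → Bool → ℕ) (eqf : St → Bool) : Lay where
  Cd := Bool → PC
  Hm := Bool × (Bool → Option Bool)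
  finC := inferInstance
  finH := inferInstance
  inhC := ⟨fun _ => (0, Fz.none)⟩
  inhH := inferInstance
  EM sc c sp p c' p' := ∃ t x y, t = !sc.par ∧ c' = Function.update c t x ∧
    p' = Function.update p t y ∧
    (((p t).2.soft ∧ (c t).2.soft ∧ x.2 = (c t).2 ∧ y.2 = (p t).2 ∧ x.1.val + 1 = (c t).1.val ∧
        y.1.val = (p t).1.val + 1 ∧ (c t).1.val ≤ cap sc t ∧ y.1.val ≤ cap sp t) ∨
      ∃ m, (p t).2 = Fz.front m ∧ (c t).2 = Fz.none ∧ (p t).1.val = (if m then cap sp t else 0) ∧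
        x = ((c t).1, Fz.front m) ∧ y = ((p t).1, Fz.deep m))
  BE sc c _ p := ¬ Fz.ok (p (!sc.par)).2 (c (!sc.par)).2
  LM s c c' := ∃ m, (c s.par).2 = Fz.none ∧ c' = Function.update c s.par ((c s.par).1, Fz.front m)
  BL s c := ∃ t, cap s t < (c t).1.val ∨
    ∃ m, (c t).2 = Fz.deep m ∧ (c t).1.val ≠ (if m then cap s t else 0)
  HM s _ g sl c g' c' := ∃ x, c' = Function.update c (!s) x ∧
    (((c (!s)).2.soft ∧ x.2 = (c (!s)).2 ∧ x.1.val = (c (!s)).1.val + 1 ∧ x.1.val ≤ cap sl (!s) ∧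
        g.1 = s ∧ g' = (!s, g.2)) ∨
      ∃ m, (c (!s)).2 = Fz.front m ∧ (c (!s)).1.val = (if m then cap sl (!s) else 0) ∧
        g.2 s = Option.none ∧ x = ((c (!s)).1, Fz.deep m) ∧
        g' = (g.1, Function.update g.2 s (some m)))
  BA s sh g sl c := g.2 s ≠ (c (!s)).2.res ∨
    (g.1 = false ∧ g.2 (!s) = some false ∧ 0 < (c (!s)).1.val) ∨
    (g.1 = false ∧ g.2 (!s) = some true ∧ (c (!s)).1.val < cap sl (!s) ∧ (s = true → eqf sh = true))
  BH s g := (g.1 = true ∧ (g.2 false = some false ∨ g.2 true = some true)) ∨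
    (g.2 false = some true ∧ g.2 true = some true ∧ eqf s = false) ∨
    (s.leaf = true ∧ g ≠ (false, fun _ => Option.none))

/-- total capacity of the inner spine on side `s` below `π` in the tree of height `h` -/
def capSum (cap : St → Bool → ℕ) (h : ℕ) (S : Path → St) (π : Path) (s : Bool) : ℕ :=
  ∑ i ∈ Finset.range (h - π.length), cap (S (π ++ s :: List.replicate i (!s))) (!s)

/-- the capacities are as claimed -/
def CapOK (cap : St → Bool → ℕ) (eqf : St → Bool) (h : ℕ) (S : Path → St) : Prop :=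
  ∀ π : Path, π.length < h → capSum cap h S π false ≤ capSum cap h S π true ∧
    (eqf (S π) = true ↔ capSum cap h S π false = capSum cap h S π true)

/-- number of particles on the outer spine in direction `t` of the subtree of height `k` at `z` -/
def psum {cap : St → Bool → ℕ} {eqf : St → Bool} (X : (PS cap eqf).Dat) (k : ℕ) (z : Path)
    (t : Bool) : ℕ :=
  ∑ i ∈ Finset.range (k + 1), ((X (z ++ List.replicate i t)).1 t).1.val

/-- capacities for the comparison of heights -/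
def cap0 (s : St) (t : Bool) : ℕ := if s.par = t then 1 else 2

/-- capacities for the recognition of special heights -/
def cap1 (s : St) (t : Bool) : ℕ :=
  if t then (if s.upf t then 2 else 1) else (if s.upf t && !s.sp then 1 else 2)

/-! ### the colour system -/

/-- marks: below the pebble, the pebble, above the pebble (path continues in direction `d`) -/
inductive Mk
  | U
  | P
  | M (d : Bool)
  deriving DecidableEq, Fintype

/-- modes -/
inductive Md
  | free
  | sw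
  | eq
  deriving DecidableEq

instance : Fintype Md := ⟨{Md.free, Md.sw, Md.eq}, fun x => by cases x <;> simp⟩

/-- phases -/
inductive Ph
  | plain
  | one (a : Bool)
  | two (b : Bool)
  deriving DecidableEq, Fintype

/-- state of the messenger -/
structure Msg where
  side : Bool
  md : Md
  ph : Ph
  e : Bool → Bool
  f : Bool → Bool
  deriving DecidableEq, Fintype

/-- arrows pointing to the messenger -/
inductive Ar
  | up
  | dn
  | here (q : Msg)
  deriving DecidableEq, Fintype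

/-- roles of the cells of a node -/
inductive Role
  | H (s : Bool)
  | D
  | S
  deriving DecidableEq, Fintype

/-- a cell -/
structure Cell where
  mk' ::
  mr : Mk
  ar : Ar
  ct : Bool
  deriving DecidableEq, Fintype

/-- role of the preceding cell (at the parent `sp`) of a cell at the child in direction `d` -/
def prv (sp : St) (d : Bool) : Role → Option Role
  | Role.H _ => none
  | Role.D => if sp.sp then some (Role.H d) else some Role.D
  | Role.S => if d then (if sp.sp then some Role.D else none) else some Role.S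

/-- admissible directions -/
def okd (s : St) (d : Bool) : Role → Prop
  | Role.H t => s.leaf = false ∧ s.sp = true ∧ d = t
  | Role.D => s.leaf = false ∧ (s.sp = true → d = true)
  | Role.S => s.leaf = false ∧ d = false

/-- cells that are not counted -/
def preR (s : St) : Role → Bool
  | Role.H _ => true
  | Role.D => !s.sp
  | Role.S => false

/-- last cells -/
def lastR (s : St) : Role → Bool
  | Role.H _ => false
  | _ => s.leaf

/-- moves on a link: `x` upper cell, `y` lower cell, `pu`, `pl` their flags `preR`, `ll` the flag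
`lastR` of the lower cell -/
def CellMove (d pu pl ll : Bool) (x y x' y' : Cell) : Prop :=
  ∃ q, x.ar = Ar.here q ∧ y.ar = Ar.up ∧
    ((x.mr = Mk.M d ∧ x' = ⟨x.mr, Ar.dn, x.ct⟩ ∧ y' = ⟨y.mr, Ar.here q, y.ct⟩) ∨
     (x.mr = Mk.P ∧ y.mr = Mk.U ∧ q.e q.side = pu ∧ q.f q.side = false ∧
        x' = ⟨Mk.M d, Ar.dn, x.ct⟩ ∧ ∃ ph ct, y' = ⟨Mk.P, Ar.here ⟨q.side, q.md, ph,
          Function.update q.e q.side pl, Function.update q.f q.side ll⟩, ct⟩ ∧
        (((pl = true ∨ q.md = Md.free) ∧ ph = q.ph ∧ ct = y.ct) ∨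
         (pl = false ∧ q.md ≠ Md.free ∧ q.side = false ∧ q.ph = Ph.plain ∧ ph = Ph.one y.ct ∧
            ct = false) ∨
         (pl = false ∧ q.md ≠ Md.free ∧ q.side = true ∧ q.ph = Ph.one ct ∧ ph = Ph.two y.ct ∧
            (q.md = Md.eq → y.ct = ct)))))

/-- forbidden states of a single cell -/
def CellBad (s : St) (r : Role) (x : Cell) : Prop :=
  (∃ d, x.mr = Mk.M d ∧ ¬ okd s d r) ∨
  (x.ar = Ar.dn ∧ ∀ d, x.mr ≠ Mk.M d) ∨
  (x.ct = true ∧ (preR s r = true ∨ (r = Role.S ∧ s.col = false))) ∨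
  (∃ q, x.ar = Ar.here q ∧
    ((q.md = Md.free ∧ q.ph ≠ Ph.plain) ∨
     (x.mr = Mk.P ∧ (q.e q.side ≠ preR s r ∨ q.f q.side ≠ lastR s r ∨
       (q.side = false ∧ q.ph ≠ Ph.plain ∧ (preR s r = true ∨ x.ct = true)) ∨
       (q.side = true ∧ ∃ b, q.ph = Ph.two b ∧ (preR s r = true ∨ (q.md = Md.eq ∧ x.ct ≠ b))))) ∨
     (∃ t, r = Role.H t ∧ (q.side ≠ t ∨ (q.md ≠ Md.free ∧ q.ph = Ph.plain ∧
       (q.e false ≠ q.e true ∨ (q.md = Md.eq ∧ q.f false = true))))))) ∨
  (∃ t, r = Role.H t ∧ x.mr = Mk.U)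

/-- the colour system -/
def LJ : Lay where
  Cd := Role → Cell
  Hm := Unit
  finC := inferInstance
  finH := inferInstance
  inhC := ⟨fun _ => ⟨Mk.U, Ar.up, false⟩⟩
  inhH := inferInstance
  EM sc c sp p c' p' := ∃ rc rp x y, prv sp (!sc.par) rc = some rp ∧ okd sp (!sc.par) rp ∧
    CellMove (!sc.par) (preR sp rp) (preR sc rc) (lastR sc rc) (p rp) (c rc) x y ∧
    c' = Function.update c rc y ∧ p' = Function.update p rp x
  BE sc c sp p := ∃ rc, (∀ t, rc ≠ Role.H t) ∧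
    ¬ ((((c rc).mr ≠ Mk.U) ↔ ∃ rp, prv sp (!sc.par) rc = some rp ∧ (p rp).mr = Mk.M (!sc.par)) ∧
      (((c rc).ar ≠ Ar.up) ↔ ∃ rp, prv sp (!sc.par) rc = some rp ∧ (p rp).mr = Mk.M (!sc.par) ∧
        (p rp).ar = Ar.dn))
  LM s c c' :=
    (∃ r q b, preR s r = false ∧ c r = ⟨Mk.P, Ar.here q, false⟩ ∧ q.side = false ∧
      q.md ≠ Md.free ∧ q.ph = Ph.two b ∧
      c' = Function.update c r ⟨Mk.P, Ar.here ⟨q.side, q.md, Ph.plain, q.e, q.f⟩, b⟩) ∨
    (∃ q, (c (Role.H false)).ar = Ar.here q ∧ q.side = false ∧ (c (Role.H true)).ar = Ar.up ∧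
      c' = Function.update (Function.update c (Role.H false)
        ⟨(c (Role.H false)).mr, Ar.up, (c (Role.H false)).ct⟩) (Role.H true)
        ⟨(c (Role.H true)).mr, Ar.here ⟨true, q.md, q.ph, q.e, q.f⟩, (c (Role.H true)).ct⟩) ∨
    (∃ q m, (c (Role.H false)).ar = Ar.here q ∧ q.md = Md.free ∧ q.ph = Ph.plain ∧
      ((q.e false = true ∧ q.e true = true) ∨ (q.f false = true ∧ q.f true = true ∧ m = Md.sw)) ∧
      c' = Function.update c (Role.H false)
        ⟨(c (Role.H false)).mr, Ar.here ⟨q.side, m, q.ph, q.e, q.f⟩, (c (Role.H false)).ct⟩)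
  BL s c := (∃ r, CellBad s r (c r)) ∨
    ((c (Role.H false)).ar = Ar.up ↔ (c (Role.H true)).ar = Ar.up)
  HM _ _ _ _ _ _ _ := False
  BA _ _ _ _ _ := False
  BH _ _ := False

/-- the full data layer -/
def LF : Lay := LS.prod ((PS cap0 fun _ => true).prod ((PS cap1 St.sp).prod LJ))

end Vale.Agent.P192
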