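import Vale.Agent.P192.SysDefs
import Vale.Agent.P192.LayDefs

/-! The rewriting system simulating a data layer on trees written in symmetric order. -/

namespace Vale.Agent.P192

variable {Λ : Lay}

/-- a cargo: mail, a control bit, and the direction of the outward trip of its owner -/
structure Cargo (Λ : Lay) where
  m : Option (St × Λ.Cd)
  chi : Bool
  dir : Bool

/-- head states: idle, holding a cargo, away on side `s` -/
inductive Hd (Λ : Lay)
  | I
  | H (c : Cargo Λ)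
  | A (s chi : Bool)

/-- letters -/
structure Lt (Λ : Lay) where
  st : St
  cd : Option Λ.Cd
  hm : Λ.Hm
  hd : Hd Λ
  pt : Bool → Option (Option (St × Λ.Cd) × Bool)

instance : Finite (Cargo Λ) := by
  have := Λ.finC
  exact Finite.of_injective (fun c : Cargo Λ => (c.m, c.chi, c.dir)) (by
    rintro ⟨_, _, _⟩ ⟨_, _, _⟩ h; simpa using h)

instance : Finite (Hd Λ) :=
  Finite.of_surjective (fun x : Unit ⊕ Cargo Λ ⊕ Bool × Bool => match x with
    | .inl _ => Hd.I
    | .inr (.inl c) => Hd.H c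
    | .inr (.inr p) => Hd.A p.1 p.2) (by
      rintro (_ | c | ⟨s, x⟩)
      · exact ⟨.inl (), rfl⟩
      · exact ⟨.inr (.inl c), rfl⟩
      · exact ⟨.inr (.inr (s, x)), rfl⟩)

instance : Finite (Lt Λ) := by
  have := Λ.finC
  have := Λ.finH
  exact Finite.of_injective (fun b : Lt Λ => (b.st, b.cd, b.hm, b.hd, b.pt)) (by
    rintro ⟨_, _, _, _, _⟩ ⟨_, _, _, _, _⟩ h; simpa using h)

/-- the head of `b` is away on side `s` -/
def Lt.away (b : Lt Λ) (s : Bool) : Prop := ∃ x, b.hd = Hd.A s x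

/-- departure of `b` towards side `s` with cargo `c` -/
def Dep (b : Lt Λ) (s : Bool) (c : Cargo Λ) (b' : Lt Λ) : Prop :=
  ∃ e, b.cd = some e ∧
    ((b.hd = Hd.I ∧ s = b.st.par ∧ c.dir = s ∧ c.m = none ∧
        b' = ⟨b.st, b.cd, b.hm, Hd.A s c.chi, b.pt⟩) ∨
     (b.hd = Hd.I ∧ s = b.st.par ∧ c.dir = s ∧ c.m = some (b.st, e) ∧
        b' = ⟨b.st, none, b.hm, Hd.A s c.chi, b.pt⟩) ∨
     (b.hd = Hd.H c ∧
        b' = ⟨b.st, b.cd, b.hm, Hd.A s (if s = b.st.par then !c.chi else false), b.pt⟩))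

/-- a leaf emits `c` towards side `s` -/
def LeafOut (b : Lt Λ) (s : Bool) (c : Cargo Λ) (b' : Lt Λ) : Prop :=
  b.st.leaf = true ∧ Dep b s c b'

/-- a node sends `c` to side `s`, using the empty token docked there -/
def NodeOut (b : Lt Λ) (s : Bool) (c : Cargo Λ) (b' : Lt Λ) : Prop :=
  b.st.leaf = false ∧ b.pt s = some (none, !c.chi) ∧
    Dep ⟨b.st, b.cd, b.hm, b.hd, Function.update b.pt s none⟩ s c b'

/-- a token arriving from side `s` docks -/
def Dock (b : Lt Λ) (s : Bool) (c : Cargo Λ) (b' : Lt Λ) : Prop :=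
  b.st.leaf = false ∧ ¬ b.away s ∧ b.pt s = none ∧ c.dir = !s ∧
    b' = ⟨b.st, b.cd, b.hm, b.hd, Function.update b.pt s (some (c.m, c.chi))⟩

/-- a node receives `c` from side `s` -/
def In (b : Lt Λ) (s : Bool) (c : Cargo Λ) (b' : Lt Λ) : Prop := Dock b s c b' ∨ NodeOut b' s c b

/-- two-letter rules between a node `b` and the leaf `l` next to it on side `s` -/
def Rs (b : Lt Λ) (s : Bool) (l b' l' : Lt Λ) : Prop :=
  (∃ c, LeafOut l (!s) c l' ∧ In b s c b') ∨
  (b.st.leaf = false ∧ l.st.leaf = true ∧ ∃ e g e', l.cd = some e ∧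
    Λ.HM s b.st b.hm l.st e g e' ∧ b' = ⟨b.st, b.cd, g, b.hd, b.pt⟩ ∧
    l' = ⟨l.st, some e', l.hm, l.hd, l.pt⟩)

/-- forbidden pairs: `l` is the neighbour of `b` on side `s` -/
def Zs (b : Lt Λ) (s : Bool) (l : Lt Λ) : Prop :=
  b.st.leaf = l.st.leaf ∨ (b.st.leaf = false ∧ l.st.leaf = true ∧
    (¬ (l.away (!s) ↔ b.pt s ≠ none) ∨
     (∃ c l', LeafOut l (!s) c l' ∧ ¬ ∃ b', In b s c b') ∨
     (∃ c b', In b' s c b ∧ ¬ ∃ l', LeafOut l' (!s) c l) ∨
     (∃ e, l.cd = some e ∧ Λ.BA s b.st b.hm l.st e)))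

/-- the rewriting system of a data layer -/
def ferry (Λ : Lay) : Sys where
  L := Lt Λ
  fin := inferInstance
  inh := by
    obtain ⟨g⟩ := Λ.inhH
    exact ⟨⟨⟨false, false, false, false, fun _ => false⟩, none, g, Hd.I, fun _ => none⟩⟩
  R1 x x' := ∃ e, x.cd = some e ∧
    ((∃ e', Λ.LM x.st e e' ∧ x' = ⟨x.st, some e', x.hm, x.hd, x.pt⟩) ∨
     ∃ s sc ec chi ec' e', x.pt s = some (some (sc, ec), chi) ∧ Λ.EM sc ec x.st e ec' e' ∧
      x' = ⟨x.st, some e', x.hm, x.hd, Function.update x.pt s (some (some (sc, ec'), chi))⟩)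
  R2 x y x' y' := Rs x true y x' y' ∨ Rs y false x y' x'
  Z1 x := (∃ e, x.cd = some e ∧ (Λ.BL x.st e ∨
      ∃ s sc ec chi, x.pt s = some (some (sc, ec), chi) ∧ Λ.BE sc ec x.st e)) ∨
    Λ.BH x.st x.hm ∨ (x.cd = none ∧ ∀ s, ¬ x.away s) ∨ (∃ s, x.away s ∧ x.pt s ≠ none) ∨
    (x.st.leaf = true ∧ ∃ s, x.pt s ≠ none) ∨
    (∃ s chi, x.hd = Hd.A s chi ∧ s ≠ x.st.par ∧ (chi = true ∨ x.cd = none))
  Z2 x y := Zs x true y ∨ Zs y false x

/-- sign of a side -/
def sg (s : Bool) : ℤ := if s then 1 else -1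

/-- position of the node `π` in the tree of height `h` with root at `p` -/
def pos : ℕ → ℤ → Path → ℤ
  | h + 1, p, s :: ρ => pos h (p + sg s * 2 ^ h) ρ
  | _, p, _ => p

/-- the static labels form a perfect tree of height `h` with root at `p` -/
def SP (w : ℤ → Lt Λ) : ℕ → ℤ → Prop
  | 0, p => (w p).st.leaf = true
  | h + 1, p => (w p).st.leaf = false ∧
      ∀ s, (w (p + sg s * 2 ^ h)).st.par = !s ∧ SP w h (p + sg s * 2 ^ h)

/-- status of a subtree: its token is inside on its own business, docked at the parent (with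
control bit, with or without mail), carrying a foreign cargo, or out on the far side -/
inductive Sts (Λ : Lay)
  | free
  | dock (chi mo : Bool)
  | carry (c : Cargo Λ)
  | exit

instance : Finite (Sts Λ) :=
  Finite.of_surjective (fun x : Bool ⊕ Cargo Λ ⊕ Bool × Bool => match x with
    | .inl false => Sts.free
    | .inl true => Sts.exit
    | .inr (.inl c) => Sts.carry c
    | .inr (.inr p) => Sts.dock p.1 p.2) (by
      rintro (_ | ⟨s, x⟩ | c | _)
      · exact ⟨.inl false, rfl⟩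
      · exact ⟨.inr (.inr (s, x)), rfl⟩
      · exact ⟨.inr (.inl c), rfl⟩
      · exact ⟨.inl true, rfl⟩)

/-- the root letter `b` with data `e`; `loc` is the cargo of its token if that is away inside -/
def Top (b : Lt Λ) (e : Λ.Cd) (loc : Option (Cargo Λ)) (st : Sts Λ) : Prop :=
  (b.hd = Hd.I ∧ b.cd = some e ∧ st = Sts.free) ∨
  (∃ c, b.hd = Hd.H c ∧ b.cd = some e ∧ st = Sts.carry c) ∨
  (∃ c, loc = some c ∧ b.hd = Hd.A b.st.par c.chi ∧ c.dir = b.st.par ∧ st = Sts.free ∧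
    ((c.m = none ∧ b.cd = some e) ∨ (c.m = some (b.st, e) ∧ b.cd = none))) ∨
  (∃ c, loc = some c ∧ b.hd = Hd.A b.st.par (!c.chi) ∧ b.cd = some e ∧ st = Sts.carry c) ∨
  (∃ chi, loc = none ∧ b.hd = Hd.A b.st.par chi ∧
    ((b.cd = some e ∧ st = Sts.dock chi false) ∨ (b.cd = none ∧ st = Sts.dock chi true))) ∨
  (b.hd = Hd.A (!b.st.par) false ∧ b.cd = some e ∧
    ((∃ c, loc = some c ∧ st = Sts.carry c) ∨ (loc = none ∧ st = Sts.exit)))

/-- the root letter `b` and its child on side `s` (labels `sc`, data `ec`, status `st`) -/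
def Side (b : Lt Λ) (s : Bool) (sc : St) (ec : Λ.Cd) (st : Sts Λ) (loc : Option (Cargo Λ)) :
    Prop :=
  (b.away s ∧ b.pt s = none ∧ ((∃ c, st = Sts.carry c ∧ loc = some c) ∨
    (st = Sts.exit ∧ loc = none))) ∨
  (¬ b.away s ∧ ((b.pt s = none ∧ st = Sts.free) ∨
    (∃ chi, b.pt s = some (none, chi) ∧ st = Sts.dock chi false) ∨
    (∃ chi, b.pt s = some (some (sc, ec), chi) ∧ st = Sts.dock chi true)))

/-- valid configurations of the tree of height `h` with root at `p`, with static labels `S`,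
data `E` and status `st` -/
def FV (w : ℤ → Lt Λ) : ℕ → ℤ → (Path → St) → Λ.Dat → Sts Λ → Prop
  | 0, p, S, E, st => (w p).st = S [] ∧ (w p).hm = (E []).2 ∧ (S []).leaf = true ∧
      (∀ s, (w p).pt s = none) ∧ Top (w p) (E []).1 none st
  | h + 1, p, S, E, st => (w p).st = S [] ∧ (w p).hm = (E []).2 ∧ (S []).leaf = false ∧
      ∃ (loc : Option (Cargo Λ)) (sc : Bool → Sts Λ), Top (w p) (E []).1 loc st ∧
        ∀ s, (S [s]).par = !s ∧ Side (w p) s (S [s]) (E [s]).1 (sc s) loc ∧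
          FV w h (p + sg s * 2 ^ h) (fun ρ => S (s :: ρ)) (fun ρ => E (s :: ρ)) (sc s)

/-- configurations at rest; the root head is `hd` -/
def Rest (w : ℤ → Lt Λ) : ℕ → ℤ → (Path → St) → Λ.Dat → Hd Λ → Prop
  | 0, p, S, E, hd => w p = ⟨S [], some (E []).1, (E []).2, hd, fun _ => none⟩ ∧
      (S []).leaf = true
  | h + 1, p, S, E, hd => w p = ⟨S [], some (E []).1, (E []).2, hd, fun _ => none⟩ ∧
      (S []).leaf = false ∧ ∀ s, (S [s]).par = !s ∧
        Rest w h (p + sg s * 2 ^ h) (fun ρ => S (s :: ρ)) (fun ρ => E (s :: ρ)) Hd.I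

/-- position of the outermost leaf on side `σ` -/
def bl (h : ℕ) (p : ℤ) (σ : Bool) : ℤ := p + sg σ * (2 ^ h - 1)

/-- change of status when the cargo `c` leaves the tree on side `σ` (root labels `s0`, data `e`) -/
def EmitR (s0 : St) (e : Λ.Cd) (st : Sts Λ) (σ : Bool) (c : Cargo Λ) (st' : Sts Λ) : Prop :=
  (σ = s0.par ∧ st = Sts.free ∧ c.dir = σ ∧ ((c.m = none ∧ st' = Sts.dock c.chi false) ∨
    (c.m = some (s0, e) ∧ st' = Sts.dock c.chi true))) ∨
  (σ = s0.par ∧ st = Sts.carry c ∧ st' = Sts.dock (!c.chi) false) ∨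
  (σ = !s0.par ∧ st = Sts.carry c ∧ st' = Sts.exit)

/-- not away -/
def Hd.home (hd : Hd Λ) : Prop := ∀ s chi, hd ≠ Hd.A s chi

end Vale.Agent.P192
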