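import Vale.Agent.P193.Defs

/-! Shared definitions for the group part (finitely presented Burnside problem). -/

namespace Vale.Agent.P192

open scoped commutatorElement
open Vale.Agent.P193 (wd)

/-- a graded nil algebra over `F_2`: the ring-theoretic input of the group part -/
structure GA (A : Type) [Ring A] where
  Z : Type
  gen : Z → A
  span : ∀ a : A, a ∈ AddSubgroup.closure (Set.range (wd gen))
  iota : ZMod 2 →+* A
  eps : A →+* ZMod 2
  eps_gen : ∀ z, eps (gen z) = 0
  psi : ∀ (R : ℕ) (α : Matrix (Fin R) (Fin R) (ZMod 2)), ∃ ψ : A →+* Matrix (Fin R) (Fin R) A,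
    ∀ z, ψ (gen z) = α.map fun c => iota c * gen z
  nil : ∀ (m : Type) [Fintype m] [DecidableEq m] (M : Matrix m m A),
    (∀ i j, eps (M i j) = 0) → IsNilpotent M

/-- a local ring of characteristic two with residue field `F_2` -/
structure Loc (A : Type) [Ring A] where
  iota : ZMod 2 →+* A
  eps : A →+* ZMod 2
  unit : ∀ a, eps a = 1 → IsUnit a

theorem Loc.two {A : Type} [Ring A] (L : Loc A) : (1 + 1 : A) = 0 := by
  have : ((1 : ZMod 2) + 1) = 0 := by decide
  rw [← map_one L.iota, ← map_add, this, map_zero]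

theorem Loc.add_self {A : Type} [Ring A] (L : Loc A) (r : A) : r + r = 0 := by
  rw [← one_mul r, ← add_mul, L.two, zero_mul]

/-- the local ring structure of a graded nil algebra -/
def GA.loc {A : Type} [Ring A] (N : GA A) : Loc A where
  iota := N.iota
  eps := N.eps
  unit a ha := by
    obtain ⟨k, hk⟩ := N.nil Unit (Matrix.of fun _ _ => 1 - a) (by simp [ha])
    have h1 : IsNilpotent (1 - a) := by
      refine ⟨k, ?_⟩
      have h2 : ∀ j : ℕ, ((Matrix.of fun _ _ : Unit => 1 - a) ^ j) () () = (1 - a) ^ j := by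
        intro j
        induction j with
        | zero => simp
        | succ j ih => simp [pow_succ, Matrix.mul_apply, ih]
      rw [← h2, hk]; rfl
    simpa using h1.isUnit_one_sub

/-- a Steinberg system -/
structure StS {ι R Γ : Type*} [Add R] [Mul R] [Group Γ] (x : ι → ι → R → Γ) : Prop where
  add : ∀ i j, i ≠ j → ∀ r s, x i j (r + s) = x i j r * x i j s
  comm : ∀ i j k l, i ≠ j → k ≠ l → j ≠ k → i ≠ l → ∀ r s, Commute (x i j r) (x k l s)
  mul : ∀ i j k, i ≠ j → j ≠ k → i ≠ k → ∀ r s, ⁅x i j r, x j k s⁆ = x i k (r * s)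

section peirce

variable {M : Type*} [Ring M]

/-- the parabolic subgroup of an idempotent -/
def Qp (e : M) (he : e * e = e) : Subgroup Mˣ where
  carrier := {g | (1 - e) * (g : M) * e = 0 ∧ (1 - e) * ((g⁻¹ : Mˣ) : M) * e = 0}
  one_mem' := by simp [sub_mul, he]
  inv_mem' := by rintro g ⟨h1, h2⟩; exact ⟨h2, by simpa using h1⟩
  mul_mem' := by
    have key : ∀ a b : M, (1 - e) * a * e = 0 → (1 - e) * b * e = 0 → (1 - e) * (a * b) * e = 0 := by
      intro a b ha hb
      calc (1 - e) * (a * b) * e = (1 - e) * a * e * (b * e) + (1 - e) * a * ((1 - e) * b * e) := by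
            noncomm_ring
        _ = 0 := by rw [ha, hb]; simp
    rintro a b ⟨h1, h2⟩ ⟨h3, h4⟩
    exact ⟨by simpa using key _ _ h1 h3, by simpa using key _ _ h4 h2⟩

/-- block diagonal part -/
def dgM (e a : M) : M := e * a * e + (1 - e) * a * (1 - e)

open Classical in
/-- block diagonal part of a unit (junk value `1` if that is not a unit) -/
noncomputable def dgf (e : M) (g : Mˣ) : Mˣ :=
  if h : IsUnit (dgM e (g : M)) then h.unit else 1

theorem dgM_mul {e : M} (he : e * e = e) {a b : M} (ha : (1 - e) * a * e = 0)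
    (hb : (1 - e) * b * e = 0) : dgM e (a * b) = dgM e a * dgM e b := by
  have h1 : e * (1 - e) = 0 := by rw [mul_sub, he]; simp
  have h2 : (1 - e) * e = 0 := by rw [sub_mul, he]; simp
  have h3 : (1 - e) * (1 - e) = 1 - e := by rw [mul_sub, h2]; simp
  have e1 : e * (a * b) * e = e * a * e * (b * e) := by
    calc e * (a * b) * e = e * a * e * (b * e) + e * a * ((1 - e) * b * e) := by noncomm_ring
      _ = _ := by rw [hb]; simp
  have e2 : (1 - e) * (a * b) * (1 - e) = (1 - e) * a * (1 - e) * (b * (1 - e)) := by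
    calc (1 - e) * (a * b) * (1 - e) = (1 - e) * a * e * (b * (1 - e)) +
          (1 - e) * a * (1 - e) * (b * (1 - e)) := by noncomm_ring
      _ = _ := by rw [ha]; simp
  calc dgM e (a * b) = e * a * e * (b * e) + (1 - e) * a * (1 - e) * (b * (1 - e)) := by
        rw [dgM, e1, e2]
    _ = e * a * (e * e) * (b * e) + e * a * (e * (1 - e)) * (b * (1 - e)) +
          (1 - e) * a * ((1 - e) * e) * (b * e) +
          (1 - e) * a * ((1 - e) * (1 - e)) * (b * (1 - e)) := by rw [he, h1, h2, h3]; simp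
    _ = _ := by simp only [dgM]; noncomm_ring

theorem dgM_one {e : M} (he : e * e = e) : dgM e 1 = 1 := by
  simp [dgM, mul_sub, sub_mul, he]

theorem dgf_val {e : M} (he : e * e = e) {g : Mˣ} (hg : g ∈ Qp e he) :
    ((dgf e g : Mˣ) : M) = dgM e g := by
  have : IsUnit (dgM e (g : M)) :=
    ⟨⟨dgM e g, dgM e (g⁻¹ : Mˣ), by rw [← dgM_mul he hg.1 hg.2]; simp [dgM_one he],
      by rw [← dgM_mul he hg.2 hg.1]; simp [dgM_one he]⟩, rfl⟩
  simp [dgf, this]

theorem dgf_mul {e : M} (he : e * e = e) {g h : Mˣ} (hg : g ∈ Qp e he) (hh : h ∈ Qp e he) :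
    dgf e (g * h) = dgf e g * dgf e h := by
  ext
  rw [Units.val_mul, dgf_val he hg, dgf_val he hh, dgf_val he (mul_mem hg hh), Units.val_mul,
    dgM_mul he hg.1 hh.1]

theorem dgf_one {e : M} (he : e * e = e) : dgf e 1 = 1 := by
  ext; rw [dgf_val he (one_mem _)]; simp [dgM_one he]

theorem dgf_inv {e : M} (he : e * e = e) {g : Mˣ} (hg : g ∈ Qp e he) :
    dgf e g⁻¹ = (dgf e g)⁻¹ := by
  apply eq_inv_of_mul_eq_one_left
  rw [← dgf_mul he (inv_mem hg) hg, inv_mul_cancel, dgf_one he]

theorem dgM_tri {e : M} (he : e * e = e) (a : M) : (1 - e) * dgM e a * e = 0 := by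
  have h2 : (1 - e) * e = 0 := by rw [sub_mul, he]; simp
  calc (1 - e) * dgM e a * e = (1 - e) * e * (a * e * e) + (1 - e) * (1 - e) * a * ((1 - e) * e) := by
        simp only [dgM]; noncomm_ring
    _ = 0 := by rw [h2]; simp

theorem dgf_mem {e : M} (he : e * e = e) {g : Mˣ} (hg : g ∈ Qp e he) : dgf e g ∈ Qp e he :=
  ⟨by rw [dgf_val he hg]; exact dgM_tri he _,
    by rw [← dgf_inv he hg, dgf_val he (inv_mem hg)]; exact dgM_tri he _⟩

theorem dgM_dgM {e : M} (he : e * e = e) (a : M) : dgM e (dgM e a) = dgM e a := by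
  have h1 : e * (1 - e) = 0 := by rw [mul_sub, he]; simp
  have h2 : (1 - e) * e = 0 := by rw [sub_mul, he]; simp
  have h3 : (1 - e) * (1 - e) = 1 - e := by rw [mul_sub, h2]; simp
  calc dgM e (dgM e a) = e * e * a * (e * e) + e * (1 - e) * a * ((1 - e) * e) +
        ((1 - e) * e * a * (e * (1 - e)) + (1 - e) * (1 - e) * a * ((1 - e) * (1 - e))) := by
        simp only [dgM]; noncomm_ring
    _ = _ := by rw [he, h1, h2, h3]; simp [dgM]

theorem dgf_dgf {e : M} (he : e * e = e) {g : Mˣ} (hg : g ∈ Qp e he) :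
    dgf e (dgf e g) = dgf e g := by
  ext; rw [dgf_val he (dgf_mem he hg), dgf_val he hg, dgM_dgM he]

theorem dgf_ker_comm {e : M} (he : e * e = e) {g h : Mˣ} (hg : g ∈ Qp e he) (hh : h ∈ Qp e he)
    (h1 : dgf e g = 1) (h2 : dgf e h = 1) : Commute g h := by
  have h0 : (1 - e) * e = 0 := by rw [sub_mul, he]; simp
  have key : ∀ u : Mˣ, u ∈ Qp e he → dgf e u = 1 → (u : M) = 1 + e * u * (1 - e) := by
    intro u hu h
    have h3 : dgM e (u : M) = 1 := by rw [← dgf_val he hu, h]; rfl
    calc (u : M) = dgM e u + e * u * (1 - e) + (1 - e) * u * e := by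
          simp only [dgM]; noncomm_ring
      _ = _ := by rw [h3, hu.1]; simp
  have z : ∀ a b : M, e * a * (1 - e) * (e * b * (1 - e)) = 0 := fun a b => by
    calc e * a * (1 - e) * (e * b * (1 - e)) = e * a * ((1 - e) * e) * (b * (1 - e)) := by
          noncomm_ring
      _ = 0 := by rw [h0]; simp
  ext
  rw [Units.val_mul, Units.val_mul, key g hg h1, key h hh h2]
  generalize (g : M) = a
  generalize (h : M) = b
  simp only [add_mul, mul_add, one_mul, mul_one, z, add_zero]
  abel

end peirce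

section mat

variable {κ : Type} [Fintype κ] [DecidableEq κ] {A : Type} [Ring A]

/-- the elementary matrix `1 + r E_{ab}` (junk value `1` for `a = b`) -/
def rt (a b : κ) (r : A) : (Matrix κ κ A)ˣ :=
  if h : a = b then 1 else
    ⟨1 + Matrix.single a b r, 1 - Matrix.single a b r,
      by simp [add_mul, mul_sub, Matrix.single_mul_single_of_ne _ _ _ _ (Ne.symm h)],
      by simp [sub_mul, mul_add, Matrix.single_mul_single_of_ne _ _ _ _ (Ne.symm h)]⟩

theorem rt_val {a b : κ} (h : a ≠ b) (r : A) :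
    ((rt a b r : (Matrix κ κ A)ˣ) : Matrix κ κ A) = 1 + Matrix.single a b r := by
  simp [rt, h]

theorem rt_inv_val {a b : κ} (h : a ≠ b) (r : A) :
    (((rt a b r)⁻¹ : (Matrix κ κ A)ˣ) : Matrix κ κ A) = 1 - Matrix.single a b r := by
  simp [rt, h]

/-- the diagonal matrix with the unit `u` in position `a` and `1` elsewhere -/
def dgu (a : κ) (u : Aˣ) : (Matrix κ κ A)ˣ :=
  ⟨Matrix.diagonal (Function.update 1 a (u : A)),
    Matrix.diagonal (Function.update 1 a ((u⁻¹ : Aˣ) : A)),
    by
      rw [Matrix.diagonal_mul_diagonal, ← Matrix.diagonal_one]; congr 1; funext i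
      by_cases h : i = a
      · subst h; simp
      · simp [h],
    by
      rw [Matrix.diagonal_mul_diagonal, ← Matrix.diagonal_one]; congr 1; funext i
      by_cases h : i = a
      · subst h; simp
      · simp [h]⟩

/-- coordinate projection -/
def pr (A : Type) [Ring A] (t : Finset κ) : Matrix κ κ A :=
  Matrix.diagonal fun i => if i ∈ t then 1 else 0

theorem pr_mul_pr (t : Finset κ) : pr A t * pr A t = pr A t := by
  rw [pr, Matrix.diagonal_mul_diagonal]; congr 1; funext i; split_ifs <;> simp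

/-- the elementary group on the index set `J` -/
def El (A : Type) [Ring A] (J : Finset κ) : Subgroup (Matrix κ κ A)ˣ :=
  Subgroup.closure {g | ∃ a ∈ J, ∃ b ∈ J, a ≠ b ∧ ∃ r : A, g = rt a b r}

/-- invertible matrices whose columns in `t` are standard -/
def Fx (A : Type) [Ring A] (t : Finset κ) : Subgroup (Matrix κ κ A)ˣ where
  carrier := {g | (g : Matrix κ κ A) * pr A t = pr A t}
  one_mem' := by simp
  mul_mem' := by
    intro a b ha hb
    simp only [Set.mem_setOf_eq, Units.val_mul] at *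
    rw [mul_assoc, hb, ha]
  inv_mem' := by
    intro g hg
    simp only [Set.mem_setOf_eq] at *
    nth_rewrite 1 [← hg]
    rw [← mul_assoc, Units.inv_mul, one_mul]

/-- invertible matrices whose rows in `t` are standard -/
def Fr (A : Type) [Ring A] (t : Finset κ) : Subgroup (Matrix κ κ A)ˣ where
  carrier := {g | pr A t * (g : Matrix κ κ A) = pr A t}
  one_mem' := by simp
  mul_mem' := by
    intro a b ha hb
    simp only [Set.mem_setOf_eq, Units.val_mul] at *
    rw [← mul_assoc, ha, hb]
  inv_mem' := by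
    intro g hg
    simp only [Set.mem_setOf_eq] at *
    nth_rewrite 1 [← hg]
    rw [mul_assoc, Units.mul_inv, mul_one]

/-- invertible matrices supported on `J` -/
def GLs (A : Type) [Ring A] (J : Finset κ) : Subgroup (Matrix κ κ A)ˣ := Fx A Jᶜ ⊓ Fr A Jᶜ

variable {ι : Type} [Fintype ι] [DecidableEq ι]

/-- the inclusion matrix of an injection -/
def inc (A : Type) [Ring A] (φ : ι ↪ κ) : Matrix κ ι A :=
  Matrix.of fun a i => if a = φ i then 1 else 0

theorem inc_t_mul_inc (φ : ι ↪ κ) : (inc A φ).transpose * inc A φ = 1 := by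
  ext i j
  simp [inc, Matrix.mul_apply, Matrix.one_apply, eq_comm]

/-- extension of a matrix by the identity along an injection of index sets -/
def embM (φ : ι ↪ κ) : Matrix ι ι A →* Matrix κ κ A where
  toFun M := 1 + inc A φ * (M - 1) * (inc A φ).transpose
  map_one' := by simp
  map_mul' M N := by
    have h : inc A φ * (M - 1) * (inc A φ).transpose * (inc A φ * (N - 1) * (inc A φ).transpose) =
        inc A φ * ((M - 1) * (N - 1)) * (inc A φ).transpose := by
      simp only [Matrix.mul_assoc]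
      rw [← Matrix.mul_assoc (inc A φ).transpose, inc_t_mul_inc, Matrix.one_mul]
    have h2 : M * N - 1 = (M - 1) + (N - 1) + (M - 1) * (N - 1) := by noncomm_ring
    rw [add_mul, mul_add, mul_add, h, h2]
    simp only [Matrix.mul_add, Matrix.add_mul, one_mul, mul_one]
    abel

/-- the same on invertible matrices -/
def emb (φ : ι ↪ κ) : (Matrix ι ι A)ˣ →* (Matrix κ κ A)ˣ := Units.map (embM φ)

end mat

section coc

variable {Γ : Type*} [Group Γ]

/-- coning off: for at most `m` vertices `(i, x P i)` there is a vertex which can be joined to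
every simplex among them -/
def Cone {I : Type*} (G : Subgroup Γ) (P : I → Subgroup Γ) (m : ℕ) : Prop :=
  ∀ F : List (I × Γ), F.length ≤ m → (∀ v ∈ F, v.2 ∈ G) → ∃ c : I × Γ, c.2 ∈ G ∧
    ∀ g ∈ G, ∃ g' ∈ G, g'⁻¹ * c.2 ∈ P c.1 ∧ ∀ v ∈ F, g⁻¹ * v.2 ∈ P v.1 → g'⁻¹ * v.2 ∈ P v.1

/-- a rational two-cocycle on a subgroup -/
def Coc (E : Subgroup Γ) (f : Γ → Γ → ℚ) : Prop :=
  ∀ a ∈ E, ∀ b ∈ E, ∀ c ∈ E, f a b + f (a * b) c = f b c + f a (b * c)

/-- a canonical cocycle: in the twisted group `E × ℚ` the elements `(g, 0)` have the order of `g` -/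
def Can (E : Subgroup Γ) (f : Γ → Γ → ℚ) : Prop :=
  Coc E f ∧ ∀ g ∈ E, ∀ m : ℕ, g ^ m = 1 → ∑ j ∈ Finset.range m, f (g ^ j) g = 0

/-- a periodic subgroup -/
def Per (E : Subgroup Γ) : Prop := ∀ g ∈ E, IsOfFinOrder g

/-- second coordinate of the product of the elements `(g, 0)` in the twisted group -/
def ev (f : Γ → Γ → ℚ) : List Γ → ℚ
  | [] => 0
  | g :: l => f g l.prod + ev f l

end coc

end Vale.Agent.P192
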