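import Vale.Agent.P192.WittA

/-! Part Witt: an extendable canonical cocycle vanishes on relators. -/

namespace Vale.Agent.P192

open Matrix

namespace WittAux

theorem exists_idem {m : Type} [Fintype m] [DecidableEq m] (n : Matrix m m (ZMod 2)) :
    ∃ e : Matrix m m (ZMod 2), e * e = e ∧ n * e = 0 ∧ ∀ x, n * x = 0 → e * x = x := by
  haveI : Fact (Nat.Prime 2) := ⟨Nat.prime_two⟩
  obtain ⟨q, hq⟩ := (LinearMap.ker (toLin' n)).exists_isCompl
  have h2 : n * LinearMap.toMatrix' ((LinearMap.ker (toLin' n)).projection q hq) = 0 := by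
    apply toLin'.injective
    rw [toLin'_mul, toLin'_toMatrix', map_zero]
    exact LinearMap.ext fun v => Submodule.projection_apply_mem hq v
  have h3 : ∀ x, n * x = 0 →
      LinearMap.toMatrix' ((LinearMap.ker (toLin' n)).projection q hq) * x = x := by
    intro x hx
    apply toLin'.injective
    rw [toLin'_mul, toLin'_toMatrix']
    refine LinearMap.ext fun v => Submodule.projection_apply_of_mem_left hq ?_
    rw [LinearMap.mem_ker, ← LinearMap.comp_apply, ← toLin'_mul, hx, map_zero]; rfl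
  exact ⟨_, h3 _ h2, h2, h3⟩

section shift

variable {n : ℕ} [NeZero n]

/-- part of the cyclic shift -/
def sh (S : Finset (ZMod n)) : Matrix (ZMod n) (ZMod n) (ZMod 2) :=
  of fun i j => if j = i + 1 ∧ i ∈ S then 1 else 0

theorem mul_ne {x y : Matrix (ZMod n) (ZMod n) (ZMod 2)} {i j : ZMod n} (h : (x * y) i j ≠ 0) :
    ∃ k, x i k ≠ 0 ∧ y k j ≠ 0 := by
  rw [Matrix.mul_apply] at h
  obtain ⟨k, _, hk⟩ := Finset.exists_ne_zero_of_sum_ne_zero h
  exact ⟨k, left_ne_zero_of_mul hk, right_ne_zero_of_mul hk⟩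

theorem sh_ne {S : Finset (ZMod n)} {i j : ZMod n} (h : sh S i j ≠ 0) : j = i + 1 ∧ i ∈ S := by
  by_contra h'
  exact h (by simp only [sh, of_apply, if_neg h'])

theorem sh_pow (S : Finset (ZMod n)) (m : ℕ) : ∀ i j, (sh S ^ m) i j ≠ 0 →
    j = i + m ∧ ∀ t < m, i + (t : ℕ) ∈ S := by
  induction m with
  | zero =>
    intro i j h
    refine ⟨?_, by simp⟩
    by_contra h'
    exact h (by rw [pow_zero, one_apply_ne]; intro e; exact h' (by simp [e]))
  | succ m ih =>
    intro i j h
    rw [pow_succ] at h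
    obtain ⟨k, h1, h2⟩ := mul_ne h
    obtain ⟨rfl, h3⟩ := ih i k h1
    obtain ⟨rfl, h4⟩ := sh_ne h2
    refine ⟨by push_cast; ring, fun t ht => ?_⟩
    rcases Nat.lt_succ_iff_lt_or_eq.1 ht with h | rfl
    exacts [h3 t h, h4]

theorem sh_nil {S : Finset (ZMod n)} {s : ZMod n} (hs : s ∉ S) : IsNilpotent (sh S) := by
  refine ⟨n, ?_⟩
  ext i j
  by_contra h
  have := (sh_pow S n i j h).2 (s - i).val (ZMod.val_lt _)
  rw [ZMod.natCast_zmod_val] at this
  exact hs (by simpa using this)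

theorem sh_univ_pow (m : ℕ) :
    sh (Finset.univ : Finset (ZMod n)) ^ m = of fun i j : ZMod n => if j = i + m then 1 else 0 := by
  induction m with
  | zero => ext i j; simp [one_apply, eq_comm]
  | succ m ih =>
    ext i j
    rw [pow_succ, ih, Matrix.mul_apply, Finset.sum_eq_single (i + m) (by simp +contextual) (by simp)]
    simp [sh, add_assoc]

theorem sh_add {S : Finset (ZMod n)} {s : ZMod n} (hs : s ∉ S) :
    sh S + sh {s} = sh (insert s S) := by
  ext i j
  simp only [sh, Matrix.add_apply, of_apply, Finset.mem_singleton, Finset.mem_insert]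
  by_cases h1 : j = i + 1 <;> by_cases h2 : i = s <;> by_cases h3 : i ∈ S <;> simp_all

theorem sh_sep (S : Finset (ZMod n)) {s s' : ZMod n} {j : ℕ} (h : s' ≠ s + (j + 1 : ℕ)) :
    sh {s} * sh S ^ j * sh {s'} = 0 := by
  ext a b
  by_contra h0
  obtain ⟨k', h1, h2⟩ := mul_ne h0
  obtain ⟨k, h3, h4⟩ := mul_ne h1
  obtain ⟨rfl, h5⟩ := sh_ne h3
  obtain ⟨rfl, -⟩ := sh_pow S j _ _ h4
  have h6 := (sh_ne h2).2
  rw [Finset.mem_singleton] at h5 h6
  exact h (by rw [← h6, h5]; push_cast; ring)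

end shift

theorem cyc (d : ℕ) : ∃ R : ℕ, 0 < R ∧ ∃ a e0 e1 : Matrix (Fin R) (Fin R) (ZMod 2),
    IsNilpotent (a + e0 + e1 - 1) ∧ IsNilpotent a ∧ IsNilpotent (a + e0) ∧ IsNilpotent (a + e1) ∧
    ∀ j ≤ d, e0 * a ^ j * e1 = 0 ∧ e1 * a ^ j * e0 = 0 := by
  haveI : Fact (Nat.Prime 2) := ⟨Nat.prime_two⟩
  obtain ⟨n, hn⟩ : ∃ n, 2 ^ (d + 2) = n + 1 := ⟨2 ^ (d + 2) - 1, by
    have := Nat.one_le_two_pow (n := d + 2); omega⟩
  have hd : d + 1 < 2 ^ (d + 1) := Nat.lt_two_pow_self
  have h2 : 2 ^ (d + 2) = 2 * 2 ^ (d + 1) := by ring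
  set h := 2 ^ (d + 1) with hh
  have ne : ∀ x y : ℕ, x < n + 1 → y < n + 1 → x ≠ y → (x : ZMod (n + 1)) ≠ y := by
    intro x y hx hy hxy e
    exact hxy ((ZMod.natCast_eq_natCast_iff' x y (n + 1)).1 e |> fun e => by
      rwa [Nat.mod_eq_of_lt hx, Nat.mod_eq_of_lt hy] at e)
  have h0 : (0 : ZMod (n + 1)) ≠ (h : ℕ) := by
    simpa using ne 0 h (by omega) (by omega) (by omega)
  set S : Finset (ZMod (n + 1)) := (Finset.univ.erase 0).erase (h : ℕ) with hS
  have m0 : (0 : ZMod (n + 1)) ∉ S := by simp [hS]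
  have m1 : ((h : ℕ) : ZMod (n + 1)) ∉ S := by simp [hS]
  have key : IsNilpotent (sh S + sh {0} + sh {((h : ℕ) : ZMod (n + 1))} - 1) ∧
      IsNilpotent (sh S) ∧ IsNilpotent (sh S + sh {0}) ∧
      IsNilpotent (sh S + sh {((h : ℕ) : ZMod (n + 1))}) ∧
      ∀ j ≤ d, sh {0} * sh S ^ j * sh {((h : ℕ) : ZMod (n + 1))} = 0 ∧
        sh {((h : ℕ) : ZMod (n + 1))} * sh S ^ j * sh {0} = 0 := by
    have m2 : ((h : ℕ) : ZMod (n + 1)) ∉ insert 0 S := by simp [m1, h0.symm]
    refine ⟨?_, sh_nil m0, ?_, ?_, fun j hj => ⟨sh_sep S ?_, sh_sep S ?_⟩⟩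
    · rw [sh_add m0, sh_add m2]
      have : insert ((h : ℕ) : ZMod (n + 1)) (insert 0 S) = Finset.univ := by
        ext x; simp only [hS, Finset.mem_insert, Finset.mem_erase, Finset.mem_univ]; tauto
      rw [this]
      refine ⟨2 ^ (d + 2), ?_⟩
      rw [sub_pow_char_pow_of_commute 2 (d + 2) (Commute.one_right _), sh_univ_pow, hn, one_pow]
      ext i j
      simp [one_apply, eq_comm]
    · rw [sh_add m0]; exact sh_nil m2
    · rw [sh_add m1]; exact sh_nil (s := 0) (by simp [m0, h0])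
    · rw [zero_add]; exact ne _ _ (by omega) (by omega) (by omega)
    · rw [← Nat.cast_add]
      simpa using ne 0 (h + (j + 1)) (by omega) (by omega) (by omega)
  exact ⟨n + 1, by omega, _, _, _, key⟩

section main

variable {A : Type} [Ring A] (N : GA A) {R : ℕ}

/-- constant matrices -/
def I (R : ℕ) : Matrix (Fin R) (Fin R) (ZMod 2) →+* Matrix (Fin R) (Fin R) A := N.iota.mapMatrix

theorem iota_comm (c : ZMod 2) (r : A) : N.iota c * r = r * N.iota c := by
  rcases (by decide : ∀ c : ZMod 2, c = 0 ∨ c = 1) c with rfl | rfl <;> simp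

theorem I_comm (α : Matrix (Fin R) (Fin R) (ZMod 2)) (r : A) :
    Commute (I N R α) (scalar (Fin R) r) := by
  ext i j
  simp [I, iota_comm]

/-- the substitution homomorphism -/
noncomputable def ψ (α : Matrix (Fin R) (Fin R) (ZMod 2)) : A →+* Matrix (Fin R) (Fin R) A :=
  (N.psi R α).choose

theorem ψ_wd (α : Matrix (Fin R) (Fin R) (ZMod 2)) (μ : List N.Z) :
    ψ N α (P193.wd N.gen μ) = I N R (α ^ μ.length) * scalar (Fin R) (P193.wd N.gen μ) := by
  induction μ with
  | nil => simp [P193.wd]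
  | cons z μ ih =>
    have h1 : P193.wd N.gen (z :: μ) = N.gen z * P193.wd N.gen μ := by simp [P193.wd]
    have h2 : ψ N α (N.gen z) = I N R α * scalar (Fin R) (N.gen z) := by
      rw [ψ, (N.psi R α).choose_spec z]
      ext i j; simp [I]
    rw [h1, map_mul, h2, ih, List.length_cons, pow_succ', map_mul, map_mul, mul_assoc, mul_assoc,
      ← mul_assoc (scalar _ _), ← (I_comm N _ _).eq, mul_assoc]

theorem eps_wd (μ : List N.Z) : N.eps (P193.wd N.gen μ) = 0 ^ μ.length := by
  cases μ <;> simp [P193.wd, N.eps_gen]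

theorem ext_wd {B : Type*} [AddGroup B] (f g : A →+ B)
    (h : ∀ μ, f (P193.wd N.gen μ) = g (P193.wd N.gen μ)) (r : A) : f r = g r :=
  AddMonoidHom.eqOn_closure (f := f) (g := g) (by rintro _ ⟨μ, rfl⟩; exact h μ) (N.span r)

/-- words of bounded length -/
def W (d : ℕ) : Set A := {w | ∃ μ : List N.Z, μ.length ≤ d ∧ w = P193.wd N.gen μ}

theorem exists_bound {D : Set A} (hD : D.Finite) :
    ∃ d, ∀ r ∈ D, r ∈ AddSubgroup.closure (W N d) := by
  have mono : ∀ {d d'}, d ≤ d' → AddSubgroup.closure (W N d) ≤ AddSubgroup.closure (W N d') :=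
    fun h => AddSubgroup.closure_mono fun _ ⟨μ, h1, h2⟩ => ⟨μ, h1.trans h, h2⟩
  have one : ∀ r, ∃ d, r ∈ AddSubgroup.closure (W N d) := by
    intro r
    induction N.span r using AddSubgroup.closure_induction with
    | zero => exact ⟨0, zero_mem _⟩
    | add a b _ _ ha hb =>
      obtain ⟨d, ha⟩ := ha
      obtain ⟨d', hb⟩ := hb
      exact ⟨max d d', add_mem (mono (le_max_left _ _) ha) (mono (le_max_right _ _) hb)⟩
    | neg a _ ha => exact ha.imp fun d h => neg_mem h
    | mem a ha =>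
      obtain ⟨μ, rfl⟩ := ha
      exact ⟨_, AddSubgroup.subset_closure ⟨μ, le_rfl, rfl⟩⟩
  choose b hb using one
  obtain ⟨d, hd⟩ := (hD.image b).bddAbove
  exact ⟨d, fun r hr => mono (hd ⟨r, hr, rfl⟩) (hb r)⟩

theorem ψ_tri {a e e' : Matrix (Fin R) (Fin R) (ZMod 2)} {d : ℕ}
    (h : ∀ j ≤ 3 * d, e * a ^ j * e' = 0) :
    ∀ x ∈ AddSubgroup.closure (W N d), ∀ y ∈ AddSubgroup.closure (W N d),
      ∀ z ∈ AddSubgroup.closure (W N d),
      (ψ N (a + e) x - ψ N a x) * ψ N a y * (ψ N (a + e') z - ψ N a z) = 0 := by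
  refine tri ((ψ N (a + e)).toAddMonoidHom - (ψ N a).toAddMonoidHom) (ψ N a).toAddMonoidHom
    ((ψ N (a + e')).toAddMonoidHom - (ψ N a).toAddMonoidHom) _ ?_
  rintro _ ⟨μ, h1, rfl⟩ _ ⟨ν, h2, rfl⟩ _ ⟨ξ, h3, rfl⟩
  simp only [AddMonoidHom.sub_apply, RingHom.toAddMonoidHom_eq_coe, AddMonoidHom.coe_coe, ψ_wd,
    ← sub_mul, ← map_sub]
  have c : ∀ (x y : Matrix (Fin R) (Fin R) (ZMod 2)) (v w : A),
      I N R x * scalar (Fin R) v * (I N R y * scalar (Fin R) w) =
        I N R (x * y) * scalar (Fin R) (v * w) := fun x y v w => by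
    rw [map_mul, map_mul, (I_comm N y v).symm.mul_mul_mul_comm]
  rw [c, c, pw_tri h h1 h2 h3]
  simp

theorem ψ_ie {a e e' : Matrix (Fin R) (Fin R) (ZMod 2)} {d : ℕ}
    (h : ∀ j ≤ d, e * a ^ j * e' = 0) (h' : ∀ j ≤ d, e' * a ^ j * e = 0) :
    ∀ x ∈ AddSubgroup.closure (W N d),
      ψ N (a + e + e') x + ψ N a x = ψ N (a + e) x + ψ N (a + e') x := by
  intro x hx
  refine AddMonoidHom.eqOn_closure (f := (ψ N (a + e + e')).toAddMonoidHom + (ψ N a).toAddMonoidHom)
    (g := (ψ N (a + e)).toAddMonoidHom + (ψ N (a + e')).toAddMonoidHom) ?_ hx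
  rintro _ ⟨μ, h1, rfl⟩
  simp only [AddMonoidHom.add_apply, RingHom.toAddMonoidHom_eq_coe, AddMonoidHom.coe_coe, ψ_wd,
    ← add_mul, ← map_add, pw_ie h h' _ h1]

theorem ψ_par {a e : Matrix (Fin R) (Fin R) (ZMod 2)} (he : e * e = e)
    (ha : (1 - e) * a * e = 0) (r : A) :
    (1 - I N R e) * ψ N a r * I N R e = 0 ∧ ψ N (dgM e a) r = dgM (I N R e) (ψ N a r) := by
  have c : ∀ (x y z : Matrix (Fin R) (Fin R) (ZMod 2)) (w : A),
      I N R x * (I N R y * scalar (Fin R) w) * I N R z = I N R (x * y * z) * scalar (Fin R) w := by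
    intro x y z w
    rw [map_mul, map_mul, mul_assoc, mul_assoc, ← (I_comm N _ _).eq]; simp only [mul_assoc]
  have c1 : 1 - I N R e = I N R (1 - e) := by simp
  constructor
  · refine ext_wd N (((AddMonoidHom.mulRight (I N R e)).comp
      (AddMonoidHom.mulLeft (1 - I N R e))).comp (ψ N a).toAddMonoidHom) 0 (fun μ => ?_) r
    change (1 - I N R e) * ψ N a _ * I N R e = 0
    rw [ψ_wd, c1, c, (tri_pow he ha _).1]; simp
  · refine ext_wd N (ψ N (dgM e a)).toAddMonoidHom ((((AddMonoidHom.mulRight (I N R e)).comp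
      (AddMonoidHom.mulLeft (I N R e))) + ((AddMonoidHom.mulRight (1 - I N R e)).comp
      (AddMonoidHom.mulLeft (1 - I N R e)))).comp (ψ N a).toAddMonoidHom) (fun μ => ?_) r
    change ψ N (dgM e a) _ = dgM (I N R e) (ψ N a _)
    rw [ψ_wd, ψ_wd, ← (tri_pow he ha _).2, dgM, dgM, c1, c, c, map_add, add_mul]

theorem ψ_idem {e : Matrix (Fin R) (Fin R) (ZMod 2)} (he : e * e = e) (r : A) :
    ψ N e r = I N R e * scalar (Fin R) r + (1 - I N R e) * scalar (Fin R) (N.iota (N.eps r)) := by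
  refine ext_wd N (ψ N e).toAddMonoidHom
    ((AddMonoidHom.mulLeft (I N R e)).comp (scalar (Fin R)).toAddMonoidHom +
      (AddMonoidHom.mulLeft (1 - I N R e)).comp
        ((scalar (Fin R)).comp (N.iota.comp N.eps)).toAddMonoidHom) (fun μ => ?_) r
  change ψ N e _ = I N R e * scalar (Fin R) _ + (1 - I N R e) * scalar (Fin R) (N.iota (N.eps _))
  rw [ψ_wd, eps_wd]
  cases μ with
  | nil => simp [P193.wd]
  | cons z μ =>
    rw [List.length_cons, IsIdempotentElem.pow_succ_eq _ he]; simp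

/-- corner of a homomorphism -/
def cut {B : Type} [Ring B] (e : B) (he : e * e = e) (φ : A →+* B) (h : ∀ r, Commute e (φ r)) :
    A →ₙ+* B where
  toFun r := e * φ r
  map_zero' := by simp
  map_add' := by simp [mul_add]
  map_mul' x y := by
    rw [map_mul, (h x).symm.mul_mul_mul_comm, he]

theorem cut_apply {B : Type} [Ring B] (e : B) (he : e * e = e) (φ : A →+* B)
    (h : ∀ r, Commute e (φ r)) (r : A) : cut e he φ h r = e * φ r := rfl

variable {ι : Type} [Fintype ι] [DecidableEq ι]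

/-- flattening of block matrices -/
def cp (ι A : Type) [Fintype ι] [DecidableEq ι] [Ring A] (R : ℕ) :
    (Matrix ι ι (Matrix (Fin R) (Fin R) A))ˣ →* (Matrix (ι × Fin R) (ι × Fin R) A)ˣ :=
  Units.map (compRingEquiv ι (Fin R) A).toMonoidHom

theorem cp_rt (a b : ι) (h : a ≠ b) (i j : Fin R) (r : A) :
    cp ι A R (rt a b (single i j r)) = rt (a, i) (b, j) r := by
  ext1
  rw [rt_val (by simp [h]), cp, Units.coe_map, rt_val h]
  change compRingEquiv ι (Fin R) A _ = _
  rw [map_add, map_one, compRingEquiv_apply, comp_single_single]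

theorem cp_mem (a b : ι) (β : Matrix (Fin R) (Fin R) A) :
    cp ι A R (rt a b β) ∈ El A Finset.univ := by
  by_cases h : a = b
  · rw [rt, dif_pos h, map_one]; exact one_mem _
  induction β using Matrix.induction_on' with
  | h_zero =>
    have : (rt a b (0 : Matrix (Fin R) (Fin R) A)) = 1 := by ext1; simp [rt_val h]
    rw [this, map_one]; exact one_mem _
  | h_add p q hp hq => rw [rt_StS.add _ _ h, map_mul]; exact mul_mem hp hq
  | h_std_basis i j x => rw [cp_rt a b h]; exact rt_mem_El (by simp) (by simp) _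

end main

end WittAux

open WittAux in
theorem ev_zero {ι : Type} [Fintype ι] [DecidableEq ι] {A : Type} [Ring A] (N : GA A)
    {f0 : (Matrix ι ι A)ˣ → (Matrix ι ι A)ˣ → ℚ}
    (hext : ∀ R : ℕ, ∃ f : (Matrix (ι × Fin R) (ι × Fin R) A)ˣ →
      (Matrix (ι × Fin R) (ι × Fin R) A)ˣ → ℚ, Can (El A Finset.univ) f ∧
      ∀ φ : ι ↪ ι × Fin R, ∀ g ∈ El A (Finset.univ : Finset ι),
        ∀ h ∈ El A (Finset.univ : Finset ι), f (emb φ g) (emb φ h) = f0 g h)
    (l : List (ι × ι × A)) (hl : ∀ t ∈ l, t.1 ≠ t.2.1)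
    (h1 : (l.map fun t => rt t.1 t.2.1 t.2.2).prod = 1) :
    ev f0 (l.map fun t => rt t.1 t.2.1 t.2.2) = 0 := by
  obtain ⟨d, hd⟩ := exists_bound N (Dl_fin l)
  obtain ⟨R, hR, a, e0, e1, n1, n2, n3, n4, hsep⟩ := cyc (3 * d)
  obtain ⟨f, hf, hf0⟩ := hext R
  set E := (El A Finset.univ).comap (cp ι A R) with hEdef
  have hF : Can E fun g h => f (cp ι A R g) (cp ι A R h) :=
    hf.comap _ (fun g hg => hg) fun g _ g' _ => map_mul _ _ _
  set F := fun g h => f (cp ι A R g) (cp ι A R h) with hFdef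
  have hE : Per E := fun g _ => by
    obtain ⟨m, hm, h⟩ := isOfFinOrder_iff_pow_eq_one.1 (gl_periodic N (cp ι A R g))
    refine isOfFinOrder_iff_pow_eq_one.2 ⟨m, hm, ?_⟩
    apply Units.map_injective (f := (compRingEquiv ι (Fin R) A).toMonoidHom)
      (compRingEquiv ι (Fin R) A).injective
    rw [map_pow, map_one]; exact h
  have hrt : ∀ a b β, rt a b β ∈ E := cp_mem
  set V := fun α : Matrix (Fin R) (Fin R) (ZMod 2) => ev F (rl l (ψ N α)) with hV
  have one : (1 : A) ∈ AddSubgroup.closure (W N d) :=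
    AddSubgroup.subset_closure ⟨[], by simp, by simp [P193.wd]⟩
  have ie : ∀ a e e', (∀ j ≤ 3 * d, e * a ^ j * e' = 0 ∧ e' * a ^ j * e = 0) →
      V (a + e + e') + V a = V (a + e) + V (a + e') := by
    intro a e e' h
    refine IE hl h1 hE hF hrt (ψ N a).toNonUnitalRingHom (ψ N (a + e)).toNonUnitalRingHom
      (ψ N (a + e')).toNonUnitalRingHom (ψ N (a + e + e'))
      (fun r hr => ψ_ie N (fun j hj => (h j (by omega)).1) (fun j hj => (h j (by omega)).2) r
        (hd r hr)) (fun r hr r' hr' => ⟨?_, ?_⟩) fun r hr w hw r' hr' =>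
      ⟨ψ_tri N (fun j hj => (h j hj).1) r (hd r hr) w (hd w hw) r' (hd r' hr'),
        ψ_tri N (fun j hj => (h j hj).2) r' (hd r' hr') w (hd w hw) r (hd r hr)⟩
    · have := ψ_tri N (fun j hj => (h j hj).1) r (hd r hr) 1 one r' (hd r' hr')
      rwa [map_one, mul_one] at this
    · have := ψ_tri N (fun j hj => (h j hj).2) r' (hd r' hr') 1 one r (hd r hr)
      rwa [map_one, mul_one] at this
  have sc : ∀ c : ZMod 2, scalar (Fin R) (N.iota c) = I N R (scalar (Fin R) c) := fun c => by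
    ext i j; by_cases h : i = j <;> simp [I, h]
  have v0 : V 0 = 0 := fin hF hrt (I N R).toNonUnitalRingHom _ fun r =>
    ⟨scalar (Fin R) (N.eps r), by rw [ψ_idem N (by simp), sc, map_zero, zero_mul, zero_add, sub_zero, one_mul]; rfl⟩
  have nil : ∀ c : ZMod 2, ∀ k, ∀ n : Matrix (Fin R) (Fin R) (ZMod 2), n ^ k = 0 →
      V (scalar (Fin R) c + n) = V (scalar (Fin R) c) := by
    intro c k
    induction k with
    | zero =>
      intro n hn
      rw [← mul_one n, ← pow_zero n, hn]; simp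
    | succ k ih =>
      intro n hn
      obtain ⟨e, he, hne, hx⟩ := exists_idem n
      have hc : scalar (Fin R) c * e = e * scalar (Fin R) c :=
        (scalar_commute c (fun _ => Commute.all _ _) e).eq
      have t1 : (1 - e) * (scalar (Fin R) c + n) * e = 0 := by
        rw [mul_assoc, add_mul, hne, add_zero, hc, ← mul_assoc, sub_mul, he]; simp
      have t2 : dgM e (scalar (Fin R) c + n) = scalar (Fin R) c + (1 - e) * n := by
        calc dgM e (scalar (Fin R) c + n) = scalar (Fin R) c + (1 - e) * n +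
              2 * (e * (scalar (Fin R) c * e)) - scalar (Fin R) c * e - e * scalar (Fin R) c +
              2 * (e * (n * e)) - n * e := by simp only [dgM]; noncomm_ring
          _ = _ := by rw [hne, hc, ← mul_assoc e e, he]; noncomm_ring
      have t3 : ∀ j, ((1 - e) * n) ^ (j + 1) = (1 - e) * n ^ (j + 1) := fun j => by
        induction j with
        | zero => simp
        | succ j ih =>
          rw [pow_succ', ih, mul_assoc, ← mul_assoc n, mul_sub, hne, pow_succ' n (j + 1)]; simp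
      have t4 : ((1 - e) * n) ^ k = 0 ∨ (1 - e) * n = 0 := by
        cases k with
        | zero => right; rw [← pow_one n, hn, mul_zero]
        | succ j => left; rw [t3, sub_mul, hx _ (by rw [← pow_succ', hn])]; simp
      have t5 : V (scalar (Fin R) c + (1 - e) * n) = V (scalar (Fin R) c) := by
        rcases t4 with h | h
        · exact ih _ h
        · rw [h, add_zero]
      rw [← t5, ← t2]
      have := par hl hE hF hrt (e := I N R e) (by rw [← map_mul, he]) (ψ N (scalar (Fin R) c + n))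
        fun r => (ψ_par N he t1 r).1
      simp only [hV]
      rw [← this]
      congr 2
      exact funext fun r => ((ψ_par N he t1 r).2).symm
  have nil0 : ∀ n, IsNilpotent n → V n = 0 := fun n ⟨k, hk⟩ => by
    simpa [v0] using nil 0 k n hk
  have v1 : V 1 = 0 := by
    obtain ⟨k, hk⟩ := n1
    have h2 := nil 1 k _ hk
    have h3 := ie a e0 e1 hsep
    rw [nil0 _ n2, nil0 _ n3, nil0 _ n4] at h3
    simp only [map_one, add_sub_cancel, add_zero] at h2 h3
    rw [← h2, h3]
  have vs : ∀ s, V (pr (ZMod 2) {s}) = ev f0 (l.map fun t => rt t.1 t.2.1 t.2.2) := by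
    intro s
    set e := pr (ZMod 2) ({s} : Finset (Fin R)) with hedef
    have he : e * e = e := pr_mul_pr _
    have he1 : I N R e * I N R e = I N R e := by rw [← map_mul, he]
    have he2 : (1 - I N R e) * (1 - I N R e) = 1 - I N R e := by
      simp [mul_sub, sub_mul, he1]
    have h2 := IE hl h1 hE hF hrt 0 (cut (I N R e) he1 (scalar (Fin R)) (I_comm N e))
      (cut (1 - I N R e) he2 ((scalar (Fin R)).comp (N.iota.comp N.eps))
        fun r => (Commute.one_left _).sub_left (I_comm N e _)) (ψ N e)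
      (fun r _ => by rw [ψ_idem N he]; exact add_zero _) (fun r _ r' _ => ⟨?_, ?_⟩) (by simp)
    · rw [fin hF hrt (I N R).toNonUnitalRingHom (0 : A →ₙ+* _) fun r => ⟨0, (map_zero _).symm⟩,
        fin hF hrt (I N R).toNonUnitalRingHom (cut (1 - I N R e) _ _ _) fun r =>
          ⟨(1 - e) * scalar (Fin R) (N.eps r), by
            change _ = I N R _
            rw [map_mul, map_sub, map_one, ← sc]; rfl⟩, add_zero, add_zero] at h2
      simp only [hV]
      rw [h2]
      let φ : ι ↪ ι × Fin R := ⟨fun i => (i, s), fun i j h => (Prod.ext_iff.1 h).1⟩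
      rw [← ev_map (P := El A Finset.univ) (emb φ) (fun _ _ _ _ => map_mul _ _ _) (hf0 φ) _
        fun g hg => by
          obtain ⟨t, _, rfl⟩ := List.mem_map.1 hg
          exact rt_mem_El (by simp) (by simp) _,
        ← ev_map (f := f) (P := ⊤) (cp ι A R) (fun _ _ _ _ => map_mul _ _ _)
          (fun _ _ _ _ => rfl) _ fun _ _ => trivial, rl, List.map_map, List.map_map]
      congr 1
      refine List.map_congr_left fun t ht => ?_
      have : cut (I N R e) he1 (scalar (Fin R)) (I_comm N e) t.2.2 = single s s t.2.2 := by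
        change I N R e * _ = _
        ext i j
        simp only [hedef, I, pr, scalar_apply, mul_diagonal, RingHom.mapMatrix_apply,
          Matrix.map_apply, diagonal_apply, single_apply, Finset.mem_singleton]
        by_cases h1 : i = j
        · subst h1
          by_cases h2 : i = s
          · subst h2; simp
          · simp [h2, Ne.symm h2]
        · rw [if_neg h1, if_neg (fun h => h1 (h.1.symm.trans h.2)), map_zero, zero_mul]
      simp only [Function.comp, this, cp_rt _ _ (hl t ht), emb_rt]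
      rfl
    · simp only [cut_apply, NonUnitalRingHom.zero_apply, sub_zero]
      rw [(I_comm N _ _).eq, mul_assoc, ← mul_assoc (I N R e), mul_sub, he1]; simp
    · simp only [cut_apply, NonUnitalRingHom.zero_apply, sub_zero, RingHom.comp_apply]
      rw [mul_assoc, ← mul_assoc (scalar _ _), ← (I_comm N _ _).eq, ← mul_assoc, ← mul_assoc,
        sub_mul, he1]; simp
  have vI : ∀ J : Finset (Fin R),
      V (pr (ZMod 2) J) = J.card * ev f0 (l.map fun t => rt t.1 t.2.1 t.2.2) := by
    intro J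
    induction J using Finset.induction_on with
    | empty => simpa [pr] using v0
    | insert s J hs ih =>
      have z1 : pr (ZMod 2) J * pr (ZMod 2) {s} = 0 ∧ pr (ZMod 2) {s} * pr (ZMod 2) J = 0 := by
        simp only [pr, diagonal_mul_diagonal, ← diagonal_zero]
        constructor <;> congr 1 <;> funext i <;> by_cases h : i = s <;> simp [h, hs]
      have h2 := ie 0 (pr (ZMod 2) J) (pr (ZMod 2) {s}) fun j _ => by
        cases j <;> simp [z1]
      have h3 : pr (ZMod 2) J + pr (ZMod 2) {s} = pr (ZMod 2) (insert s J) := by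
        simp only [pr, diagonal_add]
        congr 1; funext i; by_cases h : i = s <;> simp [h, hs]
      rw [zero_add, zero_add, h3, v0, add_zero, ih, vs] at h2
      rw [h2, Finset.card_insert_of_notMem hs]; push_cast; ring
  have h2 := vI Finset.univ
  rw [show pr (ZMod 2) (Finset.univ : Finset (Fin R)) = 1 by simp [pr], v1] at h2
  simpa [hR.ne'] using h2

end Vale.Agent.P192
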