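import Vale.Agent.P192.StbB
import Vale.Agent.P192.Cent
import Vale.Agent.P192.Ext
import Vale.Agent.P192.Witt
import Vale.Agent.P192.Alg

/-! The group attached to a rewriting system. -/

namespace Vale.Agent.P192

theorem periodic_of_StS {A : Type} [Ring A] (N : GA A) {Γ : Type} [Group Γ]
    {x : Fin 11 → Fin 11 → A → Γ} (hx : StS x)
    (hgen : Subgroup.closure {y | ∃ i j r, i ≠ j ∧ y = x i j r} = ⊤)
    (π : Γ →* (Matrix (Fin 11) (Fin 11) A)ˣ) (hπ : ∀ i j, i ≠ j → ∀ r, π (x i j r) = rt i j r)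
    (g : Γ) : IsOfFinOrder g := by
  have hc := ker_central (by simp) N.loc hx hgen π hπ
  have hsq : ∀ i j, i ≠ j → ∀ r, x i j r * x i j r = 1 := fun i j hij r => by
    rw [← hx.add i j hij, N.loc.add_self, hx.zero hij]
  have hrange : π.range = El A Finset.univ := by
    rw [MonoidHom.range_eq_map, ← hgen, MonoidHom.map_closure, El]
    congr 1
    ext y
    constructor
    · rintro ⟨_, ⟨i, j, r, hij, rfl⟩, rfl⟩
      exact ⟨i, Finset.mem_univ _, j, Finset.mem_univ _, hij, r, hπ i j hij r⟩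
    · rintro ⟨i, -, j, -, hij, r, rfl⟩
      exact ⟨_, ⟨i, j, r, hij, rfl⟩, hπ i j hij r⟩
  have hlist : ∀ z : Γ, ∃ l : List (Fin 11 × Fin 11 × A), (∀ t ∈ l, t.1 ≠ t.2.1) ∧
      z = (l.map fun t => x t.1 t.2.1 t.2.2).prod := by
    intro z
    have hz : z ∈ Subgroup.closure {y | ∃ i j r, i ≠ j ∧ y = x i j r} := by rw [hgen]; trivial
    induction hz using Subgroup.closure_induction'' with
    | one => exact ⟨[], by simp, by simp⟩
    | mem y hy =>
      obtain ⟨i, j, r, hij, rfl⟩ := hy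
      exact ⟨[(i, j, r)], by simpa using hij, by simp⟩
    | inv_mem y hy =>
      obtain ⟨i, j, r, hij, rfl⟩ := hy
      exact ⟨[(i, j, r)], by simpa using hij, by
        simpa using inv_eq_of_mul_eq_one_left (hsq i j hij r)⟩
    | mul a b _ _ ha hb =>
      obtain ⟨l, h1, rfl⟩ := ha
      obtain ⟨l', h2, rfl⟩ := hb
      exact ⟨l ++ l', fun t ht => (List.mem_append.1 ht).elim (h1 t) (h2 t), by simp⟩
  have hker : ∀ z ∈ π.ker, IsOfFinOrder z := by
    intro z hz
    by_contra hinf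
    obtain ⟨κ, hκ, hz0⟩ := exists_kappa π.ker hc hz hinf
    obtain ⟨f0, h0, hf⟩ := base_coc π hrange (fun g _ => gl_periodic N g) hc κ hκ
    obtain ⟨l, hl, rfl⟩ := hlist z
    have e : (l.map fun t => x t.1 t.2.1 t.2.2).map π = l.map fun t => rt t.1 t.2.1 t.2.2 := by
      rw [List.map_map]
      exact List.map_congr_left fun t ht => hπ _ _ (hl t ht) _
    have h1 : (l.map fun t => rt t.1 t.2.1 t.2.2).prod = 1 := by
      rw [← e, ← map_list_prod]; exact hz
    have h2 := ev_zero N (fun R => ext_coc (by simp) N h0 _) l hl h1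
    rw [← e, hf _ _ hz] at h2
    · exact hz0 h2
    · intro y hy
      obtain ⟨t, ht, rfl⟩ := List.mem_map.1 hy
      exact isOfFinOrder_iff_pow_eq_one.2 ⟨2, by norm_num, by rw [pow_two, hsq _ _ (hl t ht)]⟩
  obtain ⟨m, hm, h1⟩ := isOfFinOrder_iff_pow_eq_one.1 (gl_periodic N (π g))
  exact (hker (g ^ m) (by rw [MonoidHom.mem_ker, map_pow, h1])).of_pow hm.ne'

theorem exists_group (S : Sys) (hinf : S.Inf) (hnil : S.Nil) :
    ∃ (G : Type) (_ : Group G), Group.IsFinitelyPresented G ∧ Infinite G ∧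
      ∀ g : G, IsOfFinOrder g := by
  obtain ⟨A, _, hfp, hA, ⟨N⟩⟩ := exists_GA S hinf hnil
  obtain ⟨Γ, _, h1, x, π, hx, hgen, hπ⟩ :=
    exists_fp_cover hfp N.loc.two (rt_StS (κ := Fin 11) (A := A))
  refine ⟨Γ, inferInstance, h1, Infinite.of_injective (x 0 1) fun r s hrs => ?_,
    periodic_of_StS N hx hgen π hπ⟩
  have h2 := congrArg (fun y => ((π y : (Matrix (Fin 11) (Fin 11) A)ˣ) :
    Matrix (Fin 11) (Fin 11) A) 0 1) hrs
  simpa [hπ 0 1 (by decide), rt_val (show (0 : Fin 11) ≠ 1 by decide)] using h2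

end Vale.Agent.P192
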