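import Vale.Agent.P192.KDefs

/-! Part Lin, first half: elementary matrices, column transitivity, Gauss elimination. -/

namespace Vale.Agent.P192
open Matrix

variable {κ : Type} [Fintype κ] [DecidableEq κ] {A : Type} [Ring A]

theorem rt_StS : StS (rt : κ → κ → A → (Matrix κ κ A)ˣ) := by
  refine ⟨fun i j h r s => ?_, fun i j k l h1 h2 h3 h4 r s => ?_, fun i j k h1 h2 h3 r s => ?_⟩
  · ext1
    simp only [Units.val_mul, rt_val h, add_mul, mul_add, one_mul, mul_one,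
      single_mul_single_of_ne _ _ _ _ h.symm, single_add]
    abel
  · ext1
    simp only [Units.val_mul, rt_val h1, rt_val h2, add_mul, mul_add, one_mul, mul_one,
      single_mul_single_of_ne _ _ _ _ h3, single_mul_single_of_ne _ _ _ _ h4.symm]
    abel
  · ext1
    simp only [commutatorElement_def, Units.val_mul, rt_val h1, rt_val h2, rt_val h3,
      rt_inv_val h1, rt_inv_val h2, add_mul, mul_add, mul_sub, sub_mul, one_mul, mul_one,
      single_mul_single_same, single_mul_single_of_ne _ _ _ _ h1.symm,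
      single_mul_single_of_ne _ _ _ _ h2.symm, single_mul_single_of_ne _ _ _ _ h3.symm,
      add_zero]
    abel

theorem El_mono {J J' : Finset κ} (h : J ⊆ J') : El A J ≤ El A J' :=
  Subgroup.closure_mono fun _ ⟨a, ha, b, hb, e⟩ => ⟨a, h ha, b, h hb, e⟩

theorem rt_mem_El {J : Finset κ} {a b : κ} (ha : a ∈ J) (hb : b ∈ J) (r : A) :
    rt a b r ∈ El A J := by
  by_cases h : a = b
  · rw [rt, dif_pos h]; exact one_mem _
  · exact Subgroup.subset_closure ⟨a, ha, b, hb, h, r, rfl⟩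

theorem mem_Fx {t : Finset κ} {g : (Matrix κ κ A)ˣ} : g ∈ Fx A t ↔
    ∀ i, ∀ j ∈ t, (g : Matrix κ κ A) i j = (1 : Matrix κ κ A) i j := by
  change (g : Matrix κ κ A) * pr A t = pr A t ↔ _
  simp only [← Matrix.ext_iff, pr, mul_diagonal, diagonal_apply, one_apply]
  refine forall_congr' fun i => forall_congr' fun j => ?_
  by_cases hj : j ∈ t <;> by_cases hij : i = j <;> simp_all

theorem mem_Fr {t : Finset κ} {g : (Matrix κ κ A)ˣ} : g ∈ Fr A t ↔
    ∀ i ∈ t, ∀ j, (g : Matrix κ κ A) i j = (1 : Matrix κ κ A) i j := by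
  change pr A t * (g : Matrix κ κ A) = pr A t ↔ _
  simp only [← Matrix.ext_iff, pr, diagonal_mul, diagonal_apply, one_apply]
  refine forall_congr' fun i => ?_
  by_cases hi : i ∈ t <;> simp [hi]

theorem mem_GLs {J : Finset κ} {g : (Matrix κ κ A)ˣ} : g ∈ GLs A J ↔
    ∀ i j, i ∉ J ∨ j ∉ J → (g : Matrix κ κ A) i j = (1 : Matrix κ κ A) i j := by
  rw [GLs, Subgroup.mem_inf, mem_Fx, mem_Fr]
  simp only [Finset.mem_compl]
  exact ⟨fun h i j hij => hij.elim (fun hi => h.2 i hi j) (h.1 i j),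
    fun h => ⟨fun i j hj => h i j (.inr hj), fun i hi j => h i j (.inl hi)⟩⟩

theorem mem_Fx' {t : Finset κ} {g : (Matrix κ κ A)ˣ} : g ∈ Fx A t ↔
    ∀ j ∈ t, (g : Matrix κ κ A) *ᵥ Pi.single j 1 = Pi.single j 1 := by
  rw [mem_Fx, forall_comm]
  refine forall_congr' fun j => ?_
  rw [forall_comm]
  refine forall_congr' fun _ => ?_
  simp [funext_iff, one_apply, Pi.single_apply]

theorem Fx_anti {t t' : Finset κ} (h : t ⊆ t') : Fx A t' ≤ Fx A t :=
  fun _ hg => mem_Fx.2 fun i j hj => mem_Fx.1 hg i j (h hj)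

theorem GLs_mono {J J' : Finset κ} (h : J ⊆ J') : GLs A J ≤ GLs A J' :=
  fun _ hg => mem_GLs.2 fun i j hij => mem_GLs.1 hg i j (hij.imp (mt (@h _)) (mt (@h _)))

theorem GLs_le_Fx {J t : Finset κ} (h : ∀ i ∈ t, i ∉ J) : GLs A J ≤ Fx A t :=
  fun _ hg => mem_Fx.2 fun i j hj => mem_GLs.1 hg i j (.inr (h j hj))

theorem El_le_GLs (J : Finset κ) : El A J ≤ GLs A J := by
  refine (Subgroup.closure_le _).2 ?_
  rintro _ ⟨a, ha, b, hb, hab, r, rfl⟩
  refine mem_GLs.2 fun i j hij => ?_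
  rw [rt_val hab, Matrix.add_apply, single_apply_of_ne, add_zero]
  rintro ⟨rfl, rfl⟩
  exact hij.elim (· ha) (· hb)

theorem rt_mem_Fx {t : Finset κ} {a b : κ} (hb : b ∉ t) (r : A) : rt a b r ∈ Fx A t := by
  by_cases h : a = b
  · rw [rt, dif_pos h]; exact one_mem _
  · refine mem_Fx.2 fun i j hj => ?_
    rw [rt_val h, Matrix.add_apply, single_apply_of_ne, add_zero]
    rintro ⟨-, rfl⟩
    exact hb hj

theorem Fx_le_Qp (t : Finset κ) : Fx A t ≤ Qp (pr A t) (pr_mul_pr t) := by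
  have key : ∀ g ∈ Fx A t, (1 - pr A t) * (g : Matrix κ κ A) * pr A t = 0 := fun g hg => by
    rw [mul_assoc, show (g : Matrix κ κ A) * pr A t = pr A t from hg, sub_mul, pr_mul_pr, one_mul,
      sub_self]
  exact fun g hg => ⟨key g hg, key _ (inv_mem hg)⟩

theorem embM_single {ι : Type} [Fintype ι] [DecidableEq ι] (φ : ι ↪ κ) (a b : ι) (r : A) :
    embM φ (1 + single a b r) = 1 + single (φ a) (φ b) r := by
  change 1 + inc A φ * (1 + single a b r - 1) * (inc A φ).transpose = _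
  congr 1
  rw [add_sub_cancel_left]
  ext i j
  simp only [inc, mul_apply, single_apply, of_apply, transpose_apply, ite_and, mul_ite, ite_mul,
    one_mul, mul_one, zero_mul, mul_zero, Finset.sum_ite_eq, Finset.mem_univ, if_true]
  rw [Finset.sum_eq_single b (by intro x _ hx; simp [hx.symm]) (by simp)]
  by_cases h1 : φ a = i <;> by_cases h2 : φ b = j <;> simp [h1, h2, Ne.symm]

theorem emb_rt {ι : Type} [Fintype ι] [DecidableEq ι] (φ : ι ↪ κ) (a b : ι) (r : A) :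
    emb φ (rt a b r) = rt (φ a) (φ b) r := by
  by_cases h : a = b
  · subst h; simp [rt]
  · ext1
    rw [rt_val (φ.injective.ne h), emb, Units.coe_map, rt_val h, embM_single]

theorem dgu_val (a : κ) (u : Aˣ) :
    ((dgu a u : (Matrix κ κ A)ˣ) : Matrix κ κ A) = 1 + single a a ((u : A) - 1) := by
  ext i j
  simp only [dgu, diagonal_apply, Matrix.add_apply, one_apply, single_apply, Function.update_apply]
  by_cases h1 : i = j <;> by_cases h2 : i = a <;> simp_all [eq_comm]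

theorem emb_dgu {ι : Type} [Fintype ι] [DecidableEq ι] (φ : ι ↪ κ) (a : ι) (u : Aˣ) :
    emb φ (dgu a u) = dgu (φ a) u := by
  ext1
  rw [dgu_val, emb, Units.coe_map, dgu_val, embM_single]

theorem emb_El {ι : Type} [Fintype ι] [DecidableEq ι] (φ : ι ↪ κ) {K : Finset ι} {J : Finset κ}
    (h : ∀ a ∈ K, φ a ∈ J) {g : (Matrix ι ι A)ˣ} (hg : g ∈ El A K) : emb φ g ∈ El A J := by
  refine (Subgroup.closure_le ((El A J).comap (emb φ))).2 ?_ hg
  rintro _ ⟨a, ha, b, hb, -, r, rfl⟩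
  change emb φ _ ∈ El A J
  rw [emb_rt]
  exact rt_mem_El (h a ha) (h b hb) r

theorem dgu_mul (a : κ) (u v : Aˣ) : dgu a (u * v) = dgu a u * dgu a v := by
  ext1
  simp only [Units.val_mul, dgu_val, add_mul, mul_add, one_mul, mul_one, single_mul_single_same,
    add_assoc, ← single_add]
  congr 2
  noncomm_ring

theorem dgu_one (a : κ) : dgu a (1 : Aˣ) = 1 := by
  ext1; simp [dgu_val]

/-- `dgu a` as a homomorphism -/
def dguH (a : κ) : Aˣ →* (Matrix κ κ A)ˣ := ⟨⟨dgu a, dgu_one a⟩, dgu_mul a⟩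

theorem dgu_mem_GLs {J : Finset κ} {a : κ} (ha : a ∈ J) (u : Aˣ) : dgu a u ∈ GLs A J := by
  refine mem_GLs.2 fun i j hij => ?_
  rw [dgu_val, Matrix.add_apply, single_apply_of_ne, add_zero]
  rintro ⟨rfl, rfl⟩
  exact hij.elim (· ha) (· ha)

theorem dgu_conj {J : Finset κ} (a : κ) (u : Aˣ) {g : (Matrix κ κ A)ˣ} (hg : g ∈ El A J) :
    dgu a u * g * (dgu a u)⁻¹ ∈ El A J := by
  refine (Subgroup.closure_le ((El A J).comap (MulAut.conj (dgu a u)).toMonoidHom)).2 ?_ hg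
  rintro _ ⟨b, hb, c, hc, hbc, r, rfl⟩
  change dgu a u * rt b c r * (dgu a u)⁻¹ ∈ El A J
  have : dgu a u * rt b c r * (dgu a u)⁻¹ = rt b c (Function.update (1 : κ → A) a (u : A) b * r *
      Function.update (1 : κ → A) a ((u⁻¹ : Aˣ) : A) c) := by
    ext1
    rw [Units.val_mul, Units.val_mul, rt_val hbc, rt_val hbc, mul_add, add_mul, mul_one,
      Units.mul_inv]
    congr 1
    ext i j
    change (diagonal _ * _ * diagonal _ : Matrix κ κ A) i j = _
    rw [mul_diagonal, diagonal_mul, single_apply, single_apply]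
    split_ifs with h
    · rw [h.1, h.2]
    · simp
  rw [this]
  exact rt_mem_El hb hc _

theorem whitehead {J : Finset κ} {a b : κ} (ha : a ∈ J) (hb : b ∈ J) (u : Aˣ) :
    dgu a u * (dgu b u)⁻¹ ∈ El A J := by
  by_cases hab : a = b
  · rw [hab, mul_inv_cancel]; exact one_mem _
  have h2 : (dgu 0 u * dgu 1 u⁻¹ : (Matrix (Fin 2) (Fin 2) A)ˣ) =
      rt 0 1 (u : A) * rt 1 0 (-((u⁻¹ : Aˣ) : A)) * rt 0 1 (u : A) *
        (rt 0 1 (-1) * rt 1 0 1 * rt 0 1 (-1)) := by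
    ext1
    simp only [Units.val_mul, dgu_val, rt_val (show (0 : Fin 2) ≠ 1 by decide),
      rt_val (show (1 : Fin 2) ≠ 0 by decide)]
    ext i j
    fin_cases i <;> fin_cases j <;> simp [mul_apply, Fin.sum_univ_two, one_apply, single_apply]
  let φ : Fin 2 ↪ κ := ⟨![a, b], by
    intro i j h
    fin_cases i <;> fin_cases j <;> simp_all⟩
  have h3 : (dgu 0 u * dgu 1 u⁻¹ : (Matrix (Fin 2) (Fin 2) A)ˣ) ∈ El A Finset.univ := by
    rw [h2]
    repeat' apply mul_mem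
    all_goals exact rt_mem_El (Finset.mem_univ _) (Finset.mem_univ _) _
  have h4 := emb_El φ (J := J) (fun i _ => by fin_cases i <;> assumption) h3
  rw [map_mul, emb_dgu, emb_dgu] at h4
  rwa [show (dgu b u)⁻¹ = dgu b u⁻¹ from (map_inv (dguH b) u).symm]

theorem gl_periodic (N : GA A) (g : (Matrix κ κ A)ˣ) : IsOfFinOrder g := by
  obtain ⟨m, hm, h⟩ := isOfFinOrder_iff_pow_eq_one.1
    (isOfFinOrder_of_finite (Units.map (N.eps.mapMatrix (m := κ)).toMonoidHom g))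
  obtain ⟨k, hk⟩ := N.nil κ (((g ^ m : (Matrix κ κ A)ˣ) : Matrix κ κ A) - 1) fun i j => by
    have := congrArg (fun x : (Matrix κ κ (ZMod 2))ˣ => (x : Matrix κ κ (ZMod 2))) h
    rw [← map_pow] at this
    have h2 : N.eps.mapMatrix (((g ^ m : (Matrix κ κ A)ˣ) : Matrix κ κ A) - 1) = 0 := by
      rw [map_sub, map_one, sub_eq_zero]; exact this
    exact congrFun (congrFun h2 i) j
  have h2 : ∀ x : Matrix κ κ A, x + x = 0 := fun x => by
    ext i j; exact N.loc.add_self _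
  have h3 : ∀ (x : Matrix κ κ A) (j : ℕ), (1 + x) ^ 2 ^ j = 1 + x ^ 2 ^ j := fun x j => by
    induction j with
    | zero => simp
    | succ j ih =>
      rw [pow_succ, pow_mul, pow_mul, ih, sq, sq, add_mul, mul_add, mul_add, one_mul, one_mul,
        mul_one, add_assoc, ← add_assoc (x ^ 2 ^ j), h2, zero_add]
  refine isOfFinOrder_iff_pow_eq_one.2 ⟨m * 2 ^ k, by positivity, ?_⟩
  ext1
  have := h3 (((g ^ m : (Matrix κ κ A)ˣ) : Matrix κ κ A) - 1) k
  rw [add_sub_cancel, pow_eq_zero_of_le Nat.lt_two_pow_self.le hk, add_zero] at this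
  rw [pow_mul, Units.val_pow_eq_pow_val, this, Units.val_one]

theorem El_gen {J : Finset κ} (hJ : 3 ≤ J.card) :
    El A J ≤ Subgroup.closure (⋃ i : J, ((El A J ⊓ Fx A {i.1} : Subgroup _) : Set _)) := by
  refine Subgroup.closure_mono ?_
  rintro _ ⟨a, ha, b, hb, hab, r, rfl⟩
  exact Set.mem_iUnion.2 ⟨⟨a, ha⟩, rt_mem_El ha hb r, rt_mem_Fx (by simpa using hab.symm) r⟩

theorem exists_unip {S T : Finset κ} (hd : ∀ a ∈ S, a ∉ T) {H : Subgroup (Matrix κ κ A)ˣ}
    (hH : ∀ a ∈ S, ∀ b ∈ T, ∀ r : A, rt a b r ∈ H) (M : Matrix κ κ A)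
    (hM : ∀ i j, i ∉ S ∨ j ∉ T → M i j = 0) : ∃ h ∈ H, (h : Matrix κ κ A) = 1 + M := by
  have key : ∀ s : Finset (κ × κ), s ⊆ S ×ˢ T →
      ∃ h ∈ H, (h : Matrix κ κ A) = 1 + ∑ p ∈ s, single p.1 p.2 (M p.1 p.2) := by
    intro s
    induction s using Finset.induction_on with
    | empty => exact fun _ => ⟨1, one_mem _, by simp⟩
    | insert p s hp ih =>
      intro hs
      obtain ⟨h, hh, e⟩ := ih ((Finset.subset_insert _ _).trans hs)
      have hp' := Finset.mem_product.1 (hs (Finset.mem_insert_self _ _))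
      refine ⟨rt p.1 p.2 (M p.1 p.2) * h, mul_mem (hH _ hp'.1 _ hp'.2 _) hh, ?_⟩
      have hne : p.1 ≠ p.2 := fun h => hd _ hp'.1 (h ▸ hp'.2)
      have : single p.1 p.2 (M p.1 p.2) * ∑ q ∈ s, single q.1 q.2 (M q.1 q.2) = 0 := by
        rw [Finset.mul_sum]
        refine Finset.sum_eq_zero fun q hq => single_mul_single_of_ne _ _ _ _ (fun h => ?_) _
        exact hd _ (Finset.mem_product.1 (hs (Finset.mem_insert_of_mem hq))).1 (h ▸ hp'.2)
      rw [Units.val_mul, e, rt_val hne, Finset.sum_insert hp, add_mul, one_mul, mul_add, mul_one,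
        this]
      abel
  obtain ⟨h, hh, e⟩ := key _ subset_rfl
  refine ⟨h, hh, e.trans ?_⟩
  congr 1
  conv_rhs => rw [matrix_eq_sum_single M, ← Finset.sum_product', Finset.univ_product_univ]
  refine Finset.sum_subset (Finset.subset_univ _) fun p _ hp => ?_
  rw [hM _ _ (by simpa only [Finset.mem_product, not_and_or] using hp), single_zero]

/-- generated by the elementary matrices on `J` with standard columns in `t` -/
abbrev Cl (A : Type) [Ring A] (J t : Finset κ) : Subgroup (Matrix κ κ A)ˣ :=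
  Subgroup.closure {y | ∃ a ∈ J, ∃ b ∈ J, b ∉ t ∧ a ≠ b ∧ ∃ r : A, y = rt a b r}

theorem rt_mem_Cl {J t : Finset κ} {a b : κ} (ha : a ∈ J) (hb : b ∈ J) (hbt : b ∉ t) (r : A) :
    rt a b r ∈ Cl A J t := by
  by_cases h : a = b
  · rw [rt, dif_pos h]; exact one_mem _
  · exact Subgroup.subset_closure ⟨a, ha, b, hb, hbt, h, r, rfl⟩

theorem Cl_le_El (J t : Finset κ) : Cl A J t ≤ El A J :=
  Subgroup.closure_mono fun _ ⟨a, ha, b, hb, _, e⟩ => ⟨a, ha, b, hb, e⟩

theorem Cl_le_Fx (J t : Finset κ) : Cl A J t ≤ Fx A t := by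
  refine (Subgroup.closure_le _).2 ?_
  rintro _ ⟨a, -, b, -, hb, -, r, rfl⟩
  exact rt_mem_Fx hb r

theorem rt_mulVec {a b : κ} (h : a ≠ b) (r : A) (v : κ → A) (i : κ) :
    (((rt a b r : (Matrix κ κ A)ˣ) : Matrix κ κ A) *ᵥ v) i =
      v i + if a = i then r * v b else 0 := by
  rw [rt_val h, add_mulVec, one_mulVec, Pi.add_apply, single_mulVec]
  simp [Function.update_apply, eq_comm]

theorem col_trans {J t : Finset κ} {c c' : κ} (hc : c ∈ J) (hct : c ∉ t) (hc' : c' ∈ J)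
    (hct' : c' ∉ t) (hcc : c' ≠ c) {u : κ → A} (hu : ∀ i ∉ J, u i = 0) {b : κ} (hb : b ∈ J)
    (hbt : b ∉ t) (hub : IsUnit (u b)) :
    ∃ e ∈ Cl A J t, (e : Matrix κ κ A) *ᵥ Pi.single c 1 = u := by
  have k1 : ∀ u : κ → A, (∀ i ∉ J, u i = 0) → u c = 1 →
      ∃ e ∈ Cl A J t, (e : Matrix κ κ A) *ᵥ Pi.single c 1 = u := by
    intro u hu h1
    obtain ⟨e, he, e1⟩ := exists_unip (S := J.erase c) (T := {c}) (H := Cl A J t) (by simp +contextual)
      (fun a ha b hb r => rt_mem_Cl (Finset.mem_of_mem_erase ha) (by simp_all) (by simp_all) r)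
      (of fun i j => if i ≠ c ∧ j = c then u i else 0) (fun i j hij => by
        by_cases h : i ≠ c ∧ j = c
        · simp_all
        · exact if_neg h)
    refine ⟨e, he, funext fun i => ?_⟩
    by_cases h : i = c <;> simp [e1, h, h1, one_apply]
  have k0 : ∀ (u : κ → A) (a b : κ) (v : Aˣ), a ∈ J → b ∈ J → b ∉ t → a ≠ b → u b = v →
      (∀ i ∉ J, u i = 0) → (∀ w : κ → A, (∀ i ∉ J, w i = 0) → w a = 1 →
        ∃ e ∈ Cl A J t, (e : Matrix κ κ A) *ᵥ Pi.single c 1 = w) →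
      ∃ e ∈ Cl A J t, (e : Matrix κ κ A) *ᵥ Pi.single c 1 = u := by
    intro u a b v ha hb hbt hab hv hu h
    obtain ⟨e, he, e1⟩ := h (((rt a b ((1 - u a) * (v⁻¹ : Aˣ)) : (Matrix κ κ A)ˣ) :
      Matrix κ κ A) *ᵥ u) (fun i hi => by
        rw [rt_mulVec hab, hu i hi, if_neg (by rintro rfl; exact hi ha), add_zero]) (by
        rw [rt_mulVec hab, if_pos rfl, hv, Units.inv_mul_cancel_right, add_sub_cancel])
    refine ⟨(rt a b ((1 - u a) * (v⁻¹ : Aˣ)))⁻¹ * e, mul_mem (inv_mem (rt_mem_Cl ha hb hbt _)) he, ?_⟩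
    rw [Units.val_mul, ← mulVec_mulVec, e1, mulVec_mulVec, Units.inv_mul, one_mulVec]
  obtain ⟨v, hv⟩ := hub
  by_cases hbc : b = c
  · subst hbc
    exact k0 u c' b v hc' hb hbt hcc hv.symm hu fun w hw h1 =>
      k0 w b c' 1 hb hc' hct' hcc.symm h1 hw k1
  · exact k0 u c b v hc hb hbt (Ne.symm hbc) hv.symm hu k1

theorem dgM_apply (t : Finset κ) (g : Matrix κ κ A) (i j : κ) :
    dgM (pr A t) g i j = if i ∈ t ↔ j ∈ t then g i j else 0 := by
  have : (1 : Matrix κ κ A) - pr A t = diagonal fun i => if i ∈ t then 0 else 1 := by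
    rw [pr, ← diagonal_one, diagonal_sub]; congr 1; funext i; split_ifs <;> simp
  rw [dgM, this, pr, Matrix.add_apply, mul_diagonal, diagonal_mul, mul_diagonal, diagonal_mul]
  by_cases hi : i ∈ t <;> by_cases hj : j ∈ t <;> simp [hi, hj]

theorem dgf_apply {t : Finset κ} {g : (Matrix κ κ A)ˣ} (hg : g ∈ Fx A t) (i j : κ) :
    ((dgf (pr A t) g : (Matrix κ κ A)ˣ) : Matrix κ κ A) i j =
      if i ∈ t ↔ j ∈ t then (g : Matrix κ κ A) i j else 0 := by
  rw [dgf_val (pr_mul_pr t) (Fx_le_Qp t hg), dgM_apply]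

theorem dgf_mem_GLs {J t : Finset κ} {g : (Matrix κ κ A)ˣ} (hg : g ∈ GLs A J) (ht : g ∈ Fx A t) :
    dgf (pr A t) g ∈ GLs A (J \ t) := by
  refine mem_GLs.2 fun i j hij => ?_
  rw [dgf_apply ht]
  split_ifs with h
  · by_cases hj : j ∈ t
    · exact mem_Fx.1 ht i j hj
    · exact mem_GLs.1 hg i j (by simp_all)
  · rw [one_apply_ne]
    rintro rfl
    exact h Iff.rfl

theorem dgf_eq_self {J t : Finset κ} {g : (Matrix κ κ A)ˣ} (hg : g ∈ GLs A (J \ t)) :
    dgf (pr A t) g = g := by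
  ext i j
  rw [dgf_apply (GLs_le_Fx (by simp +contextual) hg)]
  split_ifs with h
  · rfl
  · rw [mem_GLs.1 hg i j (by by_contra h2; simp_all), one_apply_ne]
    rintro rfl
    exact h Iff.rfl

theorem unip_part {J t : Finset κ} {g : (Matrix κ κ A)ˣ} (hg : g ∈ GLs A J) (ht : g ∈ Fx A t)
    {H : Subgroup (Matrix κ κ A)ˣ} (hH : ∀ a ∈ J, a ∈ t → ∀ b ∈ J, b ∉ t → ∀ r : A, rt a b r ∈ H) :
    g * (dgf (pr A t) g)⁻¹ ∈ H := by
  have h1 := dgf_mem_GLs hg ht
  have h2 : dgf (pr A t) g ∈ Fx A t := GLs_le_Fx (by simp +contextual) h1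
  have h3 : g * (dgf (pr A t) g)⁻¹ ∈ GLs A J :=
    mul_mem hg (inv_mem (GLs_mono Finset.sdiff_subset h1))
  have h4 : g * (dgf (pr A t) g)⁻¹ ∈ Fx A t := mul_mem ht (inv_mem h2)
  have h5 : dgf (pr A t) (g * (dgf (pr A t) g)⁻¹) = 1 := by
    rw [dgf_mul _ (Fx_le_Qp t ht) (Fx_le_Qp t (inv_mem h2)), dgf_eq_self (inv_mem h1),
      mul_inv_cancel]
  generalize g * (dgf (pr A t) g)⁻¹ = n at h3 h4 h5
  obtain ⟨h, hh, e⟩ := exists_unip (S := J ∩ t) (T := J \ t) (H := H) (by simp +contextual)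
    (fun a ha b hb r => hH a (by simp_all) (by simp_all) b (by simp_all) (by simp_all) r)
    ((n : Matrix κ κ A) - 1) (fun i j hij => by
      rw [Matrix.sub_apply, sub_eq_zero]
      by_cases hJ : i ∉ J ∨ j ∉ J
      · exact mem_GLs.1 h3 i j hJ
      by_cases hj : j ∈ t
      · exact mem_Fx.1 h4 i j hj
      have := dgf_apply h4 i j
      rw [h5, if_pos (by simp_all)] at this
      exact this.symm)
  rw [add_sub_cancel, Units.val_inj] at e
  exact e ▸ hh

end Vale.Agent.P192
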