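import Vale.Agent.P192.Cone
import Vale.Agent.P192.LinA

/-! Part Lin: linear algebra over a local ring with residue field `F_2`. -/

namespace Vale.Agent.P192
open Matrix

variable {κ : Type} [Fintype κ] [DecidableEq κ] {A : Type} [Ring A]

theorem zmod_two_eq_one {x : ZMod 2} (h : x ≠ 0) : x = 1 := by
  revert x; decide

theorem exists_fresh {J : Finset κ} (W : Finset (κ → ZMod 2)) (h : W.card < J.card) :
    ∃ a ∈ J, Pi.single a 1 ∉ Submodule.span (ZMod 2) (W : Set (κ → ZMod 2)) := by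
  by_contra hc
  push Not at hc
  have h1 : LinearIndependent (ZMod 2) fun a : J => (⟨Pi.single a.1 1, hc a.1 a.2⟩ :
      Submodule.span (ZMod 2) (W : Set (κ → ZMod 2))) := by
    refine LinearIndependent.of_comp (Submodule.subtype _) ?_
    have := (Pi.basisFun (ZMod 2) κ).linearIndependent.comp (fun a : J => a.1) Subtype.val_injective
    convert this using 1
    funext a
    simp
  have h2 := h1.fintype_card_le_finrank
  rw [Fintype.card_coe] at h2
  have h3 := finrank_span_finset_le_card (R := ZMod 2) W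
  rw [Set.finrank] at h3
  omega

theorem cone_lin (L : Loc A) {J : Finset κ} {G : Subgroup (Matrix κ κ A)ˣ} (h1 : El A J ≤ G)
    (h2 : G ≤ GLs A J) {m : ℕ} (hm : m + 2 ≤ J.card) :
    Cone G (fun i : J => G ⊓ Fx A {i.1}) m := by
  classical
  intro F hF hFG
  let T : Finset κ := (F.map fun v => v.1.1).toFinset
  let W : Finset (κ → ZMod 2) :=
    (F.map fun v => fun i => L.eps ((v.2 : Matrix κ κ A) i v.1.1)).toFinset
  have hT : T.card ≤ m := (List.toFinset_card_le _).trans (by simpa using hF)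
  have hW : W.card ≤ m := (List.toFinset_card_le _).trans (by simpa using hF)
  obtain ⟨c, hc, c', hc', hcc⟩ := Finset.one_lt_card.1
    (show 1 < (J \ T).card by have := Finset.le_card_sdiff T J; omega)
  rw [Finset.mem_sdiff] at hc hc'
  obtain ⟨a, ha, haW⟩ := exists_fresh (J := J) W (by omega)
  obtain ⟨x, hx, hxa⟩ := col_trans (A := A) (t := ∅) hc.1 (by simp) hc'.1 (by simp) hcc.symm
    (u := Pi.single a 1) (fun i hi => Pi.single_eq_of_ne (by rintro rfl; exact hi ha) _) ha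
    (by simp) (by simp)
  refine ⟨(⟨c, hc.1⟩, x), h1 (Cl_le_El _ _ hx), fun g hg => ?_⟩
  let t : Finset κ := Finset.univ.filter fun b => ∃ v ∈ F, v.1.1 = b ∧ g⁻¹ * v.2 ∈ Fx A {b}
  have htT : ∀ b ∈ t, b ∈ T := fun b hb => by
    obtain ⟨v, hv, rfl, -⟩ := (Finset.mem_filter.1 hb).2
    exact List.mem_toFinset.2 (List.mem_map_of_mem hv)
  let u : κ → A := ((g⁻¹ : (Matrix κ κ A)ˣ) : Matrix κ κ A) *ᵥ Pi.single a 1
  have hu : ∀ i ∉ J, u i = 0 := fun i hi => by
    simp only [u, mulVec_single_one, col_apply]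
    rw [mem_GLs.1 (h2 (inv_mem hg)) i a (.inl hi), one_apply_ne (by rintro rfl; exact hi ha)]
  obtain ⟨b, hbt, hb⟩ : ∃ b ∉ t, L.eps (u b) ≠ 0 := by
    by_contra hn
    push Not at hn
    apply haW
    have e : (Pi.single a 1 : κ → ZMod 2) =
        ∑ b, L.eps (u b) • fun i => L.eps ((g : Matrix κ κ A) i b) := by
      have : (g : Matrix κ κ A) *ᵥ u = Pi.single a 1 := by
        rw [mulVec_mulVec, Units.mul_inv, one_mulVec]
      funext i
      have h3 := congrArg L.eps (congrFun this i)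
      simp only [mulVec, dotProduct, map_sum, map_mul] at h3
      simp only [Finset.sum_apply, Pi.smul_apply, smul_eq_mul, mul_comm (L.eps (u _)), h3]
      by_cases hi : i = a <;> simp [hi]
    rw [e]
    refine Submodule.sum_mem _ fun b _ => ?_
    by_cases hb : b ∈ t
    · obtain ⟨v, hv, rfl, hv2⟩ := (Finset.mem_filter.1 hb).2
      refine Submodule.smul_mem _ _ (Submodule.subset_span (List.mem_toFinset.2
        (List.mem_map.2 ⟨v, hv, ?_⟩)))
      have h3 := mem_Fx'.1 hv2 _ (Finset.mem_singleton_self _)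
      have h4 : (v.2 : Matrix κ κ A) *ᵥ Pi.single v.1.1 1 =
          (g : Matrix κ κ A) *ᵥ Pi.single v.1.1 1 := by
        conv_rhs => rw [← h3, mulVec_mulVec, ← Units.val_mul, mul_inv_cancel_left]
      funext i
      simpa using congrArg L.eps (congrFun h4 i)
    · rw [hn b hb, zero_smul]; exact zero_mem _
  obtain ⟨e, he, heu⟩ := col_trans (t := t) hc.1 (mt (htT c) hc.2) hc'.1 (mt (htT c') hc'.2)
    hcc.symm hu (by by_contra h; exact hb (by rw [hu b h, map_zero])) hbt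
    (L.unit _ (zmod_two_eq_one hb))
  have heG := h1 (Cl_le_El _ _ he)
  refine ⟨g * e, mul_mem hg heG, ⟨G.mul_mem (G.inv_mem (G.mul_mem hg heG)) (h1 (Cl_le_El _ _ hx)),
    mem_Fx'.2 fun j hj => ?_⟩, fun v hv hv2 => ?_⟩
  · rw [Finset.mem_singleton.1 hj, _root_.mul_inv_rev, Units.val_mul, Units.val_mul,
      ← mulVec_mulVec, ← mulVec_mulVec, hxa]
    change _ *ᵥ u = _
    rw [← heu, mulVec_mulVec, Units.inv_mul, one_mulVec]
  · rw [_root_.mul_inv_rev, mul_assoc]
    refine mul_mem (inv_mem ⟨heG, Fx_anti ?_ (Cl_le_Fx _ _ he)⟩) hv2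
    exact Finset.singleton_subset_iff.2 (Finset.mem_filter.2 ⟨Finset.mem_univ _, v, hv, rfl, hv2.2⟩)

theorem gauss (L : Loc A) {J : Finset κ} {a : κ} (ha : a ∈ J) {g : (Matrix κ κ A)ˣ}
    (hg : g ∈ GLs A J) : ∃ e ∈ El A J, ∃ u : Aˣ, g = e * dgu a u := by
  induction J using Finset.strongInduction generalizing g with
  | H J ih =>
  by_cases hJ : ∃ c ∈ J, c ≠ a
  · obtain ⟨c, hc, hca⟩ := hJ
    obtain ⟨b, hb⟩ : ∃ b, L.eps ((g : Matrix κ κ A) b c) ≠ 0 := by
      by_contra hn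
      push Not at hn
      have := congrArg L.eps (congrFun (congrFun g.inv_mul c) c)
      simp [mul_apply, hn] at this
    have hu : ∀ i ∉ J, ((g : Matrix κ κ A) *ᵥ Pi.single c 1) i = 0 := fun i hi => by
      simp only [mulVec_single_one, col_apply]
      rw [mem_GLs.1 hg i c (.inl hi), one_apply_ne (by rintro rfl; exact hi hc)]
    obtain ⟨e, he, hec⟩ := col_trans (t := ∅) hc (by simp) ha (by simp) hca.symm hu (b := b)
      (by by_contra h; exact hb (by simpa using congrArg L.eps (hu b h))) (by simp)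
      (by simpa using L.unit _ (zmod_two_eq_one hb))
    have he' := Cl_le_El _ _ he
    have g1 : e⁻¹ * g ∈ GLs A J := mul_mem (inv_mem (El_le_GLs J he')) hg
    have g2 : e⁻¹ * g ∈ Fx A {c} := mem_Fx'.2 fun j hj => by
      rw [Finset.mem_singleton.1 hj, Units.val_mul, ← mulVec_mulVec, ← hec, mulVec_mulVec,
        Units.inv_mul, one_mulVec]
    obtain ⟨e2, he2, u, hu⟩ := ih (J \ {c}) (Finset.sdiff_ssubset (by simpa) (by simp))
      (by simp [ha, hca.symm]) (dgf_mem_GLs g1 g2)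
    have g3 := unip_part g1 g2 (H := El A J) fun a ha _ b hb _ r => rt_mem_El ha hb r
    refine ⟨_, mul_mem he' (mul_mem g3 (El_mono Finset.sdiff_subset he2)), u, ?_⟩
    rw [mul_assoc, mul_assoc, ← hu]
    group
  · push Not at hJ
    have key : ∀ g ∈ GLs A J, ∀ i j, ¬(i = a ∧ j = a) →
        (g : Matrix κ κ A) i j = (1 : Matrix κ κ A) i j := fun g hg i j h =>
      mem_GLs.1 hg i j (by by_contra h2; push Not at h2; exact h ⟨hJ _ h2.1, hJ _ h2.2⟩)
    have k2 : ∀ g ∈ GLs A J, (g : Matrix κ κ A) a a *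
        ((g⁻¹ : (Matrix κ κ A)ˣ) : Matrix κ κ A) a a = 1 := fun g hg => by
      have := congrFun (congrFun g.mul_inv a) a
      rwa [mul_apply, Finset.sum_eq_single a (fun b _ hb => by
        rw [key g hg a b (fun h => hb h.2), one_apply_ne hb.symm, zero_mul]) (by simp),
        one_apply_eq] at this
    refine ⟨1, one_mem _, ⟨_, _, k2 g hg, k2 _ (inv_mem hg)⟩, ?_⟩
    ext i j
    rw [one_mul, dgu_val, Matrix.add_apply, single_apply]
    split_ifs with h
    · rw [← h.1, ← h.2]; simp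
    · rw [key g hg i j fun h' => h ⟨h'.1.symm, h'.2.symm⟩, add_zero]

theorem const_mem (L : Loc A) {J : Finset κ} {g : (Matrix κ κ A)ˣ} (hg : g ∈ GLs A J)
    (hc : ∀ a b, L.iota (L.eps ((g : Matrix κ κ A) a b)) = (g : Matrix κ κ A) a b) :
    g ∈ El A J := by
  rcases J.eq_empty_or_nonempty with rfl | ⟨a, ha⟩
  · rw [show g = 1 from Units.ext (Matrix.ext fun i j => mem_GLs.1 hg i j (.inl (by simp)))]
    exact one_mem _
  obtain ⟨e, he, u, hu⟩ := gauss L ha hg
  let Φ : (Matrix κ κ A)ˣ →* (Matrix κ κ A)ˣ :=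
    Units.map ((L.iota.comp L.eps).mapMatrix (m := κ)).toMonoidHom
  have h0 : ∀ x, ((Φ x : (Matrix κ κ A)ˣ) : Matrix κ κ A) =
    (L.iota.comp L.eps).mapMatrix (x : Matrix κ κ A) := fun _ => rfl
  have h1 : Φ g = g := Units.ext (Matrix.ext hc)
  have h2 : Φ (dgu a u) = 1 := by
    ext1
    rw [h0, dgu_val, map_add, map_one, RingHom.mapMatrix_apply, map_single]
    simp [zmod_two_eq_one (u.isUnit.map L.eps).ne_zero]
  have h3 : Φ e ∈ El A J := by
    refine (Subgroup.closure_le ((El A J).comap Φ)).2 ?_ he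
    rintro _ ⟨a, ha, b, hb, hab, r, rfl⟩
    have : Φ (rt a b r) = rt a b (L.iota (L.eps r)) := by
      ext1
      rw [h0, rt_val hab, rt_val hab, map_add, map_one, RingHom.mapMatrix_apply, map_single]
      rfl
    change Φ _ ∈ El A J
    rw [this]
    exact rt_mem_El ha hb _
  rwa [← h1, hu, map_mul, h2, mul_one]

theorem dgu_move {J : Finset κ} {i j a b : κ} (hi : i ∈ J) (hj : j ∈ J) (ha : a ∈ J \ {i})
    (hb : b ∈ J \ {j}) (h3 : 3 ≤ J.card) {u : Aˣ} (h : dgu a u ∈ El A (J \ {i})) :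
    dgu b u ∈ El A (J \ {j}) := by
  obtain ⟨c, hc⟩ : (J \ {i, j}).Nonempty := Finset.card_pos.1 (by
    have := Finset.le_card_sdiff {i, j} J
    have := Finset.card_le_two (a := i) (b := j)
    omega)
  simp only [Finset.mem_sdiff, Finset.mem_insert, Finset.mem_singleton, not_or] at hc
  have h1 : dgu c u ∈ El A (J \ {i}) := by
    simpa using mul_mem (whitehead (a := c) (by simp [hc]) ha u) h
  have h2 := emb_El (Equiv.swap i j).toEmbedding (J := J \ {j}) (fun x hx => by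
    simp only [Finset.mem_sdiff, Finset.mem_singleton, Equiv.coe_toEmbedding,
      Equiv.swap_apply_def] at hx ⊢
    split_ifs <;> simp_all [eq_comm]) h1
  rw [emb_dgu, Equiv.coe_toEmbedding, Equiv.swap_apply_of_ne_of_ne hc.2.1 hc.2.2] at h2
  simpa using mul_mem (whitehead (b := c) hb (by simp [hc]) u) h2

theorem k1step (L : Loc A) {J : Finset κ} (h7 : 7 ≤ J.card) {i₀ : κ} (hi₀ : i₀ ∈ J) :
    El A J ⊓ GLs A (J \ {i₀}) ≤ El A (J \ {i₀}) := by
  have hne : ∀ i j : κ, ∃ a, a ∈ J ∧ a ≠ i ∧ a ≠ j := fun i j => by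
    obtain ⟨c, hc⟩ : (J \ {i, j}).Nonempty := Finset.card_pos.1 (by
      have := Finset.le_card_sdiff {i, j} J
      have := Finset.card_le_two (a := i) (b := j)
      omega)
    exact ⟨c, by simpa [not_or] using hc⟩
  choose al hal using hne
  have hal' : ∀ i, al i i ∈ J \ {i} := fun i => by simp [hal i i]
  let N : Subgroup Aˣ := (El A (J \ {i₀})).comap (dguH (al i₀ i₀))
  have hN : ∀ {i a u}, i ∈ J → a ∈ J \ {i} → (u ∈ N ↔ dgu a u ∈ El A (J \ {i})) := fun hi ha =>
    ⟨dgu_move hi₀ hi (hal' _) ha (by omega), dgu_move hi hi₀ ha (hal' _) (by omega)⟩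
  have : N.Normal := ⟨fun u hu v => by
    change dguH _ _ ∈ El A _
    rw [map_mul, map_mul, map_inv]
    exact dgu_conj _ v hu⟩
  have ex : ∀ (i : J) (p : (Matrix κ κ A)ˣ), ∃ u : Aˣ, p ∈ GLs A J ⊓ Fx A {i.1} →
      ∀ a ∈ J \ {i.1}, ∀ e ∈ El A (J \ {i.1}), ∀ v, dgf (pr A {i.1}) p = e * dgu a v →
        (u : Aˣ ⧸ N) = v := by
    intro i p
    by_cases hp : p ∈ GLs A J ⊓ Fx A {i.1}
    · obtain ⟨e, he, u, hu⟩ := gauss L (hal' i) (dgf_mem_GLs hp.1 hp.2)
      refine ⟨u, fun _ a ha e' he' v hv => QuotientGroup.eq.2 ((hN i.2 ha).2 ?_)⟩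
      have h1 := dgu_conj a u⁻¹ (mul_mem (mul_mem (inv_mem he') he) (whitehead (hal' i) ha u))
      have h2 : dgu a v = e'⁻¹ * e * dgu (al i i) u := by
        rw [mul_assoc, ← hu, hv, inv_mul_cancel_left]
      rw [dgu_mul, h2]
      convert h1 using 1
      rw [show dgu a u⁻¹ = (dgu a u)⁻¹ from map_inv (dguH a) u]
      group
    · exact ⟨1, fun h => (hp h).elim⟩
  choose σ hσ using ex
  have : Nonempty J := ⟨⟨i₀, hi₀⟩⟩
  obtain ⟨s, hs, hs'⟩ := glueHom (G := GLs A J) (P := fun i : J => GLs A J ⊓ Fx A {i.1})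
    (fun _ => inf_le_left) (cone_lin L (El_le_GLs J) le_rfl (by omega)) (fun g hg => by
      obtain ⟨e, he, u, rfl⟩ := gauss L (hal i₀ i₀).1 hg
      refine mul_mem (Subgroup.closure_mono (Set.iUnion_mono fun i => ?_) (El_gen (by omega) he))
        (Subgroup.subset_closure (Set.mem_iUnion.2 ⟨⟨i₀, hi₀⟩, dgu_mem_GLs (hal _ _).1 u, ?_⟩))
      · exact fun x hx => ⟨El_le_GLs J hx.1, hx.2⟩
      · exact GLs_le_Fx (by simp +contextual) (dgu_mem_GLs (hal' i₀) u))
    (fun i p => (σ i p : Aˣ ⧸ N)) (fun i p hp q hq => by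
      obtain ⟨e, he, u, hu⟩ := gauss L (hal' i) (dgf_mem_GLs hp.1 hp.2)
      obtain ⟨e', he', v, hv⟩ := gauss L (hal' i) (dgf_mem_GLs hq.1 hq.2)
      rw [hσ i p hp _ (hal' i) e he u hu, hσ i q hq _ (hal' i) e' he' v hv,
        ← QuotientGroup.mk_mul]
      refine hσ i _ (mul_mem hp hq) _ (hal' i) _ (mul_mem he (dgu_conj (al i i) u he')) _ ?_
      rw [dgf_mul _ (Fx_le_Qp _ hp.2) (Fx_le_Qp _ hq.2), hu, hv, dgu_mul]
      group) (fun i j p hp hq => by
      have ht : p ∈ Fx A {i.1, j.1} := mem_Fx.2 fun x y hy => by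
        rcases Finset.mem_insert.1 hy with rfl | hy
        · exact mem_Fx.1 hp.2 x _ (by simp)
        · exact mem_Fx.1 hq.2 x y hy
      obtain ⟨e, he, u, hu⟩ := gauss L (a := al i j) (by simp [hal i j]) (dgf_mem_GLs hp.1 ht)
      have key : ∀ k : J, k.1 ∈ ({i.1, j.1} : Finset κ) → p ∈ GLs A J ⊓ Fx A {k.1} →
          (σ k p : Aˣ ⧸ N) = u := fun k hk hp => by
        have hsub : J \ {i.1, j.1} ⊆ J \ {k.1} :=
          Finset.sdiff_subset_sdiff subset_rfl (by simpa using hk)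
        let H : Subgroup (Matrix κ κ A)ˣ :=
          { carrier := {n | n ∈ Fx A {k.1} ∧ dgf (pr A {k.1}) n ∈ El A (J \ {k.1})}
            one_mem' := ⟨one_mem _, by rw [dgf_one (pr_mul_pr _)]; exact one_mem _⟩
            mul_mem' := fun ha hb => ⟨mul_mem ha.1 hb.1, by
              rw [dgf_mul _ (Fx_le_Qp _ ha.1) (Fx_le_Qp _ hb.1)]; exact mul_mem ha.2 hb.2⟩
            inv_mem' := fun ha => ⟨inv_mem ha.1, by
              rw [dgf_inv _ (Fx_le_Qp _ ha.1)]; exact inv_mem ha.2⟩ }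
        have h1 := unip_part hp.1 ht (H := H) fun a ha _ b hb hbt r => by
          have hbk : b ∉ ({k.1} : Finset κ) := fun h => hbt (by rwa [Finset.mem_singleton.1 h])
          refine ⟨rt_mem_Fx hbk r, ?_⟩
          by_cases hak : a = k.1
          · have : dgf (pr A {k.1}) (rt a b r) = 1 := by
              have hab : a ≠ b := by rintro rfl; exact hbk (by simp [hak])
              ext x y
              rw [dgf_apply (rt_mem_Fx hbk r), rt_val hab, Units.val_one, Matrix.add_apply,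
                single_apply]
              by_cases hxy : x = y <;> split_ifs <;> simp_all
            rw [this]; exact one_mem _
          · have := rt_mem_El (J := J \ {k.1}) (a := a) (b := b) (by simp [ha, hak])
              (Finset.mem_sdiff.2 ⟨hb, hbk⟩) r
            rwa [dgf_eq_self (El_le_GLs _ this)]
        have h2 := GLs_mono hsub (dgf_mem_GLs hp.1 ht)
        refine hσ k p hp (al i j) (hsub (by simp [hal i j])) _
          (mul_mem h1.2 (El_mono hsub he)) u ?_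
        have h3 := dgf_mul _ (Fx_le_Qp _ h1.1) (Fx_le_Qp _ (GLs_le_Fx (by simp +contextual) h2))
        rwa [dgf_eq_self h2, inv_mul_cancel_right, hu, ← mul_assoc, ← hu] at h3
      rw [key i (by simp) hp, key j (by simp) hq])
  have s1 : ∀ (i : J), ∀ e ∈ El A (J \ {i.1}), ∀ u, s (e * dgu (al i i) u) = u := by
    intro i e he u
    have h1 := mul_mem (El_le_GLs _ he) (dgu_mem_GLs (hal' i) u)
    have h2 : e * dgu (al i i) u ∈ GLs A J ⊓ Fx A {i.1} :=
      ⟨GLs_mono Finset.sdiff_subset h1, GLs_le_Fx (by simp +contextual) h1⟩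
    rw [hs' i _ h2]
    exact hσ i _ h2 _ (hal' i) e he u (dgf_eq_self h1)
  have s2 : ∀ e ∈ El A J, s e = 1 := by
    have s0 : s 1 = 1 := by simpa using hs 1 (one_mem _) 1 (one_mem _)
    intro e he
    induction he using Subgroup.closure_induction with
    | mem x hx =>
      obtain ⟨a, ha, b, hb, -, r, rfl⟩ := hx
      have := s1 ⟨al a b, (hal a b).1⟩ _ (rt_mem_El (a := a) (b := b)
        (by simp [ha, (hal a b).2.1.symm]) (by simp [hb, (hal a b).2.2.symm]) r) 1
      rwa [dgu_one, mul_one] at this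
    | one => exact s0
    | mul x y hx hy h1 h2 => rw [hs x (El_le_GLs J hx) y (El_le_GLs J hy), h1, h2, mul_one]
    | inv x hx h1 =>
      have := hs x (El_le_GLs J hx) x⁻¹ (inv_mem (El_le_GLs J hx))
      rwa [mul_inv_cancel, s0, h1, one_mul, eq_comm] at this
  rintro g ⟨h1, h2⟩
  obtain ⟨e, he, u, rfl⟩ := gauss L (hal' i₀) h2
  exact mul_mem he ((QuotientGroup.eq_one_iff u).1 ((s1 ⟨i₀, hi₀⟩ e he u).symm.trans (s2 _ h1)))

theorem k1stab (L : Loc A) {J J' : Finset κ} (h : J' ⊆ J) (h6 : 6 ≤ J'.card) :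
    El A J ⊓ GLs A J' ≤ El A J' := by
  induction J using Finset.strongInduction with
  | H J ih =>
  rcases h.eq_or_ssubset with rfl | hlt
  · exact inf_le_left
  obtain ⟨i, hi, hi'⟩ := Finset.exists_of_ssubset hlt
  have hsub : J' ⊆ J \ {i} := Finset.subset_sdiff.2 ⟨h, by simpa using hi'⟩
  have := Finset.card_lt_card hlt
  exact fun g hg => ih (J \ {i}) (Finset.sdiff_ssubset (by simpa) (by simp)) hsub
    ⟨k1step L (by omega) hi ⟨hg.1, GLs_mono hsub hg.2⟩, hg.2⟩

theorem stab_dg (L : Loc A) {J t : Finset κ} (h6 : 6 ≤ (J \ t).card) {g : (Matrix κ κ A)ˣ}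
    (hg : g ∈ El A J) (ht : g ∈ Fx A t) : dgf (pr A t) g ∈ El A (J \ t) := by
  refine k1stab L Finset.sdiff_subset h6 ⟨?_, dgf_mem_GLs (El_le_GLs J hg) ht⟩
  have := unip_part (El_le_GLs J hg) ht (H := El A J) fun a ha _ b hb _ r => rt_mem_El ha hb r
  simpa using mul_mem (inv_mem this) hg

theorem stab_gen (L : Loc A) {J t : Finset κ} (h6 : 6 ≤ (J \ t).card) {g : (Matrix κ κ A)ˣ}
    (hg : g ∈ El A J) (ht : g ∈ Fx A t) :
    g ∈ Subgroup.closure {y | ∃ a ∈ J, ∃ b ∈ J, b ∉ t ∧ a ≠ b ∧ ∃ r : A, y = rt a b r} := by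
  have h1 := unip_part (El_le_GLs J hg) ht (H := Cl A J t)
    fun a ha _ b hb hbt r => rt_mem_Cl ha hb hbt r
  have h2 : dgf (pr A t) g ∈ Cl A J t := by
    refine Subgroup.closure_mono ?_ (stab_dg L h6 hg ht)
    rintro _ ⟨a, ha, b, hb, e⟩
    exact ⟨a, (Finset.mem_sdiff.1 ha).1, b, (Finset.mem_sdiff.1 hb).1, (Finset.mem_sdiff.1 hb).2, e⟩
  simpa using mul_mem h1 h2

end Vale.Agent.P192
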