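import Vale.Agent.P192.LayDefs

/-! Part PS: abstract chains and pairs of chains. -/

namespace Vale.Agent.P192.PSAux

open Function Relation

/-- bounds for one cell -/
def Bd (u : ℕ) (x : PC) : Prop :=
  x.1.val ≤ u ∧ ∀ b, x.2 = Fz.deep b → x.1.val = if b then u else 0

/-- local consistency of a chain -/
structure G0 (m : ℕ) (cp : ℕ → ℕ) (a : ℕ → PC) : Prop where
  bd : ∀ i < m, Bd (cp i) (a i)
  ok : ∀ i, i + 1 < m → Fz.ok (a i).2 (a (i + 1)).2

/-- moves on an edge -/
def Edge (uc : ℕ) (c : PC) (up : ℕ) (p x y : PC) : Prop :=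
  (p.2.soft ∧ c.2.soft ∧ x.2 = c.2 ∧ y.2 = p.2 ∧ x.1.val + 1 = c.1.val ∧
      y.1.val = p.1.val + 1 ∧ c.1.val ≤ uc ∧ y.1.val ≤ up) ∨
    ∃ b, p.2 = Fz.front b ∧ c.2 = Fz.none ∧ p.1.val = (if b then up else 0) ∧
      x = (c.1, Fz.front b) ∧ y = (p.1, Fz.deep b)

/-- moves inside a chain -/
def CM0 (m : ℕ) (cp : ℕ → ℕ) (top : Prop) (a a' : ℕ → PC) : Prop :=
  (top ∧ ∃ b, (a 0).2 = Fz.none ∧ a' = update a 0 ((a 0).1, Fz.front b)) ∨
  ∃ i x y, i + 1 < m ∧ Edge (cp (i + 1)) (a (i + 1)) (cp i) (a i) x y ∧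
    a' = update (update a (i + 1) x) i y

/-- number of particles -/
def sm (m : ℕ) (a : ℕ → PC) : ℕ := ∑ i ∈ Finset.range m, (a i).1.val

theorem sm_update {m i : ℕ} (hi : i < m) (a : ℕ → PC) (x : PC) :
    sm m (update a i x) + (a i).1.val = sm m a + x.1.val := by
  have h1 : (fun j => (update a i x j).1.val) = update (fun j => (a j).1.val) i x.1.val := by
    funext j
    by_cases h : j = i
    · subst h; simp
    · simp [h]
  have h2 := Finset.sum_update_of_mem (Finset.mem_range.2 hi) (fun j => (a j).1.val) x.1.val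
  have h3 := Finset.sum_update_of_mem (Finset.mem_range.2 hi) (fun j => (a j).1.val) (a i).1.val
  rw [update_eq_self] at h3
  unfold sm
  rw [h1, h2, h3]
  omega

variable {m : ℕ} {cp : ℕ → ℕ} {top : Prop} {a a' : ℕ → PC}

theorem G0.upd (h : G0 m cp a) {i : ℕ} {x : PC} (h1 : Bd (cp i) x)
    (h2 : ∀ j, j + 1 = i → Fz.ok (a j).2 x.2) (h3 : i + 1 < m → Fz.ok x.2 (a (i + 1)).2) :
    G0 m cp (update a i x) := by
  refine ⟨fun j hj => ?_, fun j hj => ?_⟩
  · by_cases e : j = i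
    · subst e; simpa
    · simpa [e] using h.bd j hj
  · by_cases e : j = i
    · subst e; simpa using h3 hj
    · by_cases e' : j + 1 = i
      · subst e'; simpa using h2 j rfl
      · simpa [e, e'] using h.ok j hj

theorem G0.upd2 (h : G0 m cp a) {i : ℕ} {x y : PC} (h1 : Bd (cp (i + 1)) x) (h1' : Bd (cp i) y)
    (h2 : ∀ j, j + 1 = i → Fz.ok (a j).2 y.2) (h3 : i + 2 < m → Fz.ok x.2 (a (i + 2)).2)
    (h4 : Fz.ok y.2 x.2) : G0 m cp (update (update a (i + 1) x) i y) := by
  refine ⟨fun j hj => ?_, fun j hj => ?_⟩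
  · by_cases e : j = i
    · subst e; simpa
    · by_cases e' : j = i + 1
      · subst e'; simpa
      · simpa [e, e'] using h.bd j hj
  · by_cases e : j = i
    · subst e; simpa
    · by_cases e' : j = i + 1
      · subst e'
        rw [update_of_ne e, update_self, update_of_ne (by omega), update_of_ne (by omega)]
        exact h3 hj
      · by_cases e'' : j + 1 = i
        · subst e''
          rw [update_of_ne e, update_self, update_of_ne e']
          exact h2 j rfl
        · rw [update_of_ne e, update_of_ne e', update_of_ne e'', update_of_ne (by omega)]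
          exact h.ok j hj

theorem upd_back (a : ℕ → PC) (i : ℕ) (x y : PC) :
    update (update (update (update a (i + 1) x) i y) (i + 1) (a (i + 1))) i (a i) = a := by
  funext j
  by_cases e : j = i
  · subst e; simp
  · by_cases e' : j = i + 1
    · subst e'; simp
    · simp [e, e']

theorem CM0.g0 (hm : 0 < m) (h : CM0 m cp top a a') : G0 m cp a ↔ G0 m cp a' := by
  rcases h with ⟨-, b, h1, rfl⟩ | ⟨i, x, y, hi, h1, rfl⟩
  · refine ⟨fun g => g.upd ⟨(g.bd 0 hm).1, by simp⟩ (by omega) fun h2 => ?_, fun g => ?_⟩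
    · have := g.ok 0 h2
      simp_all [Fz.ok, Fz.soft]
    · have := g.upd (i := 0) (x := a 0) ⟨by simpa using (g.bd 0 hm).1, by simp [h1]⟩ (by omega)
        fun h2 => by
          have := g.ok 0 h2
          simp_all [Fz.ok, Fz.soft]
      simpa using this
  · refine ⟨fun g => ?_, fun g => ?_⟩
    · have b1 := g.bd i (by omega)
      have b2 := g.bd _ hi
      have o1 := g.ok i hi
      have o2 : ∀ j, j + 1 = i → Fz.ok (a j).2 (a i).2 := fun j e => e ▸ g.ok j (by omega)
      have o3 := g.ok (i + 1)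
      rcases h1 with ⟨e1, e2, e3, e4, e5, e6, e7, e8⟩ | ⟨b, e1, e2, e3, rfl, rfl⟩
      · exact g.upd2 ⟨by omega, fun b e => absurd (e3 ▸ e) (e2 b)⟩
          ⟨e8, fun b e => absurd (e4 ▸ e) (e1 b)⟩ (e4 ▸ o2) (e3 ▸ o3) (e3 ▸ e4 ▸ o1)
      · refine g.upd2 ⟨b2.1, by simp⟩ ⟨b1.1, by simp [e3]⟩ (fun j e => ?_) (fun e => ?_)
          (by simp [Fz.ok])
        · have := o2 j e
          simp_all [Fz.ok, Fz.soft]
        · have := o3 e
          simp_all [Fz.ok, Fz.soft]
    · have b1 := g.bd i (by omega)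
      have b2 := g.bd _ hi
      have o1 := g.ok i hi
      have o2 : ∀ j, j + 1 = i → Fz.ok (update (update a (i + 1) x) i y j).2 y.2 := fun j e => by
        simpa [e] using g.ok j (by omega)
      have o3 : i + 2 < m → Fz.ok x.2 (update (update a (i + 1) x) i y (i + 2)).2 := fun e => by
        have := g.ok (i + 1) e
        rwa [update_of_ne (by omega), update_self] at this
      simp only [update_self, ne_eq, Nat.add_eq_left, one_ne_zero, not_false_eq_true,
        update_of_ne] at b1 b2 o1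
      rw [← upd_back a i x y]
      rcases h1 with ⟨e1, e2, e3, e4, e5, e6, e7, e8⟩ | ⟨b, e1, e2, e3, rfl, rfl⟩
      · exact g.upd2 ⟨e7, fun b e => absurd e (e2 b)⟩ ⟨by omega, fun b e => absurd e (e1 b)⟩
          (e4 ▸ o2) (e3 ▸ o3) (e3 ▸ e4 ▸ o1)
      · refine g.upd2 ⟨b2.1, by simp [e2]⟩ ⟨b1.1, by simp [e1]⟩ (fun j e => ?_) (fun e => ?_)
          (by simp [Fz.ok, e1, e2, Fz.soft])
        · have := o2 j e
          simp_all [Fz.ok, Fz.soft]
        · have := o3 e
          simp_all [Fz.ok, Fz.soft]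

theorem CM0.inv (hm : 0 < m) (h : CM0 m cp top a a') :
    sm m a' = sm m a ∧ (a' (m - 1)).2.res = (a (m - 1)).2.res ∧ ∀ i, m ≤ i → a' i = a i := by
  rcases h with ⟨-, b, h1, rfl⟩ | ⟨i, x, y, hi, h1, rfl⟩
  · refine ⟨by simpa using sm_update hm a ((a 0).1, Fz.front b), ?_,
      fun i hi => update_of_ne (by omega) _ _⟩
    by_cases e : m - 1 = 0
    · simp [e, h1, Fz.res]
    · simp [e]
  · have s1 := sm_update hi a x
    have s2 := sm_update (show i < m by omega) (update a (i + 1) x) y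
    rw [update_of_ne (by omega)] at s2
    refine ⟨?_, ?_, fun j hj => by rw [update_of_ne (by omega), update_of_ne (by omega)]⟩
    · rcases h1 with ⟨e1, e2, e3, e4, e5, e6, e7, e8⟩ | ⟨b, e1, e2, e3, rfl, rfl⟩
      · omega
      · simp only at s1 s2
        omega
    · rw [update_of_ne (by omega)]
      by_cases e : m - 1 = i + 1
      · rw [e, update_self]
        rcases h1 with ⟨e1, e2, e3, e4, e5, e6, e7, e8⟩ | ⟨b, e1, e2, e3, rfl, rfl⟩
        · rw [e3]
        · simp [e2, Fz.res]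
      · rw [update_of_ne e]

/-- a chain with the knowledge of its home -/
abbrev Ch : Type := (ℕ → PC) × Option Bool

def CM (m : ℕ) (cp : ℕ → ℕ) (top : Prop) (A A' : Ch) : Prop :=
  (CM0 m cp top A.1 A'.1 ∧ A'.2 = A.2) ∨
  ∃ b, (A.1 (m - 1)).2 = Fz.front b ∧ (A.1 (m - 1)).1.val = (if b then cp (m - 1) else 0) ∧
    A.2 = none ∧ A' = (update A.1 (m - 1) ((A.1 (m - 1)).1, Fz.deep b), some b)

def G (m : ℕ) (cp : ℕ → ℕ) (A : Ch) : Prop := G0 m cp A.1 ∧ A.2 = (A.1 (m - 1)).2.res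

variable {A A' : Ch}

theorem CM.inv (hm : 0 < m) (h : CM m cp top A A') : (G m cp A ↔ G m cp A') ∧
    sm m A'.1 = sm m A.1 ∧ ∀ i, m ≤ i → A'.1 i = A.1 i := by
  rcases h with ⟨h, e⟩ | ⟨b, e1, e2, e3, rfl⟩
  · exact ⟨by rw [G, G, h.g0 hm, e, (h.inv hm).2.1], (h.inv hm).1, (h.inv hm).2.2⟩
  · have hm' : m - 1 < m := by omega
    refine ⟨⟨fun g => ⟨g.1.upd ⟨(g.1.bd _ hm').1, by simp [e2]⟩ (fun j e => ?_) (by omega),
      by simp [Fz.res]⟩, fun g => ⟨?_, by simp [e1, e3, Fz.res]⟩⟩,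
      by simpa using sm_update hm' A.1 ((A.1 (m - 1)).1, Fz.deep b),
      fun i hi => update_of_ne (by omega) _ _⟩
    · have := g.1.ok j (by omega)
      rw [e] at this
      simp_all [Fz.ok, Fz.soft]
    · have := g.1.upd (i := m - 1) (x := A.1 (m - 1))
        ⟨by simpa using (g.1.bd _ hm').1, by simp [e1]⟩ (fun j e => by
          have := g.1.ok j (by omega)
          rw [e] at this
          simp_all [Fz.ok, Fz.soft]) (by omega)
      simpa using this

theorem eqv_inv (hm : 0 < m) (h : EqvGen (CM m cp top) A A') : (G m cp A ↔ G m cp A') ∧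
    sm m A'.1 = sm m A.1 := by
  induction h with
  | rel a b h => exact ⟨(h.inv hm).1, (h.inv hm).2.1⟩
  | refl => exact ⟨Iff.rfl, rfl⟩
  | symm a b _ ih => exact ⟨ih.1.symm, ih.2.symm⟩
  | trans a b c _ _ ih1 ih2 => exact ⟨ih1.1.trans ih2.1, ih2.2.trans ih1.2⟩

/-- unfrozen -/
def U (top : Prop) (A : Ch) : Prop := (A.1 0).2.soft ∧ (top → (A.1 0).2 = Fz.none)

theorem G0.none (g : G0 m cp a) (h : (a 0).2.soft) : ∀ i, i + 1 < m → (a (i + 1)).2 = Fz.none := by
  intro i
  induction i with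
  | zero =>
    intro hi
    have := g.ok 0 hi
    simp_all [Fz.ok, Fz.soft]
  | succ i ih =>
    intro hi
    have := g.ok _ hi
    have := ih (by omega)
    simp_all [Fz.ok, Fz.soft]

theorem G0.soft (g : G0 m cp a) (h : (a 0).2.soft) {i : ℕ} (hi : i < m) : (a i).2.soft := by
  cases i with
  | zero => exact h
  | succ i => simp [g.none h i hi, Fz.soft]

theorem G.res (hm : 0 < m) (g : G m cp A) (h : U top A) : A.2 = none := by
  have := g.1.soft h.1 (show m - 1 < m by omega)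
  rw [g.2]
  cases e : (A.1 (m - 1)).2 with
  | deep b => exact absurd e (this b)
  | _ => rfl

theorem unfreeze_aux (hm : 0 < m) : ∀ j < m, ∀ A : Ch, G m cp A → (A.1 j).2.soft →
    ∃ A', EqvGen (CM m cp top) A A' ∧ U top A' := by
  intro j
  induction j with
  | zero =>
    intro _ A g hs
    by_cases ht : top
    · cases e : (A.1 0).2 with
      | none => exact ⟨A, EqvGen.refl _, hs, fun _ => e⟩
      | deep b => exact absurd e (hs b)
      | front b =>
        refine ⟨(update A.1 0 ((A.1 0).1, Fz.none), A.2), EqvGen.symm _ _ (EqvGen.rel _ _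
          (Or.inl ⟨Or.inl ⟨ht, b, by simp, ?_⟩, rfl⟩)), by simp [Fz.soft], by simp⟩
        simp [← e]
    · exact ⟨A, EqvGen.refl _, hs, fun h => absurd h ht⟩
  | succ j ih =>
    intro hj A g hs
    by_cases hs' : (A.1 j).2.soft
    · exact ih (by omega) A g hs'
    · have o := g.1.ok j hj
      obtain ⟨b, e1, e2⟩ : ∃ b, (A.1 j).2 = Fz.deep b ∧ (A.1 (j + 1)).2 = Fz.front b := by
        rcases o with ⟨o, -⟩ | ⟨b, e1, e2 | e2⟩
        exacts [absurd o hs', ⟨b, e1, e2⟩, absurd e2 (hs b)]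
      have h1 : CM m cp top (update (update A.1 (j + 1) ((A.1 (j + 1)).1, Fz.none)) j
          ((A.1 j).1, Fz.front b), A.2) A :=
        Or.inl ⟨Or.inr ⟨j, A.1 (j + 1), A.1 j, hj, Or.inr ⟨b, by simp, by simp,
          by simpa using (g.1.bd j (by omega)).2 b e1, by simp [← e2], by simp [← e1]⟩,
          (upd_back _ _ _ _).symm⟩, rfl⟩
      obtain ⟨A', h2, h3⟩ := ih (by omega) _ ((h1.inv hm).1.2 g) (by simp [Fz.soft])
      exact ⟨A', EqvGen.trans _ _ _ (EqvGen.symm _ _ (EqvGen.rel _ _ h1)) h2, h3⟩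

theorem unfreeze (hm : 0 < m) (g : G m cp A) : ∃ A', EqvGen (CM m cp top) A A' ∧ U top A' := by
  have hm' : m - 1 < m := by omega
  by_cases hs : (A.1 (m - 1)).2.soft
  · exact unfreeze_aux hm _ hm' A g hs
  · obtain ⟨b, e⟩ : ∃ b, (A.1 (m - 1)).2 = Fz.deep b := by
      simpa only [Fz.soft, not_forall, not_not] using hs
    have h1 : CM m cp top (update A.1 (m - 1) ((A.1 (m - 1)).1, Fz.front b), none) A :=
      Or.inr ⟨b, by simp, by simpa using (g.1.bd _ hm').2 b e, rfl,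
        Prod.ext (by simp [← e]) (by rw [g.2, e]; rfl)⟩
    obtain ⟨A', h2, h3⟩ := unfreeze_aux (top := top) hm _ hm' _ ((h1.inv hm).1.2 g)
      (by simp [Fz.soft])
    exact ⟨A', EqvGen.trans _ _ _ (EqvGen.symm _ _ (EqvGen.rel _ _ h1)) h2, h3⟩

theorem U.upd2 (h : U top A) (i : ℕ) (x : PC) (y : Fin 3) :
    U top (update (update A.1 (i + 1) x) i (y, (A.1 i).2), A.2) := by
  have : (update (update A.1 (i + 1) x) i (y, (A.1 i).2) 0).2 = (A.1 0).2 := by
    cases i <;> simp
  simpa only [U, this] using h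

theorem bring (hm : 0 < m) (hc : ∀ i, 1 ≤ cp i) : ∀ d j, j + d + 1 = m → ∀ A : Ch, G m cp A →
    U top A → 0 < (A.1 j).1.val →
    ∃ A', EqvGen (CM m cp top) A A' ∧ U top A' ∧ 0 < (A'.1 (m - 1)).1.val := by
  intro d
  induction d with
  | zero => exact fun j hj A _ u h => ⟨A, EqvGen.refl _, u, by rwa [show m - 1 = j by omega]⟩
  | succ d ih =>
    intro j hj A g u h
    by_cases h0 : 0 < (A.1 (j + 1)).1.val
    · exact ih (j + 1) (by omega) A g u h0
    · have h1 : CM m cp top (update (update A.1 (j + 1) (1, (A.1 (j + 1)).2)) j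
          (⟨(A.1 j).1.val - 1, by omega⟩, (A.1 j).2), A.2) A :=
        Or.inl ⟨Or.inr ⟨j, A.1 (j + 1), A.1 j, by omega, Or.inl ⟨
          by simpa using g.1.soft u.1 (by omega), by simpa using g.1.soft u.1 (by omega),
          by simp, by simp, by simp; omega, by simp; omega, by simpa using hc _,
          (g.1.bd j (by omega)).1⟩, (upd_back _ _ _ _).symm⟩, rfl⟩
      obtain ⟨A', h2, h3⟩ := ih (j + 1) (by omega) _ ((h1.inv hm).1.2 g) (u.upd2 _ _ _) (by simp)
      exact ⟨A', EqvGen.trans _ _ _ (EqvGen.symm _ _ (EqvGen.rel _ _ h1)) h2, h3⟩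

theorem hole (hm : 0 < m) (hc : ∀ i, 1 ≤ cp i ∧ cp i ≤ 2) : ∀ d j, j + d + 1 = m → ∀ A : Ch,
    G m cp A → U top A → (A.1 j).1.val < cp j →
    ∃ A', EqvGen (CM m cp top) A A' ∧ U top A' ∧ (A'.1 (m - 1)).1.val < cp (m - 1) := by
  intro d
  induction d with
  | zero => exact fun j hj A _ u h => ⟨A, EqvGen.refl _, u, by rwa [show m - 1 = j by omega]⟩
  | succ d ih =>
    intro j hj A g u h
    by_cases h0 : (A.1 (j + 1)).1.val < cp (j + 1)
    · exact ih (j + 1) (by omega) A g u h0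
    · have c1 := hc j
      have c2 := hc (j + 1)
      have c3 := (g.1.bd (j + 1) (by omega)).1
      have h1 : CM m cp top A (update (update A.1 (j + 1)
          (⟨(A.1 (j + 1)).1.val - 1, by omega⟩, (A.1 (j + 1)).2)) j
          (⟨(A.1 j).1.val + 1, by omega⟩, (A.1 j).2), A.2) :=
        Or.inl ⟨Or.inr ⟨j, _, _, by omega, Or.inl ⟨g.1.soft u.1 (by omega),
          g.1.soft u.1 (by omega), by rfl, by rfl, by exact Nat.sub_add_cancel (by omega), by rfl, c3,
          by exact h⟩, rfl⟩, rfl⟩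
      obtain ⟨A', h2, h3⟩ := ih (j + 1) (by omega) _ ((h1.inv hm).1.1 g) (u.upd2 _ _ _)
        (by simp; omega)
      exact ⟨A', EqvGen.trans _ _ _ (EqvGen.rel _ _ h1) h2, h3⟩

theorem certify (hm : 0 < m) (ht : top) (g : G m cp A) (u : U top A) (b : Bool)
    (hv : ∀ i < m, (A.1 i).1.val = if b then cp i else 0) :
    ∃ A', EqvGen (CM m cp top) A A' ∧ A'.2 = some b := by
  have key : ∀ j < m, ∃ A' : Ch, EqvGen (CM m cp top) A A' ∧ (A'.1 j).2 = Fz.front b ∧
      A'.2 = none ∧ ∀ i, (A'.1 i).1 = (A.1 i).1 := by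
    intro j
    induction j with
    | zero =>
      refine fun _ => ⟨(update A.1 0 ((A.1 0).1, Fz.front b), A.2), EqvGen.rel _ _
        (Or.inl ⟨Or.inl ⟨ht, b, u.2 ht, rfl⟩, rfl⟩), by simp, (g.res hm u :), fun i => ?_⟩
      cases i <;> simp
    | succ j ih =>
      intro hj
      obtain ⟨A', h1, h2, h3, h4⟩ := ih (by omega)
      have o := ((eqv_inv hm h1).1.1 g).1.ok j hj
      refine ⟨(update (update A'.1 (j + 1) ((A'.1 (j + 1)).1, Fz.front b)) j
        ((A'.1 j).1, Fz.deep b), A'.2), EqvGen.trans _ _ _ h1 (EqvGen.rel _ _ (Or.inl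
          ⟨Or.inr ⟨j, _, _, hj, Or.inr ⟨b, h2, by simpa [Fz.ok, h2, Fz.soft] using o,
            by rw [h4, hv j (by omega)], rfl, rfl⟩, rfl⟩, rfl⟩)), by simp, h3, fun i => ?_⟩
      rw [← h4]
      by_cases e : i = j
      · subst e; simp
      · by_cases e' : i = j + 1
        · subst e'; simp
        · simp [e, e']
  obtain ⟨A', h1, h2, h3, h4⟩ := key (m - 1) (by omega)
  exact ⟨_, EqvGen.trans _ _ _ h1 (EqvGen.rel _ _ (Or.inr
    ⟨b, h2, by rw [h4, hv _ (by omega)], h3, rfl⟩)), rfl⟩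

theorem G0.deep (g : G0 m cp a) {b : Bool} : ∀ d j, j + d + 1 = m →
    (a (m - 1)).2 = Fz.deep b → (a j).2 = Fz.deep b := by
  intro d
  induction d with
  | zero => exact fun j hj h => by rwa [show m - 1 = j by omega] at h
  | succ d ih =>
    intro j hj h
    have h1 := ih (j + 1) (by omega) h
    have h2 := g.ok j (by omega)
    simp_all [Fz.ok]

/-- total capacity -/
def tot (m : ℕ) (cp : ℕ → ℕ) : ℕ := ∑ i ∈ Finset.range m, cp i

theorem G0.le (g : G0 m cp a) : sm m a ≤ tot m cp :=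
  Finset.sum_le_sum fun i hi => (g.bd i (Finset.mem_range.1 hi)).1

theorem G.cert (g : G m cp A) {b : Bool} (h : A.2 = some b) :
    sm m A.1 = if b then tot m cp else 0 := by
  have h1 : (A.1 (m - 1)).2 = Fz.deep b := by
    rw [g.2] at h
    cases e : (A.1 (m - 1)).2 <;> simp_all [Fz.res]
  have h2 : ∀ i ∈ Finset.range m, (A.1 i).1.val = if b then cp i else 0 := fun i hi => by
    have := Finset.mem_range.1 hi
    exact (g.1.bd i this).2 b (g.1.deep (m - 1 - i) i (by omega) h1)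
  rw [sm, Finset.sum_congr rfl h2]
  cases b <;> simp [tot]

theorem bring' (hm : 0 < m) (hc : ∀ i, 1 ≤ cp i ∧ cp i ≤ 2) (g : G m cp A) (u : U top A)
    (h : 0 < sm m A.1) :
    ∃ A', EqvGen (CM m cp top) A A' ∧ U top A' ∧ 0 < (A'.1 (m - 1)).1.val := by
  obtain ⟨j, hj, h1⟩ := Finset.exists_ne_zero_of_sum_ne_zero h.ne'
  have := Finset.mem_range.1 hj
  exact bring hm (fun i => (hc i).1) (m - 1 - j) j (by omega) A g u (by omega)

theorem hole' (hm : 0 < m) (hc : ∀ i, 1 ≤ cp i ∧ cp i ≤ 2) (g : G m cp A) (u : U top A)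
    (h : sm m A.1 < tot m cp) :
    ∃ A', EqvGen (CM m cp top) A A' ∧ U top A' ∧ (A'.1 (m - 1)).1.val < cp (m - 1) := by
  obtain ⟨j, hj, h1⟩ := Finset.exists_lt_of_sum_lt h
  have := Finset.mem_range.1 hj
  exact hole hm hc (m - 1 - j) j (by omega) A g u h1

theorem certify' (hm : 0 < m) (ht : top) (g : G m cp A) (u : U top A) (b : Bool)
    (h : sm m A.1 = if b then tot m cp else 0) :
    ∃ A', EqvGen (CM m cp top) A A' ∧ A'.2 = some b := by
  refine certify hm ht g u b fun i hi => ?_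
  cases b
  · exact Finset.sum_eq_zero_iff.1 h i (Finset.mem_range.2 hi)
  · exact (Finset.sum_eq_sum_iff_of_le fun i hi => (g.1.bd i (Finset.mem_range.1 hi)).1).1 h i
      (Finset.mem_range.2 hi)

end Vale.Agent.P192.PSAux
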