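import Vale.Agent.P192.PSA

/-! Part PS: one process (a pair of chains). -/

namespace Vale.Agent.P192.PSAux

open Function Relation

/-- the state of a process -/
abbrev Pr : Type := (Bool → Ch) × Bool

def PM (m : ℕ) (cp : Bool → ℕ → ℕ) (top : Bool → Prop) (A A' : Pr) : Prop :=
  (∃ s B, CM m (cp s) (top s) (A.1 s) B ∧ A' = (update A.1 s B, A.2)) ∨
  ∃ s x, ((A.1 s).1 (m - 1)).2.soft ∧ x.2 = ((A.1 s).1 (m - 1)).2 ∧
    x.1.val = ((A.1 s).1 (m - 1)).1.val + 1 ∧ x.1.val ≤ cp s (m - 1) ∧ A.2 = s ∧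
    A' = (update A.1 s (update (A.1 s).1 (m - 1) x, (A.1 s).2), !s)

def PB (m : ℕ) (cp : Bool → ℕ → ℕ) (eq : Bool) (A : Pr) : Prop :=
  (∃ s, ¬ G m (cp s) (A.1 s)) ∨
  (∃ s, A.2 = false ∧ (A.1 (!s)).2 = some false ∧ 0 < ((A.1 s).1 (m - 1)).1.val) ∨
  (∃ s, A.2 = false ∧ (A.1 (!s)).2 = some true ∧ ((A.1 s).1 (m - 1)).1.val < cp s (m - 1) ∧
    (s = true → eq = true)) ∨
  (A.2 = true ∧ ((A.1 false).2 = some false ∨ (A.1 true).2 = some true)) ∨
  ((A.1 false).2 = some true ∧ (A.1 true).2 = some true ∧ eq = false)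

def PI (m : ℕ) (cp : Bool → ℕ → ℕ) (A : Pr) : Prop :=
  (∀ s, G m (cp s) (A.1 s)) ∧ sm m (A.1 false).1 = sm m (A.1 true).1 + A.2.toNat

variable {m : ℕ} {cp : Bool → ℕ → ℕ} {top : Bool → Prop} {eq : Bool} {A A' : Pr}

theorem G.inj {cp : ℕ → ℕ} {B : Ch} (hm : 0 < m) {x : PC} (h1 : x.2.soft)
    (h2 : x.2 = (B.1 (m - 1)).2) (h3 : x.1.val ≤ cp (m - 1)) (g : G m cp B) :
    G m cp (update B.1 (m - 1) x, B.2) :=
  ⟨g.1.upd ⟨h3, fun b e => absurd e (h1 b)⟩ (fun j e => by
    rw [h2, ← e]
    exact g.1.ok j (by omega)) (by omega), by simpa [h2] using g.2⟩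

theorem PM.pi (hm : 0 < m) (h : PM m cp top A A') : PI m cp A ↔ PI m cp A' := by
  rcases h with ⟨s, B, h, rfl⟩ | ⟨s, x, e1, e2, e3, e4, e5, rfl⟩
  · obtain ⟨h1, h2, -⟩ := h.inv hm
    cases s <;> simp [PI, h1, h2]
  · have h1 : G m (cp s) (A.1 s) ↔ G m (cp s) (update (A.1 s).1 (m - 1) x, (A.1 s).2) :=
      ⟨G.inj hm (e2 ▸ e1) e2 e4, fun g => by
        simpa using G.inj (x := (A.1 s).1 (m - 1)) hm e1 (by simp [e2]) (by omega) g⟩
    have h2 := sm_update (show m - 1 < m by omega) (A.1 s).1 x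
    cases s
    · simp only [PI, Bool.forall_bool, h1, e5, update_self, ne_eq, Bool.true_eq_false,
        not_false_eq_true, update_of_ne, Bool.not_false, Bool.toNat_true, Bool.toNat_false]
      exact and_congr_right fun _ => by omega
    · simp only [PI, Bool.forall_bool, h1, e5, update_self, ne_eq, Bool.false_eq_true,
        not_false_eq_true, update_of_ne, Bool.not_true, Bool.toNat_true, Bool.toNat_false]
      exact and_congr_right fun _ => by omega

theorem PM.out (hm : 0 < m) (h : PM m cp top A A') (s : Bool) {i : ℕ} (hi : m ≤ i) :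
    (A'.1 s).1 i = (A.1 s).1 i := by
  rcases h with ⟨t, B, h, rfl⟩ | ⟨t, x, -, -, -, -, -, rfl⟩ <;> by_cases e : s = t
  · subst e; simpa using (h.inv hm).2.2 i hi
  · simp [e]
  · subst e; simp [update_of_ne (show i ≠ m - 1 by omega)]
  · simp [e]

theorem eqv_out (hm : 0 < m) (h : EqvGen (PM m cp top) A A') (s : Bool) {i : ℕ} (hi : m ≤ i) :
    (A'.1 s).1 i = (A.1 s).1 i := by
  induction h with
  | rel a b h => exact h.out hm s hi
  | refl => rfl
  | symm a b _ ih => exact ih.symm
  | trans a b c _ _ ih1 ih2 => exact ih2.trans ih1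

theorem PI.not_PB (hm : 0 < m) (h : PI m cp A) (h1 : tot m (cp false) ≤ tot m (cp true))
    (h2 : eq = true ↔ tot m (cp false) = tot m (cp true)) : ¬ PB m cp eq A := by
  obtain ⟨g, e⟩ := h
  have l1 := (g false).1.le
  have l2 := (g true).1.le
  have hm' : m - 1 ∈ Finset.range m := Finset.mem_range.2 (by omega)
  rintro (⟨s, h⟩ | ⟨s, a, b, c⟩ | ⟨s, a, b, c, d⟩ | ⟨a, b | b⟩ | ⟨a, b, c⟩)
  · exact h (g s)
  · have h3 := (g _).cert b
    have h4 : ((A.1 s).1 (m - 1)).1.val ≤ sm m (A.1 s).1 :=
      Finset.single_le_sum (f := fun i => ((A.1 s).1 i).1.val) (fun _ _ => Nat.zero_le _) hm'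
    cases s <;> simp [a] at h3 e <;> omega
  · have h3 := (g _).cert b
    have h4 : sm m (A.1 s).1 < tot m (cp s) :=
      Finset.sum_lt_sum (fun i hi => ((g s).1.bd i (Finset.mem_range.1 hi)).1) ⟨_, hm', c⟩
    cases s
    · simp [a] at h3 e
      omega
    · have := h2.1 (d rfl)
      simp [a] at h3 e
      omega
  · have h3 := (g _).cert b
    simp [a] at h3 e
    omega
  · have h3 := (g _).cert b
    simp [a] at h3 e
    omega
  · have h3 := (g _).cert a
    have h4 := (g _).cert b
    simp at h3 h4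
    have : eq = true := h2.2 (by omega)
    simp [c] at this

theorem lift (s : Bool) {B B' : Ch} (h : EqvGen (CM m (cp s) (top s)) B B') (A : Pr) :
    EqvGen (PM m cp top) (update A.1 s B, A.2) (update A.1 s B', A.2) := by
  induction h with
  | rel a b h => exact EqvGen.rel _ _ (Or.inl ⟨s, b, by simpa using h, by simp⟩)
  | refl => exact EqvGen.refl _
  | symm a b _ ih => exact EqvGen.symm _ _ ih
  | trans a b c _ _ ih1 ih2 => exact EqvGen.trans _ _ _ ih1 ih2

theorem lift' (s : Bool) {B' : Ch} (h : EqvGen (CM m (cp s) (top s)) (A.1 s) B') :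
    EqvGen (PM m cp top) A (update A.1 s B', A.2) := by simpa using lift s h A

/-- a process which is never bad -/
structure Nb (m : ℕ) (cp : Bool → ℕ → ℕ) (top : Bool → Prop) (eq : Bool) (A : Pr) : Prop where
  pos : 0 < m
  cap : ∀ s i, 1 ≤ cp s i ∧ cp s i ≤ 2
  nb : ∀ A', EqvGen (PM m cp top) A A' → ¬ PB m cp eq A'

/-- reachable unfrozen states -/
def At (m : ℕ) (cp : Bool → ℕ → ℕ) (top : Bool → Prop) (A : Pr) (n : Bool → ℕ) (p : Bool) : Prop :=
  ∃ A', EqvGen (PM m cp top) A A' ∧ (∀ s, U (top s) (A'.1 s) ∧ sm m (A'.1 s).1 = n s) ∧ A'.2 = p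

namespace Nb

variable (h : Nb m cp top eq A) {n n' : Bool → ℕ} {p : Bool}
include h

theorem g (e : EqvGen (PM m cp top) A A') (s : Bool) : G m (cp s) (A'.1 s) :=
  by_contra fun c => h.nb _ e (Or.inl ⟨s, c⟩)

theorem start : At m cp top A (fun s => sm m (A.1 s).1) A.2 := by
  obtain ⟨B, h1, h2⟩ := unfreeze (top := top false) h.pos (h.g (EqvGen.refl _) false)
  obtain ⟨B', h3, h4⟩ := unfreeze (top := top true) h.pos (h.g (EqvGen.refl _) true)
  refine ⟨_, EqvGen.trans _ _ _ (lift' false h1) (lift' (B' := B') true (by simpa using h3)),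
    fun s => ?_, rfl⟩
  cases s
  · simpa using ⟨h2, (eqv_inv h.pos h1).2⟩
  · simpa using ⟨h4, (eqv_inv h.pos h3).2⟩

theorem le (a : At m cp top A n p) (s : Bool) : n s ≤ tot m (cp s) := by
  obtain ⟨A', e, u, -⟩ := a
  exact (u s).2 ▸ (h.g e s).1.le

omit h in
theorem U_upd {B : Ch} {t : Prop} (u : U t B) (x : Fin 3) :
    U t (update B.1 (m - 1) (x, (B.1 (m - 1)).2), B.2) := by
  have : (update B.1 (m - 1) (x, (B.1 (m - 1)).2) 0).2 = (B.1 0).2 := by
    by_cases e : m - 1 = 0
    · simp [e]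
    · simp [update_of_ne (Ne.symm e)]
  simpa only [U, this] using u

theorem inj (s : Bool) (a : At m cp top A n s) (h1 : n s < tot m (cp s)) (h2 : n' s = n s + 1)
    (h3 : n' (!s) = n (!s)) : At m cp top A n' (!s) := by
  obtain ⟨A', e, u, e'⟩ := a
  have hm' : m - 1 < m := by have := h.pos; omega
  obtain ⟨B, b1, b2, b3⟩ := hole' h.pos (h.cap s) (h.g e s) (u s).1 ((u s).2 ▸ h1)
  have c := (h.cap s (m - 1)).2
  have i := eqv_inv h.pos b1
  refine ⟨(update A'.1 s (update B.1 (m - 1) (⟨(B.1 (m - 1)).1.val + 1, by omega⟩,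
    (B.1 (m - 1)).2), B.2), !s), EqvGen.trans _ _ _ (EqvGen.trans _ _ _ e (lift' s b1))
    (EqvGen.rel _ _ (Or.inr ⟨s, (⟨(B.1 (m - 1)).1.val + 1, by omega⟩, (B.1 (m - 1)).2),
      by simpa using (i.1.1 (h.g e s)).1.soft b2.1 hm', by simp, by simp, by exact b3, e',
      by simp⟩)), fun t => ?_, rfl⟩
  by_cases et : t = s
  · subst et
    have := sm_update hm' B.1 (⟨(B.1 (m - 1)).1.val + 1, by omega⟩, (B.1 (m - 1)).2)
    have := (u t).2
    simp only [update_self] at *
    exact ⟨U_upd b2 _, by omega⟩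
  · obtain rfl : t = !s := Bool.eq_not_iff.2 et
    simpa [h3] using u (!s)

theorem rem (s : Bool) (a : At m cp top A n (!s)) (h2 : n' s + 1 = n s)
    (h3 : n' (!s) = n (!s)) : At m cp top A n' s := by
  obtain ⟨A', e, u, e'⟩ := a
  have hm' : m - 1 < m := by have := h.pos; omega
  obtain ⟨B, b1, b2, b3⟩ := bring' h.pos (h.cap s) (h.g e s) (u s).1 (by have := (u s).2; omega)
  have i := eqv_inv h.pos b1
  refine ⟨(update A'.1 s (update B.1 (m - 1) (⟨(B.1 (m - 1)).1.val - 1, by omega⟩,
    (B.1 (m - 1)).2), B.2), s), EqvGen.trans _ _ _ (EqvGen.trans _ _ _ e (lift' s b1))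
    (EqvGen.symm _ _ (EqvGen.rel _ _ (Or.inr ⟨s, B.1 (m - 1),
      by simpa using (i.1.1 (h.g e s)).1.soft b2.1 hm', by simp, by simp; omega,
      ((i.1.1 (h.g e s)).1.bd _ hm').1, rfl, by simp [e']⟩))), fun t => ?_, rfl⟩
  by_cases et : t = s
  · subst et
    have := sm_update hm' B.1 (⟨(B.1 (m - 1)).1.val - 1, by omega⟩, (B.1 (m - 1)).2)
    have := (u t).2
    simp only [update_self] at *
    exact ⟨U_upd b2 _, by omega⟩
  · obtain rfl : t = !s := Bool.eq_not_iff.2 et
    simpa [h3] using u (!s)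

theorem cert (s b : Bool) (e : EqvGen (PM m cp top) A A') (ht : top s) (u : U (top s) (A'.1 s))
    (h1 : sm m (A'.1 s).1 = if b then tot m (cp s) else 0) :
    ∃ B, EqvGen (PM m cp top) A (update A'.1 s B, A'.2) ∧ B.2 = some b := by
  obtain ⟨B, b1, b2⟩ := certify' h.pos ht (h.g e s) u b h1
  exact ⟨B, EqvGen.trans _ _ _ e (lift' s b1), b2⟩

theorem b1 (a : At m cp top A n true) (ht : top false) : 0 < n false := by
  obtain ⟨A', e, u, e'⟩ := a
  by_contra c
  obtain ⟨B, b1, b2⟩ := h.cert false false e ht (u _).1 (by have := (u false).2; simp; omega)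
  exact h.nb _ b1 (Or.inr (Or.inr (Or.inr (Or.inl ⟨e', Or.inl (by simpa)⟩))))

theorem b2 (a : At m cp top A n true) (ht : top true) : n true < tot m (cp true) := by
  have l := h.le a true
  obtain ⟨A', e, u, e'⟩ := a
  by_contra c
  obtain ⟨B, b1, b2⟩ := h.cert true true e ht (u _).1 (by have := (u true).2; simp; omega)
  exact h.nb _ b1 (Or.inr (Or.inr (Or.inr (Or.inl ⟨e', Or.inr (by simpa)⟩))))

theorem b3 (s : Bool) (a : At m cp top A n false) (ht : top (!s)) (h1 : n (!s) = 0) : n s = 0 := by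
  obtain ⟨A', e, u, e'⟩ := a
  by_contra c
  obtain ⟨B', c1, -, c3⟩ := bring' h.pos (h.cap s) (h.g e s) (u s).1 (by have := (u s).2; omega)
  obtain ⟨B, b1, b2⟩ := h.cert (!s) false (EqvGen.trans _ _ _ e (lift' s c1)) ht
    (by simpa using (u _).1) (by simpa [h1] using (u (!s)).2)
  exact h.nb _ b1 (Or.inr (Or.inl ⟨s, e', by simpa, by simpa⟩))

theorem b4 (s : Bool) (a : At m cp top A n false) (ht : top (!s)) (h1 : n (!s) = tot m (cp (!s)))
    (h2 : s = true → eq = true) : n s = tot m (cp s) := by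
  have l := h.le a s
  obtain ⟨A', e, u, e'⟩ := a
  by_contra c
  obtain ⟨B', c1, -, c3⟩ := hole' h.pos (h.cap s) (h.g e s) (u s).1 (by have := (u s).2; omega)
  obtain ⟨B, b1, b2⟩ := h.cert (!s) true (EqvGen.trans _ _ _ e (lift' s c1)) ht
    (by simpa using (u _).1) (by simpa [h1] using (u (!s)).2)
  exact h.nb _ b1 (Or.inr (Or.inr (Or.inl ⟨s, e', by simpa, by simpa, h2⟩)))

theorem b5 (a : At m cp top A n p) (ht : ∀ s, top s) (h1 : ∀ s, n s = tot m (cp s)) :
    eq = true := by
  obtain ⟨A', e, u, e'⟩ := a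
  by_contra c
  obtain ⟨B', c1, c2⟩ := h.cert false true e (ht _) (u _).1 (by simpa [h1] using (u false).2)
  obtain ⟨B, b1, b2⟩ := h.cert true true c1 (ht _) (by simpa using (u _).1)
    (by simpa [h1] using (u true).2)
  exact h.nb _ b1 (Or.inr (Or.inr (Or.inr (Or.inr ⟨by simpa, by simpa, by simpa using c⟩))))

theorem up {l r : ℕ} (a : At m cp top A (fun s => bif s then r else l) false)
    (h1 : l < tot m (cp false)) (h2 : r < tot m (cp true)) :
    At m cp top A (fun s => bif s then r + 1 else l + 1) false :=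
  h.inj true (n := fun s => bif s then r else l + 1) (h.inj false a h1 rfl rfl) h2 rfl rfl

theorem down (ht : ∀ s, top s) : ∀ r l, At m cp top A (fun s => bif s then r else l) false →
    l = r ∧ At m cp top A (fun _ => 0) false := by
  intro r
  induction r with
  | zero =>
    intro l a
    obtain rfl : l = 0 := h.b3 false a (ht _) rfl
    exact ⟨rfl, by simpa using a⟩
  | succ r ih =>
    intro l a
    have a1 := h.rem true (n' := fun s => bif s then r else l) a rfl rfl
    have a2 : 0 < l := h.b1 a1 (ht _)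
    have a3 := ih (l - 1) (h.rem false a1 (Nat.sub_add_cancel a2) rfl)
    exact ⟨by omega, a3.2⟩

theorem reset (ht : ∀ s, top s) : PI m cp A ∧ At m cp top A (fun _ => 0) false := by
  have a := h.start
  have e : (fun s => sm m (A.1 s).1) = fun s => bif s then sm m (A.1 true).1 else sm m (A.1 false).1 := by
    funext s; cases s <;> rfl
  rw [e] at a
  cases hp : A.2
  · rw [hp] at a
    exact ⟨⟨h.g (EqvGen.refl _), by simpa [hp] using (h.down ht _ _ a).1⟩, (h.down ht _ _ a).2⟩
  · rw [hp] at a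
    have a2 : 0 < sm m (A.1 false).1 := h.b1 a (ht _)
    have a3 := h.down ht _ (sm m (A.1 false).1 - 1) (h.rem false a (Nat.sub_add_cancel a2) rfl)
    exact ⟨⟨h.g (EqvGen.refl _), by have := a3.1; simp [hp]; omega⟩, a3.2⟩

theorem clean (ht : ∀ s, top s) : EqvGen (PM m cp top) A
    (fun s => (fun i => if i < m then (0, Fz.none) else (A.1 s).1 i, none), false) := by
  obtain ⟨A', e, u, e'⟩ := (h.reset ht).2
  convert e using 1
  refine Prod.ext (funext fun s => Prod.ext (funext fun i => ?_)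
    ((h.g e s).res h.pos (u s).1).symm) e'.symm
  dsimp only
  split_ifs with hi
  · refine Prod.ext (Fin.ext (Finset.sum_eq_zero_iff.1 (u s).2 i (Finset.mem_range.2 hi)).symm) ?_
    cases i with
    | zero => exact ((u s).1.2 (ht s)).symm
    | succ i => exact ((h.g e s).1.none (u s).1.1 i hi).symm
  · exact (eqv_out h.pos e s (by omega)).symm

theorem capOK (ht : ∀ s, top s) : tot m (cp false) ≤ tot m (cp true) ∧
    (eq = true ↔ tot m (cp false) = tot m (cp true)) := by
  have key : ∀ j, j ≤ tot m (cp false) → j ≤ tot m (cp true) →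
      At m cp top A (fun s => bif s then j else j) false := by
    intro j
    induction j with
    | zero => exact fun _ _ => by simpa using (h.reset ht).2
    | succ j ih => exact fun a b => h.up (ih (by omega) (by omega)) a b
  have h1 : tot m (cp false) ≤ tot m (cp true) := by
    by_contra c
    have : tot m (cp true) = _ := h.b4 false (key _ (by omega) le_rfl) (ht _) rfl (by simp)
    omega
  refine ⟨h1, fun e => h.b4 true (key _ le_rfl h1) (ht _) rfl fun _ => e, fun e =>
    h.b5 (key _ le_rfl h1) ht fun s => ?_⟩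
  cases s
  exacts [rfl, e]

theorem pseudoR (ht : top true) (hc : tot m (cp true) < tot m (cp false)) : False := by
  have k1 : ∀ r l, At m cp top A (fun s => bif s then r else l) false → l ≤ r := by
    intro r
    induction r with
    | zero => exact fun l a => (h.b3 false a ht rfl).le
    | succ r ih =>
      intro l a
      rcases l with _ | l
      · omega
      · exact Nat.succ_le_succ (ih l (h.rem false
          (h.rem true (n' := fun s => bif s then r else l + 1) a rfl rfl) rfl rfl))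
  have k2 : ∀ d r l, r + d = tot m (cp true) →
      ¬ At m cp top A (fun s => bif s then r else l) false := by
    intro d
    induction d with
    | zero =>
      intro r l e a
      have h1 := k1 r l a
      have h2 : l = _ := h.b4 false a ht e (by simp)
      omega
    | succ d ih =>
      intro r l e a
      have h1 := k1 r l a
      exact ih _ _ (by omega) (h.up a (by omega) (by omega))
  have a := h.start
  have e : (fun s => sm m (A.1 s).1) = fun s => bif s then sm m (A.1 true).1 else sm m (A.1 false).1 := by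
    funext s; cases s <;> rfl
  rw [e] at a
  cases hp : A.2 <;> rw [hp] at a
  · exact k2 _ _ _ (Nat.add_sub_of_le (h.le a true)) a
  · have h1 : sm m (A.1 true).1 < _ := h.b2 a ht
    exact k2 _ (sm m (A.1 true).1 + 1) _ (Nat.add_sub_of_le h1) (h.inj true a h1 rfl rfl)

theorem pseudoL (ht : top false) (he : eq = true) (hc : tot m (cp false) < tot m (cp true)) :
    False := by
  have k1 : ∀ l r, At m cp top A (fun s => bif s then r else l) false → r ≤ l := by
    intro l
    induction l with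
    | zero => exact fun r a => (h.b3 true a ht rfl).le
    | succ l ih =>
      intro r a
      rcases r with _ | r
      · omega
      · exact Nat.succ_le_succ (ih r (h.rem false
          (h.rem true (n' := fun s => bif s then r else l + 1) a rfl rfl) rfl rfl))
  have k2 : ∀ d l r, l + d = tot m (cp false) →
      ¬ At m cp top A (fun s => bif s then r else l) false := by
    intro d
    induction d with
    | zero =>
      intro l r e a
      have h1 := k1 l r a
      have h2 : r = _ := h.b4 true a ht e fun _ => he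
      omega
    | succ d ih =>
      intro l r e a
      have h1 := k1 l r a
      exact ih _ _ (by omega) (h.up a (by omega) (by omega))
  have a := h.start
  have e : (fun s => sm m (A.1 s).1) = fun s => bif s then sm m (A.1 true).1 else sm m (A.1 false).1 := by
    funext s; cases s <;> rfl
  rw [e] at a
  cases hp : A.2 <;> rw [hp] at a
  · exact k2 _ _ _ (Nat.add_sub_of_le (h.le a false)) a
  · have h1 : 0 < sm m (A.1 false).1 := h.b1 a ht
    have h2 : sm m (A.1 false).1 ≤ _ := h.le a false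
    exact k2 (tot m (cp false) - (sm m (A.1 false).1 - 1)) (sm m (A.1 false).1 - 1) _ (by omega)
      (h.rem false a (Nat.sub_add_cancel h1) rfl)

end Nb

end Vale.Agent.P192.PSAux
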