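import Vale.Agent.P192.PSB

/-! Part PS: processes inside a network. -/

namespace Vale.Agent.P192.PSAux

open Function Relation

variable {cap : St → Bool → ℕ} {eqf : St → Bool} {N : Net} {S : Path → St}

abbrev Cs : Type := Path × Bool → PC
abbrev Hs : Type := Path → Bool × (Bool → Option Bool)

abbrev Dt : Type := Path → (Bool → PC) × Bool × (Bool → Option Bool)

def cs (X : Dt) : Cs := fun p => (X p.1).1 p.2
def hs (X : Dt) : Hs := fun π => (X π).2
def mk (c : Cs) (g : Hs) : Dt := fun π => (fun t => c (π, t), g π)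

theorem dat_ext {X Y : Dt} : X = Y ↔ cs X = cs Y ∧ hs X = hs Y :=
  ⟨fun h => h ▸ ⟨rfl, rfl⟩, fun h => funext fun π =>
    Prod.ext (funext fun t => congrFun h.1 (π, t)) (congrFun h.2 π)⟩

theorem cs_upd (X : Dt) (π : Path) (t : Bool) (x : PC) (k) :
    cs (update X π (update (X π).1 t x, k)) = update (cs X) (π, t) x := by
  funext ⟨ρ, u⟩
  by_cases a : ρ = π
  · subst a
    by_cases b : u = t
    · subst b; simp [cs]
    · simp [cs, b]
  · simp [cs, a]

theorem cs_upd' (X : Dt) (π : Path) (k) : cs (update X π ((X π).1, k)) = cs X := by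
  funext ⟨ρ, u⟩
  by_cases a : ρ = π
  · subst a; simp [cs]
  · simp [cs, a]

theorem hs_upd (X : Dt) (π : Path) (e k) :
    hs (update X π (e, k)) = update (hs X) π k := by
  funext ρ
  by_cases a : ρ = π
  · subst a; simp [hs]
  · simp [hs, a]

theorem hs_upd' (X : Dt) (π : Path) (e) : hs (update X π (e, (X π).2)) = hs X :=
  (hs_upd X π e _).trans (update_eq_self π (hs X))

/-- moves between the home and the leaf -/
def Hv (s : Bool) (g : Bool × (Bool → Option Bool)) (u : ℕ) (c x : PC)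
    (g' : Bool × (Bool → Option Bool)) : Prop :=
  (c.2.soft ∧ x.2 = c.2 ∧ x.1.val = c.1.val + 1 ∧ x.1.val ≤ u ∧ g.1 = s ∧ g' = (!s, g.2)) ∨
    ∃ m, c.2 = Fz.front m ∧ c.1.val = (if m then u else 0) ∧
      g.2 s = Option.none ∧ x = (c.1, Fz.deep m) ∧ g' = (g.1, update g.2 s (some m))

def TM' (cap : St → Bool → ℕ) (N : Net) (S : Path → St) (c : Cs) (g : Hs) (c' : Cs) (g' : Hs) :
    Prop :=
  (∃ π b, N.nd π ∧ (c (π, (S π).par)).2 = Fz.none ∧
    c' = update c (π, (S π).par) ((c (π, (S π).par)).1, Fz.front b) ∧ g' = g) ∨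
  (∃ π s t x y, N.ed π s ∧ t = !(S (π ++ [s])).par ∧
    Edge (cap (S (π ++ [s])) t) (c (π ++ [s], t)) (cap (S π) t) (c (π, t)) x y ∧
    c' = update (update c (π ++ [s], t) x) (π, t) y ∧ g' = g) ∨
  ∃ π s l x k, N.ad π s l ∧ Hv s (g π) (cap (S l) (!s)) (c (l, !s)) x k ∧
    c' = update c (l, !s) x ∧ g' = update g π k

theorem tm_iff (hN : ∀ π s l, N.ad π s l → l ≠ π) {X Y : Dt} :
    (PS cap eqf).TM N S X Y ↔ TM' cap N S (cs X) (hs X) (cs Y) (hs Y) := by
  have e1 : ∀ (π : Path) t x, Y = update X π (update (X π).1 t x, (X π).2) ↔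
      cs Y = update (cs X) (π, t) x ∧ hs Y = hs X := fun π t x => by
    rw [dat_ext, cs_upd, hs_upd']
  have e2 : ∀ (π : Path) s t x y, Y = update (update X (π ++ [s]) (update (X (π ++ [s])).1 t x,
      (X (π ++ [s])).2)) π (update (X π).1 t y, (X π).2) ↔
      cs Y = update (update (cs X) (π ++ [s], t) x) (π, t) y ∧ hs Y = hs X := by
    intro π s t x y
    have : X π = update X (π ++ [s]) (update (X (π ++ [s])).1 t x, (X (π ++ [s])).2) π :=
      (update_of_ne (by simp) _ _).symm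
    rw [dat_ext, this, cs_upd, hs_upd', cs_upd, hs_upd']
  have e3 : ∀ (π l : Path) t x k, l ≠ π → (Y = update (update X l (update (X l).1 t x,
      (X l).2)) π ((X π).1, k) ↔ cs Y = update (cs X) (l, t) x ∧ hs Y = update (hs X) π k) := by
    intro π l t x k h
    have : X π = update X l (update (X l).1 t x, (X l).2) π := (update_of_ne h.symm _ _).symm
    rw [dat_ext, this, cs_upd', hs_upd, cs_upd, hs_upd']
  constructor
  · rintro (⟨π, e, h1, ⟨b, h2, rfl⟩, h3⟩ | ⟨π, s, e, e', h1, ⟨t, x, y, h2, rfl, rfl, h4⟩, h3⟩ |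
      ⟨π, s, l, g, e, h1, ⟨x, rfl, h2⟩, h3⟩)
    · exact Or.inl ⟨π, b, h1, h2, (e1 _ _ _).1 h3⟩
    · exact Or.inr (Or.inl ⟨π, s, t, x, y, h1, h2, h4, (e2 _ _ _ _ _).1 h3⟩)
    · exact Or.inr (Or.inr ⟨π, s, l, x, g, h1, h2, (e3 _ _ _ _ _ (hN _ _ _ h1)).1 h3⟩)
  · rintro (⟨π, b, h1, h2, h3⟩ | ⟨π, s, t, x, y, h1, h2, h4, h3⟩ | ⟨π, s, l, x, g, h1, h2, h3⟩)
    · exact Or.inl ⟨π, _, h1, ⟨b, h2, rfl⟩, (e1 _ _ _).2 h3⟩
    · exact Or.inr (Or.inl ⟨π, s, _, _, h1, ⟨t, x, y, h2, rfl, rfl, h4⟩, (e2 _ _ _ _ _).2 h3⟩)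
    · exact Or.inr (Or.inr ⟨π, s, l, g, _, h1, ⟨x, rfl, h2⟩, (e3 _ _ _ _ _ (hN _ _ _ h1)).2 h3⟩)

/-- the inner spines below `π` -/
def ch (π : Path) (s : Bool) (i : ℕ) : Path := π ++ s :: List.replicate i (!s)

theorem ch_succ (π : Path) (s : Bool) (i : ℕ) : ch π s (i + 1) = ch π s i ++ [!s] := by
  simp [ch, List.replicate_succ']

@[simp] theorem length_ch (π : Path) (s : Bool) (i : ℕ) : (ch π s i).length = π.length + i + 1 := by
  simp [ch]; omega

theorem ch_inj : ∀ {π π' : Path} {s : Bool} {i j : ℕ}, ch π s i = ch π' s j → π = π' ∧ i = j := by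
  intro π π' s i
  induction i with
  | zero =>
    rintro (_ | j) h
    · simpa [ch] using h
    · rw [ch_succ] at h
      simpa using (List.append_inj' (t₁ := [s]) h rfl).2
  | succ i ih =>
    rintro (_ | j) h
    · rw [ch_succ] at h
      simpa using (List.append_inj' (t₂ := [s]) h rfl).2
    · rw [ch_succ, ch_succ] at h
      simpa using ih (List.append_cancel_right h)

theorem ch_ne (π : Path) (s : Bool) (i j : ℕ) : ch π s i ≠ List.replicate j (!s) := fun h => by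
  have : s ∈ ch π s i := by simp [ch]
  rw [h] at this
  simpa using List.eq_of_mem_replicate this

theorem exists_ch (ρ : Path) (t : Bool) :
    ρ = List.replicate ρ.length t ∨ ∃ π i, ρ = ch π (!t) i := by
  induction ρ using List.reverseRecOn with
  | nil => exact Or.inl rfl
  | append_singleton ρ s ih =>
    by_cases e : s = t
    · subst e
      rcases ih with ih | ⟨π, i, rfl⟩
      · exact Or.inl (by rw [List.length_append, List.length_singleton, List.replicate_succ', ← ih])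
      · exact Or.inr ⟨π, i + 1, by rw [ch_succ, Bool.not_not]⟩
    · exact Or.inr ⟨ρ, 0, by rw [Bool.eq_not_iff.2 e]; rfl⟩

def gv (π : Path) (c : Cs) (g : Hs) : Pr :=
  (fun s => (fun i => c (ch π s i, !s), (g π).2 s), (g π).1)

def get (π : Path) (X : Dt) : Pr := gv π (cs X) (hs X)

def cpv (cap : St → Bool → ℕ) (S : Path → St) (π : Path) (s : Bool) (i : ℕ) : ℕ :=
  cap (S (ch π s i)) (!s)

def pc (π : Path) (c : Cs) (a : Bool → Ch) : Cs := fun q =>
  if q.1 = ch π (!q.2) (q.1.length - π.length - 1) then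
    (a (!q.2)).1 (q.1.length - π.length - 1) else c q

def put (π : Path) (X : Dt) (A : Pr) : Dt :=
  mk (pc π (cs X) A.1) (update (hs X) π (A.2, fun s => (A.1 s).2))

theorem pc_ch (π : Path) (c : Cs) (a : Bool → Ch) (s : Bool) (i : ℕ) :
    pc π c a (ch π s i, !s) = (a s).1 i := by
  have : π.length + i + 1 - π.length - 1 = i := by omega
  simp [pc, this]

theorem pc_upd (π : Path) (c : Cs) (a : Bool → Ch) (s : Bool) (i : ℕ) (x : PC) (r) :
    pc π c (update a s (update (a s).1 i x, r)) = update (pc π c a) (ch π s i, !s) x := by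
  funext q
  by_cases e : q = (ch π s i, !s)
  · subst e
    simp [pc_ch]
  · rw [update_of_ne e, pc, pc]
    split_ifs with h
    · by_cases e1 : (!q.2) = s
      · subst e1
        rw [update_self]
        exact update_of_ne (fun e2 => e (Prod.ext (by rw [← e2]; exact h) (by simp))) _ _
      · rw [update_of_ne e1]
    · rfl

theorem cs_put (π : Path) (X : Dt) (A : Pr) : cs (put π X A) = pc π (cs X) A.1 := rfl

theorem hs_put (π : Path) (X : Dt) (A : Pr) :
    hs (put π X A) = update (hs X) π (A.2, fun s => (A.1 s).2) := rfl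

theorem get_put (π : Path) (X : Dt) (A : Pr) : get π (put π X A) = A :=
  Prod.ext (funext fun s => Prod.ext (funext fun i => pc_ch _ _ _ _ _)
    (by simp [get, gv, hs_put])) (by simp [get, gv, hs_put])

theorem put_get (π : Path) (X : Dt) : put π X (get π X) = X := by
  refine dat_ext.2 ⟨funext fun q => ?_, update_eq_self π (hs X)⟩
  rw [cs_put, pc]
  split_ifs with h
  · simp only [get, gv, ← h, Bool.not_not]
  · rfl

/-- the top cell can be frozen -/
def topv (S : Path → St) (π : Path) (s : Bool) : Prop := (S (ch π s 0)).par = !s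

/-- a process inside a network -/
structure Proc (N : Net) (S : Path → St) (π : Path) (m : ℕ) : Prop where
  pos : 0 < m
  hN : ∀ π s l, N.ad π s l → l ≠ π
  nd : ∀ s, ∀ i < m, N.nd (ch π s i)
  ed : ∀ s i, i + 1 < m → N.ed (ch π s i) (!s) ∧ (S (ch π s (i + 1))).par = s
  ad : ∀ s, N.ad π s (ch π s (m - 1))
  hv : N.hv π

variable {π : Path} {m : ℕ}

theorem Proc.tm (h : Proc N S π m) (X : Dt) {A A' : Pr}
    (hA : PM m (cpv cap S π) (topv S π) A A') :
    (PS cap eqf).TM N S (put π X A) (put π X A') := by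
  have hr : ∀ s (a : ℕ → PC), (fun t => (update A.1 s (a, (A.1 s).2) t).2) = fun t => (A.1 t).2 :=
    fun s a => funext fun t => by
      by_cases e : t = s
      · subst e; simp
      · simp [e]
  rw [tm_iff h.hN, cs_put, cs_put, hs_put, hs_put]
  rcases hA with ⟨s, ⟨a, r⟩, ⟨⟨ht, b, h1, rfl⟩ | ⟨i, x, y, hi, h1, rfl⟩, rfl⟩ | ⟨b, h1, h2, h3, h4⟩,
    rfl⟩ | ⟨s, x, h1, h2, h3, h4, h5, rfl⟩
  · refine Or.inl ⟨ch π s 0, b, h.nd s 0 h.pos, ?_⟩
    rw [show (S (ch π s 0)).par = !s from ht, pc_ch, pc_upd, hr]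
    exact ⟨h1, rfl, rfl⟩
  · refine Or.inr (Or.inl ⟨ch π s i, !s, !s, x, y, (h.ed s i hi).1, ?_⟩)
    rw [← ch_succ, (h.ed s i hi).2, pc_ch, pc_ch, ← pc_upd _ _ _ _ _ _ (A.1 s).2,
      ← pc_upd _ _ _ _ _ _ (A.1 s).2, hr]
    exact ⟨rfl, h1, by simp, rfl⟩
  · refine Or.inr (Or.inr ⟨π, s, _, (((A.1 s).1 (m - 1)).1, Fz.deep b),
      (A.2, update (fun t => (A.1 t).2) s (some b)), h.ad s, ?_⟩)
    rw [pc_ch, h4, pc_upd, update_self, update_idem]
    refine ⟨Or.inr ⟨b, h1, h2, h3, rfl, rfl⟩, rfl, ?_⟩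
    congr 2
    funext t
    by_cases e : t = s
    · subst e; simp
    · simp [e]
  · refine Or.inr (Or.inr ⟨π, s, _, x, (!s, fun t => (A.1 t).2), h.ad s, ?_⟩)
    rw [pc_ch, pc_upd, update_self, update_idem, hr]
    exact ⟨Or.inl ⟨h1, h2, h3, h4, h5, rfl⟩, rfl, rfl⟩

theorem Proc.con (h : Proc N S π m) (X : Dt) {A A' : Pr}
    (hA : EqvGen (PM m (cpv cap S π) (topv S π)) A A') :
    (PS cap eqf).Con N S (put π X A) (put π X A') := by
  induction hA with
  | rel a b e => exact (h.tm X e).con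
  | refl => exact Lay.Con.refl _
  | symm a b _ ih => exact ih.symm
  | trans a b c _ _ ih1 ih2 => exact ih1.trans ih2

theorem bd_of {X : Dt} (hb : ¬ (PS cap eqf).TB N S X) {ρ : Path} (h : N.nd ρ)
    (t : Bool) : Bd (cap (S ρ) t) (cs X (ρ, t)) :=
  ⟨not_lt.1 fun c => hb (Or.inl ⟨ρ, h, t, Or.inl c⟩),
    fun b e => by_contra fun c => hb (Or.inl ⟨ρ, h, t, Or.inr ⟨b, e, c⟩⟩)⟩

theorem ok_of {X : Dt} (hb : ¬ (PS cap eqf).TB N S X) {ρ : Path} {s : Bool}
    (h : N.ed ρ s) (hp : (S (ρ ++ [s])).par = !s) : Fz.ok (cs X (ρ, s)).2 (cs X (ρ ++ [s], s)).2 :=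
  by_contra fun c => hb (Or.inr (Or.inl ⟨ρ, s, h, by
    show ¬ _
    rw [hp, Bool.not_not]
    exact c⟩))

theorem Proc.tb (h : Proc N S π m) {X : Dt}
    (hA : PB m (cpv cap S π) (eqf (S π)) (get π X)) : (PS cap eqf).TB N S X := by
  by_contra hb
  rcases hA with ⟨s, c⟩ | ⟨s, c⟩ | ⟨s, c⟩ | c | c
  · refine c ⟨⟨fun i hi => bd_of hb (h.nd s i hi) _, fun i hi => ?_⟩,
      by_contra fun c => hb (Or.inr (Or.inr (Or.inl ⟨π, s, _, h.ad s, Or.inl c⟩)))⟩
    have := ok_of hb (h.ed s i hi).1 (by rw [← ch_succ, (h.ed s i hi).2, Bool.not_not])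
    rwa [← ch_succ] at this
  · exact hb (Or.inr (Or.inr (Or.inl ⟨π, s, _, h.ad s, Or.inr (Or.inl c)⟩)))
  · exact hb (Or.inr (Or.inr (Or.inl ⟨π, s, _, h.ad s, Or.inr (Or.inr c)⟩)))
  · exact hb (Or.inr (Or.inr (Or.inr ⟨π, h.hv, Or.inl c⟩)))
  · exact hb (Or.inr (Or.inr (Or.inr ⟨π, h.hv, Or.inr (Or.inl c)⟩)))

theorem Proc.nb (h : Proc N S π m) (hc : ∀ s t, 1 ≤ cap s t ∧ cap s t ≤ 2) {X : Dt}
    (hn : (PS cap eqf).NB N S X) :
    Nb m (cpv cap S π) (topv S π) (eqf (S π)) (get π X) :=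
  ⟨h.pos, fun _ _ => hc _ _, fun A e b => hn (put π X A)
    (by simpa only [put_get] using h.con X e) (h.tb (by rwa [get_put]))⟩

variable {h : ℕ}

theorem tree_ne (π : Path) (s : Bool) (l : Path) (e : (tree h).ad π s l) : l ≠ π := fun c => by
  have := congrArg List.length (c.symm.trans e.2)
  simp at this

theorem proc_tree (hS : Shape h S) (hπ : π.length < h) : Proc (tree h) S π (h - π.length) :=
  ⟨by omega, tree_ne, fun s i hi => by show _ ≤ h; rw [length_ch]; omega,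
    fun s i hi => ⟨by show _ < h; rw [length_ch]; omega, by
      rw [ch_succ, hS.par _ _ (by rw [length_ch]; omega), Bool.not_not]⟩,
    fun s => ⟨hπ, rfl⟩, hπ.le⟩

theorem top_tree (hS : Shape h S) (hπ : π.length < h) (s : Bool) : topv S π s := hS.par π s hπ

end Vale.Agent.P192.PSAux
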