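import Vale.Agent.P192.LayDefs

/-! Static labels. -/

namespace Vale.Agent.P192

theorem special_zero : Special 0 := ⟨0, by simp⟩

theorem Special.two_mul {k : ℕ} (h : Special k) : Special (2 * k + 1) := by
  obtain ⟨i, hi⟩ := h
  exact ⟨i + 1, by rw [pow_succ]; omega⟩

theorem Special.gap {k j : ℕ} (h : Special k) (h1 : k < j) (h2 : j < 2 * k + 1) : ¬ Special j := by
  rintro ⟨b, hb⟩
  obtain ⟨a, ha⟩ := h
  have h3 : 2 ^ a < 2 ^ b := by omega
  have h4 : 2 ^ b < 2 ^ (a + 1) := by rw [pow_succ]; omega
  have := (Nat.pow_lt_pow_iff_right (by norm_num : 1 < 2)).1 h3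
  have := (Nat.pow_lt_pow_iff_right (by norm_num : 1 < 2)).1 h4
  omega

theorem exists_special_below {j : ℕ} (hj : 0 < j) : ∃ a, Special a ∧ a < j ∧ j ≤ 2 * a + 1 := by
  have h1 := Nat.pow_log_le_self 2 hj.ne'
  have h2 := Nat.lt_pow_succ_log_self (by norm_num : 1 < 2) j
  have h3 : 0 < 2 ^ Nat.log 2 j := by positivity
  rw [Nat.succ_eq_add_one, pow_succ] at h2
  exact ⟨2 ^ Nat.log 2 j - 1, ⟨Nat.log 2 j, by omega⟩, by omega, by omega⟩

open Classical in
/-- the correct labels, on reversed paths -/
noncomputable def labR (h : ℕ) : List Bool → St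
  | [] => ⟨decide (h = 0), false, decide (Special h), false, fun _ => false⟩
  | s :: r => ⟨decide (r.length + 1 = h), !s, decide (Special (h - (r.length + 1))),
      if s then (labR h r).sp else (labR h r).col,
      fun t => s != t || ((labR h r).upf t && !(labR h r).sp)⟩

theorem exists_VS (h : ℕ) : ∃ S, VS h S := by
  refine ⟨fun π => labR h π.reverse, ⟨⟨fun π _ => ?_, fun π s _ => ?_⟩, fun π _ => ?_,
    fun π s _ => ?_, fun π s t _ => ?_⟩⟩
  · rcases List.eq_nil_or_concat π with rfl | ⟨ρ, s, rfl⟩
    · simp [labR, eq_comm]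
    · simp [labR]
  · simp [labR]
  · rcases List.eq_nil_or_concat π with rfl | ⟨ρ, s, rfl⟩
    · simp [labR]
    · simp [labR]
  · simp [labR]
  · simp [labR]

variable {h : ℕ} {S : Path → St}

theorem St.ext' {a b : St} (h1 : a.leaf = b.leaf) (h2 : a.par = b.par) (h3 : a.sp = b.sp)
    (h4 : a.col = b.col) (h5 : ∀ t, a.upf t = b.upf t) : a = b := by
  cases a; cases b; simp_all [funext_iff]

theorem VS.sub_eq (hS : VS h S) {z z' : Path} (hl : z.length = z'.length) (he : S z = S z')
    (ρ : Path) (hρ : z.length + ρ.length ≤ h) : S (z ++ ρ) = S (z' ++ ρ) := by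
  induction ρ using List.reverseRecOn with
  | nil => simpa using he
  | append_singleton ρ s ih =>
    simp only [List.length_append, List.length_singleton] at hρ
    have ih := ih (by omega)
    have a1 : (z ++ ρ).length < h := by simp; omega
    have a2 : (z' ++ ρ).length < h := by simp; omega
    have b1 : (z ++ ρ ++ [s]).length ≤ h := by simp; omega
    have b2 : (z' ++ ρ ++ [s]).length ≤ h := by simp; omega
    have b3 : (z ++ ρ ++ [s]).length = (z' ++ ρ ++ [s]).length := by simp; omega
    rw [← List.append_assoc, ← List.append_assoc]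
    refine St.ext' ?_ ?_ ?_ ?_ fun t => ?_
    · rw [Bool.eq_iff_iff, hS.leaf _ b1, hS.leaf _ b2, b3]
    · rw [hS.par _ _ a1, hS.par _ _ a2]
    · rw [Bool.eq_iff_iff, hS.sp _ b1, hS.sp _ b2, b3]
    · rw [hS.col _ _ a1, hS.col _ _ a2, ih]
    · rw [hS.upf _ _ _ a1, hS.upf _ _ _ a2, ih]

theorem VS.col_true {k : ℕ} (hk : Special k) (hS : VS (2 * k + 1) S) (z : Path)
    (hz : z.length ≤ k + 1) (hc : (S z).col = true) :
    z = List.replicate z.length false ∨ z = true :: List.replicate (z.length - 1) false := by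
  induction z using List.reverseRecOn with
  | nil => simp
  | append_singleton ρ s ih =>
    simp only [List.length_append, List.length_singleton] at hz ⊢
    rw [hS.col _ _ (by omega)] at hc
    cases s with
    | true =>
      have := (hS.sp ρ (by omega)).1 (by simpa using hc)
      by_cases h0 : ρ.length = 0
      · right; rw [List.length_eq_zero_iff.1 h0]; simp
      · exact absurd this (hk.gap (by omega) (by omega))
    | false =>
      rcases ih (by omega) (by simpa using hc) with h | h
      · left; rw [List.replicate_succ', ← h]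
      · right
        have : ρ.length - 1 + 1 = ρ.length := by rw [h]; simp
        rw [Nat.add_sub_cancel, ← this, List.replicate_succ', ← List.cons_append, ← h]

theorem chain_succ (π : Path) (s : Bool) (i : ℕ) :
    π ++ s :: List.replicate (i + 1) (!s) = (π ++ s :: List.replicate i (!s)) ++ [!s] := by
  simp [List.replicate_succ']

theorem capSum0 (hS : Shape h S) (π : Path) (hπ : π.length < h) (s : Bool) :
    capSum cap0 h S π s = 2 * (h - π.length) - 1 := by
  obtain ⟨m, hm⟩ : ∃ m, h - π.length = m + 1 := ⟨h - π.length - 1, by omega⟩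
  rw [capSum, hm, Finset.sum_range_succ', Finset.sum_congr rfl (g := fun _ => 2)]
  · have := hS.par π s hπ
    simp [cap0, this]; omega
  · intro i hi
    rw [Finset.mem_range] at hi
    rw [chain_succ, cap0, hS.par _ _ (by simp; omega)]
    cases s <;> simp

theorem capOK0 (hS : Shape h S) : CapOK cap0 (fun _ => true) h S := fun π hπ => by
  simp [capSum0 hS π hπ]

theorem capSum1 (hu : ∀ (π : Path) s t, π.length < h →
      (S (π ++ [s])).upf t = (s != t || ((S π).upf t && !(S π).sp)))
    (π : Path) (hπ : π.length < h)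
    (hsp : ∀ ρ : Path, π.length < ρ.length → ρ.length ≤ h →
      ((S ρ).sp = true ↔ Special (h - ρ.length)))
    {a : ℕ} (ha : Special a) (h1 : a < h - π.length) (h2 : h - π.length ≤ 2 * a + 1) :
    capSum cap1 h S π false + a = 2 * (h - π.length) ∧
      capSum cap1 h S π true = h - π.length + a + 1 := by
  obtain ⟨m, hm⟩ : ∃ m, h - π.length = a + 1 + m := ⟨h - π.length - a - 1, by omega⟩
  have hs : ∀ s i, i < h - π.length → ((S (π ++ s :: List.replicate i (!s))).sp = true ↔
      Special (h - π.length - 1 - i)) := fun s i hi => by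
    rw [hsp _ (by simp) (by simp; omega)]
    simp only [List.length_append, List.length_cons, List.length_replicate]
    congr! 1; omega
  have hup : ∀ s i, i < h - π.length →
      ((S (π ++ s :: List.replicate i (!s))).upf (!s) = true ↔ i ≤ m) := by
    intro s i
    induction i with
    | zero => intro _; have := hu π s (!s) hπ; cases s <;> simp_all
    | succ i ih =>
      intro hi
      rw [chain_succ, hu _ _ _ (by simp; omega)]
      simp only [bne_self_eq_false, Bool.false_or, Bool.and_eq_true, Bool.not_eq_true']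
      rw [ih (by omega), ← Bool.not_eq_true, hs s i (by omega)]
      constructor
      · rintro ⟨b1, b2⟩
        by_contra b3
        exact b2 (by rw [show h - π.length - 1 - i = a by omega]; exact ha)
      · intro b1
        exact ⟨by omega, ha.gap (by omega) (by omega)⟩
  have sumlt : ∀ a b x y : ℕ, ∑ i ∈ Finset.range (a + b), (if i < a then x else y) =
      a * x + b * y := fun a b x y => by
    rw [Finset.sum_range_add, Finset.sum_congr rfl (g := fun _ => x)
      (s₁ := Finset.range a) (fun i hi => by simp [Finset.mem_range.1 hi])]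
    simp
  constructor
  · rw [capSum, Finset.sum_congr rfl (g := fun i => if i < m + 1 then 2 else 1), hm,
      show a + 1 + m = (m + 1) + a by omega, sumlt]
    · omega
    · intro i hi
      have := hup false i (Finset.mem_range.1 hi)
      simp only [cap1, Bool.not_false, if_true] at this ⊢
      simp only [this, Nat.lt_succ_iff]
  · rw [capSum, Finset.sum_congr rfl (g := fun i => if i < m then 1 else 2), hm,
      show a + 1 + m = m + (a + 1) by omega, sumlt]
    · omega
    · intro i hi
      have hi := Finset.mem_range.1 hi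
      have b1 := hup true i hi
      have b2 := hs true i hi
      simp only [cap1, Bool.not_true, Bool.false_eq_true, if_false, Bool.and_eq_true,
        Bool.not_eq_true'] at b1 b2 ⊢
      refine if_congr ?_ rfl rfl
      rw [← Bool.not_eq_true, b1, b2]
      constructor
      · rintro ⟨c1, c2⟩
        by_contra c3
        exact c2 (by rw [show h - π.length - 1 - i = a by omega]; exact ha)
      · intro c1
        exact ⟨by omega, ha.gap (by omega) (by omega)⟩

theorem special_iff {a j : ℕ} (ha : Special a) (h1 : a < j) (h2 : j ≤ 2 * a + 1) :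
    Special j ↔ j = 2 * a + 1 :=
  ⟨fun h => by by_contra h3; exact ha.gap h1 (by omega) h, fun h => h ▸ ha.two_mul⟩

theorem VS.capOK1 (hS : VS h S) : CapOK cap1 St.sp h S := fun π hπ => by
  obtain ⟨a, ha, h1, h2⟩ := exists_special_below (show 0 < h - π.length by omega)
  obtain ⟨e1, e2⟩ := capSum1 hS.upf π hπ (fun ρ _ hρ => hS.sp ρ hρ) ha h1 h2
  rw [hS.sp π hπ.le, special_iff ha h1 h2]
  omega

theorem VS.nb_LS (hS : VS h S) (X : LS.Dat) : LS.NB (tree h) S X := by
  rintro Y - (⟨π, h1, h2, h3⟩ | ⟨π, s, h1, h2⟩ | ⟨π, s, l, -, h2⟩ | ⟨π, -, h2⟩)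
  · have := (hS.sp π h1).2 (by rw [(hS.leaf π h1).1 h2]; simpa using special_zero)
    simp [this] at h3
  · rcases h2 with h2 | ⟨t, h2⟩
    · apply h2
      rw [hS.col π s h1, hS.par π s h1]
      cases s <;> simp
    · apply h2
      rw [hS.upf π s t h1, hS.par π s h1]
      cases s <;> cases t <;> simp
  · exact h2
  · exact h2

theorem VS.of_nb (hS : Shape h S) {X : LS.Dat} (hn : LS.NB (tree h) S X)
    (hc : CapOK cap1 St.sp h S) : VS h S := by
  have hb := hn.not_TB
  have hcol : ∀ (π : Path) s, π.length < h →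
      (S (π ++ [s])).col = if s then (S π).sp else (S π).col := fun π s hπ => by
    by_contra h1
    refine hb (Or.inr (Or.inl ⟨π, s, hπ, Or.inl ?_⟩))
    rw [hS.par π s hπ]
    cases s <;> simpa using h1
  have hu : ∀ (π : Path) s t, π.length < h →
      (S (π ++ [s])).upf t = (s != t || ((S π).upf t && !(S π).sp)) := fun π s t hπ => by
    by_contra h1
    refine hb (Or.inr (Or.inl ⟨π, s, hπ, Or.inr ⟨t, ?_⟩⟩))
    rw [hS.par π s hπ]
    cases s <;> cases t <;> simpa using h1
  refine ⟨hS, ?_, hcol, hu⟩
  have key : ∀ j, ∀ π : Path, π.length ≤ h → h - π.length ≤ j →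
      ((S π).sp = true ↔ Special (h - π.length)) := by
    intro j
    induction j with
    | zero =>
      intro π h1 h2
      have h3 : (S π).leaf = true := (hS.leaf π h1).2 (by omega)
      rw [show h - π.length = 0 by omega]
      refine ⟨fun _ => special_zero, fun _ => ?_⟩
      by_contra h4
      exact hb (Or.inl ⟨π, h1, h3, by simpa using h4⟩)
    | succ j ih =>
      intro π h1 h2
      by_cases h3 : h - π.length ≤ j
      · exact ih π h1 h3
      have hπ : π.length < h := by omega
      obtain ⟨a, ha, b1, b2⟩ := exists_special_below (show 0 < h - π.length by omega)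
      obtain ⟨e1, e2⟩ := capSum1 hu π hπ (fun ρ c1 c2 => ih ρ c2 (by omega)) ha b1 b2
      rw [(hc π hπ).2, special_iff ha b1 b2]
      omega
  exact fun π hπ => key _ π hπ le_rfl

theorem swapP_left (z z' ρ : Path) : swapP z z' (z ++ ρ) = z' ++ ρ := by simp [swapP]

theorem not_prefix_of_ne {z z' : Path} (hl : z.length = z'.length) (hne : z ≠ z') (ρ : Path) :
    ¬ z <+: z' ++ ρ := by
  rintro ⟨t, ht⟩
  exact hne (List.append_inj ht hl).1

theorem swapP_right {z z' : Path} (hl : z.length = z'.length) (ρ : Path) :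
    swapP z z' (z' ++ ρ) = z ++ ρ := by
  by_cases hne : z = z'
  · subst hne; exact swapP_left z z ρ
  · simp [swapP, not_prefix_of_ne hl hne]

theorem swapP_other {z z' y : Path} (hl : z.length = y.length) (hl' : z'.length = y.length)
    (h1 : y ≠ z) (h2 : y ≠ z') (ρ : Path) : swapP z z' (y ++ ρ) = y ++ ρ := by
  simp [swapP, not_prefix_of_ne hl h1.symm, not_prefix_of_ne hl' h2.symm]

theorem swapP_short {z z' π : Path} (hl : z.length = z'.length) (h : π.length < z.length) :
    swapP z z' π = π := by
  have h1 : ¬ z <+: π := fun hp => by have := hp.length_le; omega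
  have h2 : ¬ z' <+: π := fun hp => by have := hp.length_le; omega
  simp [swapP, h1, h2]

theorem swapP_cases {z z' : Path} (hl : z.length = z'.length) (π : Path) :
    (∃ ρ, π = z ++ ρ ∧ swapP z z' π = z' ++ ρ) ∨ (∃ ρ, π = z' ++ ρ ∧ swapP z z' π = z ++ ρ) ∨
      (¬ z <+: π ∧ ¬ z' <+: π ∧ swapP z z' π = π) := by
  by_cases h1 : z <+: π
  · obtain ⟨ρ, rfl⟩ := h1
    exact Or.inl ⟨ρ, rfl, swapP_left _ _ _⟩
  by_cases h2 : z' <+: π
  · obtain ⟨ρ, rfl⟩ := h2
    exact Or.inr (Or.inl ⟨ρ, rfl, swapP_right hl _⟩)
  exact Or.inr (Or.inr ⟨h1, h2, by simp [swapP, h1, h2]⟩)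

theorem swapP_length {z z' : Path} (hl : z.length = z'.length) (π : Path) :
    (swapP z z' π).length = π.length := by
  rcases swapP_cases hl π with ⟨ρ, rfl, h⟩ | ⟨ρ, rfl, h⟩ | ⟨-, -, h⟩ <;> simp [h, hl]

theorem VS.swap_eq (hS : VS h S) {z z' : Path} (hl : z.length = z'.length) (he : S z = S z')
    (π : Path) (hπ : π.length ≤ h) : S (swapP z z' π) = S π := by
  rcases swapP_cases hl π with ⟨ρ, rfl, h⟩ | ⟨ρ, rfl, h⟩ | ⟨-, -, h⟩
  · rw [h, hS.sub_eq hl he ρ (by simpa using hπ)]
  · rw [h, hS.sub_eq hl he ρ (by simpa [hl] using hπ)]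
  · rw [h]

end Vale.Agent.P192
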