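import Vale.Agent.P192.Lin
import Vale.Agent.P192.Coc

/-! Part Witt, first half: ring lemmas and inclusion-exclusion for substitutions. -/

namespace Vale.Agent.P192.WittAux

open Matrix

section ring

variable {M : Type*} [Ring M]

theorem pw_left (a e : M) (m : ℕ) : ∀ x : M, (∀ j < m, e * a ^ j * x = 0) →
    ((a + e) ^ m - a ^ m) * x = 0 := by
  induction m with
  | zero => simp
  | succ m ih =>
    intro x h
    have h1 := ih (a * x) fun j hj => by
      have := h (j + 1) (by omega)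
      rwa [pow_succ, ← mul_assoc, mul_assoc _ a x] at this
    have h2 : e * x = 0 := by simpa using h 0 (by omega)
    calc ((a + e) ^ (m + 1) - a ^ (m + 1)) * x
        = ((a + e) ^ m - a ^ m) * (a * x) + (a + e) ^ m * (e * x) := by
          rw [pow_succ, pow_succ]; noncomm_ring
      _ = 0 := by rw [h1, h2]; simp

theorem pw_right (a e : M) (m : ℕ) : ∀ x : M, (∀ j < m, x * a ^ j * e = 0) →
    x * ((a + e) ^ m - a ^ m) = 0 := by
  induction m with
  | zero => simp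
  | succ m ih =>
    intro x h
    have h1 := ih (x * a) fun j hj => by
      have := h (j + 1) (by omega)
      rwa [pow_succ', ← mul_assoc] at this
    have h2 : x * e = 0 := by simpa using h 0 (by omega)
    calc x * ((a + e) ^ (m + 1) - a ^ (m + 1))
        = (x * a) * ((a + e) ^ m - a ^ m) + (x * e) * (a + e) ^ m := by
          rw [pow_succ', pow_succ']; noncomm_ring
      _ = 0 := by rw [h1, h2]; simp

theorem pw_tri {a e e' : M} {d : ℕ} (h : ∀ j ≤ 3 * d, e * a ^ j * e' = 0) {m k n : ℕ}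
    (hm : m ≤ d) (hk : k ≤ d) (hn : n ≤ d) :
    ((a + e) ^ m - a ^ m) * a ^ k * ((a + e') ^ n - a ^ n) = 0 := by
  rw [mul_assoc]
  refine pw_left a e m _ fun j hj => ?_
  rw [← mul_assoc]
  refine pw_right a e' n _ fun i hi => ?_
  have := h (j + k + i) (by omega)
  rwa [pow_add, pow_add, ← mul_assoc, ← mul_assoc] at this

theorem pw_ie {a e e' : M} {d : ℕ} (h : ∀ j ≤ d, e * a ^ j * e' = 0)
    (h' : ∀ j ≤ d, e' * a ^ j * e = 0) (m : ℕ) (hm : m ≤ d) :
    (a + e + e') ^ m + a ^ m = (a + e) ^ m + (a + e') ^ m := by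
  induction m with
  | zero => simp
  | succ m ih =>
    have h0 : (a + e + e') ^ m = (a + e) ^ m + (a + e') ^ m - a ^ m := by
      rw [← ih (by omega)]; simp
    have h1 := pw_left a e m e' fun j hj => h j (by omega)
    have h2 := pw_left a e' m e fun j hj => h' j (by omega)
    calc (a + e + e') ^ (m + 1) + a ^ (m + 1) = (a + e) ^ (m + 1) + (a + e') ^ (m + 1) +
          ((a + e) ^ m - a ^ m) * e' + ((a + e') ^ m - a ^ m) * e := by
          simp only [pow_succ]; rw [h0]; noncomm_ring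
      _ = _ := by rw [h1, h2]; simp

theorem tri {A : Type*} [AddGroup A] (f g h : A →+ M) (W : Set A)
    (H : ∀ x ∈ W, ∀ y ∈ W, ∀ z ∈ W, f x * g y * h z = 0) :
    ∀ x ∈ AddSubgroup.closure W, ∀ y ∈ AddSubgroup.closure W, ∀ z ∈ AddSubgroup.closure W,
      f x * g y * h z = 0 := by
  intro x hx y hy z hz
  induction hx using AddSubgroup.closure_induction with
  | zero => simp
  | add a b _ _ ha hb => simp [add_mul, ha, hb]
  | neg a _ ha => simp [ha]
  | mem a ha =>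
    induction hy using AddSubgroup.closure_induction with
    | zero => simp
    | add a b _ _ ha hb => simp [add_mul, mul_add, ha, hb]
    | neg a _ ha => simp [ha]
    | mem b hb =>
      induction hz using AddSubgroup.closure_induction with
      | zero => simp
      | add a b _ _ ha hb => simp [mul_add, ha, hb]
      | neg a _ ha => simp [ha]
      | mem c hc => exact H a ha b hb c hc

theorem tri_pow {e a : M} (he : e * e = e) (ha : (1 - e) * a * e = 0) (m : ℕ) :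
    (1 - e) * a ^ m * e = 0 ∧ dgM e (a ^ m) = dgM e a ^ m := by
  induction m with
  | zero => exact ⟨by simp [sub_mul, he], by simp [dgM_one he]⟩
  | succ m ih =>
    refine ⟨?_, by rw [pow_succ, dgM_mul he ih.1 ha, ih.2, pow_succ]⟩
    calc (1 - e) * a ^ (m + 1) * e
        = (1 - e) * a ^ m * e * (a * e) + (1 - e) * a ^ m * ((1 - e) * a * e) := by
          rw [pow_succ]; noncomm_ring
      _ = 0 := by rw [ih.1, ha]; simp

end ring

section gen

variable {ι : Type} [Fintype ι] [DecidableEq ι] {A B : Type} [Ring A] [Ring B]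

/-- substitution along a non-unital ring homomorphism -/
def thM (ρ : A →ₙ+* B) : Matrix ι ι A →* Matrix ι ι B where
  toFun M := diagonal (fun _ => 1 - ρ 1) + M.map ρ
  map_one' := by
    ext i j
    by_cases h : i = j
    · subst h; simp
    · simp [h]
  map_mul' M N := by
    have h1 : diagonal (fun _ : ι => 1 - ρ 1) * N.map ρ = 0 := by
      ext i j; simp [diagonal_mul, sub_mul, ← map_mul]
    have h2 : M.map ρ * diagonal (fun _ : ι => 1 - ρ 1) = 0 := by
      ext i j; simp [mul_diagonal, mul_sub, ← map_mul]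
    have h3 : (M * N).map ρ = M.map ρ * N.map ρ := by
      ext i j; simp [Matrix.mul_apply, map_sum]
    rw [Matrix.add_mul, Matrix.mul_add, Matrix.mul_add, h1, h2, h3, diagonal_mul_diagonal]
    simp [sub_mul, mul_sub, ← map_mul]

/-- the same on invertible matrices -/
def th (ρ : A →ₙ+* B) : (Matrix ι ι A)ˣ →* (Matrix ι ι B)ˣ := Units.map (thM ρ)

theorem th_val (ρ : A →ₙ+* B) (g : (Matrix ι ι A)ˣ) :
    ((th ρ g : (Matrix ι ι B)ˣ) : Matrix ι ι B) =
      diagonal (fun _ => 1 - ρ 1) + (g : Matrix ι ι A).map ρ := rfl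

theorem th_rt (ρ : A →ₙ+* B) (a b : ι) (r : A) : th ρ (rt a b r) = rt a b (ρ r) := by
  by_cases h : a = b
  · simp [rt, h]
  ext i j
  rw [th_val, rt_val h, rt_val h]
  simp only [Matrix.add_apply, Matrix.map_apply, diagonal_apply, one_apply, single_apply, map_add]
  split_ifs <;> simp_all

/-- the list of elementary matrices -/
def rl (l : List (ι × ι × A)) (ρ : A → B) : List (Matrix ι ι B)ˣ :=
  l.map fun t => rt t.1 t.2.1 (ρ t.2.2)

theorem rl_prod (l : List (ι × ι × A)) (ρ : A →ₙ+* B) : (rl l ρ).prod = th ρ (rl l id).prod := by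
  rw [map_list_prod, rl, rl, List.map_map]
  congr 1
  refine List.map_congr_left fun t _ => ?_
  simp [th_rt]

/-- the finite set of ring elements that matter for a list -/
def Dl (l : List (ι × ι × A)) : Set A :=
  {1} ∪ {r | ∃ t ∈ l, r = t.2.2} ∪ {w | ∃ l1 ∈ l.inits, ∃ l2 ∈ l.inits, ∃ i j,
    w = (((rl l1 id).prod⁻¹ * (rl l2 id).prod : (Matrix ι ι A)ˣ) : Matrix ι ι A) i j}

theorem Dl_fin (l : List (ι × ι × A)) : (Dl l).Finite := by
  refine ((Set.finite_singleton _).union ?_).union ?_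
  · exact ((List.finite_toSet l).image fun t => t.2.2).subset fun r ⟨t, ht, h⟩ => ⟨t, ht, h.symm⟩
  · refine ((((List.finite_toSet l.inits).prod (List.finite_toSet l.inits)).prod
      (Set.finite_univ (α := ι × ι))).image fun p =>
      (((rl p.1.1 id).prod⁻¹ * (rl p.1.2 id).prod : (Matrix ι ι A)ˣ) : Matrix ι ι A)
        p.2.1 p.2.2).subset ?_
    rintro w ⟨l1, h1, l2, h2, i, j, rfl⟩
    exact ⟨((l1, l2), (i, j)), ⟨⟨h1, h2⟩, trivial⟩, rfl⟩

theorem rt_comm (a b : ι) (x y : B) : Commute (rt a b x) (rt a b y) := by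
  by_cases h : a = b
  · simp [rt, h]
  · exact rt_StS.comm a b a b h h (Ne.symm h) h x y

theorem conj_comm {G H : (Matrix ι ι B)ˣ} {a b a' b' : ι} (h : a ≠ b) (h' : a' ≠ b') {x y : B}
    (h1 : x * ((G⁻¹ * H : (Matrix ι ι B)ˣ) : Matrix ι ι B) b a' * y = 0)
    (h2 : y * ((H⁻¹ * G : (Matrix ι ι B)ˣ) : Matrix ι ι B) b' a * x = 0) :
    Commute (G * rt a b x * G⁻¹) (H * rt a' b' y * H⁻¹) := by
  have key : ∀ (G H : (Matrix ι ι B)ˣ) (a b a' b' : ι) (x y : B),
      x * ((G⁻¹ * H : (Matrix ι ι B)ˣ) : Matrix ι ι B) b a' * y = 0 →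
      ((G : Matrix ι ι B) * single a b x * (G⁻¹ : (Matrix ι ι B)ˣ)) *
        ((H : Matrix ι ι B) * single a' b' y * (H⁻¹ : (Matrix ι ι B)ˣ)) = 0 := by
    intro G H a b a' b' x y h
    have : single a b x * ((G⁻¹ * H : (Matrix ι ι B)ˣ) : Matrix ι ι B) * single a' b' y = 0 := by
      rw [single_mul_mul_single, h, single_zero]
    calc _ = (G : Matrix ι ι B) * (single a b x * ((G⁻¹ * H : (Matrix ι ι B)ˣ) : Matrix ι ι B) *
          single a' b' y) * (H⁻¹ : (Matrix ι ι B)ˣ) := by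
          simp only [Units.val_mul, Matrix.mul_assoc]
      _ = 0 := by rw [this]; simp
  have k1 := key G H a b a' b' x y h1
  have k2 := key H G a' b' a b y x h2
  ext1
  simp only [Units.val_mul, rt_val h, rt_val h', Matrix.mul_add, Matrix.add_mul, Matrix.mul_one,
    Matrix.one_mul, Units.mul_inv, k1, k2]
  abel

theorem IE {l : List (ι × ι × A)} (hl : ∀ t ∈ l, t.1 ≠ t.2.1) (h1 : (rl l id).prod = 1)
    {E : Subgroup (Matrix ι ι B)ˣ} {F : (Matrix ι ι B)ˣ → (Matrix ι ι B)ˣ → ℚ} (hE : Per E)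
    (hF : Can E F) (hrt : ∀ a b β, rt a b β ∈ E) (ρ0 ρ1 ρ2 : A →ₙ+* B) (ρ3 : A → B)
    (h3 : ∀ r ∈ Dl l, ρ3 r + ρ0 r = ρ1 r + ρ2 r)
    (h4 : ∀ r ∈ Dl l, ∀ r' ∈ Dl l, (ρ1 r - ρ0 r) * (ρ2 r' - ρ0 r') = 0 ∧
      (ρ2 r' - ρ0 r') * (ρ1 r - ρ0 r) = 0)
    (h5 : ∀ r ∈ Dl l, ∀ w ∈ Dl l, ∀ r' ∈ Dl l, (ρ1 r - ρ0 r) * ρ0 w * (ρ2 r' - ρ0 r') = 0 ∧
      (ρ2 r' - ρ0 r') * ρ0 w * (ρ1 r - ρ0 r) = 0) :
    ev F (rl l ρ3) + ev F (rl l ρ0) = ev F (rl l ρ1) + ev F (rl l ρ2) := by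
  have hD : ∀ t ∈ l, t.2.2 ∈ Dl l := fun t ht => .inl (.inr ⟨t, ht, rfl⟩)
  have hone : (1 : A) ∈ Dl l := .inl (.inl rfl)
  set X : ι × ι × A → (Matrix ι ι B)ˣ := fun t => rt t.1 t.2.1 (ρ0 t.2.2) with hX
  set U : ι × ι × A → (Matrix ι ι B)ˣ := fun t => rt t.1 t.2.1 (ρ1 t.2.2 - ρ0 t.2.2) with hU
  set V : ι × ι × A → (Matrix ι ι B)ˣ := fun t => rt t.1 t.2.1 (ρ2 t.2.2 - ρ0 t.2.2) with hV
  have e1 : (l.map fun t => X t * U t) = rl l ρ1 :=
    List.map_congr_left fun t ht => by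
      simp only [hX, hU]; rw [← rt_StS.add _ _ (hl t ht)]; simp
  have e2 : (l.map fun t => X t * V t) = rl l ρ2 :=
    List.map_congr_left fun t ht => by
      simp only [hX, hV]; rw [← rt_StS.add _ _ (hl t ht)]; simp
  have e3 : (l.map fun t => X t * U t * V t) = rl l ρ3 :=
    List.map_congr_left fun t ht => by
      simp only [hX, hU, hV]
      rw [← rt_StS.add _ _ (hl t ht), ← rt_StS.add _ _ (hl t ht)]
      congr 1
      rw [eq_sub_of_add_eq (h3 _ (hD t ht))]; abel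
  have ent : ∀ l1 ∈ l.inits, ∀ l2 ∈ l.inits, ∀ i j, ∃ w ∈ Dl l,
      (((l1.map X).prod⁻¹ * (l2.map X).prod : (Matrix ι ι B)ˣ) : Matrix ι ι B) i j =
        (if i = j then 1 - ρ0 1 else 0) + ρ0 w := by
    intro l1 m1 l2 m2 i j
    refine ⟨_, .inr ⟨l1, m1, l2, m2, i, j, rfl⟩, ?_⟩
    have : (l1.map X).prod⁻¹ * (l2.map X).prod = th ρ0 ((rl l1 id).prod⁻¹ * (rl l2 id).prod) := by
      rw [map_mul, map_inv, ← rl_prod, ← rl_prod]; rfl
    rw [this, th_val, Matrix.add_apply, diagonal_apply, Matrix.map_apply]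
  have := ev_IE hE hF X U V l
    {g | ∃ l1 ∈ l.inits, ∃ t ∈ l, g = (l1.map X).prod * U t * (l1.map X).prod⁻¹}
    {g | ∃ l1 ∈ l.inits, ∃ t ∈ l, g = (l1.map X).prod * V t * (l1.map X).prod⁻¹} ?_
    (fun t _ => ⟨hrt _ _ _, hrt _ _ _, hrt _ _ _⟩)
    (fun t _ => ⟨rt_comm _ _ _ _, rt_comm _ _ _ _, rt_comm _ _ _ _⟩) ?_ ?_ ?_ ?_
  · rw [e1, e2, e3] at this; exact this
  · rintro _ ⟨l1, m1, t, ht, rfl⟩ _ ⟨l2, m2, t', ht', rfl⟩
    refine conj_comm (hl t ht) (hl t' ht') ?_ ?_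
    · obtain ⟨w, hw, e⟩ := ent l1 m1 l2 m2 t.2.1 t'.1
      rw [e, mul_add, add_mul, (h5 _ (hD t ht) w hw _ (hD t' ht')).1]
      split_ifs
      · rw [mul_one_sub, sub_mul (_ - _), (h5 _ (hD t ht) 1 hone _ (hD t' ht')).1,
          (h4 _ (hD t ht) _ (hD t' ht')).1]; simp
      · simp
    · obtain ⟨w, hw, e⟩ := ent l2 m2 l1 m1 t'.2.1 t.1
      rw [e, mul_add, add_mul, (h5 _ (hD t ht) w hw _ (hD t' ht')).2]
      split_ifs
      · rw [mul_one_sub, sub_mul (_ - _), (h5 _ (hD t ht) 1 hone _ (hD t' ht')).2,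
          (h4 _ (hD t ht) _ (hD t' ht')).2]; simp
      · simp
  · intro l1 t l2 e
    have m1 : l1 ∈ l.inits := (List.mem_inits _ _).2 ⟨_, e.symm⟩
    have mt : t ∈ l := by simp [e]
    exact ⟨⟨l1, m1, t, mt, rfl⟩, ⟨l1, m1, t, mt, rfl⟩⟩
  · change (rl l ρ0).prod = 1
    rw [rl_prod, h1, map_one]
  · rw [e1, rl_prod, h1, map_one]
  · rw [e2, rl_prod, h1, map_one]

theorem dgM_rt {e : B} (he : e * e = e) {a b : ι} (h : a ≠ b) (x : B) :
    dgM (scalar ι e) ((rt a b x : (Matrix ι ι B)ˣ) : Matrix ι ι B) =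
      (rt a b (dgM e x) : (Matrix ι ι B)ˣ) := by
  have he' : scalar ι e * scalar ι e = scalar ι e := by rw [← map_mul, he]
  have h1 : dgM (scalar ι e) (1 + single a b x) = dgM (scalar ι e) 1 +
    dgM (scalar ι e) (single a b x) := by simp only [dgM]; noncomm_ring
  rw [rt_val h, rt_val h, h1, dgM_one he']
  congr 1
  rw [dgM, ← map_one (scalar ι (α := B)), ← map_sub]
  ext i j
  simp only [scalar_apply, Matrix.add_apply, mul_diagonal, diagonal_mul, single_apply, dgM]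
  split_ifs <;> simp

theorem rt_mem_Qp {e : B} (he : scalar ι e * scalar ι e = scalar ι e) (he0 : e * e = e) (a b : ι)
    {x : B} (hx : (1 - e) * x * e = 0) : rt a b x ∈ Qp (scalar ι e) he := by
  by_cases h : a = b
  · rw [rt, dif_pos h]; exact one_mem _
  have k0 : (1 - scalar ι e) * scalar ι e = 0 := by rw [sub_mul, he]; simp
  have k : (1 - scalar ι e) * single a b x * scalar ι e = 0 := by
    rw [← map_one (scalar ι (α := B)), ← map_sub]
    ext i j
    simp only [scalar_apply, mul_diagonal, diagonal_mul, single_apply]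
    split_ifs <;> simp [hx]
  constructor
  · rw [rt_val h, mul_add, add_mul, k, mul_one, k0, add_zero]
  · rw [rt_inv_val h, mul_sub, sub_mul, k, mul_one, k0, sub_zero]

theorem par {l : List (ι × ι × A)} (hl : ∀ t ∈ l, t.1 ≠ t.2.1)
    {E : Subgroup (Matrix ι ι B)ˣ} {F : (Matrix ι ι B)ˣ → (Matrix ι ι B)ˣ → ℚ} (hE : Per E)
    (hF : Can E F) (hrt : ∀ a b β, rt a b β ∈ E) {e : B} (he0 : e * e = e) (ρ : A → B)
    (hρ : ∀ r, (1 - e) * ρ r * e = 0) :
    ev F (rl l fun r => dgM e (ρ r)) = ev F (rl l ρ) := by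
  have he : scalar ι e * scalar ι e = scalar ι e := by rw [← map_mul, he0]
  let P : Subgroup (Matrix ι ι B)ˣ :=
    { carrier := {g | g ∈ E ∧ g ∈ Qp _ he ∧ dgf (scalar ι e) g ∈ E}
      one_mem' := ⟨one_mem _, one_mem _, by rw [dgf_one he]; exact one_mem _⟩
      mul_mem' := fun ⟨a1, a2, a3⟩ ⟨b1, b2, b3⟩ =>
        ⟨mul_mem a1 b1, mul_mem a2 b2, by rw [dgf_mul he a2 b2]; exact mul_mem a3 b3⟩
      inv_mem' := fun ⟨a1, a2, a3⟩ =>
        ⟨inv_mem a1, inv_mem a2, by rw [dgf_inv he a2]; exact inv_mem a3⟩ }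
  have hd : ∀ t ∈ l, dgf (scalar ι e) (rt t.1 t.2.1 (ρ t.2.2)) =
      rt t.1 t.2.1 (dgM e (ρ t.2.2)) := fun t ht => by
    ext1
    rw [dgf_val he (rt_mem_Qp he he0 _ _ (hρ _)), dgM_rt he0 (hl t ht)]
  have := ev_map (f := F) (f' := F) (P := P) (dgf (scalar ι e))
    (fun g hg g' hg' => dgf_mul he hg.2.1 hg'.2.1)
    (fun g hg g' hg' => (can_par hE hF (P := P) (fun g hg => hg.1) (dgf (scalar ι e))
      (fun p hp => ⟨hp.2.2, dgf_mem he hp.2.1, by rw [dgf_dgf he hp.2.1]; exact hp.2.2⟩)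
      (fun p hp q hq => dgf_mul he hp.2.1 hq.2.1) (fun p hp => dgf_dgf he hp.2.1)
      (fun u hu v hv => dgf_ker_comm he hu.2.1 hv.2.1) hg hg').symm) (rl l ρ) ?_
  · rw [← this, rl, rl, List.map_map]
    congr 1
    exact List.map_congr_left fun t ht => (hd t ht).symm
  · intro g hg
    obtain ⟨t, ht, rfl⟩ := List.mem_map.1 hg
    exact ⟨hrt _ _ _, rt_mem_Qp he he0 _ _ (hρ _), by rw [hd t ht]; exact hrt _ _ _⟩

theorem fin {l : List (ι × ι × A)}
    {E : Subgroup (Matrix ι ι B)ˣ} {F : (Matrix ι ι B)ˣ → (Matrix ι ι B)ˣ → ℚ}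
    (hF : Can E F) (hrt : ∀ a b β, rt a b β ∈ E) {C : Type} [Ring C] [Finite C] (I : C →ₙ+* B)
    (ρ : A → B) (hρ : ∀ r, ∃ c, ρ r = I c) : ev F (rl l ρ) = 0 := by
  haveI : Finite ((th I : (Matrix ι ι C)ˣ →* _).range ⊓ E : Subgroup _) :=
    Set.Finite.subset (Set.finite_range (th I : (Matrix ι ι C)ˣ →* _)) fun g hg => hg.1
  refine ev_fin hF (H := (th I : (Matrix ι ι C)ˣ →* _).range ⊓ E) inf_le_right _ fun g hg => ?_
  obtain ⟨t, _, rfl⟩ := List.mem_map.1 hg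
  obtain ⟨c, hc⟩ := hρ t.2.2
  exact ⟨⟨rt t.1 t.2.1 c, by rw [th_rt, hc]⟩, hrt _ _ _⟩

end gen

end Vale.Agent.P192.WittAux
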